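import Crest.Prelude.Def_SwitchChain

/-!
# S0453 assembly: from a Poincaré inequality for the switch graph to the frozen statement.

Part 1 is an abstract mixing theorem for a lazy symmetric stochastic matrix.
Part 2 proves the needed facts about the frozen `kernel`.
Part 3 is the assembly.
-/

set_option autoImplicit false

namespace Crest.Agent.Lib.Switch.Assembly

open Finset Crest.SwitchChain

/-! ## Part 1: abstract mixing -/

section Abstract

variable {X : Type*} [Fintype X] [DecidableEq X]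

/-- Jensen for a symmetric stochastic matrix: `‖K v‖² ≤ ‖v‖²`. -/
theorem norm_K_le (K : X → X → ℝ) (K0 : ∀ a b, 0 ≤ K a b) (Ksym : ∀ a b, K a b = K b a)
    (Krow : ∀ a, ∑ b, K a b = 1) (v : X → ℝ) :
    ∑ a, (∑ b, K a b * v b) ^ 2 ≤ ∑ a, v a ^ 2 := by
  have h1 : ∀ a, (∑ b, K a b * v b) ^ 2 ≤ ∑ b, K a b * v b ^ 2 := by
    intro a
    have hcs := Finset.sum_mul_sq_le_sq_mul_sq (univ : Finset X)
      (fun b => Real.sqrt (K a b)) (fun b => Real.sqrt (K a b) * v b)
    have e1 : ∀ b, Real.sqrt (K a b) * (Real.sqrt (K a b) * v b) = K a b * v b := by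
      intro b
      rw [← mul_assoc, Real.mul_self_sqrt (K0 a b)]
    have e2 : ∀ b, Real.sqrt (K a b) ^ 2 = K a b := fun b => Real.sq_sqrt (K0 a b)
    have e3 : ∀ b, (Real.sqrt (K a b) * v b) ^ 2 = K a b * v b ^ 2 := by
      intro b
      rw [mul_pow, Real.sq_sqrt (K0 a b)]
    simp only [e1, e2, e3, Krow a, one_mul] at hcs
    exact hcs
  calc ∑ a, (∑ b, K a b * v b) ^ 2 ≤ ∑ a, ∑ b, K a b * v b ^ 2 :=
        Finset.sum_le_sum (fun a _ => h1 a)
    _ = ∑ b, ∑ a, K a b * v b ^ 2 := Finset.sum_comm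
    _ = ∑ b, v b ^ 2 := by
        refine Finset.sum_congr rfl (fun b _ => ?_)
        rw [← Finset.sum_mul]
        have : ∑ a, K a b = 1 := by
          rw [← Krow b]
          exact Finset.sum_congr rfl (fun a _ => Ksym a b)
        rw [this, one_mul]

/-- For `P = (I + K) / 2`: `‖P v‖² ≤ ⟨v, P v⟩`. -/
theorem norm_P_le (K : X → X → ℝ) (K0 : ∀ a b, 0 ≤ K a b) (Ksym : ∀ a b, K a b = K b a)
    (Krow : ∀ a, ∑ b, K a b = 1) (P : Matrix X X ℝ)
    (hP : ∀ a b, P a b = (if a = b then 1 / 2 else 0) + K a b / 2) (v : X → ℝ) :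
    ∑ a, (∑ b, P a b * v b) ^ 2 ≤ ∑ a, v a * ∑ b, P a b * v b := by
  have hPv : ∀ a, ∑ b, P a b * v b = (v a + ∑ b, K a b * v b) / 2 := by
    intro a
    simp only [hP, add_mul, Finset.sum_add_distrib, ite_mul, zero_mul, Finset.sum_ite_eq,
      Finset.mem_univ, if_true]
    have : ∑ b, K a b / 2 * v b = (∑ b, K a b * v b) / 2 := by
      rw [Finset.sum_div]
      exact Finset.sum_congr rfl (fun b _ => by ring)
    rw [this]
    ring
  have hJ := norm_K_le K K0 Ksym Krow v
  have e1 : ∑ a, (∑ b, P a b * v b) ^ 2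
      = (∑ a, v a ^ 2 + 2 * ∑ a, v a * (∑ b, K a b * v b) + ∑ a, (∑ b, K a b * v b) ^ 2) / 4 := by
    rw [Finset.mul_sum, ← Finset.sum_add_distrib, ← Finset.sum_add_distrib, Finset.sum_div]
    exact Finset.sum_congr rfl (fun a _ => by rw [hPv a]; ring)
  have e2 : ∑ a, v a * ∑ b, P a b * v b
      = (∑ a, v a ^ 2 + ∑ a, v a * (∑ b, K a b * v b)) / 2 := by
    rw [← Finset.sum_add_distrib, Finset.sum_div]
    exact Finset.sum_congr rfl (fun a _ => by rw [hPv a]; ring)
  rw [e1, e2]
  linarith

/-- The abstract mixing bound. -/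
theorem abstract_mixing (K : X → X → ℝ) (K0 : ∀ a b, 0 ≤ K a b) (Ksym : ∀ a b, K a b = K b a)
    (Krow : ∀ a, ∑ b, K a b = 1) (Ω : Finset X)
    (Kclosed : ∀ a ∈ Ω, ∀ b, b ∉ Ω → K a b = 0) (P : Matrix X X ℝ)
    (hP : ∀ a b, P a b = (if a = b then 1 / 2 else 0) + K a b / 2)
    (γ : ℝ) (hγ1 : γ ≤ 1)
    (gap : ∀ v : X → ℝ, (∀ a, a ∉ Ω → v a = 0) → ∑ a, v a = 0 →
      γ * ∑ a, v a ^ 2 ≤ ∑ a, v a * (v a - ∑ b, P a b * v b))
    (a0 : X) (ha0 : a0 ∈ Ω) (t : ℕ) :
    tvDist (fun b => (P ^ t) a0 b) (unifOn Ω) ^ 2 ≤ (Ω.card : ℝ) * (1 - γ) ^ t / 4 := by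
  classical
  have hN : 0 < (Ω.card : ℝ) := by exact_mod_cast Finset.card_pos.mpr ⟨a0, ha0⟩
  have hNne : (Ω.card : ℝ) ≠ 0 := hN.ne'
  -- Symmetry, rows, closure for P
  have Psym : ∀ a b, P a b = P b a := by
    intro a b
    rw [hP, hP, Ksym a b]
    by_cases h : a = b
    · simp [h]
    · simp [h, Ne.symm h]
  have Prow : ∀ a, ∑ b, P a b = 1 := by
    intro a
    simp only [hP, Finset.sum_add_distrib, Finset.sum_ite_eq, Finset.mem_univ, if_true]
    rw [← Finset.sum_div, Krow a]
    norm_num
  have Pclosed : ∀ a ∈ Ω, ∀ b, b ∉ Ω → P a b = 0 := by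
    intro a ha b hb
    have hne : a ≠ b := fun h => hb (h ▸ ha)
    rw [hP, Kclosed a ha b hb]
    simp [hne]
  -- uniform weight facts
  have hunif_sum : ∑ b, unifOn Ω b = 1 := by
    simp only [unifOn]
    rw [Finset.sum_ite_mem, Finset.univ_inter, Finset.sum_const, nsmul_eq_mul]
    field_simp
  have hunif_supp : ∀ b, b ∉ Ω → unifOn Ω b = 0 := fun b hb => by simp [unifOn, hb]
  have hPunif : ∀ b, ∑ c, P b c * unifOn Ω c = unifOn Ω b := by
    intro b
    by_cases hb : b ∈ Ω
    · have e : ∀ c, P b c * unifOn Ω c = P b c * (1 / (Ω.card : ℝ)) := by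
        intro c
        by_cases hc : c ∈ Ω
        · simp [unifOn, hc]
        · rw [Pclosed b hb c hc, zero_mul, zero_mul]
      simp only [e]
      rw [← Finset.sum_mul, Prow b, one_mul]
      simp [unifOn, hb]
    · have e : ∀ c, P b c * unifOn Ω c = 0 := by
        intro c
        by_cases hc : c ∈ Ω
        · rw [Psym b c, Pclosed c hc b hb, zero_mul]
        · rw [hunif_supp c hc, mul_zero]
      simp only [e, Finset.sum_const_zero]
      exact (hunif_supp b hb).symm
  -- the vectors w_t
  set w : ℕ → X → ℝ := fun s b => (P ^ s) a0 b - unifOn Ω b with hw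
  have hpow_succ : ∀ (s : ℕ) (b : X), (P ^ (s + 1)) a0 b = ∑ c, P b c * (P ^ s) a0 c := by
    intro s b
    rw [pow_succ, Matrix.mul_apply]
    refine Finset.sum_congr rfl (fun c _ => ?_)
    rw [Psym b c, mul_comm]
  have hsupp_pow : ∀ (s : ℕ) (b : X), b ∉ Ω → (P ^ s) a0 b = 0 := by
    intro s
    induction s with
    | zero =>
      intro b hb
      have hne : a0 ≠ b := fun h => hb (h ▸ ha0)
      simp [hne]
    | succ s ih =>
      intro b hb
      rw [hpow_succ]
      refine Finset.sum_eq_zero (fun c _ => ?_)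
      by_cases hc : c ∈ Ω
      · rw [Psym b c, Pclosed c hc b hb, zero_mul]
      · rw [ih c hc, mul_zero]
  have hsum_pow : ∀ s : ℕ, ∑ b, (P ^ s) a0 b = 1 := by
    intro s
    induction s with
    | zero => simp [Matrix.one_apply]
    | succ s ih =>
      simp only [hpow_succ]
      rw [Finset.sum_comm]
      have : ∀ c, ∑ b, P b c * (P ^ s) a0 c = (P ^ s) a0 c := by
        intro c
        rw [← Finset.sum_mul]
        have : ∑ b, P b c = 1 := by
          rw [← Prow c]
          exact Finset.sum_congr rfl (fun b _ => Psym b c)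
        rw [this, one_mul]
      simp only [this]
      exact ih
  have hw_supp : ∀ s b, b ∉ Ω → w s b = 0 := by
    intro s b hb
    simp only [hw, hsupp_pow s b hb, hunif_supp b hb, sub_zero]
  have hw_sum : ∀ s, ∑ b, w s b = 0 := by
    intro s
    simp only [hw, Finset.sum_sub_distrib, hsum_pow, hunif_sum, sub_self]
  have hw_succ : ∀ s b, w (s + 1) b = ∑ c, P b c * w s c := by
    intro s b
    simp only [hw, mul_sub, Finset.sum_sub_distrib, hPunif, hpow_succ]
  -- one step contraction
  have hstep : ∀ s, ∑ b, w (s + 1) b ^ 2 ≤ (1 - γ) * ∑ b, w s b ^ 2 := by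
    intro s
    have h1 := norm_P_le K K0 Ksym Krow P hP (w s)
    have h2 := gap (w s) (hw_supp s) (hw_sum s)
    have e : ∑ a, w s a * (w s a - ∑ b, P a b * w s b)
        = ∑ a, w s a ^ 2 - ∑ a, w s a * ∑ b, P a b * w s b := by
      rw [← Finset.sum_sub_distrib]
      exact Finset.sum_congr rfl (fun a _ => by ring)
    rw [e] at h2
    simp only [hw_succ]
    nlinarith only [h1, h2]
  have hγ' : 0 ≤ 1 - γ := by linarith
  have hnorm : ∀ s, ∑ b, w s b ^ 2 ≤ (1 - γ) ^ s := by
    intro s
    induction s with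
    | zero =>
      -- w 0 = δ - unif
      have e0 : ∀ b, w 0 b = (if a0 = b then 1 else 0) - unifOn Ω b := by
        intro b
        simp [hw, Matrix.one_apply]
      have : ∑ b, w 0 b ^ 2 = 1 - 1 / (Ω.card : ℝ) := by
        have e1 : ∀ b, w 0 b ^ 2 = (if a0 = b then 1 else 0)
            - 2 * (if a0 = b then unifOn Ω b else 0) + unifOn Ω b ^ 2 := by
          intro b
          rw [e0 b]
          by_cases h : a0 = b <;> simp [h] <;> ring
        simp only [e1, Finset.sum_add_distrib, Finset.sum_sub_distrib, ← Finset.mul_sum,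
          Finset.sum_ite_eq, Finset.mem_univ, if_true]
        have e2 : ∑ b, unifOn Ω b ^ 2 = 1 / (Ω.card : ℝ) := by
          have : ∀ b, unifOn Ω b ^ 2 = if b ∈ Ω then (1 / (Ω.card : ℝ)) ^ 2 else 0 := by
            intro b
            by_cases hb : b ∈ Ω <;> simp [unifOn, hb]
          simp only [this]
          rw [Finset.sum_ite_mem, Finset.univ_inter, Finset.sum_const, nsmul_eq_mul]
          field_simp
        rw [e2]
        simp only [unifOn, ha0, if_true]
        ring
      rw [this, pow_zero]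
      have : 0 < 1 / (Ω.card : ℝ) := by positivity
      linarith
    | succ s ih =>
      calc ∑ b, w (s + 1) b ^ 2 ≤ (1 - γ) * ∑ b, w s b ^ 2 := hstep s
        _ ≤ (1 - γ) * (1 - γ) ^ s := mul_le_mul_of_nonneg_left ih hγ'
        _ = (1 - γ) ^ (s + 1) := by ring
  -- Cauchy--Schwarz
  have hTV : tvDist (fun b => (P ^ t) a0 b) (unifOn Ω) = (∑ b ∈ Ω, |w t b|) / 2 := by
    unfold tvDist
    congr 1
    have : ∀ b, |(P ^ t) a0 b - unifOn Ω b| = if b ∈ Ω then |w t b| else 0 := by
      intro b
      by_cases hb : b ∈ Ω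
      · simp [hb, hw]
      · simp [hb, hsupp_pow t b hb, hunif_supp b hb]
    simp only [this]
    rw [Finset.sum_ite_mem, Finset.univ_inter]
  rw [hTV]
  have hcs : (∑ b ∈ Ω, |w t b|) ^ 2 ≤ (Ω.card : ℝ) * ∑ b ∈ Ω, |w t b| ^ 2 :=
    sq_sum_le_card_mul_sum_sq
  have hsub : ∑ b ∈ Ω, |w t b| ^ 2 ≤ ∑ b, w t b ^ 2 := by
    simp only [sq_abs]
    exact Finset.sum_le_sum_of_subset_of_nonneg (Finset.subset_univ _)
      (fun b _ _ => sq_nonneg _)
  have hfin := hnorm t
  have : (∑ b ∈ Ω, |w t b|) ^ 2 ≤ (Ω.card : ℝ) * (1 - γ) ^ t :=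
    hcs.trans (mul_le_mul_of_nonneg_left (hsub.trans hfin) hN.le)
  rw [div_pow]
  linarith

end Abstract


/-! ## Part 2: the frozen kernel -/

section Comb

variable {n : ℕ}

/-- The edge on two distinct vertices. -/
def mkE (a b : Fin n) (h : a ≠ b) : Edge n := ⟨s(a, b), by simpa using h⟩

@[simp] theorem mem_mkE {a b v : Fin n} {h : a ≠ b} : v ∈ (mkE a b h).1 ↔ v = a ∨ v = b := by
  simp [mkE, Sym2.mem_iff]

theorem mkE_eq_iff {a b c d : Fin n} {h : a ≠ b} {h' : c ≠ d} :
    mkE a b h = mkE c d h' ↔ (a = c ∧ b = d) ∨ (a = d ∧ b = c) := by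
  simp [mkE, Subtype.ext_iff, Sym2.eq_iff]

theorem mem_pmSet {S : Finset (Fin n)} {G : Finset (Edge n)} :
    G ∈ pmSet S ↔ G.card = 2 ∧ (∀ e ∈ G, ∀ v : Fin n, v ∈ e.1 → v ∈ S) ∧
      ∀ v ∈ S, (G.filter fun e => v ∈ e.1).card = 1 := by
  simp [pmSet, Finset.mem_powersetCard]

theorem pm_exists {S : Finset (Fin n)} {F : Finset (Edge n)} (hF : F ∈ pmSet S) {v : Fin n}
    (hv : v ∈ S) : ∃ e ∈ F, v ∈ e.1 := by
  obtain ⟨_, _, h3⟩ := (mem_pmSet (S := S)).1 hF
  have := h3 v hv
  obtain ⟨e, he⟩ := Finset.card_pos.mp (by omega : 0 < (F.filter fun e => v ∈ e.1).card)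
  rw [Finset.mem_filter] at he
  exact ⟨e, he.1, he.2⟩

theorem pm_unique {S : Finset (Fin n)} {F : Finset (Edge n)} (hF : F ∈ pmSet S) {v : Fin n}
    (hv : v ∈ S) {e e' : Edge n} (he : e ∈ F) (he' : e' ∈ F) (hve : v ∈ e.1) (hve' : v ∈ e'.1) :
    e = e' := by
  obtain ⟨_, _, h3⟩ := (mem_pmSet (S := S)).1 hF
  exact Finset.card_le_one.mp (h3 v hv).le e (by simp [he, hve]) e' (by simp [he', hve'])

/-- The number of edges of a perfect matching at `v`. -/
theorem pm_filter_card {S : Finset (Fin n)} {F : Finset (Edge n)} (hF : F ∈ pmSet S) (v : Fin n) :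
    (F.filter fun e => v ∈ e.1).card = if v ∈ S then 1 else 0 := by
  obtain ⟨_, h2, h3⟩ := (mem_pmSet (S := S)).1 hF
  by_cases hv : v ∈ S
  · simp [hv, h3 v hv]
  · simp only [hv, if_false, Finset.card_eq_zero, Finset.filter_eq_empty_iff]
    intro e he hve
    exact hv (h2 e he v hve)

theorem deg_switch {S : Finset (Fin n)} {F F' E : Finset (Edge n)} (hF : F ∈ pmSet S)
    (hF' : F' ∈ pmSet S) (h1 : F ⊆ E) (h2 : Disjoint F' E) (v : Fin n) :
    deg (E \ F ∪ F') v = deg E v := by
  unfold deg
  have hd : Disjoint (E \ F) F' := by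
    rw [Finset.disjoint_left]
    intro e he he'
    exact (Finset.disjoint_left.mp h2 he') (Finset.mem_sdiff.mp he).1
  rw [Finset.filter_union, Finset.card_union_of_disjoint
    (Finset.disjoint_filter_filter hd), pm_filter_card hF' v, ← pm_filter_card hF v]
  have : E.filter (fun e => v ∈ e.1)
      = ((E \ F).filter fun e => v ∈ e.1) ∪ (F.filter fun e => v ∈ e.1) := by
    rw [← Finset.filter_union, Finset.sdiff_union_of_subset h1]
  rw [this, Finset.card_union_of_disjoint
    (Finset.disjoint_filter_filter Finset.sdiff_disjoint)]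

theorem switchResult_mem {d : Fin n → ℕ} {S : Finset (Fin n)} {F F' E : Finset (Edge n)}
    (hE : E ∈ realizations d) (hF : F ∈ pmSet S) (hF' : F' ∈ pmSet S) :
    switchResult E F F' ∈ realizations d := by
  unfold switchResult
  split_ifs with h
  · simp only [realizations, Finset.mem_filter, Finset.mem_univ, true_and] at hE ⊢
    intro v
    rw [deg_switch hF hF' h.1 h.2, hE v]
  · exact hE

/-- Symmetry of a switch. -/
theorem switchResult_symm {E E' F F' : Finset (Edge n)} (hne : E ≠ E') :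
    switchResult E F F' = E' ↔ switchResult E' F' F = E := by
  have key : ∀ {A B G G' : Finset (Edge n)}, A ≠ B → switchResult A G G' = B →
      switchResult B G' G = A := by
    intro A B G G' hAB h
    unfold switchResult at h
    split_ifs at h with hc
    · obtain ⟨h1, h2⟩ := hc
      have hc' : G' ⊆ B ∧ Disjoint G B := by
        constructor
        · rw [← h]; exact Finset.subset_union_right
        · rw [← h, Finset.disjoint_union_right]
          refine ⟨Finset.disjoint_sdiff, ?_⟩
          rw [Finset.disjoint_left]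
          intro e he he'
          exact (Finset.disjoint_left.mp h2 he') (h1 he)
      unfold switchResult
      rw [if_pos hc', ← h]
      ext e
      simp only [Finset.mem_union, Finset.mem_sdiff]
      constructor
      · rintro (⟨he | he, hn⟩ | he)
        · exact he.1
        · exact absurd he hn
        · exact h1 he
      · intro he
        by_cases heG : e ∈ G
        · exact Or.inr heG
        · refine Or.inl ⟨Or.inl ⟨he, heG⟩, fun he' => ?_⟩
          exact (Finset.disjoint_left.mp h2 he') he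
    · exact absurd h hAB
  exact ⟨key hne, key hne.symm⟩

theorem proposalCount_symm (E E' : Finset (Edge n)) : proposalCount E E' = proposalCount E' E := by
  by_cases hne : E = E'
  · rw [hne]
  unfold proposalCount
  refine Finset.sum_congr rfl (fun S _ => ?_)
  rw [Finset.sum_comm' (s' := fun F' => (pmSet S).erase F') (t' := pmSet S)]
  · refine Finset.sum_congr rfl (fun F _ => Finset.sum_congr rfl (fun F' _ => ?_))
    simp only [switchResult_symm (F := F') (F' := F) hne]
  · intro x y
    simp only [Finset.mem_erase]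
    constructor
    · rintro ⟨h1, h2, h3⟩
      exact ⟨⟨fun h => h2 h.symm, h1⟩, h3⟩
    · rintro ⟨⟨h1, h2⟩, h3⟩
      exact ⟨h2, fun h => h1 h.symm, h3⟩

/-- Perfect matchings through a given edge. -/
theorem pm_aux {S : Finset (Fin n)} {F : Finset (Edge n)} (hF : F ∈ pmSet S) {a b c d : Fin n}
    (hab : a ≠ b) (hac : a ≠ c) (had : a ≠ d) (hbc : b ≠ c) (hbd : b ≠ d) (hcd : c ≠ d)
    (hS : S = {a, b, c, d}) (hmem : mkE a b hab ∈ F) : F = {mkE a b hab, mkE c d hcd} := by
  obtain ⟨h1, h2, _⟩ := (mem_pmSet (S := S)).1 hF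
  have haS : a ∈ S := by simp [hS]
  have hbS : b ∈ S := by simp [hS]
  have hcS : c ∈ S := by simp [hS]
  obtain ⟨e, he, hce⟩ := pm_exists hF hcS
  obtain ⟨y, hy⟩ := hce
  have hyS : y ∈ S := h2 e he y (by rw [hy]; simp)
  have hyc : y ≠ c := by
    rintro rfl
    exact e.2 (by rw [hy]; simp)
  have hyd : y = d := by
    have hy' : y = a ∨ y = b ∨ y = c ∨ y = d := by simpa [hS] using hyS
    rcases hy' with rfl | rfl | h | h
    · have := pm_unique hF haS he hmem (by rw [hy]; simp) (by simp)
      have h3 : c ∈ (mkE y b hab).1 := by rw [← this, hy]; simp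
      simp only [mem_mkE] at h3
      rcases h3 with h3 | h3
      · exact absurd h3.symm hac
      · exact absurd h3.symm hbc
    · have := pm_unique hF hbS he hmem (by rw [hy]; simp) (by simp)
      have h3 : c ∈ (mkE a y hab).1 := by rw [← this, hy]; simp
      simp only [mem_mkE] at h3
      rcases h3 with h3 | h3
      · exact absurd h3.symm hac
      · exact absurd h3.symm hbc
    · exact absurd h hyc
    · exact h
  subst hyd
  have he' : e = mkE c y hcd := Subtype.ext hy
  have hcdmem : mkE c y hcd ∈ F := he' ▸ he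
  symm
  refine Finset.eq_of_subset_of_card_le ?_ ?_
  · intro x hx
    simp only [Finset.mem_insert, Finset.mem_singleton] at hx
    rcases hx with rfl | rfl
    · exact hmem
    · exact hcdmem
  · rw [h1, Finset.card_pair]
    intro h
    rw [mkE_eq_iff] at h
    rcases h with h | h
    · exact hac h.1
    · exact had h.1

/-- The matching `{ab, cd}` is perfect on `{a,b,c,d}`. -/
theorem pm_mem {a b c d : Fin n} (hab : a ≠ b) (hac : a ≠ c) (had : a ≠ d) (hbc : b ≠ c)
    (hbd : b ≠ d) (hcd : c ≠ d) {S : Finset (Fin n)} (hS : S = {a, b, c, d}) :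
    ({mkE a b hab, mkE c d hcd} : Finset (Edge n)) ∈ pmSet S := by
  rw [mem_pmSet (S := S)]
  refine ⟨?_, ?_, ?_⟩
  · rw [Finset.card_pair]
    intro h
    rw [mkE_eq_iff] at h
    rcases h with h | h
    · exact hac h.1
    · exact had h.1
  · intro e he v hv
    simp only [Finset.mem_insert, Finset.mem_singleton] at he
    rcases he with rfl | rfl <;> simp only [mem_mkE] at hv <;> rcases hv with rfl | rfl <;>
      simp [hS]
  · intro v hv
    have hv' : v = a ∨ v = b ∨ v = c ∨ v = d := by simpa [hS] using hv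
    rw [Finset.card_eq_one]
    rcases hv' with rfl | rfl | rfl | rfl
    · refine ⟨mkE v b hab, ?_⟩
      ext e
      simp only [Finset.mem_filter, Finset.mem_insert, Finset.mem_singleton]
      constructor
      · rintro ⟨rfl | rfl, h⟩
        · rfl
        · simp only [mem_mkE] at h
          rcases h with h | h
          · exact absurd h hac
          · exact absurd h had
      · rintro rfl
        exact ⟨Or.inl rfl, by simp⟩
    · refine ⟨mkE a v hab, ?_⟩
      ext e
      simp only [Finset.mem_filter, Finset.mem_insert, Finset.mem_singleton]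
      constructor
      · rintro ⟨rfl | rfl, h⟩
        · rfl
        · simp only [mem_mkE] at h
          rcases h with h | h
          · exact absurd h hbc
          · exact absurd h hbd
      · rintro rfl
        exact ⟨Or.inl rfl, by simp⟩
    · refine ⟨mkE v d hcd, ?_⟩
      ext e
      simp only [Finset.mem_filter, Finset.mem_insert, Finset.mem_singleton]
      constructor
      · rintro ⟨rfl | rfl, h⟩
        · simp only [mem_mkE] at h
          rcases h with h | h
          · exact absurd h.symm hac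
          · exact absurd h.symm hbc
        · rfl
      · rintro rfl
        exact ⟨Or.inr rfl, by simp⟩
    · refine ⟨mkE c v hcd, ?_⟩
      ext e
      simp only [Finset.mem_filter, Finset.mem_insert, Finset.mem_singleton]
      constructor
      · rintro ⟨rfl | rfl, h⟩
        · simp only [mem_mkE] at h
          rcases h with h | h
          · exact absurd h.symm had
          · exact absurd h.symm hbd
        · rfl
      · rintro rfl
        exact ⟨Or.inr rfl, by simp⟩

/-- A four-set has exactly three perfect matchings. -/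
theorem card_pmSet {S : Finset (Fin n)} (hS : S.card = 4) : (pmSet S).card = 3 := by
  obtain ⟨a, T, haT, rfl, hT⟩ := Finset.card_eq_succ.mp hS
  obtain ⟨b, U, hbU, rfl, hU⟩ := Finset.card_eq_succ.mp hT
  obtain ⟨c, d, hcd, rfl⟩ := Finset.card_eq_two.mp hU
  simp only [Finset.mem_insert, Finset.mem_singleton, not_or] at haT hbU
  obtain ⟨hab, hac, had⟩ := haT
  obtain ⟨hbc, hbd⟩ := hbU
  have e1 : (insert a (insert b {c, d}) : Finset (Fin n)) = {a, b, c, d} := rfl
  have e2 : (insert a (insert b {c, d}) : Finset (Fin n)) = {a, c, b, d} := by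
    ext x; simp only [Finset.mem_insert, Finset.mem_singleton]; tauto
  have e3 : (insert a (insert b {c, d}) : Finset (Fin n)) = {a, d, b, c} := by
    ext x; simp only [Finset.mem_insert, Finset.mem_singleton]; tauto
  set S : Finset (Fin n) := insert a (insert b {c, d}) with hSdef
  have m1 := pm_mem hab hac had hbc hbd hcd e1
  have m2 := pm_mem hac hab had (Ne.symm hbc) hcd hbd e2
  have m3 := pm_mem had hab hac (Ne.symm hbd) (Ne.symm hcd) hbc e3
  have hcov : pmSet S = {({mkE a b hab, mkE c d hcd} : Finset (Edge n)),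
      {mkE a c hac, mkE b d hbd}, {mkE a d had, mkE b c hbc}} := by
    ext F
    simp only [Finset.mem_insert, Finset.mem_singleton]
    constructor
    · intro hF
      have haS : a ∈ S := by simp [hSdef]
      obtain ⟨e, he, hae⟩ := pm_exists hF haS
      obtain ⟨y, hy⟩ := hae
      obtain ⟨_, h2, _⟩ := (mem_pmSet (S := S)).1 hF
      have hyS : y ∈ S := h2 e he y (by rw [hy]; simp)
      have hya : y ≠ a := by
        rintro rfl
        exact e.2 (by rw [hy]; simp)
      have hy' : y = a ∨ y = b ∨ y = c ∨ y = d := by simpa [hSdef] using hyS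
      rcases hy' with h | rfl | rfl | rfl
      · exact absurd h hya
      · have he' : e = mkE a y hab := Subtype.ext hy
        exact Or.inl (pm_aux hF hab hac had hbc hbd hcd e1 (he' ▸ he))
      · have he' : e = mkE a y hac := Subtype.ext hy
        exact Or.inr (Or.inl (pm_aux hF hac hab had (Ne.symm hbc) hcd hbd e2 (he' ▸ he)))
      · have he' : e = mkE a y had := Subtype.ext hy
        exact Or.inr (Or.inr (pm_aux hF had hab hac (Ne.symm hbd) (Ne.symm hcd) hbc e3 (he' ▸ he)))
    · rintro (rfl | rfl | rfl)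
      · exact m1
      · exact m2
      · exact m3
  rw [hcov, Finset.card_eq_three]
  refine ⟨_, _, _, ?_, ?_, ?_, rfl⟩
  · intro h
    have : mkE a b hab ∈ ({mkE a c hac, mkE b d hbd} : Finset (Edge n)) := by
      rw [← h]; simp
    simp only [Finset.mem_insert, Finset.mem_singleton, mkE_eq_iff] at this
    rcases this with (h' | h') | (h' | h')
    · exact hbc h'.2
    · exact hac h'.1
    · exact hab h'.1
    · exact had h'.1
  · intro h
    have : mkE a b hab ∈ ({mkE a d had, mkE b c hbc} : Finset (Edge n)) := by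
      rw [← h]; simp
    simp only [Finset.mem_insert, Finset.mem_singleton, mkE_eq_iff] at this
    rcases this with (h' | h') | (h' | h')
    · exact hbd h'.2
    · exact had h'.1
    · exact hab h'.1
    · exact hac h'.1
  · intro h
    have : mkE a c hac ∈ ({mkE a d had, mkE b c hbc} : Finset (Edge n)) := by
      rw [← h]; simp
    simp only [Finset.mem_insert, Finset.mem_singleton, mkE_eq_iff] at this
    rcases this with (h' | h') | (h' | h')
    · exact hcd h'.2
    · exact had h'.1
    · exact hab h'.1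
    · exact hac h'.1

theorem sum_proposalCount (E : Finset (Edge n)) :
    ∑ E', proposalCount E E' = 6 * n.choose 4 := by
  unfold proposalCount
  rw [Finset.sum_comm]
  have : ∀ S ∈ (univ : Finset (Fin n)).powersetCard 4,
      ∑ E', ∑ F ∈ pmSet S, ∑ F' ∈ (pmSet S).erase F, (if switchResult E F F' = E' then 1 else 0)
        = 6 := by
    intro S hS
    have hS4 : S.card = 4 := (Finset.mem_powersetCard.mp hS).2
    rw [Finset.sum_comm]
    have e : ∀ F ∈ pmSet S,
        ∑ E', ∑ F' ∈ (pmSet S).erase F, (if switchResult E F F' = E' then 1 else 0) = 2 := by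
      intro F hF
      rw [Finset.sum_comm]
      simp only [Finset.sum_ite_eq, Finset.mem_univ, if_true, Finset.sum_const,
        Finset.card_erase_of_mem hF, card_pmSet hS4, smul_eq_mul, mul_one]
    rw [Finset.sum_congr rfl e]
    simp [card_pmSet hS4]
  rw [Finset.sum_congr rfl this]
  simp [Finset.card_powersetCard, mul_comm]

theorem proposalCount_eq_zero_of_mem {d : Fin n → ℕ} {E E' : Finset (Edge n)}
    (hE : E ∈ realizations d) (hE' : E' ∉ realizations d) : proposalCount E E' = 0 := by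
  unfold proposalCount
  refine Finset.sum_eq_zero (fun S _ => Finset.sum_eq_zero (fun F hF =>
    Finset.sum_eq_zero (fun F' hF' => ?_)))
  rw [if_neg]
  intro h
  exact hE' (h ▸ switchResult_mem hE hF (Finset.mem_of_mem_erase hF'))

/-- Switch adjacency of two graphs (ordered; it is symmetric). -/
def SwAdj (a b : Finset (Edge n)) : Prop :=
  ∃ S ∈ (univ : Finset (Fin n)).powersetCard 4, ∃ F ∈ pmSet S, ∃ F' ∈ (pmSet S).erase F,
    F ⊆ a ∧ Disjoint F' a ∧ b = a \ F ∪ F'

/-- The graph obtained by the vertex-level switch `ac, bd ↦ ad, bc` is switch adjacent. -/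
theorem swAdj_of_vertices {G : Finset (Edge n)} {a b c d : Fin n}
    (hab : a ≠ b) (hac : a ≠ c) (had : a ≠ d) (hbc : b ≠ c) (hbd : b ≠ d) (hcd : c ≠ d)
    (h1 : mkE a c hac ∈ G) (h2 : mkE b d hbd ∈ G) (h3 : mkE a d had ∉ G) (h4 : mkE b c hbc ∉ G) :
    SwAdj G (G \ {mkE a c hac, mkE b d hbd} ∪ {mkE a d had, mkE b c hbc}) := by
  classical
  have hS2 : ({a, c, b, d} : Finset (Fin n)) = {a, d, b, c} := by
    ext x; simp only [Finset.mem_insert, Finset.mem_singleton]; tauto
  have hcard : ({a, c, b, d} : Finset (Fin n)).card = 4 := by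
    rw [Finset.card_insert_of_notMem (by simp [hac, hab, had]),
      Finset.card_insert_of_notMem (by simp [Ne.symm hbc, hcd]),
      Finset.card_insert_of_notMem (by simp [hbd]), Finset.card_singleton]
  refine ⟨{a, c, b, d}, ?_, _, pm_mem hac hab had (Ne.symm hbc) hcd hbd rfl, _, ?_, ?_, ?_, rfl⟩
  · exact Finset.mem_powersetCard.mpr ⟨Finset.subset_univ _, hcard⟩
  · rw [Finset.mem_erase]
    refine ⟨?_, pm_mem had hab hac (Ne.symm hbd) (Ne.symm hcd) hbc hS2⟩
    intro h
    have : mkE a d had ∈ ({mkE a c hac, mkE b d hbd} : Finset (Edge n)) := by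
      rw [← h]; simp
    simp only [Finset.mem_insert, Finset.mem_singleton, mkE_eq_iff] at this
    rcases this with (h' | h') | (h' | h')
    · exact hcd h'.2.symm
    · exact hac h'.1
    · exact hab h'.1
    · exact had h'.1
  · intro e he
    simp only [Finset.mem_insert, Finset.mem_singleton] at he
    rcases he with rfl | rfl
    · exact h1
    · exact h2
  · rw [Finset.disjoint_left]
    intro e he
    simp only [Finset.mem_insert, Finset.mem_singleton] at he
    rcases he with rfl | rfl
    · exact h3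
    · exact h4

theorem proposalCount_pos_of_swAdj {a b : Finset (Edge n)} (h : SwAdj a b) :
    1 ≤ proposalCount a b := by
  obtain ⟨S, hS, F, hF, F', hF', h1, h2, h3⟩ := h
  unfold proposalCount
  have e1 : (1 : ℕ) ≤ if switchResult a F F' = b then 1 else 0 := by
    rw [if_pos]
    unfold switchResult
    rw [if_pos ⟨h1, h2⟩, h3]
  calc 1 ≤ if switchResult a F F' = b then 1 else 0 := e1
    _ ≤ ∑ F' ∈ (pmSet S).erase F, (if switchResult a F F' = b then 1 else 0) :=
        Finset.single_le_sum (f := fun F' => if switchResult a F F' = b then 1 else 0)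
          (fun _ _ => Nat.zero_le _) hF'
    _ ≤ ∑ F ∈ pmSet S, ∑ F' ∈ (pmSet S).erase F, (if switchResult a F F' = b then 1 else 0) :=
        Finset.single_le_sum
          (f := fun F => ∑ F' ∈ (pmSet S).erase F, if switchResult a F F' = b then 1 else 0)
          (fun _ _ => Nat.zero_le _) hF
    _ ≤ _ := Finset.single_le_sum
          (f := fun S => ∑ F ∈ pmSet S, ∑ F' ∈ (pmSet S).erase F,
            if switchResult a F F' = b then 1 else 0)
          (fun _ _ => Nat.zero_le _) hS

end Comb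


/-! ## Part 3: the assembly -/

section Final

variable {n : ℕ}

/-- Normalised proposal matrix. -/
noncomputable def Kk (n : ℕ) (a b : Finset (Edge n)) : ℝ :=
  (proposalCount a b : ℝ) / (6 * (n.choose 4 : ℝ))

theorem Kk_nonneg (a b : Finset (Edge n)) : 0 ≤ Kk n a b := by
  unfold Kk; positivity

theorem Kk_symm (a b : Finset (Edge n)) : Kk n a b = Kk n b a := by
  unfold Kk; rw [proposalCount_symm]

theorem choose_pos_real (hn : 4 ≤ n) : (0 : ℝ) < (n.choose 4 : ℝ) := by
  exact_mod_cast Nat.choose_pos hn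

theorem Kk_row (hn : 4 ≤ n) (a : Finset (Edge n)) : ∑ b, Kk n a b = 1 := by
  have hC := choose_pos_real hn
  unfold Kk
  rw [← Finset.sum_div, ← Nat.cast_sum, sum_proposalCount]
  push_cast
  field_simp

theorem kernel_eq (hn : 4 ≤ n) (a b : Finset (Edge n)) :
    kernel n a b = (if a = b then 1 / 2 else 0) + Kk n a b / 2 := by
  have hC := choose_pos_real hn
  unfold kernel Kk
  congr 1
  field_simp
  ring

theorem Kk_closed {d : Fin n → ℕ} {a b : Finset (Edge n)} (ha : a ∈ realizations d)
    (hb : b ∉ realizations d) : Kk n a b = 0 := by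
  unfold Kk
  rw [proposalCount_eq_zero_of_mem ha hb]
  simp

/-- The Dirichlet identity. -/
theorem dirichlet_identity (hn : 4 ≤ n) (d : Fin n → ℕ) (f : Finset (Edge n) → ℝ) :
    ∑ a ∈ realizations d, f a * (f a - ∑ b ∈ realizations d, kernel n a b * f b)
      = (1 / 4) * ∑ a ∈ realizations d, ∑ b ∈ realizations d, Kk n a b * (f a - f b) ^ 2 := by
  set Ω := realizations d with hΩ
  set P := kernel n with hP
  have hP' : ∀ a b, P a b = (if a = b then 1 / 2 else 0) + Kk n a b / 2 := kernel_eq hn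
  have Psym : ∀ a b, P a b = P b a := by
    intro a b
    rw [hP', hP', Kk_symm a b]
    by_cases h : a = b
    · simp [h]
    · simp [h, Ne.symm h]
  have Prow : ∀ a ∈ Ω, ∑ b ∈ Ω, P a b = 1 := by
    intro a ha
    have h1 : ∑ b, P a b = 1 := by
      simp only [hP', Finset.sum_add_distrib, Finset.sum_ite_eq, Finset.mem_univ, if_true]
      rw [← Finset.sum_div, Kk_row hn a]
      norm_num
    rw [← h1]
    refine Finset.sum_subset (Finset.subset_univ _) (fun b _ hb => ?_)
    have hne : a ≠ b := fun h => hb (h ▸ ha)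
    rw [hP', Kk_closed ha hb]
    simp [hne]
  have e1 : ∀ a ∈ Ω, f a * (f a - ∑ b ∈ Ω, P a b * f b)
      = ∑ b ∈ Ω, P a b * (f a * (f a - f b)) := by
    intro a ha
    have : f a = ∑ b ∈ Ω, P a b * f a := by
      rw [← Finset.sum_mul, Prow a ha, one_mul]
    calc f a * (f a - ∑ b ∈ Ω, P a b * f b)
        = f a * ((∑ b ∈ Ω, P a b * f a) - ∑ b ∈ Ω, P a b * f b) := by rw [← this]
      _ = _ := by
        rw [← Finset.sum_sub_distrib, Finset.mul_sum]
        exact Finset.sum_congr rfl (fun b _ => by ring)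
  rw [Finset.sum_congr rfl e1]
  set A := ∑ a ∈ Ω, ∑ b ∈ Ω, P a b * (f a * (f a - f b)) with hA
  have e2 : A = ∑ a ∈ Ω, ∑ b ∈ Ω, P a b * (f b * (f b - f a)) := by
    rw [hA, Finset.sum_comm]
    refine Finset.sum_congr rfl (fun a _ => Finset.sum_congr rfl (fun b _ => ?_))
    rw [Psym b a]
  have e3 : A + A = ∑ a ∈ Ω, ∑ b ∈ Ω, (Kk n a b / 2) * (f a - f b) ^ 2 := by
    nth_rewrite 2 [e2]
    rw [hA, ← Finset.sum_add_distrib]
    refine Finset.sum_congr rfl (fun a _ => ?_)
    rw [← Finset.sum_add_distrib]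
    refine Finset.sum_congr rfl (fun b _ => ?_)
    by_cases h : a = b
    · subst h; simp
    · rw [hP' a b]
      simp only [h, if_false, zero_add]
      ring
  have e4 : ∑ a ∈ Ω, ∑ b ∈ Ω, (Kk n a b / 2) * (f a - f b) ^ 2
      = (1 / 2) * ∑ a ∈ Ω, ∑ b ∈ Ω, Kk n a b * (f a - f b) ^ 2 := by
    rw [Finset.mul_sum]
    refine Finset.sum_congr rfl (fun a _ => ?_)
    rw [Finset.mul_sum]
    exact Finset.sum_congr rfl (fun b _ => by ring)
  rw [e4] at e3
  linarith

theorem card_realizations_le (d : Fin n → ℕ) :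
    (realizations d).card ≤ 2 ^ (n ^ 2) := by
  have h1 : (realizations d).card ≤ Fintype.card (Finset (Edge n)) := Finset.card_le_univ _
  rw [Fintype.card_finset] at h1
  have h2 : Fintype.card (Edge n) ≤ n ^ 2 := by
    have h3 : Fintype.card (Edge n) ≤ Fintype.card (Sym2 (Fin n)) := Fintype.card_subtype_le _
    rw [Sym2.card, Fintype.card_fin] at h3
    have h4 : (n + 1).choose 2 ≤ n ^ 2 := by
      rcases n with _ | m
      · simp
      · rw [Nat.choose_two_right]
        have : (m + 1 + 1) * (m + 1 + 1 - 1) / 2 ≤ (m + 1 + 1) * (m + 1 + 1 - 1) :=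
          Nat.div_le_self _ _
        simp only [Nat.add_sub_cancel] at this ⊢
        refine le_trans (Nat.div_le_of_le_mul ?_) (le_refl _)
        nlinarith only [sq_nonneg (m : ℤ), this]
    omega
  exact h1.trans (Nat.pow_le_pow_right (by norm_num) h2)

theorem choose_four_le (n : ℕ) : 24 * n.choose 4 ≤ n ^ 4 := by
  have h1 := Nat.descFactorial_eq_factorial_mul_choose n 4
  have h2 := Nat.descFactorial_le_pow n 4
  have h3 : Nat.factorial 4 = 24 := rfl
  rw [h3] at h1
  omega

/-- The numerical bound. -/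
theorem numeric_bound (hn : 4 ≤ n) {N : ℕ} (hN : N ≤ 2 ^ (n ^ 2)) :
    (N : ℝ) * (1 - 1 / (24 * (n : ℝ) ^ 2 * (n.choose 4 : ℝ))) ^ (2 * n ^ 8) / 4 ≤ 1 / 16 := by
  have hC := choose_pos_real hn
  have hn0 : (4 : ℝ) ≤ (n : ℝ) := by exact_mod_cast hn
  have hnpos : (0 : ℝ) < (n : ℝ) := by linarith
  set C : ℝ := (n.choose 4 : ℝ) with hCdef
  have hCle : 24 * C ≤ (n : ℝ) ^ 4 := by
    have := choose_four_le n
    rw [hCdef]
    exact_mod_cast this
  have hCge : 1 ≤ C := by
    have : 1 ≤ n.choose 4 := Nat.choose_pos hn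
    rw [hCdef]
    exact_mod_cast this
  set g : ℝ := 1 / (24 * (n : ℝ) ^ 2 * C) with hg
  have hgpos : 0 < g := by positivity
  have hg1 : g ≤ 1 := by
    rw [hg, div_le_one (by positivity)]
    have : (1 : ℝ) ≤ (n : ℝ) ^ 2 := by nlinarith only [hn0]
    nlinarith only [this, hCge]
  have h1 : (1 - g) ^ (2 * n ^ 8) ≤ Real.exp (-(g * ((2 * n ^ 8 : ℕ) : ℝ))) := by
    have h2 : 1 - g ≤ Real.exp (-g) := Real.one_sub_le_exp_neg g
    calc (1 - g) ^ (2 * n ^ 8) ≤ (Real.exp (-g)) ^ (2 * n ^ 8) :=
          pow_le_pow_left₀ (by linarith) h2 _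
      _ = Real.exp (-(g * ((2 * n ^ 8 : ℕ) : ℝ))) := by
          rw [← Real.exp_nat_mul]
          congr 1
          ring
  have h3 : 2 * (n : ℝ) ^ 2 ≤ g * ((2 * n ^ 8 : ℕ) : ℝ) := by
    push_cast
    rw [hg, div_mul_eq_mul_div, one_mul, le_div_iff₀ (by positivity)]
    have hn2 : (0 : ℝ) ≤ (n : ℝ) ^ 4 := by positivity
    nlinarith only [mul_le_mul_of_nonneg_left hCle hn2, hnpos]
  have h4 : (1 - g) ^ (2 * n ^ 8) ≤ Real.exp (-(2 * (n : ℝ) ^ 2)) :=
    h1.trans (Real.exp_le_exp.mpr (by linarith))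
  have h5 : (N : ℝ) ≤ Real.exp ((n : ℝ) ^ 2) := by
    have h6 : (N : ℝ) ≤ 2 ^ (n ^ 2) := by exact_mod_cast hN
    have h7 : (2 : ℝ) ≤ Real.exp 1 := by
      have := Real.add_one_le_exp (1 : ℝ)
      linarith
    calc (N : ℝ) ≤ 2 ^ (n ^ 2) := h6
      _ ≤ (Real.exp 1) ^ (n ^ 2) := pow_le_pow_left₀ (by norm_num) h7 _
      _ = Real.exp ((n : ℝ) ^ 2) := by
          rw [← Real.exp_nat_mul]
          congr 1
          push_cast
          ring
  have h8 : (N : ℝ) * (1 - g) ^ (2 * n ^ 8) ≤ Real.exp (-(n : ℝ) ^ 2) := by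
    calc (N : ℝ) * (1 - g) ^ (2 * n ^ 8)
        ≤ Real.exp ((n : ℝ) ^ 2) * Real.exp (-(2 * (n : ℝ) ^ 2)) :=
          mul_le_mul h5 h4 (pow_nonneg (by linarith) _) (Real.exp_nonneg _)
      _ = Real.exp (-(n : ℝ) ^ 2) := by
          rw [← Real.exp_add]
          congr 1
          ring
  have h9 : Real.exp (-(n : ℝ) ^ 2) ≤ 1 / 4 := by
    have h10 : (4 : ℝ) ≤ Real.exp 2 := by
      have h11 : Real.exp 2 = Real.exp 1 * Real.exp 1 := by
        rw [← Real.exp_add]; norm_num
      have h12 := Real.add_one_le_exp (1 : ℝ)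
      rw [h11]
      nlinarith only [h12]
    have h13 : Real.exp (-(n : ℝ) ^ 2) ≤ Real.exp (-2) :=
      Real.exp_le_exp.mpr (by nlinarith only [hn0])
    have h14 : Real.exp (-2) = 1 / Real.exp 2 := by
      rw [Real.exp_neg, one_div]
    rw [h14] at h13
    refine h13.trans ?_
    rw [div_le_div_iff₀ (Real.exp_pos _) (by norm_num)]
    linarith
  linarith

/-- The TV half of the frozen statement follows from its Poincaré half. -/
theorem tv_of_poincare (hn : 4 ≤ n) (d : Fin n → ℕ) (hd : (realizations d).Nonempty)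
    (H : ∀ f : Finset (Edge n) → ℝ,
        ((realizations d).card : ℝ) * (∑ G ∈ realizations d, f G ^ 2) -
            (∑ G ∈ realizations d, f G) ^ 2 ≤
          24 * (n : ℝ) ^ 2 * (n.choose 4 : ℝ) * (realizations d).card *
            ∑ G ∈ realizations d,
              f G * (f G - ∑ G' ∈ realizations d, kernel n G G' * f G')) :
    ∃ t : ℕ, t ≤ 2 * n ^ 8 ∧ ∀ G ∈ realizations d,
      tvDist (fun G' => (kernel n ^ t) G G') (unifOn (realizations d)) ≤ 1 / 4 := by
  refine ⟨2 * n ^ 8, le_refl _, fun G hG => ?_⟩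
  have hC := choose_pos_real hn
  have hn0 : (4 : ℝ) ≤ (n : ℝ) := by exact_mod_cast hn
  have hnpos : (0 : ℝ) < (n : ℝ) := by linarith
  have hNpos : (0 : ℝ) < ((realizations d).card : ℝ) := by
    exact_mod_cast Finset.card_pos.mpr hd
  set γ : ℝ := 1 / (24 * (n : ℝ) ^ 2 * (n.choose 4 : ℝ)) with hγ
  have hγ1 : γ ≤ 1 := by
    rw [hγ, div_le_one (by positivity)]
    have : (1 : ℝ) ≤ (n : ℝ) ^ 2 := by nlinarith only [hn0]
    have hCge : (1 : ℝ) ≤ (n.choose 4 : ℝ) := by
      have : 1 ≤ n.choose 4 := Nat.choose_pos hn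
      exact_mod_cast this
    nlinarith only [this, hCge]
  have hmix := abstract_mixing (Kk n) Kk_nonneg Kk_symm (Kk_row hn) (realizations d)
    (fun a ha b hb => Kk_closed ha hb) (kernel n) (kernel_eq hn) γ hγ1 ?_ G hG (2 * n ^ 8)
  · have hnum := numeric_bound hn (card_realizations_le d)
    have hsq := hmix.trans hnum
    have hnn : 0 ≤ tvDist (fun G' => (kernel n ^ (2 * n ^ 8)) G G') (unifOn (realizations d)) := by
      unfold tvDist
      positivity
    by_contra hcon
    push Not at hcon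
    nlinarith only [hsq, hcon, hnn]
  · intro v hsupp hsum
    have hP := H v
    have e1 : ∑ G ∈ realizations d, v G ^ 2 = ∑ a, v a ^ 2 := by
      refine Finset.sum_subset (Finset.subset_univ _) (fun b _ hb => ?_)
      rw [hsupp b hb]; simp
    have e2 : ∑ G ∈ realizations d, v G = ∑ a, v a := by
      refine Finset.sum_subset (Finset.subset_univ _) (fun b _ hb => ?_)
      exact hsupp b hb
    have e3 : ∑ G ∈ realizations d, v G * (v G - ∑ G' ∈ realizations d, kernel n G G' * v G')
        = ∑ a, v a * (v a - ∑ b, kernel n a b * v b) := by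
      have e4 : ∀ a, ∑ b ∈ realizations d, kernel n a b * v b = ∑ b, kernel n a b * v b := by
        intro a
        refine Finset.sum_subset (Finset.subset_univ _) (fun b _ hb => ?_)
        rw [hsupp b hb, mul_zero]
      simp only [e4]
      refine Finset.sum_subset (Finset.subset_univ _) (fun b _ hb => ?_)
      rw [hsupp b hb, zero_mul]
    rw [e1, e2, e3, hsum] at hP
    set D := ∑ a, v a * (v a - ∑ b, kernel n a b * v b) with hD
    set Q := ∑ a, v a ^ 2 with hQ
    set N : ℝ := ((realizations d).card : ℝ) with hN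
    have h2 : N * Q ≤ N * ((24 * (n : ℝ) ^ 2 * (n.choose 4 : ℝ)) * D) := by
      have : N * Q - 0 ^ 2 ≤ 24 * (n : ℝ) ^ 2 * (n.choose 4 : ℝ) * N * D := hP
      nlinarith only [this]
    have h3 : Q ≤ (24 * (n : ℝ) ^ 2 * (n.choose 4 : ℝ)) * D := le_of_mul_le_mul_left h2 hNpos
    rw [hγ, div_mul_eq_mul_div, one_mul, div_le_iff₀ (by positivity)]
    linarith

/-- The ordered Dirichlet form of the switch graph on the realizations of `d`. -/
noncomputable def swDir (d : Fin n → ℕ) (f : Finset (Edge n) → ℝ) : ℝ :=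
  open Classical in
  ∑ a ∈ realizations d, ∑ b ∈ realizations d, if SwAdj a b then (f a - f b) ^ 2 else 0

theorem swDir_le (hn : 4 ≤ n) (d : Fin n → ℕ) (f : Finset (Edge n) → ℝ) :
    swDir d f ≤ 24 * (n.choose 4 : ℝ) *
      ∑ G ∈ realizations d, f G * (f G - ∑ G' ∈ realizations d, kernel n G G' * f G') := by
  classical
  have hC := choose_pos_real hn
  rw [dirichlet_identity hn]
  have : 24 * (n.choose 4 : ℝ) * ((1 / 4) * ∑ a ∈ realizations d, ∑ b ∈ realizations d,
      Kk n a b * (f a - f b) ^ 2)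
      = ∑ a ∈ realizations d, ∑ b ∈ realizations d, (proposalCount a b : ℝ) * (f a - f b) ^ 2 := by
    rw [← mul_assoc, Finset.mul_sum]
    refine Finset.sum_congr rfl (fun a _ => ?_)
    rw [Finset.mul_sum]
    refine Finset.sum_congr rfl (fun b _ => ?_)
    unfold Kk
    field_simp
    ring
  rw [this]
  unfold swDir
  refine Finset.sum_le_sum (fun a _ => Finset.sum_le_sum (fun b _ => ?_))
  split_ifs with h
  · have h1 : (1 : ℝ) ≤ (proposalCount a b : ℝ) := by
      exact_mod_cast proposalCount_pos_of_swAdj h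
    nlinarith only [h1, sq_nonneg (f a - f b)]
  · positivity

/-- **Assembly.** A Poincaré inequality for the switch graph, with constant `n²`, yields the frozen
statement of S0453. -/
theorem result_of_poincare (n : ℕ) (hn : 4 ≤ n) (d : Fin n → ℕ) (hd : (realizations d).Nonempty)
    (H : ∀ f : Finset (Edge n) → ℝ,
      ((realizations d).card : ℝ) * (∑ G ∈ realizations d, f G ^ 2) -
        (∑ G ∈ realizations d, f G) ^ 2 ≤ (n : ℝ) ^ 2 * (realizations d).card * swDir d f) :
    (∃ t : ℕ, t ≤ 2 * n ^ 8 ∧ ∀ G ∈ realizations d,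
        tvDist (fun G' => (kernel n ^ t) G G') (unifOn (realizations d)) ≤ 1 / 4) ∧
      ∀ f : Finset (Edge n) → ℝ,
        ((realizations d).card : ℝ) * (∑ G ∈ realizations d, f G ^ 2) -
            (∑ G ∈ realizations d, f G) ^ 2 ≤
          24 * (n : ℝ) ^ 2 * (n.choose 4 : ℝ) * (realizations d).card *
            ∑ G ∈ realizations d,
              f G * (f G - ∑ G' ∈ realizations d, kernel n G G' * f G') := by
  have H2 : ∀ f : Finset (Edge n) → ℝ,
        ((realizations d).card : ℝ) * (∑ G ∈ realizations d, f G ^ 2) -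
            (∑ G ∈ realizations d, f G) ^ 2 ≤
          24 * (n : ℝ) ^ 2 * (n.choose 4 : ℝ) * (realizations d).card *
            ∑ G ∈ realizations d,
              f G * (f G - ∑ G' ∈ realizations d, kernel n G G' * f G') := by
    intro f
    have h1 := H f
    have h2 := swDir_le hn d f
    have hN : (0 : ℝ) ≤ (n : ℝ) ^ 2 * ((realizations d).card : ℝ) := by positivity
    have h3 := mul_le_mul_of_nonneg_left h2 hN
    refine h1.trans (h3.trans (le_of_eq ?_))
    ring
  exact ⟨tv_of_poincare hn d hd H2, H2⟩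

end Final

end Crest.Agent.Lib.Switch.Assembly
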