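import Crest.Prelude.Def_SwitchChain

/-!
# S0453: basic definitions for the switch-chain Poincaré inequality

Adjacency in an edge set, `bit`, neighbourhood, the pair relation `PairRel a b`
(fibres of `E_π`, `π = {a,b}`), class averages for an arbitrary relation on a finset.
No sorry.
-/

set_option autoImplicit false

namespace Crest.Agent.Lib.Switch

open Finset Crest.SwitchChain

variable {n : ℕ}

/-! ### Abstract class averages -/

section Avg

variable {α : Type*} (Ω : Finset α) (r : α → α → Prop)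

open Classical in
/-- The `r`-class of `x` inside `Ω`. -/
noncomputable def cls (x : α) : Finset α := Ω.filter (r x)

/-- The average of `f` over the `r`-class of `x` in `Ω`. -/
noncomputable def avg (f : α → ℝ) (x : α) : ℝ :=
  (∑ y ∈ cls Ω r x, f y) / ((cls Ω r x).card : ℝ)

/-- `Q f = f - avg f`. -/
noncomputable def resid (f : α → ℝ) (x : α) : ℝ := f x - avg Ω r f x

variable {Ω r}

/-- `r` restricted to `Ω` is an equivalence relation. -/
structure IsEquivOn (Ω : Finset α) (r : α → α → Prop) : Prop where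
  refl : ∀ x ∈ Ω, r x x
  symm : ∀ x ∈ Ω, ∀ y ∈ Ω, r x y → r y x
  trans : ∀ x ∈ Ω, ∀ y ∈ Ω, ∀ z ∈ Ω, r x y → r y z → r x z

lemma mem_cls {x y : α} : y ∈ cls Ω r x ↔ y ∈ Ω ∧ r x y := by
  classical simp [cls]

lemma IsEquivOn.self_mem (h : IsEquivOn Ω r) {x : α} (hx : x ∈ Ω) : x ∈ cls Ω r x :=
  mem_cls.2 ⟨hx, h.refl x hx⟩

lemma IsEquivOn.cls_eq (h : IsEquivOn Ω r) {x y : α} (hx : x ∈ Ω) (hy : y ∈ Ω) (hxy : r x y) :
    cls Ω r x = cls Ω r y := by
  ext z
  simp only [mem_cls]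
  constructor
  · rintro ⟨hz, hxz⟩
    exact ⟨hz, h.trans y hy x hx z hz (h.symm x hx y hy hxy) hxz⟩
  · rintro ⟨hz, hyz⟩
    exact ⟨hz, h.trans x hx y hy z hz hxy hyz⟩

lemma IsEquivOn.card_pos (h : IsEquivOn Ω r) {x : α} (hx : x ∈ Ω) :
    0 < ((cls Ω r x).card : ℝ) := by
  have := Finset.card_pos.2 ⟨x, h.self_mem hx⟩
  exact_mod_cast this

lemma IsEquivOn.avg_eq (h : IsEquivOn Ω r) {x y : α} (hx : x ∈ Ω) (hy : y ∈ Ω) (hxy : r x y)
    (f : α → ℝ) : avg Ω r f x = avg Ω r f y := by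
  simp only [avg, h.cls_eq hx hy hxy]

/-- Sum over `Ω` = sum over classes (weighted form). -/
lemma IsEquivOn.sum_eq_sum_avg (h : IsEquivOn Ω r) (F : α → ℝ) :
    ∑ x ∈ Ω, avg Ω r F x = ∑ x ∈ Ω, F x := by
  classical
  have key : ∀ x ∈ Ω, avg Ω r F x = ∑ y ∈ Ω, if r x y then F y / ((cls Ω r x).card : ℝ) else 0 := by
    intro x _
    simp only [avg, cls, sum_filter, div_eq_mul_inv, sum_mul]
    refine sum_congr rfl fun y _ => ?_
    split_ifs <;> simp
  rw [sum_congr rfl key, sum_comm]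
  refine sum_congr rfl fun y hy => ?_
  have : ∀ x ∈ Ω, (if r x y then F y / ((cls Ω r x).card : ℝ) else 0)
      = if r y x then F y / ((cls Ω r y).card : ℝ) else 0 := by
    intro x hx
    by_cases hxy : r x y
    · have hyx := h.symm x hx y hy hxy
      simp [hxy, hyx, h.cls_eq hx hy hxy]
    · have hyx : ¬ r y x := fun hyx => hxy (h.symm y hy x hx hyx)
      simp [hxy, hyx]
  rw [sum_congr rfl this, ← sum_filter]
  have hc : Ω.filter (r y) = cls Ω r y := rfl
  rw [hc, sum_const, nsmul_eq_mul]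
  have := (h.card_pos hy).ne'
  field_simp

/-- `avg` is self-adjoint. -/
lemma IsEquivOn.sum_avg_mul (h : IsEquivOn Ω r) (f g : α → ℝ) :
    ∑ x ∈ Ω, avg Ω r f x * g x = ∑ x ∈ Ω, avg Ω r f x * avg Ω r g x := by
  have h1 : ∀ x ∈ Ω, avg Ω r (fun y => avg Ω r f y * g y) x = avg Ω r f x * avg Ω r g x := by
    intro x hx
    have : ∀ y ∈ cls Ω r x, avg Ω r f y * g y = avg Ω r f x * g y := by
      intro y hy
      obtain ⟨hyΩ, hxy⟩ := mem_cls.1 hy
      rw [h.avg_eq hyΩ hx (h.symm x hx y hyΩ hxy)]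
    simp only [avg] at this ⊢
    rw [sum_congr rfl this, ← mul_sum, mul_div_assoc]
  rw [← h.sum_eq_sum_avg (fun x => avg Ω r f x * g x)]
  exact sum_congr rfl h1

lemma IsEquivOn.avg_avg (h : IsEquivOn Ω r) (f : α → ℝ) {x : α} (hx : x ∈ Ω) :
    avg Ω r (avg Ω r f) x = avg Ω r f x := by
  have h1 : ∀ y ∈ cls Ω r x, avg Ω r f y = avg Ω r f x := by
    intro y hy
    obtain ⟨hyΩ, hxy⟩ := mem_cls.1 hy
    exact h.avg_eq hyΩ hx (h.symm x hx y hyΩ hxy) f
  rw [avg, sum_congr rfl h1, sum_const, nsmul_eq_mul]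
  have := (h.card_pos hx).ne'
  field_simp

/-- `resid` has zero mean on every class, and is orthogonal to class-constant functions. -/
lemma IsEquivOn.sum_resid_mul_avg (h : IsEquivOn Ω r) (f g : α → ℝ) :
    ∑ x ∈ Ω, resid Ω r f x * avg Ω r g x = 0 := by
  have h1 := h.sum_avg_mul g f
  have h2 := h.sum_avg_mul f g
  simp only [resid, sub_mul, sum_sub_distrib]
  rw [sub_eq_zero]
  calc ∑ x ∈ Ω, f x * avg Ω r g x = ∑ x ∈ Ω, avg Ω r g x * f x :=
        sum_congr rfl fun _ _ => mul_comm _ _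
    _ = ∑ x ∈ Ω, avg Ω r g x * avg Ω r f x := h1
    _ = ∑ x ∈ Ω, avg Ω r f x * avg Ω r g x := sum_congr rfl fun _ _ => mul_comm _ _

/-- `⟨Qf, Qf⟩ = ⟨f, Qf⟩`. -/
lemma IsEquivOn.sum_resid_sq (h : IsEquivOn Ω r) (f : α → ℝ) :
    ∑ x ∈ Ω, resid Ω r f x ^ 2 = ∑ x ∈ Ω, f x * resid Ω r f x := by
  have := h.sum_resid_mul_avg f f
  have h2 : ∀ x, resid Ω r f x ^ 2 = f x * resid Ω r f x - resid Ω r f x * avg Ω r f x := by
    intro x; simp only [resid]; ring
  simp only [h2, sum_sub_distrib, this, sub_zero]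

end Avg

/-! ### Adjacency -/

/-- Adjacency in an edge set. -/
def Adj (G : Finset (Edge n)) (x y : Fin n) : Prop :=
  ∃ e ∈ G, e.1 = s(x, y)

lemma Adj.symm {G : Finset (Edge n)} {x y : Fin n} (h : Adj G x y) : Adj G y x := by
  obtain ⟨e, he, hxy⟩ := h
  exact ⟨e, he, by rw [hxy, Sym2.eq_swap]⟩

lemma adj_comm {G : Finset (Edge n)} {x y : Fin n} : Adj G x y ↔ Adj G y x :=
  ⟨Adj.symm, Adj.symm⟩

lemma Adj.ne {G : Finset (Edge n)} {x y : Fin n} (h : Adj G x y) : x ≠ y := by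
  obtain ⟨e, _, hxy⟩ := h
  intro hne
  apply e.2
  rw [hxy, hne]
  exact Sym2.mk_isDiag_iff.2 rfl

lemma not_adj_self (G : Finset (Edge n)) (x : Fin n) : ¬ Adj G x x := fun h => h.ne rfl

/-- The edge `s(x,y)` for `x ≠ y`. -/
def mkEdge (x y : Fin n) (h : x ≠ y) : Edge n := ⟨s(x, y), by simpa [Sym2.mk_isDiag_iff] using h⟩

lemma adj_iff_mem {G : Finset (Edge n)} {x y : Fin n} (h : x ≠ y) :
    Adj G x y ↔ mkEdge x y h ∈ G := by
  constructor
  · rintro ⟨e, he, hxy⟩
    have : e = mkEdge x y h := Subtype.ext hxy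
    rwa [← this]
  · intro hm
    exact ⟨_, hm, rfl⟩

/-- Extensionality of edge sets through adjacency. -/
lemma graph_ext {G G' : Finset (Edge n)} (h : ∀ x y, Adj G x y ↔ Adj G' x y) : G = G' := by
  ext e
  obtain ⟨e', he'⟩ := e
  induction e' using Sym2.ind with
  | _ x y =>
    have hne : x ≠ y := by simpa [Sym2.mk_isDiag_iff] using he'
    have h1 := adj_iff_mem (G := G) hne
    have h2 := adj_iff_mem (G := G') hne
    have h3 := h x y
    have : (⟨s(x, y), he'⟩ : Edge n) = mkEdge x y hne := rfl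
    rw [this]
    tauto

open Classical in
/-- The graph with adjacency relation `r` (assumed symmetric for `adj_ofRel`). -/
noncomputable def ofRel (r : Fin n → Fin n → Prop) : Finset (Edge n) :=
  univ.filter fun e => ∃ x y, e.1 = s(x, y) ∧ r x y

lemma adj_ofRel {r : Fin n → Fin n → Prop} (hr : ∀ x y, r x y → r y x) {x y : Fin n} :
    Adj (ofRel r) x y ↔ x ≠ y ∧ r x y := by
  classical
  constructor
  · rintro ⟨e, he, hxy⟩
    simp only [ofRel, mem_filter, mem_univ, true_and] at he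
    obtain ⟨u, v, huv, hr'⟩ := he
    have hne : x ≠ y := (show Adj (ofRel r) x y from ⟨e, by simp [ofRel]; exact ⟨u, v, huv, hr'⟩, hxy⟩).ne
    refine ⟨hne, ?_⟩
    rw [hxy] at huv
    rcases Sym2.eq_iff.1 huv with ⟨rfl, rfl⟩ | ⟨rfl, rfl⟩
    · exact hr'
    · exact hr _ _ hr'
  · rintro ⟨hne, hxy⟩
    refine ⟨mkEdge x y hne, ?_, rfl⟩
    simp only [ofRel, mem_filter, mem_univ, true_and]
    exact ⟨x, y, rfl, hxy⟩

open Classical in
/-- `bit G x y = 1` iff `x ~ y` in `G`. -/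
noncomputable def bit (G : Finset (Edge n)) (x y : Fin n) : ℕ := if Adj G x y then 1 else 0

lemma bit_comm (G : Finset (Edge n)) (x y : Fin n) : bit G x y = bit G y x := by
  classical
  simp only [bit, adj_comm (x := x) (y := y)]

lemma bit_le_one (G : Finset (Edge n)) (x y : Fin n) : bit G x y ≤ 1 := by
  classical
  unfold bit; split_ifs <;> simp

lemma bit_self (G : Finset (Edge n)) (x : Fin n) : bit G x x = 0 := by
  classical
  simp [bit, not_adj_self]

lemma bit_eq_one {G : Finset (Edge n)} {x y : Fin n} : bit G x y = 1 ↔ Adj G x y := by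
  classical
  unfold bit; split_ifs with h <;> simp [h]

lemma bit_eq_zero {G : Finset (Edge n)} {x y : Fin n} : bit G x y = 0 ↔ ¬ Adj G x y := by
  classical
  unfold bit; split_ifs with h <;> simp [h]

lemma graph_ext_bit {G G' : Finset (Edge n)} (h : ∀ x y, bit G x y = bit G' x y) : G = G' := by
  classical
  refine graph_ext fun x y => ?_
  rw [← bit_eq_one, ← bit_eq_one, h]

open Classical in
/-- The degree is the sum of the bits. -/
lemma deg_eq_sum_bit (G : Finset (Edge n)) (v : Fin n) : deg G v = ∑ u, bit G v u := by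
  classical
  have h1 : ∑ u, bit G v u = (univ.filter fun u => Adj G v u).card := by
    rw [card_filter]
    exact sum_congr rfl fun u _ => by simp [bit]
  rw [h1, deg]
  refine card_bij' (i := fun e he => Sym2.Mem.other' (mem_filter.1 he).2)
    (j := fun u hu => mkEdge v u (mem_filter.1 hu).2.ne) ?_ ?_ ?_ ?_
  · intro e he
    obtain ⟨heG, hv⟩ := mem_filter.1 he
    simp only [mem_filter, mem_univ, true_and]
    exact ⟨e, heG, (Sym2.other_spec' hv).symm⟩
  · intro u hu
    simp only [mem_filter, mem_univ, true_and] at hu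
    refine mem_filter.2 ⟨(adj_iff_mem hu.ne).1 hu, ?_⟩
    simp [mkEdge]
  · intro e he
    obtain ⟨heG, hv⟩ := mem_filter.1 he
    apply Subtype.ext
    simp only [mkEdge]
    exact Sym2.other_spec' hv
  · intro u hu
    simp only [mem_filter, mem_univ, true_and] at hu
    have hm : v ∈ (mkEdge v u hu.ne).1 := by simp [mkEdge]
    have := Sym2.other_spec' hm
    simp only [mkEdge] at this
    have h2 := (Sym2.congr_right).1 this
    simp only [mkEdge]
    exact h2

/-! ### The pair relation -/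

/-- `G ~_{a,b} G'`: agree on all cells not meeting `{a,b}`, on the cell `ab`, and for each other
vertex `x` the count `x_ax + x_bx` is the same. -/
def PairRel (a b : Fin n) (G G' : Finset (Edge n)) : Prop :=
  (∀ x y, x ≠ a → x ≠ b → y ≠ a → y ≠ b → bit G x y = bit G' x y) ∧
  bit G a b = bit G' a b ∧
  ∀ x, x ≠ a → x ≠ b → bit G a x + bit G b x = bit G' a x + bit G' b x

lemma PairRel.refl (a b : Fin n) (G : Finset (Edge n)) : PairRel a b G G :=
  ⟨fun _ _ _ _ _ _ => rfl, rfl, fun _ _ _ => rfl⟩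

lemma PairRel.symm {a b : Fin n} {G G' : Finset (Edge n)} (h : PairRel a b G G') :
    PairRel a b G' G :=
  ⟨fun x y h1 h2 h3 h4 => (h.1 x y h1 h2 h3 h4).symm, h.2.1.symm, fun x h1 h2 => (h.2.2 x h1 h2).symm⟩

lemma PairRel.trans {a b : Fin n} {G G' G'' : Finset (Edge n)} (h : PairRel a b G G')
    (h' : PairRel a b G' G'') : PairRel a b G G'' :=
  ⟨fun x y h1 h2 h3 h4 => (h.1 x y h1 h2 h3 h4).trans (h'.1 x y h1 h2 h3 h4), h.2.1.trans h'.2.1,
    fun x h1 h2 => (h.2.2 x h1 h2).trans (h'.2.2 x h1 h2)⟩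

lemma pairRel_isEquivOn (a b : Fin n) (Ω : Finset (Finset (Edge n))) :
    IsEquivOn Ω (PairRel a b) :=
  ⟨fun x _ => PairRel.refl a b x, fun _ _ _ _ h => h.symm, fun _ _ _ _ _ _ h h' => h.trans h'⟩

lemma PairRel.swap {a b : Fin n} {G G' : Finset (Edge n)} (h : PairRel a b G G') :
    PairRel b a G G' := by
  refine ⟨fun x y h1 h2 h3 h4 => h.1 x y h2 h1 h4 h3, ?_, fun x h1 h2 => ?_⟩
  · rw [bit_comm G, bit_comm G']; exact h.2.1
  · rw [add_comm, add_comm (bit G' b x)]; exact h.2.2 x h2 h1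

lemma pairRel_comm {a b : Fin n} {G G' : Finset (Edge n)} : PairRel a b G G' ↔ PairRel b a G G' :=
  ⟨PairRel.swap, PairRel.swap⟩

end Crest.Agent.Lib.Switch
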