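import Crest.Prelude.Def_SwitchChain

/-!
# Connectivity of the switch graph on realizations (Taylor)

Any two realizations of the same degree vector are connected by switches.
-/

set_option autoImplicit false

namespace Crest.Agent.Lib.Switch.Connect

open Finset Crest.SwitchChain

open scoped Classical

variable {n : ℕ}

/-- Adjacency of `a,b` in the edge set `G`. -/
def A (G : Finset (Edge n)) (a b : Fin n) : Prop := ∃ e ∈ G, e.1 = s(a, b)

lemma A_comm {G : Finset (Edge n)} {a b : Fin n} : A G a b ↔ A G b a := by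
  unfold A
  rw [Sym2.eq_swap]

lemma A_ne {G : Finset (Edge n)} {a b : Fin n} (h : A G a b) : a ≠ b := by
  obtain ⟨e, _, he⟩ := h
  rintro rfl
  exact e.2 (by rw [he]; simp)

lemma ext_A {G G' : Finset (Edge n)} (h : ∀ a b, A G a b ↔ A G' a b) : G = G' := by
  ext ⟨z, hz⟩
  induction z using Sym2.ind with
  | _ a b =>
    constructor
    · intro he
      obtain ⟨e', he', hee⟩ := (h a b).1 ⟨_, he, rfl⟩
      have : e' = ⟨s(a, b), hz⟩ := Subtype.ext hee
      rwa [← this]
    · intro he
      obtain ⟨e', he', hee⟩ := (h a b).2 ⟨_, he, rfl⟩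
      have : e' = ⟨s(a, b), hz⟩ := Subtype.ext hee
      rwa [← this]

/-- Neighbours of `a` in `G`. -/
noncomputable def nbr (G : Finset (Edge n)) (a : Fin n) : Finset (Fin n) :=
  univ.filter (A G a)

@[simp] lemma mem_nbr {G : Finset (Edge n)} {a b : Fin n} : b ∈ nbr G a ↔ A G a b := by
  simp [nbr]

lemma deg_eq_card_nbr (G : Finset (Edge n)) (v : Fin n) : deg G v = (nbr G v).card := by
  unfold deg
  refine Finset.card_bij (fun e he => Sym2.Mem.other (mem_filter.1 he).2) ?_ ?_ ?_
  · intro e he
    rw [mem_nbr]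
    exact ⟨e, (mem_filter.1 he).1, (Sym2.other_spec (mem_filter.1 he).2).symm⟩
  · intro e1 he1 e2 he2 hh
    apply Subtype.ext
    have h1 := Sym2.other_spec (mem_filter.1 he1).2
    have h2 := Sym2.other_spec (mem_filter.1 he2).2
    rw [← h1, ← h2]
    exact congrArg (fun t => s(v, t)) hh
  · intro b hb
    obtain ⟨e, heG, he⟩ := mem_nbr.1 hb
    have hm : v ∈ e.1 := by rw [he]; simp
    refine ⟨e, mem_filter.2 ⟨heG, hm⟩, ?_⟩
    have h1 := Sym2.other_spec hm
    exact Sym2.congr_right.1 (h1.trans he)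

/-- The edge `ab`. -/
def mkE (a b : Fin n) (h : a ≠ b) : Edge n := ⟨s(a, b), by simpa using h⟩

lemma A_iff_mem {G : Finset (Edge n)} {a b : Fin n} (h : a ≠ b) : A G a b ↔ mkE a b h ∈ G := by
  constructor
  · rintro ⟨e, he, hh⟩
    have : e = mkE a b h := Subtype.ext hh
    rwa [← this]
  · intro he
    exact ⟨_, he, rfl⟩

lemma mem_mkE {a b u : Fin n} (h : a ≠ b) : u ∈ (mkE a b h).1 ↔ u = a ∨ u = b := by
  simp [mkE]

lemma mkE_ne_mkE {a b c d : Fin n} (h : a ≠ b) (h' : c ≠ d) (h1 : a ≠ c) (h2 : a ≠ d) :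
    mkE a b h ≠ mkE c d h' := by
  intro hh
  have := congrArg Subtype.val hh
  simp only [mkE, Sym2.eq_iff] at this
  tauto

/-- A switch move. -/
def Sw (G G' : Finset (Edge n)) : Prop :=
  ∃ (v x w y : Fin n) (h1 : v ≠ x) (h2 : w ≠ y) (h3 : v ≠ y) (h4 : w ≠ x) (_ : v ≠ w) (_ : x ≠ y),
    mkE v x h1 ∈ G ∧ mkE w y h2 ∈ G ∧ mkE v y h3 ∉ G ∧ mkE w x h4 ∉ G ∧
      G' = (G \ {mkE v x h1, mkE w y h2}) ∪ {mkE v y h3, mkE w x h4}

/-- Adjacency in the sense of helper12: differ by exactly two edges each way. -/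
def Adj (G G' : Finset (Edge n)) : Prop := (G \ G').card = 2 ∧ (G' \ G).card = 2

lemma sdiff_aux1 {α : Type*} [DecidableEq α] {R T G : Finset α} (hR : R ⊆ G) (hT : Disjoint T G) :
    G \ ((G \ R) ∪ T) = R := by
  ext e
  simp only [mem_sdiff, mem_union, not_or, not_and, not_not]
  constructor
  · rintro ⟨he, h, -⟩
    exact h he
  · intro he
    exact ⟨hR he, fun _ => he, fun hc => Finset.disjoint_left.1 hT hc (hR he)⟩

lemma sdiff_aux2 {α : Type*} [DecidableEq α] {R T G : Finset α} (hT : Disjoint T G) :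
    ((G \ R) ∪ T) \ G = T := by
  ext e
  simp only [mem_sdiff, mem_union]
  constructor
  · rintro ⟨h | h, hn⟩
    · exact (hn h.1).elim
    · exact h
  · intro he
    exact ⟨Or.inr he, fun hc => Finset.disjoint_left.1 hT he hc⟩

lemma pair_subset {G : Finset (Edge n)} {e f : Edge n} (h1 : e ∈ G) (h2 : f ∈ G) :
    ({e, f} : Finset (Edge n)) ⊆ G := by
  intro t ht
  simp only [mem_insert, mem_singleton] at ht
  rcases ht with rfl | rfl <;> assumption

lemma pair_disj {G : Finset (Edge n)} {e f : Edge n} (h1 : e ∉ G) (h2 : f ∉ G) :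
    Disjoint ({e, f} : Finset (Edge n)) G := by
  rw [Finset.disjoint_left]
  intro t ht
  simp only [mem_insert, mem_singleton] at ht
  rcases ht with rfl | rfl <;> assumption

lemma Sw.adj {G G' : Finset (Edge n)} (h : Sw G G') : Adj G G' := by
  obtain ⟨v, x, w, y, h1, h2, h3, h4, h5, h6, m1, m2, m3, m4, rfl⟩ := h
  have ne1 : mkE v x h1 ≠ mkE w y h2 := mkE_ne_mkE _ _ h5 h3
  have ne2 : mkE v y h3 ≠ mkE w x h4 := mkE_ne_mkE _ _ h5 h1
  unfold Adj
  rw [sdiff_aux1 (pair_subset m1 m2) (pair_disj m3 m4), sdiff_aux2 (pair_disj m3 m4),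
    card_pair ne1, card_pair ne2]
  exact ⟨rfl, rfl⟩

lemma Sw.symm {G G' : Finset (Edge n)} (h : Sw G G') : Sw G' G := by
  obtain ⟨v, x, w, y, h1, h2, h3, h4, h5, h6, m1, m2, m3, m4, rfl⟩ := h
  refine ⟨v, y, w, x, h3, h4, h1, h2, h5, h6.symm, ?_, ?_, ?_, ?_, ?_⟩
  · simp
  · simp
  · have : mkE v x h1 ≠ mkE v y h3 := by
      intro hh
      have := congrArg Subtype.val hh
      simp only [mkE, Sym2.eq_iff] at this
      tauto
    have h' : mkE v x h1 ≠ mkE w x h4 := by
      intro hh
      have := congrArg Subtype.val hh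
      simp only [mkE, Sym2.eq_iff] at this
      tauto
    simp [this, h']
  · have : mkE w y h2 ≠ mkE v y h3 := by
      intro hh
      have := congrArg Subtype.val hh
      simp only [mkE, Sym2.eq_iff] at this
      tauto
    have h' : mkE w y h2 ≠ mkE w x h4 := by
      intro hh
      have := congrArg Subtype.val hh
      simp only [mkE, Sym2.eq_iff] at this
      tauto
    simp [this, h']
  · ext e
    simp only [mem_sdiff, mem_union, mem_insert, mem_singleton, not_or, not_and, not_not]
    constructor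
    · intro he
      by_cases c1 : e = mkE v x h1
      · exact Or.inr (Or.inl c1)
      by_cases c2 : e = mkE w y h2
      · exact Or.inr (Or.inr c2)
      left
      refine ⟨Or.inl ⟨he, c1, c2⟩, ?_, ?_⟩
      · rintro rfl; exact m3 he
      · rintro rfl; exact m4 he
    · rintro (⟨h | h, hn1, hn2⟩ | rfl | rfl)
      · exact h.1
      · exact (h.elim hn1 hn2).elim
      · exact m1
      · exact m2

lemma A_sw {G : Finset (Edge n)} {v x w y : Fin n} (h1 : v ≠ x) (h2 : w ≠ y) (h3 : v ≠ y)
    (h4 : w ≠ x) (a b : Fin n) :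
    A ((G \ {mkE v x h1, mkE w y h2}) ∪ {mkE v y h3, mkE w x h4}) a b ↔
      (A G a b ∧ ¬ (a = v ∧ b = x ∨ a = x ∧ b = v) ∧ ¬ (a = w ∧ b = y ∨ a = y ∧ b = w)) ∨
        (a = v ∧ b = y ∨ a = y ∧ b = v) ∨ (a = w ∧ b = x ∨ a = x ∧ b = w) := by
  have key : ∀ c d, (s(a, b) = s(c, d) ↔ (a = c ∧ b = d ∨ a = d ∧ b = c)) := fun c d => Sym2.eq_iff
  simp only [← key]
  constructor
  · rintro ⟨e, he, hh⟩
    simp only [mem_union, mem_sdiff, mem_insert, mem_singleton, not_or] at he
    rcases he with ⟨he, hn1, hn2⟩ | rfl | rfl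
    · left
      refine ⟨⟨e, he, hh⟩, ?_, ?_⟩
      · intro hc
        exact hn1 (Subtype.ext (hh.trans hc))
      · intro hc
        exact hn2 (Subtype.ext (hh.trans hc))
    · right; left; exact hh.symm
    · right; right; exact hh.symm
  · rintro (⟨⟨e, he, hh⟩, hn1, hn2⟩ | hh | hh)
    · refine ⟨e, ?_, hh⟩
      simp only [mem_union, mem_sdiff, mem_insert, mem_singleton, not_or]
      left
      refine ⟨he, ?_, ?_⟩
      · rintro rfl; exact hn1 hh.symm
      · rintro rfl; exact hn2 hh.symm
    · exact ⟨mkE v y h3, by simp, hh.symm⟩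
    · exact ⟨mkE w x h4, by simp, hh.symm⟩

/-- A switch preserves all degrees. -/
lemma Sw.deg_eq {G G' : Finset (Edge n)} (h : Sw G G') (u : Fin n) : deg G' u = deg G u := by
  obtain ⟨v, x, w, y, h1, h2, h3, h4, h5, h6, m1, m2, m3, m4, rfl⟩ := h
  have ne1 : mkE v x h1 ≠ mkE w y h2 := mkE_ne_mkE _ _ h5 h3
  have ne2 : mkE v y h3 ≠ mkE w x h4 := mkE_ne_mkE _ _ h5 h1
  have hR := pair_subset m1 m2
  have hT := pair_disj m3 m4
  have hdis : Disjoint (G \ {mkE v x h1, mkE w y h2}) ({mkE v y h3, mkE w x h4} : Finset (Edge n)) :=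
    Finset.disjoint_of_subset_left sdiff_subset hT.symm
  unfold deg
  rw [filter_union, card_union_of_disjoint (disjoint_filter_filter hdis)]
  have hc : ((G \ {mkE v x h1, mkE w y h2}).filter fun e => u ∈ e.1).card +
      (({mkE v x h1, mkE w y h2} : Finset (Edge n)).filter fun e => u ∈ e.1).card =
      (G.filter fun e => u ∈ e.1).card := by
    rw [← card_union_of_disjoint (disjoint_filter_filter sdiff_disjoint), ← filter_union,
      sdiff_union_of_subset hR]
  have c1 : (({mkE v x h1, mkE w y h2} : Finset (Edge n)).filter fun e => u ∈ e.1).card =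
      (({mkE v y h3, mkE w x h4} : Finset (Edge n)).filter fun e => u ∈ e.1).card := by
    rw [card_filter, card_filter, sum_pair ne1, sum_pair ne2]
    simp only [mem_mkE]
    by_cases a1 : u = v
    · subst a1; simp [*, h1.symm, h2.symm, h3.symm, h4.symm, h5.symm, h6.symm]
    by_cases a2 : u = x
    · subst a2; simp [*, h1.symm, h2.symm, h3.symm, h4.symm, h5.symm, h6.symm]
    by_cases a3 : u = w
    · subst a3; simp [*, h1.symm, h2.symm, h3.symm, h4.symm, h5.symm, h6.symm]
    by_cases a4 : u = y
    · subst a4; simp [*, h1.symm, h2.symm, h3.symm, h4.symm, h5.symm, h6.symm]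
    simp [a1, a2, a3, a4]
  omega

/-- Counting neighbours outside `S`. -/
noncomputable def cnt (G : Finset (Edge n)) (S : Finset (Fin n)) (u : Fin n) : ℕ :=
  ((nbr G u).filter fun b => b ∉ S).card

lemma cnt_eq {G G' : Finset (Edge n)} {S : Finset (Fin n)} (hdeg : ∀ u, deg G u = deg G' u)
    (hag : ∀ a ∈ S, ∀ b, A G a b ↔ A G' a b) (u : Fin n) : cnt G S u = cnt G' S u := by
  have h1 : ((nbr G u).filter fun b => b ∈ S) = ((nbr G' u).filter fun b => b ∈ S) := by
    ext b
    simp only [mem_filter, mem_nbr]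
    constructor
    · rintro ⟨h, hb⟩
      exact ⟨A_comm.1 ((hag b hb u).1 (A_comm.1 h)), hb⟩
    · rintro ⟨h, hb⟩
      exact ⟨A_comm.1 ((hag b hb u).2 (A_comm.1 h)), hb⟩
  have h2 := card_filter_add_card_filter_not (s := nbr G u) (p := fun b => b ∈ S)
  have h3 := card_filter_add_card_filter_not (s := nbr G' u) (p := fun b => b ∈ S)
  have h4 := hdeg u
  rw [deg_eq_card_nbr, deg_eq_card_nbr] at h4
  unfold cnt
  rw [h1] at h2
  omega

/-- If every neighbour of `y` outside `S`, other than `x`, is a neighbour of `x`, then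
`x` has at least as many neighbours outside `S` as `y`. -/
lemma cnt_le {G : Finset (Edge n)} {S : Finset (Fin n)} {x y : Fin n} (hx : x ∉ S) (hy : y ∉ S)
    (h : ∀ w, w ∉ S → w ≠ x → A G w y → A G w x) : cnt G S y ≤ cnt G S x := by
  unfold cnt
  refine Finset.card_le_card_of_injOn (Equiv.swap x y) ?_ (Equiv.injective _).injOn
  intro b hb
  simp only [mem_coe, mem_filter, mem_nbr] at hb ⊢
  obtain ⟨hb1, hb2⟩ := hb
  by_cases c1 : b = x
  · subst c1
    rw [Equiv.swap_apply_left]
    exact ⟨A_comm.1 hb1, hy⟩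
  · have c2 : b ≠ y := (A_ne hb1).symm
    rw [Equiv.swap_apply_of_ne_of_ne c1 c2]
    exact ⟨A_comm.1 (h b hb2 c1 (A_comm.1 hb1)), hb2⟩

lemma cnt_lt {G : Finset (Edge n)} {S : Finset (Fin n)} {x y v : Fin n} (hx : x ∉ S) (hy : y ∉ S)
    (hv : v ∉ S) (hvx : A G v x) (hvy : ¬ A G v y) (hvy' : v ≠ y)
    (h : ∀ w, w ∉ S → w ≠ x → A G w y → A G w x) : cnt G S y < cnt G S x := by
  unfold cnt
  have hvx' : v ≠ x := A_ne hvx
  have hsub : ((nbr G y).filter fun b => b ∉ S).image (Equiv.swap x y) ⊂
      ((nbr G x).filter fun b => b ∉ S) := by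
    rw [Finset.ssubset_iff_of_subset]
    · refine ⟨v, by simp only [mem_filter, mem_nbr]; exact ⟨A_comm.1 hvx, hv⟩, ?_⟩
      intro hc
      obtain ⟨b, hb, hbv⟩ := mem_image.1 hc
      have : b = v := by
        have := congrArg (Equiv.swap x y) hbv
        rw [Equiv.swap_apply_self, Equiv.swap_apply_of_ne_of_ne hvx' hvy'] at this
        exact this
      subst this
      simp only [mem_filter, mem_nbr] at hb
      exact hvy (A_comm.1 hb.1)
    · intro t ht
      obtain ⟨b, hb, rfl⟩ := mem_image.1 ht
      simp only [mem_filter, mem_nbr] at hb ⊢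
      obtain ⟨hb1, hb2⟩ := hb
      by_cases c1 : b = x
      · subst c1
        rw [Equiv.swap_apply_left]
        exact ⟨A_comm.1 hb1, hy⟩
      · have c2 : b ≠ y := (A_ne hb1).symm
        rw [Equiv.swap_apply_of_ne_of_ne c1 c2]
        exact ⟨A_comm.1 (h b hb2 c1 (A_comm.1 hb1)), hb2⟩
  have := Finset.card_lt_card hsub
  rwa [Finset.card_image_of_injective _ (Equiv.injective _)] at this

/-- The main connectivity induction. -/
theorem conn_aux (k : ℕ) : ∀ (S : Finset (Fin n)), Sᶜ.card = k → ∀ G G' : Finset (Edge n),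
    (∀ u, deg G u = deg G' u) → (∀ a ∈ S, ∀ b, A G a b ↔ A G' a b) →
    Relation.ReflTransGen Sw G G' := by
  induction k with
  | zero =>
    intro S hS G G' _ hag
    have hS' : S = univ := by
      rw [card_eq_zero, compl_eq_empty_iff] at hS
      exact hS
    have : G = G' := ext_A fun a b => hag a (by simp [hS']) b
    rw [this]
  | succ k ih =>
    intro S hS
    have hne : (Sᶜ).Nonempty := by
      rw [← card_pos]; omega
    obtain ⟨v, hv⟩ := hne
    have hvS : v ∉ S := by simpa using hv
    -- inner induction on |N_G(v) \ N_G'(v)|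
    suffices hinner : ∀ m : ℕ, ∀ G G' : Finset (Edge n), (nbr G v \ nbr G' v).card = m →
        (∀ u, deg G u = deg G' u) → (∀ a ∈ S, ∀ b, A G a b ↔ A G' a b) →
        Relation.ReflTransGen Sw G G' from
      fun G G' hdeg hag => hinner _ G G' rfl hdeg hag
    intro m
    induction m with
    | zero =>
      intro G G' hm hdeg hag
      have hsub : nbr G v ⊆ nbr G' v := by
        rwa [card_eq_zero, sdiff_eq_empty_iff_subset] at hm
      have hcard : (nbr G v).card = (nbr G' v).card := by
        rw [← deg_eq_card_nbr, ← deg_eq_card_nbr]; exact hdeg v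
      have heq : nbr G v = nbr G' v := eq_of_subset_of_card_le hsub hcard.ge
      refine ih (insert v S) ?_ G G' hdeg ?_
      · have : (insert v S)ᶜ = Sᶜ.erase v := by
          ext t
          simp only [mem_compl, mem_insert, mem_erase, not_or, ne_eq]
        rw [this, card_erase_of_mem hv, hS]
        omega
      · intro a ha b
        rcases mem_insert.1 ha with rfl | ha
        · have := Finset.ext_iff.1 heq b
          simpa using this
        · exact hag a ha b
    | succ m ihm =>
      intro G G' hm hdeg hag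
      have hpos : (nbr G v \ nbr G' v).Nonempty := by rw [← card_pos]; omega
      obtain ⟨x, hx⟩ := hpos
      have hcard : (nbr G v).card = (nbr G' v).card := by
        rw [← deg_eq_card_nbr, ← deg_eq_card_nbr]; exact hdeg v
      have hpos' : (nbr G' v \ nbr G v).Nonempty := by
        rw [← card_pos]
        have := card_sdiff_add_card_inter (nbr G v) (nbr G' v)
        have h' := card_sdiff_add_card_inter (nbr G' v) (nbr G v)
        rw [inter_comm] at h'
        omega
      obtain ⟨y, hy⟩ := hpos'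
      simp only [mem_sdiff, mem_nbr] at hx hy
      have hxS : x ∉ S := by
        intro hc
        exact hx.2 (A_comm.1 ((hag x hc v).1 (A_comm.1 hx.1)))
      have hyS : y ∉ S := by
        intro hc
        exact hy.2 (A_comm.1 ((hag y hc v).2 (A_comm.1 hy.1)))
      have hvx : v ≠ x := A_ne hx.1
      have hvy : v ≠ y := A_ne hy.1
      have hxy : x ≠ y := by rintro rfl; exact hx.2 hy.1
      by_cases hcase : ∃ w, w ∉ S ∧ w ≠ x ∧ A G w y ∧ ¬ A G w x
      · -- switch in `G`
        obtain ⟨w, hwS, hwx, hwy, hnwx⟩ := hcase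
        have hwy' : w ≠ y := A_ne hwy
        have hvw : v ≠ w := by rintro rfl; exact hy.2 hwy
        let G1 := (G \ {mkE v x hvx, mkE w y hwy'}) ∪ {mkE v y hvy, mkE w x hwx}
        have hsw : Sw G G1 := ⟨v, x, w, y, hvx, hwy', hvy, hwx, hvw, hxy,
          (A_iff_mem hvx).1 hx.1, (A_iff_mem hwy').1 hwy,
          fun hc => hy.2 ((A_iff_mem hvy).2 hc), fun hc => hnwx ((A_iff_mem hwx).2 hc), rfl⟩
        have hA := A_sw (G := G) hvx hwy' hvy hwx
        refine Relation.ReflTransGen.head hsw (ihm G1 G' ?_ ?_ ?_)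
        · -- measure
          have : nbr G1 v \ nbr G' v = (nbr G v \ nbr G' v).erase x := by
            ext t
            have e1 : A G1 v t ↔ (A G v t ∧ t ≠ x) ∨ t = y := by
              rw [hA]; simp [hvx, hvw, hvy, hvx.symm]
            simp only [mem_sdiff, mem_nbr, mem_erase, e1]
            constructor
            · rintro ⟨h | rfl, hn⟩
              · exact ⟨h.2, h.1, hn⟩
              · exact (hn hy.1).elim
            · rintro ⟨htx, h1, h2⟩
              exact ⟨Or.inl ⟨h1, htx⟩, h2⟩
          rw [this, card_erase_of_mem (by simp only [mem_sdiff, mem_nbr]; exact hx), hm]; rfl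
        · intro u
          rw [hsw.deg_eq, hdeg]
        · intro a ha b
          have hav : a ≠ v := by rintro rfl; exact hvS ha
          have hax : a ≠ x := by rintro rfl; exact hxS ha
          have haw : a ≠ w := by rintro rfl; exact hwS ha
          have hay : a ≠ y := by rintro rfl; exact hyS ha
          rw [← hag a ha b]
          change A ((G \ {mkE v x hvx, mkE w y hwy'}) ∪ {mkE v y hvy, mkE w x hwx}) a b ↔ _
          rw [hA]
          simp [hav, hax, haw, hay]
      · -- switch in `G'`
        have hall : ∀ w, w ∉ S → w ≠ x → A G w y → A G w x := by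
          intro w h1 h2 h3
          by_contra h4
          exact hcase ⟨w, h1, h2, h3, h4⟩
        have hlt : cnt G S y < cnt G S x := cnt_lt hxS hyS hvS hx.1 hy.2 hvy hall
        rw [cnt_eq hdeg hag, cnt_eq hdeg hag] at hlt
        have hex : ∃ w, w ∉ S ∧ w ≠ y ∧ A G' w x ∧ ¬ A G' w y := by
          by_contra hc
          push Not at hc
          exact absurd (cnt_le (G := G') hyS hxS (fun w h1 h2 h3 => hc w h1 h2 h3)) (not_le.2 hlt)
        obtain ⟨w, hwS, hwy, hwx, hnwy⟩ := hex
        have hwx' : w ≠ x := A_ne hwx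
        have hvw : v ≠ w := by rintro rfl; exact hx.2 hwx
        let G2 := (G' \ {mkE v y hvy, mkE w x hwx'}) ∪ {mkE v x hvx, mkE w y hwy}
        have hsw : Sw G' G2 := ⟨v, y, w, x, hvy, hwx', hvx, hwy, hvw, hxy.symm,
          (A_iff_mem hvy).1 hy.1, (A_iff_mem hwx').1 hwx,
          fun hc => hx.2 ((A_iff_mem hvx).2 hc), fun hc => hnwy ((A_iff_mem hwy).2 hc), rfl⟩
        have hA := A_sw (G := G') hvy hwx' hvx hwy
        refine Relation.ReflTransGen.trans (ihm G G2 ?_ ?_ ?_)
          (Relation.ReflTransGen.single hsw.symm)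
        · have : nbr G v \ nbr G2 v = (nbr G v \ nbr G' v).erase x := by
            ext t
            have e1 : A G2 v t ↔ (A G' v t ∧ t ≠ y) ∨ t = x := by
              change A ((G' \ {mkE v y hvy, mkE w x hwx'}) ∪ {mkE v x hvx, mkE w y hwy}) v t ↔ _
              rw [hA]; simp [hvx, hvw, hvy, hvy.symm, hvx.symm]
            simp only [mem_sdiff, mem_nbr, mem_erase, e1, not_or, not_and]
            constructor
            · rintro ⟨h1, h2, h3⟩
              refine ⟨h3, h1, fun hc => ?_⟩
              have hty : t ≠ y := by rintro rfl; exact hy.2 h1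
              exact h2 hc hty
            · rintro ⟨htx, h1, h2⟩
              exact ⟨h1, fun hc => (h2 hc).elim, htx⟩
          rw [this, card_erase_of_mem (by simp only [mem_sdiff, mem_nbr]; exact hx), hm]; rfl
        · intro u
          rw [hsw.deg_eq, hdeg]
        · intro a ha b
          have hav : a ≠ v := by rintro rfl; exact hvS ha
          have hax : a ≠ x := by rintro rfl; exact hxS ha
          have haw : a ≠ w := by rintro rfl; exact hwS ha
          have hay : a ≠ y := by rintro rfl; exact hyS ha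
          rw [hag a ha b]
          change _ ↔ A ((G' \ {mkE v y hvy, mkE w x hwx'}) ∪ {mkE v x hvx, mkE w y hwy}) a b
          rw [hA]
          simp [hav, hax, haw, hay]

/-- **Taylor's theorem.** Any two graphs with the same degrees are connected by switches. -/
theorem sw_connected {G G' : Finset (Edge n)} (hdeg : ∀ u, deg G u = deg G' u) :
    Relation.ReflTransGen Sw G G' :=
  conn_aux _ ∅ rfl G G' hdeg (by simp)

/-- **Taylor's theorem** for realizations, with helper12's adjacency. -/
theorem realizations_connected {d : Fin n → ℕ} {G G' : Finset (Edge n)}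
    (hG : G ∈ realizations d) (hG' : G' ∈ realizations d) :
    Relation.ReflTransGen Adj G G' := by
  have h1 := (mem_filter.1 hG).2
  have h2 := (mem_filter.1 hG').2
  exact Relation.ReflTransGen.mono (r := Sw) (p := Adj) (fun _ _ h => Sw.adj h) _ _
    (sw_connected fun u => (h1 u).trans (h2 u).symm)

/-- A function constant along switches is constant on realizations. -/
theorem const_of_sw {α : Type*} {d : Fin n → ℕ} (f : Finset (Edge n) → α)
    (hf : ∀ G G', G ∈ realizations d → Sw G G' → f G = f G') {G G' : Finset (Edge n)}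
    (hG : G ∈ realizations d) (hG' : G' ∈ realizations d) : f G = f G' := by
  have h1 := (mem_filter.1 hG).2
  have h2 := (mem_filter.1 hG').2
  have key : ∀ H, Relation.ReflTransGen Sw G H → H ∈ realizations d ∧ f G = f H := by
    intro H hH
    induction hH with
    | refl => exact ⟨hG, rfl⟩
    | tail _ hs ih =>
      refine ⟨?_, ih.2.trans (hf _ _ ih.1 hs)⟩
      refine mem_filter.2 ⟨mem_univ _, fun v => ?_⟩
      rw [hs.deg_eq]
      exact (mem_filter.1 ih.1).2 v
  exact (key G' (sw_connected fun u => (h1 u).trans (h2 u).symm)).2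

end Crest.Agent.Lib.Switch.Connect
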