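import Crest.Agent.Lib.Switch.Basic

/-!
# S0453: the spectral step

`P = ∑ᵢ Qᵢ` with `Qᵢ = I - Eᵢ` orthogonal projections (class averages).
If `‖P f‖² ≥ ⟨f, P f⟩` for all `f`, and `P f = 0` forces `f` constant, then
`⟨f, P f⟩ ≥ ‖f - mean f‖²`.
-/

set_option autoImplicit false

namespace Crest.Agent.Lib.Switch.Spectral

open Finset
open scoped RealInnerProductSpace

/-- The spectral core on an abstract finite dimensional real inner product space. -/
theorem spectral_core {E : Type*} [NormedAddCommGroup E] [InnerProductSpace ℝ E]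
    [FiniteDimensional ℝ E] (T : E →ₗ[ℝ] E) (hT : T.IsSymmetric)
    (hpsd : ∀ f, 0 ≤ ⟪f, T f⟫) (hsq : ∀ f, ⟪f, T f⟫ ≤ ⟪T f, T f⟫)
    (g : E) (hg : ∀ f, T f = 0 → ⟪f, g⟫ = 0) : ⟪g, g⟫ ≤ ⟪g, T g⟫ := by
  set b := hT.eigenvectorBasis rfl with hb
  set l := hT.eigenvalues rfl with hl
  have hTb : ∀ i, T (b i) = l i • b i := by
    intro i
    exact hT.apply_eigenvectorBasis rfl i
  have e1 : ⟪g, g⟫ = ∑ i, ⟪g, b i⟫ * ⟪b i, g⟫ := (b.sum_inner_mul_inner g g).symm
  have e2 : ⟪g, T g⟫ = ∑ i, l i * (⟪g, b i⟫ * ⟪b i, g⟫) := by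
    rw [← b.sum_inner_mul_inner g (T g)]
    refine Finset.sum_congr rfl (fun i _ => ?_)
    have : ⟪b i, T g⟫ = l i * ⟪b i, g⟫ := by
      rw [← hT (b i) g, hTb i, real_inner_smul_left]
    rw [this]
    ring
  rw [e1, e2]
  refine Finset.sum_le_sum (fun i _ => ?_)
  have hbb : ⟪b i, b i⟫ = 1 := by
    have := b.orthonormal.1 i
    rw [real_inner_self_eq_norm_sq, this]
    norm_num
  have hs : ⟪g, b i⟫ * ⟪b i, g⟫ = ⟪b i, g⟫ ^ 2 := by
    rw [real_inner_comm]
    ring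
  rw [hs]
  have h1 : ⟪b i, T (b i)⟫ = l i := by
    rw [hTb i, real_inner_smul_right, hbb, mul_one]
  have h2 : ⟪T (b i), T (b i)⟫ = l i ^ 2 := by
    rw [hTb i, real_inner_smul_left, real_inner_smul_right, hbb]
    ring
  have h3 := hpsd (b i)
  have h4 := hsq (b i)
  rw [h1] at h3 h4
  rw [h2] at h4
  by_cases hzero : l i = 0
  · have hT0 : T (b i) = 0 := by
      rw [hTb i, hzero, zero_smul]
    rw [hg (b i) hT0]
    simp
  · have hpos : 0 < l i := lt_of_le_of_ne h3 (Ne.symm hzero)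
    have hge : 1 ≤ l i := by
      by_contra hcon
      push Not at hcon
      nlinarith only [hpos, hcon, h4]
    nlinarith only [hge, sq_nonneg (⟪b i, g⟫)]

section Instance

variable {α ι : Type*} [Fintype ι] (Ω : Finset α) (r : ι → α → α → Prop)

/-- Extension by zero from `Ω`. -/
noncomputable def ext (f : EuclideanSpace ℝ Ω) : α → ℝ :=
  open Classical in fun x => if h : x ∈ Ω then f ⟨x, h⟩ else 0

theorem avg_add (s : α → α → Prop) (f g : α → ℝ) (x : α) :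
    avg Ω s (fun y => f y + g y) x = avg Ω s f x + avg Ω s g x := by
  simp only [avg, Finset.sum_add_distrib, add_div]

theorem avg_smul (s : α → α → Prop) (c : ℝ) (f : α → ℝ) (x : α) :
    avg Ω s (fun y => c * f y) x = c * avg Ω s f x := by
  simp only [avg, ← Finset.mul_sum, mul_div_assoc]

theorem avg_congr (s : α → α → Prop) {f g : α → ℝ} (h : ∀ y ∈ Ω, f y = g y) (x : α) :
    avg Ω s f x = avg Ω s g x := by
  unfold avg
  congr 1
  refine Finset.sum_congr rfl (fun y hy => h y (mem_cls.1 hy).1)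

theorem resid_congr (s : α → α → Prop) {f g : α → ℝ} (h : ∀ y ∈ Ω, f y = g y) {x : α}
    (hx : x ∈ Ω) : resid Ω s f x = resid Ω s g x := by
  unfold resid
  rw [h x hx, avg_congr Ω s h]

/-- `Q` kills constants. -/
theorem resid_const {s : α → α → Prop} (hs : IsEquivOn Ω s) (c : ℝ) {x : α} (hx : x ∈ Ω) :
    resid Ω s (fun _ => c) x = 0 := by
  unfold resid avg
  simp only [Finset.sum_const, nsmul_eq_mul]
  have := (hs.card_pos hx).ne'
  field_simp
  ring

theorem resid_sub_const {s : α → α → Prop} (hs : IsEquivOn Ω s) (f : α → ℝ) (c : ℝ) {x : α}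
    (hx : x ∈ Ω) : resid Ω s (fun y => f y - c) x = resid Ω s f x := by
  have h1 : avg Ω s (fun y => f y - c) x = avg Ω s f x - c := by
    have e : (fun y => f y - c) = fun y => f y + (fun _ => -c) y := by
      funext y; simp [sub_eq_add_neg]
    rw [e, avg_add]
    have h2 : avg Ω s (fun _ => -c) x = -c := by
      unfold avg
      simp only [Finset.sum_const, nsmul_eq_mul]
      have := (hs.card_pos hx).ne'
      field_simp
    rw [h2]
    ring
  unfold resid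
  rw [h1]
  ring

/-- Symmetry of `Q`. -/
theorem resid_symm {s : α → α → Prop} (hs : IsEquivOn Ω s) (f g : α → ℝ) :
    ∑ x ∈ Ω, resid Ω s f x * g x = ∑ x ∈ Ω, f x * resid Ω s g x := by
  have h1 := hs.sum_avg_mul f g
  have h2 := hs.sum_avg_mul g f
  simp only [resid, sub_mul, mul_sub, Finset.sum_sub_distrib]
  congr 1
  calc ∑ x ∈ Ω, avg Ω s f x * g x = ∑ x ∈ Ω, avg Ω s f x * avg Ω s g x := h1
    _ = ∑ x ∈ Ω, avg Ω s g x * avg Ω s f x := Finset.sum_congr rfl (fun _ _ => mul_comm _ _)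
    _ = ∑ x ∈ Ω, avg Ω s g x * f x := h2.symm
    _ = ∑ x ∈ Ω, f x * avg Ω s g x := Finset.sum_congr rfl (fun _ _ => mul_comm _ _)

/-- The operator `P = ∑ Qᵢ` on `EuclideanSpace ℝ Ω`. -/
noncomputable def opT : EuclideanSpace ℝ Ω →ₗ[ℝ] EuclideanSpace ℝ Ω where
  toFun f := WithLp.toLp 2 (fun x : Ω => ∑ i, resid Ω (r i) (ext Ω f) x)
  map_add' f g := by
    ext x
    simp only [PiLp.add_apply]
    rw [← Finset.sum_add_distrib]
    refine Finset.sum_congr rfl (fun i _ => ?_)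
    have e : ext Ω (f + g) = fun y => ext Ω f y + ext Ω g y := by
      funext y
      by_cases hy : y ∈ Ω <;> simp [ext, hy]
    unfold resid
    rw [e, avg_add]
    have : ext Ω f (x : α) + ext Ω g x - (avg Ω (r i) (ext Ω f) x + avg Ω (r i) (ext Ω g) x)
        = (ext Ω f x - avg Ω (r i) (ext Ω f) x) + (ext Ω g x - avg Ω (r i) (ext Ω g) x) := by ring
    exact this
  map_smul' c f := by
    ext x
    simp only [PiLp.smul_apply, RingHom.id_apply, smul_eq_mul]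
    rw [Finset.mul_sum]
    refine Finset.sum_congr rfl (fun i _ => ?_)
    have e : ext Ω (c • f) = fun y => c * ext Ω f y := by
      funext y
      by_cases hy : y ∈ Ω <;> simp [ext, hy]
    unfold resid
    rw [e, avg_smul]
    ring

theorem opT_apply (f : EuclideanSpace ℝ Ω) (x : Ω) :
    (opT Ω r f) x = ∑ i, resid Ω (r i) (ext Ω f) x := rfl

theorem ext_apply (f : EuclideanSpace ℝ Ω) (x : Ω) : ext Ω f (x : α) = f x := by
  simp [ext]

theorem inner_eq (f g : EuclideanSpace ℝ Ω) : ⟪f, g⟫ = ∑ x ∈ Ω, ext Ω f x * ext Ω g x := by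
  rw [PiLp.inner_apply, ← Finset.sum_coe_sort Ω]
  refine Finset.sum_congr rfl (fun x _ => ?_)
  rw [ext_apply, ext_apply]
  simp [mul_comm]

end Instance

/-- **Spectral step.** If `‖∑ Qᵢ f‖² ≥ ∑ ‖Qᵢ f‖²` for all `f`, and `Qᵢ f = 0` for all `i` forces `f`
constant on `Ω`, then the variance of `f` is at most `∑ ‖Qᵢ f‖²`. -/
theorem poincare_of_knabe {α ι : Type*} [Fintype ι] (Ω : Finset α) (r : ι → α → α → Prop)
    (hr : ∀ i, IsEquivOn Ω (r i))
    (hknabe : ∀ f : α → ℝ,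
      ∑ i, ∑ x ∈ Ω, resid Ω (r i) f x ^ 2 ≤ ∑ x ∈ Ω, (∑ i, resid Ω (r i) f x) ^ 2)
    (hconn : ∀ f : α → ℝ, (∀ i, ∀ x ∈ Ω, resid Ω (r i) f x = 0) → ∀ x ∈ Ω, ∀ y ∈ Ω, f x = f y)
    (f : α → ℝ) :
    (Ω.card : ℝ) * ∑ x ∈ Ω, f x ^ 2 - (∑ x ∈ Ω, f x) ^ 2
      ≤ (Ω.card : ℝ) * ∑ i, ∑ x ∈ Ω, resid Ω (r i) f x ^ 2 := by
  classical
  rcases Ω.eq_empty_or_nonempty with rfl | hne
  · simp
  have hNpos : (0 : ℝ) < (Ω.card : ℝ) := by exact_mod_cast Finset.card_pos.mpr hne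
  set T := opT Ω r with hTdef
  -- quadratic form computation
  have hTapp : ∀ (h : EuclideanSpace ℝ Ω) (x : α), x ∈ Ω →
      ext Ω (T h) x = ∑ i, resid Ω (r i) (ext Ω h) x := by
    intro h x hx
    have := ext_apply Ω (T h) ⟨x, hx⟩
    rw [opT_apply] at this
    simpa using this
  have hform : ∀ h : EuclideanSpace ℝ Ω,
      ⟪h, T h⟫ = ∑ i, ∑ x ∈ Ω, resid Ω (r i) (ext Ω h) x ^ 2 := by
    intro h
    rw [inner_eq]
    rw [Finset.sum_congr rfl (fun x hx => by rw [hTapp h x hx])]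
    simp only [Finset.mul_sum]
    rw [Finset.sum_comm]
    refine Finset.sum_congr rfl (fun i _ => ?_)
    exact ((hr i).sum_resid_sq (ext Ω h)).symm
  have hsymm : T.IsSymmetric := by
    intro u v
    rw [inner_eq, inner_eq]
    have e1 : ∑ x ∈ Ω, ext Ω (T u) x * ext Ω v x
        = ∑ i, ∑ x ∈ Ω, resid Ω (r i) (ext Ω u) x * ext Ω v x := by
      rw [Finset.sum_comm]
      refine Finset.sum_congr rfl (fun x hx => ?_)
      rw [hTapp u x hx, Finset.sum_mul]
    have e2 : ∑ x ∈ Ω, ext Ω u x * ext Ω (T v) x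
        = ∑ i, ∑ x ∈ Ω, ext Ω u x * resid Ω (r i) (ext Ω v) x := by
      rw [Finset.sum_comm]
      refine Finset.sum_congr rfl (fun x hx => ?_)
      rw [hTapp v x hx, Finset.mul_sum]
    rw [e1, e2]
    exact Finset.sum_congr rfl (fun i _ => resid_symm Ω (hr i) _ _)
  have hpsd : ∀ h : EuclideanSpace ℝ Ω, 0 ≤ ⟪h, T h⟫ := by
    intro h
    rw [hform]
    exact Finset.sum_nonneg (fun i _ => Finset.sum_nonneg (fun x _ => sq_nonneg _))
  have hsq : ∀ h : EuclideanSpace ℝ Ω, ⟪h, T h⟫ ≤ ⟪T h, T h⟫ := by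
    intro h
    rw [hform]
    have e : ⟪T h, T h⟫ = ∑ x ∈ Ω, (∑ i, resid Ω (r i) (ext Ω h) x) ^ 2 := by
      rw [inner_eq]
      refine Finset.sum_congr rfl (fun x hx => ?_)
      rw [hTapp h x hx]
      ring
    rw [e]
    exact hknabe _
  -- the centred function
  set c : ℝ := (∑ x ∈ Ω, f x) / (Ω.card : ℝ) with hc
  set g0 : α → ℝ := fun x => f x - c with hg0
  set g : EuclideanSpace ℝ Ω := WithLp.toLp 2 (fun x : Ω => g0 x) with hg
  have hgext : ∀ x ∈ Ω, ext Ω g x = g0 x := by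
    intro x hx
    have := ext_apply Ω g ⟨x, hx⟩
    simpa [hg] using this
  have hsum0 : ∑ x ∈ Ω, g0 x = 0 := by
    simp only [hg0, Finset.sum_sub_distrib, Finset.sum_const, nsmul_eq_mul, hc]
    field_simp
    ring
  have hker : ∀ h : EuclideanSpace ℝ Ω, T h = 0 → ⟪h, g⟫ = 0 := by
    intro h hTh
    have h0 := hform h
    rw [hTh, inner_zero_right] at h0
    have hall : ∀ i, ∀ x ∈ Ω, resid Ω (r i) (ext Ω h) x = 0 := by
      intro i x hx
      have h1 : ∑ i, ∑ x ∈ Ω, resid Ω (r i) (ext Ω h) x ^ 2 = 0 := h0.symm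
      have h2 := (Finset.sum_eq_zero_iff_of_nonneg
        (fun i _ => Finset.sum_nonneg (fun x _ => sq_nonneg _))).1 h1 i (Finset.mem_univ i)
      have h3 := (Finset.sum_eq_zero_iff_of_nonneg (fun x _ => sq_nonneg _)).1 h2 x hx
      exact pow_eq_zero_iff (by norm_num) |>.1 h3
    have hconst := hconn _ hall
    obtain ⟨x0, hx0⟩ := hne
    rw [inner_eq]
    have e : ∀ x ∈ Ω, ext Ω h x * ext Ω g x = ext Ω h x0 * g0 x := by
      intro x hx
      rw [hgext x hx, hconst x hx x0 hx0]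
    rw [Finset.sum_congr rfl e, ← Finset.mul_sum, hsum0, mul_zero]
  have hcore := spectral_core T hsymm hpsd hsq g hker
  rw [hform] at hcore
  have hgg : ⟪g, g⟫ = ∑ x ∈ Ω, g0 x ^ 2 := by
    rw [inner_eq]
    refine Finset.sum_congr rfl (fun x hx => ?_)
    rw [hgext x hx]
    ring
  have hQ : ∑ i, ∑ x ∈ Ω, resid Ω (r i) (ext Ω g) x ^ 2 = ∑ i, ∑ x ∈ Ω, resid Ω (r i) f x ^ 2 := by
    refine Finset.sum_congr rfl (fun i _ => Finset.sum_congr rfl (fun x hx => ?_))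
    rw [resid_congr Ω (r i) hgext hx, hg0, resid_sub_const Ω (hr i) f c hx]
  rw [hgg, hQ] at hcore
  have hvar : (Ω.card : ℝ) * ∑ x ∈ Ω, g0 x ^ 2
      = (Ω.card : ℝ) * ∑ x ∈ Ω, f x ^ 2 - (∑ x ∈ Ω, f x) ^ 2 := by
    have e : ∑ x ∈ Ω, g0 x ^ 2 = ∑ x ∈ Ω, f x ^ 2 - 2 * c * ∑ x ∈ Ω, f x + (Ω.card : ℝ) * c ^ 2 := by
      simp only [hg0]
      rw [Finset.mul_sum, ← Finset.sum_sub_distrib]
      rw [show (Ω.card : ℝ) * c ^ 2 = ∑ _x ∈ Ω, c ^ 2 by simp]
      rw [← Finset.sum_add_distrib]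
      exact Finset.sum_congr rfl (fun x _ => by ring)
    rw [e, hc]
    field_simp
    ring
  rw [← hvar]
  exact mul_le_mul_of_nonneg_left hcore hNpos.le

end Crest.Agent.Lib.Switch.Spectral
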