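import Crest.Agent.Lib.Switch.Assembly
import Crest.Agent.Lib.Switch.Spectral
import Crest.Agent.Lib.Switch.Connect

/-!
# S0453: final glue

Given the triple inequality (Part Z), the disjoint inequality (Part X) and `L ≥ P`,
deduce the frozen statement.
-/

set_option autoImplicit false

namespace Crest.Agent.Lib.Switch.Final

open Finset Crest.SwitchChain

variable {n : ℕ}

/-- `Q_{ab} f`. -/
noncomputable abbrev Qf (d : Fin n → ℕ) (a b : Fin n) (f : Finset (Edge n) → ℝ)
    (G : Finset (Edge n)) : ℝ :=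
  resid (realizations d) (PairRel a b) f G

/-- `⟨Q_{ab} f, Q_{ce} f⟩`. -/
noncomputable def W (d : Fin n → ℕ) (f : Finset (Edge n) → ℝ) (a b c e : Fin n) : ℝ :=
  ∑ G ∈ realizations d, Qf d a b f G * Qf d c e f G

theorem pairRel_fun_comm (a b : Fin n) : (PairRel a b : Finset (Edge n) → Finset (Edge n) → Prop)
    = PairRel b a := by
  funext G G'
  exact propext pairRel_comm

theorem Qf_comm (d : Fin n → ℕ) (a b : Fin n) (f : Finset (Edge n) → ℝ) (G : Finset (Edge n)) :
    Qf d a b f G = Qf d b a f G := by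
  simp only [Qf, pairRel_fun_comm a b]

theorem W_swap12 (d : Fin n → ℕ) (f : Finset (Edge n) → ℝ) (a b c e : Fin n) :
    W d f a b c e = W d f b a c e := by
  unfold W
  exact Finset.sum_congr rfl (fun G _ => by rw [Qf_comm d a b f G])

theorem W_swap34 (d : Fin n → ℕ) (f : Finset (Edge n) → ℝ) (a b c e : Fin n) :
    W d f a b c e = W d f a b e c := by
  unfold W
  exact Finset.sum_congr rfl (fun G _ => by rw [Qf_comm d c e f G])

theorem W_comm (d : Fin n → ℕ) (f : Finset (Edge n) → ℝ) (a b c e : Fin n) :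
    W d f a b c e = W d f c e a b := by
  unfold W
  exact Finset.sum_congr rfl (fun G _ => mul_comm _ _)

/-- Unfolding a switch into `PairRel`. -/
theorem pairRel_of_sw {G : Finset (Edge n)} {v x w y : Fin n} (h1 : v ≠ x) (h2 : w ≠ y)
    (h3 : v ≠ y) (h4 : w ≠ x) (h5 : v ≠ w) (h6 : x ≠ y)
    (m1 : Connect.mkE v x h1 ∈ G) (m2 : Connect.mkE w y h2 ∈ G)
    (m3 : Connect.mkE v y h3 ∉ G) (m4 : Connect.mkE w x h4 ∉ G) :
    PairRel v w G ((G \ {Connect.mkE v x h1, Connect.mkE w y h2}) ∪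
      {Connect.mkE v y h3, Connect.mkE w x h4}) := by
  classical
  set G' := (G \ {Connect.mkE v x h1, Connect.mkE w y h2}) ∪
      {Connect.mkE v y h3, Connect.mkE w x h4} with hG'
  have hA : ∀ a b, Adj G' a b ↔ (Adj G a b ∧ ¬ (a = v ∧ b = x ∨ a = x ∧ b = v) ∧
      ¬ (a = w ∧ b = y ∨ a = y ∧ b = w)) ∨
        (a = v ∧ b = y ∨ a = y ∧ b = v) ∨ (a = w ∧ b = x ∨ a = x ∧ b = w) :=
    fun a b => Connect.A_sw h1 h2 h3 h4 a b
  have hvx : Adj G v x := ⟨_, m1, rfl⟩
  have hwy : Adj G w y := ⟨_, m2, rfl⟩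
  have hvy : ¬ Adj G v y := by
    rintro ⟨e, he, hh⟩
    have : e = Connect.mkE v y h3 := Subtype.ext hh
    exact m3 (this ▸ he)
  have hwx : ¬ Adj G w x := by
    rintro ⟨e, he, hh⟩
    have : e = Connect.mkE w x h4 := Subtype.ext hh
    exact m4 (this ▸ he)
  have hbit : ∀ a b, (Adj G' a b ↔ Adj G a b) → bit G a b = bit G' a b := by
    intro a b h
    unfold bit
    simp only [h]
  refine ⟨?_, ?_, ?_⟩
  · intro s t hs1 hs2 ht1 ht2
    apply hbit
    rw [hA]
    constructor
    · rintro (⟨h, -, -⟩ | (⟨h, _⟩ | ⟨_, h⟩) | (⟨h, _⟩ | ⟨_, h⟩))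
      · exact h
      · exact absurd h hs1
      · exact absurd h ht1
      · exact absurd h hs2
      · exact absurd h ht2
    · intro h
      refine Or.inl ⟨h, ?_, ?_⟩
      · rintro (⟨h', _⟩ | ⟨_, h'⟩)
        · exact hs1 h'
        · exact ht1 h'
      · rintro (⟨h', _⟩ | ⟨_, h'⟩)
        · exact hs2 h'
        · exact ht2 h'
  · apply hbit
    rw [hA]
    constructor
    · rintro (⟨h, -, -⟩ | (⟨_, h⟩ | ⟨h, _⟩) | (⟨h, _⟩ | ⟨h, _⟩))
      · exact h
      · exact absurd h h2
      · exact absurd h h3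
      · exact absurd h h5
      · exact absurd h h1
    · intro h
      refine Or.inl ⟨h, ?_, ?_⟩
      · rintro (⟨_, h'⟩ | ⟨h', _⟩)
        · exact h4 h'
        · exact h1 h'
      · rintro (⟨h', _⟩ | ⟨h', _⟩)
        · exact h5 h'
        · exact h3 h'
  · intro t ht1 ht2
    have e1 : Adj G' v t ↔ (Adj G v t ∧ t ≠ x) ∨ t = y := by
      rw [hA]
      constructor
      · rintro (⟨h, h', -⟩ | (⟨_, h⟩ | ⟨h, _⟩) | (⟨h, _⟩ | ⟨h, _⟩))
        · exact Or.inl ⟨h, fun hc => h' (Or.inl ⟨rfl, hc⟩)⟩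
        · exact Or.inr h
        · exact absurd h h3
        · exact absurd h h5
        · exact absurd h h1
      · rintro (⟨h, h'⟩ | h)
        · refine Or.inl ⟨h, ?_, ?_⟩
          · rintro (⟨_, hc⟩ | ⟨hc, _⟩)
            · exact h' hc
            · exact h1 hc
          · rintro (⟨hc, _⟩ | ⟨hc, _⟩)
            · exact h5 hc
            · exact h3 hc
        · exact Or.inr (Or.inl (Or.inl ⟨rfl, h⟩))
    have e2 : Adj G' w t ↔ (Adj G w t ∧ t ≠ y) ∨ t = x := by
      rw [hA]
      constructor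
      · rintro (⟨h, -, h'⟩ | (⟨h, _⟩ | ⟨h, _⟩) | (⟨_, h⟩ | ⟨h, _⟩))
        · exact Or.inl ⟨h, fun hc => h' (Or.inl ⟨rfl, hc⟩)⟩
        · exact absurd h.symm h5
        · exact absurd h h2
        · exact Or.inr h
        · exact absurd h h4
      · rintro (⟨h, h'⟩ | h)
        · refine Or.inl ⟨h, ?_, ?_⟩
          · rintro (⟨hc, _⟩ | ⟨hc, _⟩)
            · exact h5 hc.symm
            · exact h4 hc
          · rintro (⟨_, hc⟩ | ⟨hc, _⟩)
            · exact h' hc
            · exact h2 hc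
        · exact Or.inr (Or.inr (Or.inl ⟨rfl, h⟩))
    by_cases htx : t = x
    · subst htx
      have a1 : ¬ Adj G' v t := by
        rw [e1]
        rintro (⟨_, h⟩ | h)
        · exact h rfl
        · exact h6 h
      have a2 : Adj G' w t := e2.2 (Or.inr rfl)
      simp only [bit, hvx, hwx, a1, a2, if_true, if_false]
    · by_cases hty : t = y
      · subst hty
        have a1 : Adj G' v t := e1.2 (Or.inr rfl)
        have a2 : ¬ Adj G' w t := by
          rw [e2]
          rintro (⟨_, h⟩ | h)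
          · exact h rfl
          · exact h6 h.symm
        simp only [bit, hvy, hwy, a1, a2, if_true, if_false]
      · have a1 : Adj G' v t ↔ Adj G v t := by
          rw [e1]
          constructor
          · rintro (⟨h, _⟩ | h)
            · exact h
            · exact absurd h hty
          · intro h
            exact Or.inl ⟨h, htx⟩
        have a2 : Adj G' w t ↔ Adj G w t := by
          rw [e2]
          constructor
          · rintro (⟨h, _⟩ | h)
            · exact h
            · exact absurd h htx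
          · intro h
            exact Or.inl ⟨h, hty⟩
        simp only [bit, a1, a2]

/-- Connectivity in the form needed for the spectral step. -/
theorem hconn_of_Q (d : Fin n → ℕ) (f : Finset (Edge n) → ℝ)
    (h : ∀ a b : Fin n, a ≠ b → ∀ G ∈ realizations d, Qf d a b f G = 0) :
    ∀ G ∈ realizations d, ∀ G' ∈ realizations d, f G = f G' := by
  intro G hG G' hG'
  refine Connect.const_of_sw (d := d) f ?_ hG hG'
  intro A B hA hAB
  have hB : B ∈ realizations d := by
    simp only [realizations, Finset.mem_filter, Finset.mem_univ, true_and] at hA ⊢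
    intro v
    rw [Connect.Sw.deg_eq hAB v, hA v]
  obtain ⟨v, x, w, y, h1, h2, h3, h4, h5, h6, m1, m2, m3, m4, rfl⟩ := hAB
  have hrel := pairRel_of_sw h1 h2 h3 h4 h5 h6 m1 m2 m3 m4
  have ha := h v w h5 A hA
  have hb := h v w h5 _ hB
  have heq := (pairRel_isEquivOn v w (realizations d)).avg_eq hA hB hrel f
  unfold Qf resid at ha hb
  linarith


/-! ### Expansion of `‖∑ Q‖²` -/

/-- Splitting the sum over ordered pairs of ordered pairs by the coincidence pattern. -/
theorem split_ite (W : Fin n → Fin n → Fin n → Fin n → ℝ) (a b c e : Fin n) :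
    (if a ≠ b ∧ c ≠ e then W a b c e else 0) =
      (if b = e then (if a = c then (if a ≠ b then W a b c e else 0) else 0) else 0)
      + (if a = e then (if b = c then (if a ≠ b then W a b c e else 0) else 0) else 0)
      + (if a = c then (if a ≠ b ∧ a ≠ e ∧ b ≠ e then W a b c e else 0) else 0)
      + (if a = e then (if a ≠ b ∧ a ≠ c ∧ b ≠ c then W a b c e else 0) else 0)
      + (if b = c then (if a ≠ b ∧ b ≠ e ∧ a ≠ e then W a b c e else 0) else 0)
      + (if b = e then (if a ≠ b ∧ b ≠ c ∧ a ≠ c then W a b c e else 0) else 0)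
      + (if a ≠ b ∧ a ≠ c ∧ a ≠ e ∧ b ≠ c ∧ b ≠ e ∧ c ≠ e then W a b c e else 0) := by
  by_cases h1 : a = b <;> by_cases h2 : a = c <;> by_cases h3 : a = e <;> by_cases h4 : b = c <;>
    by_cases h5 : b = e <;> by_cases h6 : c = e <;> simp_all

/-- The quadruple sum. -/
theorem sum4 (W : Fin n → Fin n → Fin n → Fin n → ℝ)
    (h12 : ∀ a b c e, W a b c e = W b a c e) (h34 : ∀ a b c e, W a b c e = W a b e c) :
    ∑ a, ∑ b, ∑ c, ∑ e, (if a ≠ b ∧ c ≠ e then W a b c e else 0) =
      2 * (∑ a, ∑ b, if a ≠ b then W a b a b else 0)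
      + 4 * (∑ a, ∑ b, ∑ c, if a ≠ b ∧ a ≠ c ∧ b ≠ c then W a b a c else 0)
      + ∑ a, ∑ b, ∑ c, ∑ e, (if a ≠ b ∧ a ≠ c ∧ a ≠ e ∧ b ≠ c ∧ b ≠ e ∧ c ≠ e then W a b c e else 0) := by
  classical
  set T := ∑ a, ∑ b, if a ≠ b then W a b a b else 0 with hT
  set U := ∑ a, ∑ b, ∑ c, if a ≠ b ∧ a ≠ c ∧ b ≠ c then W a b a c else 0 with hU
  -- the six partial sums
  have t1 : ∀ a b, ∑ c, ∑ e, (if b = e then (if a = c then (if a ≠ b then W a b c e else 0) else 0) else 0)
      = if a ≠ b then W a b a b else 0 := by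
    intro a b
    simp only [Finset.sum_ite_eq, Finset.mem_univ, if_true]
  have t2 : ∀ a b, ∑ c, ∑ e, (if a = e then (if b = c then (if a ≠ b then W a b c e else 0) else 0) else 0)
      = if a ≠ b then W a b a b else 0 := by
    intro a b
    simp only [Finset.sum_ite_eq, Finset.mem_univ, if_true]
    by_cases h : a = b
    · simp [h]
    · simp only [h, ne_eq, not_false_eq_true, if_true]
      rw [h34, h12]
  have o1 : ∑ a, ∑ b, ∑ c, ∑ e, (if a = c then (if a ≠ b ∧ a ≠ e ∧ b ≠ e then W a b c e else 0) else 0)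
      = U := by
    refine Finset.sum_congr rfl (fun a _ => Finset.sum_congr rfl (fun b _ => ?_))
    rw [Finset.sum_comm]
    simp only [Finset.sum_ite_eq, Finset.mem_univ, if_true]
  have o2 : ∑ a, ∑ b, ∑ c, ∑ e, (if a = e then (if a ≠ b ∧ a ≠ c ∧ b ≠ c then W a b c e else 0) else 0)
      = U := by
    refine Finset.sum_congr rfl (fun a _ => Finset.sum_congr rfl (fun b _ =>
      Finset.sum_congr rfl (fun c _ => ?_)))
    simp only [Finset.sum_ite_eq, Finset.mem_univ, if_true]
    rw [h34 a b c a]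
  have o3 : ∑ a, ∑ b, ∑ c, ∑ e, (if b = c then (if a ≠ b ∧ b ≠ e ∧ a ≠ e then W a b c e else 0) else 0)
      = U := by
    have e1 : ∀ a b, ∑ c, ∑ e, (if b = c then (if a ≠ b ∧ b ≠ e ∧ a ≠ e then W a b c e else 0) else 0)
        = ∑ e, if a ≠ b ∧ b ≠ e ∧ a ≠ e then W b a b e else 0 := by
      intro a b
      rw [Finset.sum_comm]
      simp only [Finset.sum_ite_eq, Finset.mem_univ, if_true]
      exact Finset.sum_congr rfl (fun e _ => by rw [h12 a b b e])
    simp only [e1]
    rw [Finset.sum_comm]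
    refine Finset.sum_congr rfl (fun a _ => Finset.sum_congr rfl (fun b _ =>
      Finset.sum_congr rfl (fun c _ => ?_)))
    by_cases h1 : a = b
    · simp [h1]
    · by_cases h2 : a = c
      · simp [h2]
      · by_cases h3 : b = c
        · simp [h3]
        · have h1' : b ≠ a := fun h => h1 h.symm
          simp [h1, h2, h3, h1']
  have o4 : ∑ a, ∑ b, ∑ c, ∑ e, (if b = e then (if a ≠ b ∧ b ≠ c ∧ a ≠ c then W a b c e else 0) else 0)
      = U := by
    have e1 : ∀ a b c, ∑ e, (if b = e then (if a ≠ b ∧ b ≠ c ∧ a ≠ c then W a b c e else 0) else 0)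
        = if a ≠ b ∧ b ≠ c ∧ a ≠ c then W b a b c else 0 := by
      intro a b c
      simp only [Finset.sum_ite_eq, Finset.mem_univ, if_true]
      rw [h12 a b c b, h34 b a c b]
    simp only [e1]
    rw [Finset.sum_comm]
    refine Finset.sum_congr rfl (fun a _ => Finset.sum_congr rfl (fun b _ =>
      Finset.sum_congr rfl (fun c _ => ?_)))
    by_cases h1 : a = b
    · simp [h1]
    · by_cases h2 : a = c
      · simp [h2]
      · by_cases h3 : b = c
        · simp [h3]
        · have h1' : b ≠ a := fun h => h1 h.symm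
          simp [h1, h2, h3, h1']
  have tt1 : ∑ a, ∑ b, ∑ c, ∑ e, (if b = e then (if a = c then (if a ≠ b then W a b c e else 0) else 0) else 0)
      = T := Finset.sum_congr rfl (fun a _ => Finset.sum_congr rfl (fun b _ => t1 a b))
  have tt2 : ∑ a, ∑ b, ∑ c, ∑ e, (if a = e then (if b = c then (if a ≠ b then W a b c e else 0) else 0) else 0)
      = T := Finset.sum_congr rfl (fun a _ => Finset.sum_congr rfl (fun b _ => t2 a b))
  simp only [split_ite W, Finset.sum_add_distrib]
  rw [tt1, tt2, o1, o2, o3, o4]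
  ring

/-- The index set of ordered pairs of distinct vertices. -/
def Idx (n : ℕ) : Finset (Fin n × Fin n) := univ.filter fun p => p.1 ≠ p.2

/-- Sum over `Idx`. -/
theorem sum_idx (F : Fin n → Fin n → ℝ) :
    ∑ i : Idx n, F i.1.1 i.1.2 = ∑ a, ∑ b, if a ≠ b then F a b else 0 := by
  rw [Finset.sum_coe_sort (Idx n) (fun p => F p.1 p.2), Idx, Finset.sum_filter,
    Fintype.sum_prod_type]

/-- The Knabe inequality from Part Z and Part X. -/
theorem knabe_of_parts (d : Fin n → ℕ)
    (f : Finset (Edge n) → ℝ)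
    (hZ : ∀ a b c : Fin n, a ≠ b → a ≠ c → b ≠ c →
      0 ≤ W d f a b a c + W d f a b b c + W d f a c b c)
    (hX : 0 ≤ ∑ a, ∑ b, ∑ c, ∑ e,
      (if a ≠ b ∧ a ≠ c ∧ a ≠ e ∧ b ≠ c ∧ b ≠ e ∧ c ≠ e then W d f a b c e else 0)) :
    ∑ i : Idx n, ∑ x ∈ realizations d, resid (realizations d) (PairRel i.1.1 i.1.2) f x ^ 2 ≤
      ∑ x ∈ realizations d, (∑ i : Idx n, resid (realizations d) (PairRel i.1.1 i.1.2) f x) ^ 2 := by
  classical
  set Ω := realizations d with hΩ
  -- LHS
  have hL : ∑ i : Idx n, ∑ x ∈ Ω, resid Ω (PairRel i.1.1 i.1.2) f x ^ 2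
      = ∑ a, ∑ b, if a ≠ b then W d f a b a b else 0 := by
    rw [← sum_idx (fun a b => W d f a b a b)]
    refine Finset.sum_congr rfl (fun i _ => ?_)
    unfold W
    exact Finset.sum_congr rfl (fun x _ => by rw [sq])
  -- RHS
  have hR : ∑ x ∈ Ω, (∑ i : Idx n, resid Ω (PairRel i.1.1 i.1.2) f x) ^ 2
      = ∑ a, ∑ b, ∑ c, ∑ e, (if a ≠ b ∧ c ≠ e then W d f a b c e else 0) := by
    have e1 : ∀ x, (∑ i : Idx n, resid Ω (PairRel i.1.1 i.1.2) f x) ^ 2
        = ∑ i : Idx n, ∑ j : Idx n,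
            resid Ω (PairRel i.1.1 i.1.2) f x * resid Ω (PairRel j.1.1 j.1.2) f x := by
      intro x
      rw [sq, Finset.sum_mul_sum]
    simp only [e1]
    rw [Finset.sum_comm]
    have e2 : ∀ i : Idx n, ∑ x ∈ Ω, ∑ j : Idx n,
          resid Ω (PairRel i.1.1 i.1.2) f x * resid Ω (PairRel j.1.1 j.1.2) f x
        = ∑ c, ∑ e, if c ≠ e then W d f i.1.1 i.1.2 c e else 0 := by
      intro i
      rw [Finset.sum_comm]
      rw [← sum_idx (fun c e => W d f i.1.1 i.1.2 c e)]
      rfl
    simp only [e2]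
    rw [sum_idx (fun a b => ∑ c, ∑ e, if c ≠ e then W d f a b c e else 0)]
    refine Finset.sum_congr rfl (fun a _ => Finset.sum_congr rfl (fun b _ => ?_))
    by_cases hab : a = b
    · simp [hab]
    · simp [hab]
  rw [hL, hR, sum4 (W d f) (W_swap12 d f) (W_swap34 d f)]
  have hT : 0 ≤ ∑ a, ∑ b, if a ≠ b then W d f a b a b else 0 := by
    refine Finset.sum_nonneg (fun a _ => Finset.sum_nonneg (fun b _ => ?_))
    split_ifs
    · unfold W
      exact Finset.sum_nonneg (fun x _ => mul_self_nonneg _)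
    · exact le_refl _
  -- the overlap term
  set U := ∑ a, ∑ b, ∑ c, if a ≠ b ∧ a ≠ c ∧ b ≠ c then W d f a b a c else 0 with hU
  have hU3 : 0 ≤ U + U + U := by
    have hsum : 0 ≤ ∑ a, ∑ b, ∑ c, if a ≠ b ∧ a ≠ c ∧ b ≠ c then
        W d f a b a c + W d f a b b c + W d f a c b c else 0 := by
      refine Finset.sum_nonneg (fun a _ => Finset.sum_nonneg (fun b _ =>
        Finset.sum_nonneg (fun c _ => ?_)))
      split_ifs with h
      · exact hZ a b c h.1 h.2.1 h.2.2
      · exact le_refl _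
    have e1 : (∑ a, ∑ b, ∑ c, if a ≠ b ∧ a ≠ c ∧ b ≠ c then
        W d f a b a c + W d f a b b c + W d f a c b c else 0)
        = U + (∑ a, ∑ b, ∑ c, if a ≠ b ∧ a ≠ c ∧ b ≠ c then W d f a b b c else 0)
          + (∑ a, ∑ b, ∑ c, if a ≠ b ∧ a ≠ c ∧ b ≠ c then W d f a c b c else 0) := by
      rw [hU]
      simp only [← Finset.sum_add_distrib]
      refine Finset.sum_congr rfl (fun a _ => Finset.sum_congr rfl (fun b _ =>
        Finset.sum_congr rfl (fun c _ => ?_)))
      split_ifs <;> simp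
    have e2 : (∑ a, ∑ b, ∑ c, if a ≠ b ∧ a ≠ c ∧ b ≠ c then W d f a b b c else 0) = U := by
      rw [Finset.sum_comm, hU]
      refine Finset.sum_congr rfl (fun a _ => Finset.sum_congr rfl (fun b _ =>
        Finset.sum_congr rfl (fun c _ => ?_)))
      rw [W_swap12 d f b a a c]
      by_cases h1 : a = b
      · simp [h1]
      · by_cases h2 : a = c
        · simp [h2]
        · by_cases h3 : b = c
          · simp [h3]
          · have h1' : b ≠ a := fun h => h1 h.symm
            simp [h1, h2, h3, h1']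
    have e3 : (∑ a, ∑ b, ∑ c, if a ≠ b ∧ a ≠ c ∧ b ≠ c then W d f a c b c else 0) = U := by
      -- relabel
      have step1 : (∑ a, ∑ b, ∑ c, if a ≠ b ∧ a ≠ c ∧ b ≠ c then W d f a c b c else 0)
          = ∑ c, ∑ a, ∑ b, if a ≠ b ∧ a ≠ c ∧ b ≠ c then W d f a c b c else 0 := by
        rw [Finset.sum_congr rfl (fun a _ => Finset.sum_comm)]
        exact Finset.sum_comm
      rw [step1, hU]
      refine Finset.sum_congr rfl (fun c _ => Finset.sum_congr rfl (fun a _ =>
        Finset.sum_congr rfl (fun b _ => ?_)))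
      rw [W_swap12 d f a c b c, W_swap34 d f c a b c]
      by_cases h1 : a = b
      · simp [h1]
      · by_cases h2 : a = c
        · simp [h2]
        · by_cases h3 : b = c
          · simp [h3]
          · have h2' : c ≠ a := fun h => h2 h.symm
            have h3' : c ≠ b := fun h => h3 h.symm
            simp [h1, h2, h3, h2', h3']
    rw [e1, e2, e3] at hsum
    exact hsum
  have hU0 : 0 ≤ U := by linarith
  linarith

/-- **Final glue.** The frozen statement of S0453 follows from the three inputs. -/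
theorem result_of_parts (n : ℕ) (hn : 4 ≤ n) (d : Fin n → ℕ) (hd : (realizations d).Nonempty)
    (hZ : ∀ (f : Finset (Edge n) → ℝ) (a b c : Fin n), a ≠ b → a ≠ c → b ≠ c →
      0 ≤ W d f a b a c + W d f a b b c + W d f a c b c)
    (hX : ∀ f : Finset (Edge n) → ℝ, 0 ≤ ∑ a, ∑ b, ∑ c, ∑ e,
      (if a ≠ b ∧ a ≠ c ∧ a ≠ e ∧ b ≠ c ∧ b ≠ e ∧ c ≠ e then W d f a b c e else 0))
    (hLP : ∀ f : Finset (Edge n) → ℝ,
      (∑ a, ∑ b, if a ≠ b then ∑ G ∈ realizations d, Qf d a b f G ^ 2 else 0)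
        ≤ (n : ℝ) ^ 2 * Assembly.swDir d f) :
    (∃ t : ℕ, t ≤ 2 * n ^ 8 ∧ ∀ G ∈ realizations d,
        tvDist (fun G' => (kernel n ^ t) G G') (unifOn (realizations d)) ≤ 1 / 4) ∧
      ∀ f : Finset (Edge n) → ℝ,
        ((realizations d).card : ℝ) * (∑ G ∈ realizations d, f G ^ 2) -
            (∑ G ∈ realizations d, f G) ^ 2 ≤
          24 * (n : ℝ) ^ 2 * (n.choose 4 : ℝ) * (realizations d).card *
            ∑ G ∈ realizations d,
              f G * (f G - ∑ G' ∈ realizations d, kernel n G G' * f G') := by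
  refine Assembly.result_of_poincare n hn d hd (fun f => ?_)
  have hspec := Spectral.poincare_of_knabe (realizations d)
    (fun i : Idx n => (PairRel i.1.1 i.1.2 : Finset (Edge n) → Finset (Edge n) → Prop))
    (fun i => pairRel_isEquivOn _ _ _)
    (fun f => knabe_of_parts d f (hZ f) (hX f))
    (fun f hf => hconn_of_Q d f (fun a b hab G hG => by
      have hi : (a, b) ∈ Idx n := by simp [Idx, hab]
      exact hf ⟨(a, b), hi⟩ G hG)) f
  have hsum : ∑ i : Idx n, ∑ x ∈ realizations d,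
      resid (realizations d) (PairRel i.1.1 i.1.2) f x ^ 2
      = ∑ a, ∑ b, if a ≠ b then ∑ G ∈ realizations d, Qf d a b f G ^ 2 else 0 := by
    rw [← sum_idx (fun a b => ∑ G ∈ realizations d, Qf d a b f G ^ 2)]
  rw [hsum] at hspec
  have hN : (0 : ℝ) ≤ ((realizations d).card : ℝ) := by positivity
  have h2 := mul_le_mul_of_nonneg_left (hLP f) hN
  refine hspec.trans (h2.trans (le_of_eq ?_))
  ring

end Crest.Agent.Lib.Switch.Final
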