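import Mathlib

/-!
# The glued grid lemma (helper61's switch chain proof, finding 1310)

Pure algebra on finite types.  States: `H = A' × C₁` (values `fH`), `V = A₁ × C'` (values `fV`),
`D = Bool × A₁ × C₁` (values `fD`).

`π`-classes: for `C : C₁` the set `H(·,C) ∪ D(·,·,C)`; for `y : C'` the set `V(·,y)`.
`ρ`-classes: for `A : A₁` the set `V(A,·) ∪ D(·,A,·)`; for `A : A'` the set `H(A,·)`.

With `u = f - E_π f`, `v = f - E_ρ f`:
`2 ⟨u, v⟩ ≥ ∑_{A,C} (fD true A C - fD false A C)² - (∑_D u)²/|D| - (∑_D v)²/|D|`.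
-/

set_option autoImplicit false
set_option linter.unusedSectionVars false
set_option linter.unusedSimpArgs false

namespace Crest.Agent.Lib.Switch.GluedGrid

open Finset

variable {A' A₁ C' C₁ : Type*} [Fintype A'] [Fintype A₁] [Fintype C'] [Fintype C₁]

/-- Mean of `f` over the `π`-class of `C : C₁`. -/
noncomputable def pC (fH : A' → C₁ → ℝ) (fD : Bool → A₁ → C₁ → ℝ) (C : C₁) : ℝ :=
  (∑ A, fH A C + ∑ s, ∑ A, fD s A C) / ((Fintype.card A' : ℝ) + 2 * (Fintype.card A₁ : ℝ))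

/-- Mean of `f` over the `π`-class of `y : C'`. -/
noncomputable def pY (fV : A₁ → C' → ℝ) (y : C') : ℝ :=
  (∑ A, fV A y) / (Fintype.card A₁ : ℝ)

/-- Mean of `f` over the `ρ`-class of `A : A₁`. -/
noncomputable def qA (fV : A₁ → C' → ℝ) (fD : Bool → A₁ → C₁ → ℝ) (A : A₁) : ℝ :=
  (∑ y, fV A y + ∑ s, ∑ C, fD s A C) / ((Fintype.card C' : ℝ) + 2 * (Fintype.card C₁ : ℝ))

/-- Mean of `f` over the `ρ`-class of `A : A'`. -/
noncomputable def qH (fH : A' → C₁ → ℝ) (A : A') : ℝ :=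
  (∑ C, fH A C) / (Fintype.card C₁ : ℝ)

/-- `⟨f - E_π f, f - E_ρ f⟩`. -/
noncomputable def crossTerm (fH : A' → C₁ → ℝ) (fV : A₁ → C' → ℝ)
    (fD : Bool → A₁ → C₁ → ℝ) : ℝ :=
  ∑ A, ∑ C, (fH A C - pC fH fD C) * (fH A C - qH fH A)
  + ∑ A, ∑ y, (fV A y - pY fV y) * (fV A y - qA fV fD A)
  + ∑ s, ∑ A, ∑ C, (fD s A C - pC fH fD C) * (fD s A C - qA fV fD A)

/-- Elementary expansion of a doubly centred square on a grid. -/
lemma grid_sq {α β : Type*} [Fintype α] [Fintype β] (F : α → β → ℝ) (p : β → ℝ) (q : α → ℝ)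
    (x : ℝ) :
    ∑ a, ∑ b, (F a b - p b - q a + x) ^ 2
      = ∑ a, ∑ b, F a b ^ 2 + (Fintype.card α : ℝ) * ∑ b, p b ^ 2
        + (Fintype.card β : ℝ) * ∑ a, q a ^ 2
        + (Fintype.card α : ℝ) * (Fintype.card β : ℝ) * x ^ 2
        - 2 * ∑ b, p b * ∑ a, F a b - 2 * ∑ a, q a * ∑ b, F a b
        + 2 * x * ∑ a, ∑ b, F a b + 2 * (∑ b, p b) * (∑ a, q a)
        - 2 * x * (Fintype.card α : ℝ) * ∑ b, p b
        - 2 * x * (Fintype.card β : ℝ) * ∑ a, q a := by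
  have h1 : ∀ a b, (F a b - p b - q a + x) ^ 2
      = F a b ^ 2 + p b ^ 2 + q a ^ 2 + x ^ 2 - 2 * (p b * F a b) - 2 * (q a * F a b)
        + 2 * x * F a b + 2 * (p b * q a) - 2 * x * p b - 2 * x * q a := by
    intro a b; ring
  simp only [h1, Finset.sum_add_distrib, Finset.sum_sub_distrib]
  have t2 : ∑ a : α, ∑ b : β, p b ^ 2 = (Fintype.card α : ℝ) * ∑ b, p b ^ 2 := by
    simp [Finset.card_univ]
  have t3 : ∑ a : α, ∑ b : β, q a ^ 2 = (Fintype.card β : ℝ) * ∑ a, q a ^ 2 := by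
    simp [Finset.card_univ, Finset.mul_sum]
  have t4 : ∑ a : α, ∑ b : β, x ^ 2 = (Fintype.card α : ℝ) * (Fintype.card β : ℝ) * x ^ 2 := by
    simp [Finset.card_univ]; ring
  have t5 : ∑ a : α, ∑ b : β, 2 * (p b * F a b) = 2 * ∑ b, p b * ∑ a, F a b := by
    rw [Finset.sum_comm]; simp only [Finset.mul_sum]
  have t6 : ∑ a : α, ∑ b : β, 2 * (q a * F a b) = 2 * ∑ a, q a * ∑ b, F a b := by
    simp only [Finset.mul_sum]
  have t7 : ∑ a : α, ∑ b : β, 2 * x * F a b = 2 * x * ∑ a, ∑ b, F a b := by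
    simp only [Finset.mul_sum]
  have t8 : ∑ a : α, ∑ b : β, 2 * (p b * q a) = 2 * (∑ b, p b) * (∑ a, q a) := by
    rw [mul_assoc, Finset.sum_mul_sum, Finset.sum_comm, Finset.mul_sum]
    simp only [Finset.mul_sum]
  have t9 : ∑ a : α, ∑ b : β, 2 * x * p b = 2 * x * (Fintype.card α : ℝ) * ∑ b, p b := by
    simp [Finset.card_univ, Finset.mul_sum]
    ring_nf
  have t10 : ∑ a : α, ∑ b : β, 2 * x * q a = 2 * x * (Fintype.card β : ℝ) * ∑ a, q a := by
    simp [Finset.card_univ, Finset.mul_sum]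
    apply Finset.sum_congr rfl
    intros; ring
  rw [t2, t3, t4, t5, t6, t7, t8, t9, t10]

/-- Elementary expansion of the product of the two centrings on a grid. -/
lemma grid_mul {α β : Type*} [Fintype α] [Fintype β] (F : α → β → ℝ) (p : β → ℝ) (q : α → ℝ) :
    ∑ a, ∑ b, (F a b - p b) * (F a b - q a)
      = ∑ a, ∑ b, F a b ^ 2 - ∑ b, p b * ∑ a, F a b - ∑ a, q a * ∑ b, F a b
        + (∑ b, p b) * (∑ a, q a) := by
  have h1 : ∀ a b, (F a b - p b) * (F a b - q a)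
      = F a b ^ 2 - p b * F a b - q a * F a b + p b * q a := by
    intro a b; ring
  simp only [h1, Finset.sum_add_distrib, Finset.sum_sub_distrib]
  have t5 : ∑ a : α, ∑ b : β, p b * F a b = ∑ b, p b * ∑ a, F a b := by
    rw [Finset.sum_comm]; simp only [Finset.mul_sum]
  have t6 : ∑ a : α, ∑ b : β, q a * F a b = ∑ a, q a * ∑ b, F a b := by
    simp only [Finset.mul_sum]
  have t8 : ∑ a : α, ∑ b : β, p b * q a = (∑ b, p b) * (∑ a, q a) := by
    rw [Finset.sum_mul_sum, Finset.sum_comm]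
  rw [t5, t6, t8]

section main

variable (fH : A' → C₁ → ℝ) (fV : A₁ → C' → ℝ) (fD : Bool → A₁ → C₁ → ℝ)

lemma mul_pC (C : C₁) :
    ((Fintype.card A' : ℝ) + 2 * (Fintype.card A₁ : ℝ)) * pC fH fD C
      = ∑ A, fH A C + ∑ s, ∑ A, fD s A C := by
  unfold pC
  by_cases h : ((Fintype.card A' : ℝ) + 2 * (Fintype.card A₁ : ℝ)) = 0
  · have h1 : (Fintype.card A' : ℝ) = 0 := by
      have h2 : (0 : ℝ) ≤ Fintype.card A' := Nat.cast_nonneg _
      have h3 : (0 : ℝ) ≤ Fintype.card A₁ := Nat.cast_nonneg _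
      linarith
    have h4 : (Fintype.card A₁ : ℝ) = 0 := by
      have h2 : (0 : ℝ) ≤ Fintype.card A' := Nat.cast_nonneg _
      have h3 : (0 : ℝ) ≤ Fintype.card A₁ := Nat.cast_nonneg _
      linarith
    have e1 : IsEmpty A' := Fintype.card_eq_zero_iff.mp (by exact_mod_cast h1)
    have e2 : IsEmpty A₁ := Fintype.card_eq_zero_iff.mp (by exact_mod_cast h4)
    simp [h]
  · field_simp

lemma mul_pY (y : C') :
    (Fintype.card A₁ : ℝ) * pY fV y = ∑ A, fV A y := by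
  unfold pY
  by_cases h : (Fintype.card A₁ : ℝ) = 0
  · have e2 : IsEmpty A₁ := Fintype.card_eq_zero_iff.mp (by exact_mod_cast h)
    simp
  · field_simp

lemma mul_qA (A : A₁) :
    ((Fintype.card C' : ℝ) + 2 * (Fintype.card C₁ : ℝ)) * qA fV fD A
      = ∑ y, fV A y + ∑ s, ∑ C, fD s A C := by
  unfold qA
  by_cases h : ((Fintype.card C' : ℝ) + 2 * (Fintype.card C₁ : ℝ)) = 0
  · have h1 : (Fintype.card C' : ℝ) = 0 := by
      have h2 : (0 : ℝ) ≤ Fintype.card C' := Nat.cast_nonneg _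
      have h3 : (0 : ℝ) ≤ Fintype.card C₁ := Nat.cast_nonneg _
      linarith
    have h4 : (Fintype.card C₁ : ℝ) = 0 := by
      have h2 : (0 : ℝ) ≤ Fintype.card C' := Nat.cast_nonneg _
      have h3 : (0 : ℝ) ≤ Fintype.card C₁ := Nat.cast_nonneg _
      linarith
    have e1 : IsEmpty C' := Fintype.card_eq_zero_iff.mp (by exact_mod_cast h1)
    have e2 : IsEmpty C₁ := Fintype.card_eq_zero_iff.mp (by exact_mod_cast h4)
    simp [h]
  · field_simp

lemma mul_qH (A : A') :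
    (Fintype.card C₁ : ℝ) * qH fH A = ∑ C, fH A C := by
  unfold qH
  by_cases h : (Fintype.card C₁ : ℝ) = 0
  · have e2 : IsEmpty C₁ := Fintype.card_eq_zero_iff.mp (by exact_mod_cast h)
    simp
  · field_simp

section relations

lemma rel_P :
    ((Fintype.card A' : ℝ) + 2 * (Fintype.card A₁ : ℝ)) * ∑ C, pC fH fD C
      = ∑ A, ∑ C, fH A C + (∑ A, ∑ C, fD true A C + ∑ A, ∑ C, fD false A C) := by
  rw [Finset.mul_sum]
  simp only [mul_pC, Finset.sum_add_distrib, Fintype.sum_bool]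
  rw [Finset.sum_comm, Finset.sum_comm (f := fun C A => fD true A C),
    Finset.sum_comm (f := fun C A => fD false A C)]

lemma rel_Q :
    ((Fintype.card C' : ℝ) + 2 * (Fintype.card C₁ : ℝ)) * ∑ A, qA fV fD A
      = ∑ A, ∑ y, fV A y + (∑ A, ∑ C, fD true A C + ∑ A, ∑ C, fD false A C) := by
  rw [Finset.mul_sum]
  simp only [mul_qA, Finset.sum_add_distrib, Fintype.sum_bool]

lemma rel_P2 : (Fintype.card A₁ : ℝ) * ∑ y, pY fV y = ∑ A, ∑ y, fV A y := by
  rw [Finset.mul_sum]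
  simp only [mul_pY]
  rw [Finset.sum_comm]

lemma rel_Q2 : (Fintype.card C₁ : ℝ) * ∑ A, qH fH A = ∑ A, ∑ C, fH A C := by
  rw [Finset.mul_sum]
  simp only [mul_qH]

lemma rel_R1 :
    ∑ C, pC fH fD C * ∑ A, fH A C + ∑ C, pC fH fD C * ∑ A, fD true A C
        + ∑ C, pC fH fD C * ∑ A, fD false A C
      = ((Fintype.card A' : ℝ) + 2 * (Fintype.card A₁ : ℝ)) * ∑ C, pC fH fD C ^ 2 := by
  rw [Finset.mul_sum, ← Finset.sum_add_distrib, ← Finset.sum_add_distrib]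
  apply Finset.sum_congr rfl
  intro C _
  have h := mul_pC fH fD C
  rw [Fintype.sum_bool] at h
  have h2 : pC fH fD C * (∑ A, fH A C + (∑ A, fD true A C + ∑ A, fD false A C))
      = ((Fintype.card A' : ℝ) + 2 * (Fintype.card A₁ : ℝ)) * pC fH fD C ^ 2 := by
    rw [← h]; ring
  linarith [h2]

lemma rel_R4 :
    ∑ A, qA fV fD A * ∑ y, fV A y + ∑ A, qA fV fD A * ∑ C, fD true A C
        + ∑ A, qA fV fD A * ∑ C, fD false A C
      = ((Fintype.card C' : ℝ) + 2 * (Fintype.card C₁ : ℝ)) * ∑ A, qA fV fD A ^ 2 := by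
  rw [Finset.mul_sum, ← Finset.sum_add_distrib, ← Finset.sum_add_distrib]
  apply Finset.sum_congr rfl
  intro A _
  have h := mul_qA fV fD A
  rw [Fintype.sum_bool] at h
  have h2 : qA fV fD A * (∑ y, fV A y + (∑ C, fD true A C + ∑ C, fD false A C))
      = ((Fintype.card C' : ℝ) + 2 * (Fintype.card C₁ : ℝ)) * qA fV fD A ^ 2 := by
    rw [← h]; ring
  linarith [h2]

lemma rel_R2 : ∑ A, qH fH A * ∑ C, fH A C = (Fintype.card C₁ : ℝ) * ∑ A, qH fH A ^ 2 := by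
  rw [Finset.mul_sum]
  apply Finset.sum_congr rfl
  intro A _
  rw [← mul_qH fH A]; ring

lemma rel_R3 : ∑ y, pY fV y * ∑ A, fV A y = (Fintype.card A₁ : ℝ) * ∑ y, pY fV y ^ 2 := by
  rw [Finset.mul_sum]
  apply Finset.sum_congr rfl
  intro y _
  rw [← mul_pY fV y]; ring

end relations

/-- The abstract scalar step: all sums are atoms here. -/
lemma core_identity
    (a' a c' c P₁ P₂ Q₁ Q₂ SH SV St Sf NH NV Nt Nf X1 X2 X3 X4
      U1 U2t U2f U3 U4t U4f UY UH x y w : ℝ)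
    (hP₁x : P₁ = c * x) (hQ₁y : Q₁ = a * y) (hSw : St + Sf = 2 * a * c * w)
    (rP : (a' + 2 * a) * P₁ = SH + (St + Sf)) (rQ : (c' + 2 * c) * Q₁ = SV + (St + Sf))
    (rP2 : a * P₂ = SV) (rQ2 : c * Q₂ = SH)
    (R1 : U1 + U2t + U2f = (a' + 2 * a) * X1) (R2 : UH = c * X3) (R3 : UY = a * X2)
    (R4 : U3 + U4t + U4f = (c' + 2 * c) * X4) :
    (NH - U1 - UH + P₁ * Q₂) + (NV - UY - U3 + P₂ * Q₁)
        + ((Nt - U2t - U4t + P₁ * Q₁) + (Nf - U2f - U4f + P₁ * Q₁))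
      = (NH + a' * X1 + c * X3 + a' * c * x ^ 2 - 2 * U1 - 2 * UH + 2 * x * SH + 2 * P₁ * Q₂
            - 2 * x * a' * P₁ - 2 * x * c * Q₂)
        + (NV + a * X2 + c' * X4 + a * c' * y ^ 2 - 2 * UY - 2 * U3 + 2 * y * SV + 2 * P₂ * Q₁
            - 2 * y * a * P₂ - 2 * y * c' * Q₁)
        + (Nt + a * X1 + c * X4 + a * c * (x + y - w) ^ 2 - 2 * U2t - 2 * U4t
            + 2 * (x + y - w) * St + 2 * P₁ * Q₁ - 2 * (x + y - w) * a * P₁
            - 2 * (x + y - w) * c * Q₁)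
        + (Nf + a * X1 + c * X4 + a * c * (x + y - w) ^ 2 - 2 * U2f - 2 * U4f
            + 2 * (x + y - w) * Sf + 2 * P₁ * Q₁ - 2 * (x + y - w) * a * P₁
            - 2 * (x + y - w) * c * Q₁)
        + 2 * a * c * (w - x) * (w - y) := by
  subst hP₁x hQ₁y rP2 rQ2
  have hSw' : Sf = 2 * a * c * w - St := by linarith
  subst hSw'
  have E1 : (a' + 2 * a) * (c * x) = c * Q₂ + 2 * a * c * w := by linear_combination rP
  have E2 : (c' + 2 * c) * (a * y) = a * P₂ + 2 * a * c * w := by linear_combination rQ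
  linear_combination R1 + R2 + R3 + R4 + x * E1 + y * E2

/-- The glued grid inequality. -/
theorem glued_grid :
    ∑ A, ∑ C, (fD true A C - fD false A C) ^ 2
        - (∑ s, ∑ A, ∑ C, (fD s A C - pC fH fD C)) ^ 2
            / (2 * (Fintype.card A₁ : ℝ) * (Fintype.card C₁ : ℝ))
        - (∑ s, ∑ A, ∑ C, (fD s A C - qA fV fD A)) ^ 2
            / (2 * (Fintype.card A₁ : ℝ) * (Fintype.card C₁ : ℝ))
      ≤ 2 * crossTerm fH fV fD := by
  classical
  -- the averaged values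
  obtain ⟨x, hP₁x⟩ : ∃ x : ℝ, ∑ C, pC fH fD C = (Fintype.card C₁ : ℝ) * x := by
    by_cases h : (Fintype.card C₁ : ℝ) = 0
    · have e2 : IsEmpty C₁ := Fintype.card_eq_zero_iff.mp (by exact_mod_cast h)
      exact ⟨0, by simp⟩
    · exact ⟨(∑ C, pC fH fD C) / (Fintype.card C₁ : ℝ), by field_simp⟩
  obtain ⟨y, hQ₁y⟩ : ∃ y : ℝ, ∑ A, qA fV fD A = (Fintype.card A₁ : ℝ) * y := by
    by_cases h : (Fintype.card A₁ : ℝ) = 0
    · have e2 : IsEmpty A₁ := Fintype.card_eq_zero_iff.mp (by exact_mod_cast h)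
      exact ⟨0, by simp⟩
    · exact ⟨(∑ A, qA fV fD A) / (Fintype.card A₁ : ℝ), by field_simp⟩
  obtain ⟨w, hSw⟩ : ∃ w : ℝ, ∑ A, ∑ C, fD true A C + ∑ A, ∑ C, fD false A C
      = 2 * (Fintype.card A₁ : ℝ) * (Fintype.card C₁ : ℝ) * w := by
    by_cases h : (Fintype.card A₁ : ℝ) = 0
    · have e2 : IsEmpty A₁ := Fintype.card_eq_zero_iff.mp (by exact_mod_cast h)
      exact ⟨0, by simp⟩
    by_cases h' : (Fintype.card C₁ : ℝ) = 0
    · have e2 : IsEmpty C₁ := Fintype.card_eq_zero_iff.mp (by exact_mod_cast h')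
      exact ⟨0, by simp⟩
    · exact ⟨(∑ A, ∑ C, fD true A C + ∑ A, ∑ C, fD false A C)
        / (2 * (Fintype.card A₁ : ℝ) * (Fintype.card C₁ : ℝ)), by field_simp⟩
  have gH := grid_sq fH (pC fH fD) (qH fH) x
  have gV := grid_sq fV (pY fV) (qA fV fD) y
  have gt := grid_sq (fD true) (pC fH fD) (qA fV fD) (x + y - w)
  have gf := grid_sq (fD false) (pC fH fD) (qA fV fD) (x + y - w)
  have mH := grid_mul fH (pC fH fD) (qH fH)
  have mV := grid_mul fV (pY fV) (qA fV fD)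
  have mt := grid_mul (fD true) (pC fH fD) (qA fV fD)
  have mf := grid_mul (fD false) (pC fH fD) (qA fV fD)
  have key : crossTerm fH fV fD
      = ∑ A, ∑ C, (fH A C - pC fH fD C - qH fH A + x) ^ 2
        + ∑ A, ∑ b, (fV A b - pY fV b - qA fV fD A + y) ^ 2
        + ∑ A, ∑ C, (fD true A C - pC fH fD C - qA fV fD A + (x + y - w)) ^ 2
        + ∑ A, ∑ C, (fD false A C - pC fH fD C - qA fV fD A + (x + y - w)) ^ 2
        + 2 * (Fintype.card A₁ : ℝ) * (Fintype.card C₁ : ℝ) * (w - x) * (w - y) := by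
    have hct : crossTerm fH fV fD
        = ∑ A, ∑ C, (fH A C - pC fH fD C) * (fH A C - qH fH A)
          + ∑ A, ∑ b, (fV A b - pY fV b) * (fV A b - qA fV fD A)
          + (∑ A, ∑ C, (fD true A C - pC fH fD C) * (fD true A C - qA fV fD A)
            + ∑ A, ∑ C, (fD false A C - pC fH fD C) * (fD false A C - qA fV fD A)) := by
      unfold crossTerm
      rw [Fintype.sum_bool]
    rw [hct, mH, mV, mt, mf, gH, gV, gt, gf]
    exact core_identity _ _ _ _ _ _ _ _ _ _ _ _ _ _ _ _ _ _ _ _ _ _ _ _ _ _ _ _ _ _ _ hP₁x hQ₁y hSw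
      (rel_P fH fD) (rel_Q fV fD) (rel_P2 fV) (rel_Q2 fH) (rel_R1 fH fD) (rel_R2 fH) (rel_R3 fV)
      (rel_R4 fV fD)
  -- the lower bound on r
  have rDt : ∑ A, ∑ C, (fD true A C - fD false A C) ^ 2
      ≤ 2 * (∑ A, ∑ C, (fD true A C - pC fH fD C - qA fV fD A + (x + y - w)) ^ 2
        + ∑ A, ∑ C, (fD false A C - pC fH fD C - qA fV fD A + (x + y - w)) ^ 2) := by
    rw [← Finset.sum_add_distrib, Finset.mul_sum]
    apply Finset.sum_le_sum
    intro A _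
    rw [← Finset.sum_add_distrib, Finset.mul_sum]
    apply Finset.sum_le_sum
    intro C _
    nlinarith [sq_nonneg ((fD true A C - pC fH fD C - qA fV fD A + (x + y - w))
      + (fD false A C - pC fH fD C - qA fV fD A + (x + y - w)))]
  have rH0 : 0 ≤ ∑ A, ∑ C, (fH A C - pC fH fD C - qH fH A + x) ^ 2 :=
    Finset.sum_nonneg fun _ _ => Finset.sum_nonneg fun _ _ => sq_nonneg _
  have rV0 : 0 ≤ ∑ A, ∑ b, (fV A b - pY fV b - qA fV fD A + y) ^ 2 :=
    Finset.sum_nonneg fun _ _ => Finset.sum_nonneg fun _ _ => sq_nonneg _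
  -- the D sums
  have hDu : ∑ s, ∑ A, ∑ C, (fD s A C - pC fH fD C)
      = 2 * (Fintype.card A₁ : ℝ) * (Fintype.card C₁ : ℝ) * (w - x) := by
    rw [Fintype.sum_bool]
    simp only [Finset.sum_sub_distrib]
    have h1 : ∑ _A : A₁, ∑ C, pC fH fD C = (Fintype.card A₁ : ℝ) * ∑ C, pC fH fD C := by
      simp [Finset.card_univ]
    rw [h1, hP₁x]
    linear_combination hSw
  have hDv : ∑ s, ∑ A, ∑ C, (fD s A C - qA fV fD A)
      = 2 * (Fintype.card A₁ : ℝ) * (Fintype.card C₁ : ℝ) * (w - y) := by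
    rw [Fintype.sum_bool]
    simp only [Finset.sum_sub_distrib]
    have h1 : ∑ A : A₁, ∑ _C : C₁, qA fV fD A = (Fintype.card C₁ : ℝ) * ∑ A, qA fV fD A := by
      simp [Finset.card_univ, Finset.mul_sum]
    rw [h1, hQ₁y]
    linear_combination hSw
  rw [hDu, hDv]
  have hdiv : ∀ t : ℝ, (2 * (Fintype.card A₁ : ℝ) * (Fintype.card C₁ : ℝ) * t) ^ 2
        / (2 * (Fintype.card A₁ : ℝ) * (Fintype.card C₁ : ℝ))
      = 2 * (Fintype.card A₁ : ℝ) * (Fintype.card C₁ : ℝ) * t ^ 2 := by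
    intro t
    by_cases h : 2 * (Fintype.card A₁ : ℝ) * (Fintype.card C₁ : ℝ) = 0
    · simp [h]
    · field_simp
  rw [hdiv, hdiv, key]
  have hac : 0 ≤ (Fintype.card A₁ : ℝ) * (Fintype.card C₁ : ℝ) :=
    mul_nonneg (Nat.cast_nonneg _) (Nat.cast_nonneg _)
  nlinarith [mul_nonneg hac (sq_nonneg ((w - x) + (w - y)))]

end main

end Crest.Agent.Lib.Switch.GluedGrid
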