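import Mathlib

/-!
# Johnson graph lemmas for the switch chain (S0453)

`F` a finite set, `J(F,k)` = `F.powersetCard k`.  Up/down operators, spectral gap of the Johnson
graph, and the inequality `M(g) ≤ (1/2) E_J(g)` for mean-zero `g`
(see finding #1310 on row 299).
-/

set_option autoImplicit false

namespace Crest.Agent.SwitchJohnson

open Finset

variable {α : Type*} [DecidableEq α]

/-- Down operator: `(∂ g)(z) = ∑_{c ∈ F \ z} g (z + c)`. -/
def down (F : Finset α) (g : Finset α → ℝ) (z : Finset α) : ℝ :=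
  ∑ c ∈ F \ z, g (insert c z)

/-- Up operator: `(up h)(x) = ∑_{c ∈ x} h (x - c)`. -/
def up (h : Finset α → ℝ) (x : Finset α) : ℝ :=
  ∑ c ∈ x, h (x.erase c)

/-- Inner product on level `j`. -/
def ip (F : Finset α) (j : ℕ) (g h : Finset α → ℝ) : ℝ :=
  ∑ x ∈ F.powersetCard j, g x * h x

/-- Flag double counting. -/
lemma sum_flag (F : Finset α) (j : ℕ) (φ : Finset α → α → ℝ) :
    ∑ x ∈ F.powersetCard (j + 1), ∑ c ∈ x, φ x c =
      ∑ z ∈ F.powersetCard j, ∑ c ∈ F \ z, φ (insert c z) c := by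
  rw [Finset.sum_sigma', Finset.sum_sigma']
  refine Finset.sum_bij' (fun p _ => ⟨p.1.erase p.2, p.2⟩) (fun p _ => ⟨insert p.2 p.1, p.2⟩)
    ?_ ?_ ?_ ?_ ?_
  · rintro ⟨x, c⟩ h
    simp only [Finset.mem_sigma, Finset.mem_powersetCard, Finset.mem_sdiff] at h ⊢
    obtain ⟨⟨hxF, hxc⟩, hc⟩ := h
    refine ⟨⟨(Finset.erase_subset _ _).trans hxF, ?_⟩, hxF hc, by simp⟩
    rw [Finset.card_erase_of_mem hc, hxc]; rfl
  · rintro ⟨z, c⟩ h
    simp only [Finset.mem_sigma, Finset.mem_powersetCard, Finset.mem_sdiff] at h ⊢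
    obtain ⟨⟨hzF, hzc⟩, hcF, hcz⟩ := h
    refine ⟨⟨Finset.insert_subset hcF hzF, ?_⟩, Finset.mem_insert_self _ _⟩
    rw [Finset.card_insert_of_notMem hcz, hzc]
  · rintro ⟨x, c⟩ h
    simp only [Finset.mem_sigma] at h
    simp [Finset.insert_erase h.2]
  · rintro ⟨z, c⟩ h
    simp only [Finset.mem_sigma, Finset.mem_sdiff] at h
    simp [Finset.erase_insert h.2.2]
  · rintro ⟨x, c⟩ h
    simp only [Finset.mem_sigma] at h
    simp [Finset.insert_erase h.2]

/-- Adjointness of `down` and `up`. -/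
lemma ip_down (F : Finset α) (j : ℕ) (g h : Finset α → ℝ) :
    ip F j (down F g) h = ip F (j + 1) g (up h) := by
  unfold ip down up
  have := sum_flag F j (fun x c => g x * h (x.erase c))
  simp only [Finset.mul_sum, Finset.sum_mul]
  rw [this]
  refine Finset.sum_congr rfl fun z _ => Finset.sum_congr rfl fun c hc => ?_
  rw [Finset.erase_insert (Finset.mem_sdiff.mp hc).2]

lemma sdiff_erase_eq {F z : Finset α} {c : α} (hz : z ⊆ F) (hc : c ∈ z) :
    F \ z.erase c = insert c (F \ z) := by
  ext a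
  simp only [Finset.mem_sdiff, Finset.mem_erase, Finset.mem_insert]
  constructor
  · rintro ⟨haF, ha⟩
    by_cases hac : a = c
    · exact Or.inl hac
    · exact Or.inr ⟨haF, fun haz => ha ⟨hac, haz⟩⟩
  · rintro (rfl | ⟨haF, ha⟩)
    · exact ⟨hz hc, fun h => h.1 rfl⟩
    · exact ⟨haF, fun h => ha h.2⟩

/-- Commutation relation. -/
lemma down_up (F : Finset α) {j : ℕ} (h : Finset α → ℝ) {z : Finset α}
    (hz : z ∈ F.powersetCard j) :
    down F (up h) z = up (down F h) z + ((F.card : ℝ) - 2 * j) * h z := by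
  obtain ⟨hzF, hzc⟩ := Finset.mem_powersetCard.mp hz
  have h1 : ∀ c ∈ F \ z, up h (insert c z) =
      h z + ∑ c' ∈ z, h (insert c (z.erase c')) := by
    intro c hc
    have hcz := (Finset.mem_sdiff.mp hc).2
    unfold up
    rw [Finset.sum_insert hcz, Finset.erase_insert hcz]
    congr 1
    refine Finset.sum_congr rfl fun c' hc' => ?_
    have : c ≠ c' := fun e => hcz (e ▸ hc')
    rw [Finset.erase_insert_of_ne this]
  have h2 : ∀ c' ∈ z, down F h (z.erase c') =
      h z + ∑ c ∈ F \ z, h (insert c (z.erase c')) := by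
    intro c' hc'
    unfold down
    rw [sdiff_erase_eq hzF hc', Finset.sum_insert (by simp [hc']), Finset.insert_erase hc']
  unfold down at *
  unfold up at *
  have h1' := Finset.sum_congr rfl h1
  rw [h1', Finset.sum_add_distrib, Finset.sum_const, Finset.card_sdiff_of_subset hzF, hzc]
  have h2' := Finset.sum_congr (s₁ := z) rfl h2
  rw [h2', Finset.sum_add_distrib, Finset.sum_const, hzc, Finset.sum_comm]
  have hjm : j ≤ F.card := hzc ▸ Finset.card_le_card hzF
  simp only [nsmul_eq_mul]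
  rw [Nat.cast_sub hjm]
  ring

/-- `‖up h‖² = ‖∂ h‖² + (m - 2j) ‖h‖²`. -/
lemma norm_up (F : Finset α) (j : ℕ) (h : Finset α → ℝ) :
    ip F (j + 1) (up h) (up h) =
      ip F j (up (down F h)) h + ((F.card : ℝ) - 2 * j) * ip F j h h := by
  rw [← ip_down]
  unfold ip
  rw [Finset.mul_sum, ← Finset.sum_add_distrib]
  refine Finset.sum_congr rfl fun z hz => ?_
  rw [down_up F h hz]; ring

lemma ip_up_down_succ (F : Finset α) (j : ℕ) (h : Finset α → ℝ) :
    ip F (j + 1) (up (down F h)) h = ip F j (down F h) (down F h) := by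
  rw [ip_down]
  unfold ip
  exact Finset.sum_congr rfl fun x _ => mul_comm _ _

lemma ip_up_down_zero (F : Finset α) (h : Finset α → ℝ) :
    ip F 0 (up (down F h)) h = 0 := by
  simp [ip, up]

omit [DecidableEq α] in
lemma ip_self_nonneg (F : Finset α) (j : ℕ) (h : Finset α → ℝ) : 0 ≤ ip F j h h :=
  Finset.sum_nonneg fun _ _ => mul_self_nonneg _

omit [DecidableEq α] in
/-- Cauchy–Schwarz on a level. -/
lemma ip_sq_le (F : Finset α) (j : ℕ) (g h : Finset α → ℝ) :
    ip F j g h ^ 2 ≤ ip F j g g * ip F j h h := by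
  have := Finset.sum_mul_sq_le_sq_mul_sq (F.powersetCard j) g h
  simpa [ip, sq] using this

/-- Sum over level `j` of `down g` is `(j+1)` times the sum of `g` over level `j+1`. -/
lemma sum_down (F : Finset α) (j : ℕ) (g : Finset α → ℝ) :
    ∑ z ∈ F.powersetCard j, down F g z = ((j : ℝ) + 1) * ∑ x ∈ F.powersetCard (j + 1), g x := by
  have := sum_flag F j (fun x _ => g x)
  simp only [down]
  rw [← this, Finset.mul_sum]
  refine Finset.sum_congr rfl fun x hx => ?_
  rw [Finset.sum_const, (Finset.mem_powersetCard.mp hx).2]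
  simp

/-- Main norm bound for `down` on mean-zero functions. -/
theorem down_norm_le (F : Finset α) (k : ℕ) (hk : k + 1 ≤ F.card) (g : Finset α → ℝ)
    (hg : ∑ x ∈ F.powersetCard (k + 1), g x = 0) :
    ip F k (down F g) (down F g) ≤
      (k : ℝ) * ((F.card : ℝ) - k - 1) * ip F (k + 1) g g := by
  induction k generalizing g with
  | zero =>
    have := sum_down F 0 g
    simp only [hg, mul_zero, Finset.powersetCard_zero, Finset.sum_singleton] at this
    simp [ip, this]
  | succ k ih =>
    set h := down F g with hh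
    have hh0 : ∑ z ∈ F.powersetCard (k + 1), h z = 0 := by
      rw [hh, sum_down, hg, mul_zero]
    have hm : ((k : ℝ) + 2) ≤ F.card := by exact_mod_cast hk
    have ih' := ih (by omega) h hh0
    -- Cauchy–Schwarz
    have hcs : ip F (k + 1) h h ^ 2 ≤ ip F (k + 2) g g * ip F (k + 2) (up h) (up h) := by
      have e1 : ip F (k + 1) h h = ip F (k + 2) g (up h) := by
        rw [hh, ip_down]
      rw [e1]
      exact ip_sq_le F (k + 2) g (up h)
    have hup : ip F (k + 2) (up h) (up h) ≤
        ((k : ℝ) + 1) * ((F.card : ℝ) - k - 2) * ip F (k + 1) h h := by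
      have e := norm_up F (k + 1) h
      rw [ip_up_down_succ] at e
      rw [e]
      push_cast
      nlinarith [ih']
    have hn := ip_self_nonneg F (k + 1) h
    have hgn := ip_self_nonneg F (k + 2) g
    by_cases h0 : ip F (k + 1) h h = 0
    · rw [h0]
      push_cast
      have : (0:ℝ) ≤ (k + 1) * ((F.card : ℝ) - (k + 1) - 1) := by
        apply mul_nonneg <;> linarith [(Nat.cast_nonneg k : (0:ℝ) ≤ k)]
      exact mul_nonneg this hgn
    · have hpos : 0 < ip F (k + 1) h h := lt_of_le_of_ne hn (Ne.symm h0)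
      have : ip F (k + 1) h h * ip F (k + 1) h h ≤
          (((k : ℝ) + 1) * ((F.card : ℝ) - k - 2) * ip F (k + 2) g g) * ip F (k + 1) h h := by
        calc ip F (k + 1) h h * ip F (k + 1) h h = ip F (k + 1) h h ^ 2 := by ring
          _ ≤ ip F (k + 2) g g * ip F (k + 2) (up h) (up h) := hcs
          _ ≤ ip F (k + 2) g g * (((k : ℝ) + 1) * ((F.card : ℝ) - k - 2) * ip F (k + 1) h h) :=
              mul_le_mul_of_nonneg_left hup hgn
          _ = _ := by ring
      have := le_of_mul_le_mul_right this hpos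
      push_cast
      calc ip F (k + 1) h h ≤ _ := this
        _ = _ := by ring


/-! ### The Dirichlet form and the spectral gap -/

/-- Ordered Dirichlet form of the Johnson graph `J(F,k)`: each unordered edge counted twice. -/
def E2 (F : Finset α) (k : ℕ) (g : Finset α → ℝ) : ℝ :=
  ∑ x ∈ F.powersetCard k, ∑ c ∈ x, ∑ d ∈ F \ x, (g x - g (insert d (x.erase c))) ^ 2

lemma E2_nonneg (F : Finset α) (k : ℕ) (g : Finset α → ℝ) : 0 ≤ E2 F k g :=
  Finset.sum_nonneg fun _ _ => Finset.sum_nonneg fun _ _ => Finset.sum_nonneg fun _ _ =>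
    sq_nonneg _

/-- The `(z,c,d)` form of `E2`. -/
lemma E2_succ (F : Finset α) (j : ℕ) (g : Finset α → ℝ) :
    E2 F (j + 1) g = ∑ z ∈ F.powersetCard j, ∑ c ∈ F \ z, ∑ d ∈ F \ z,
      (g (insert c z) - g (insert d z)) ^ 2 := by
  unfold E2
  rw [sum_flag F j (fun x c => ∑ d ∈ F \ x, (g x - g (insert d (x.erase c))) ^ 2)]
  refine Finset.sum_congr rfl fun z _ => Finset.sum_congr rfl fun c hc => ?_
  have hcz := (Finset.mem_sdiff.mp hc).2
  rw [Finset.erase_insert hcz]
  have : F \ z = insert c (F \ insert c z) := by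
    ext a
    simp only [Finset.mem_sdiff, Finset.mem_insert]
    constructor
    · rintro ⟨h1, h2⟩
      by_cases hac : a = c
      · exact Or.inl hac
      · exact Or.inr ⟨h1, by tauto⟩
    · rintro (rfl | ⟨h1, h2⟩)
      · exact Finset.mem_sdiff.mp hc
      · exact ⟨h1, by tauto⟩
  conv_rhs => rw [this]
  rw [Finset.sum_insert (by simp)]
  simp

omit [DecidableEq α] in
lemma sum_sq_sub_sq (A : Finset α) (a : α → ℝ) :
    ∑ c ∈ A, ∑ d ∈ A, (a c - a d) ^ 2 =
      2 * (A.card : ℝ) * ∑ c ∈ A, a c ^ 2 - 2 * (∑ c ∈ A, a c) ^ 2 := by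
  have : ∀ c ∈ A, ∑ d ∈ A, (a c - a d) ^ 2 =
      (A.card : ℝ) * a c ^ 2 - 2 * a c * (∑ d ∈ A, a d) + ∑ d ∈ A, a d ^ 2 := by
    intro c _
    have : ∀ d ∈ A, (a c - a d) ^ 2 = a c ^ 2 - 2 * a c * a d + a d ^ 2 := fun _ _ => by ring
    rw [Finset.sum_congr rfl this, Finset.sum_add_distrib, Finset.sum_sub_distrib,
      Finset.sum_const, Finset.mul_sum]
    simp
  rw [Finset.sum_congr rfl this, Finset.sum_add_distrib, Finset.sum_sub_distrib]
  simp only [Finset.sum_const, nsmul_eq_mul, ← Finset.sum_mul, ← Finset.mul_sum]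
  ring

/-- Closed formula for `E2`. -/
lemma E2_eq (F : Finset α) (j : ℕ) (g : Finset α → ℝ) :
    E2 F (j + 1) g = 2 * ((F.card : ℝ) - j) * ((j : ℝ) + 1) * ip F (j + 1) g g
      - 2 * ip F j (down F g) (down F g) := by
  rw [E2_succ]
  have h1 : ∀ z ∈ F.powersetCard j, ∑ c ∈ F \ z, ∑ d ∈ F \ z,
      (g (insert c z) - g (insert d z)) ^ 2 =
      2 * ((F.card : ℝ) - j) * ∑ c ∈ F \ z, g (insert c z) ^ 2 - 2 * (down F g z) ^ 2 := by
    intro z hz
    obtain ⟨hzF, hzc⟩ := Finset.mem_powersetCard.mp hz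
    have hjm : j ≤ F.card := hzc ▸ Finset.card_le_card hzF
    rw [sum_sq_sub_sq (F \ z) (fun c => g (insert c z)), Finset.card_sdiff_of_subset hzF, hzc,
      Nat.cast_sub hjm]
    rfl
  rw [Finset.sum_congr rfl h1, Finset.sum_sub_distrib, ← Finset.mul_sum, ← Finset.mul_sum]
  have h2 := sum_flag F j (fun x _ => g x ^ 2)
  rw [← h2]
  have h3 : ∑ x ∈ F.powersetCard (j + 1), ∑ _c ∈ x, g x ^ 2 =
      ((j : ℝ) + 1) * ip F (j + 1) g g := by
    unfold ip
    rw [Finset.mul_sum]
    refine Finset.sum_congr rfl fun x hx => ?_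
    rw [Finset.sum_const, (Finset.mem_powersetCard.mp hx).2]
    simp [sq]
  rw [h3]
  unfold ip
  have : ∑ x ∈ F.powersetCard j, down F g x * down F g x =
      ∑ x ∈ F.powersetCard j, down F g x ^ 2 :=
    Finset.sum_congr rfl fun _ _ => by ring
  rw [this]
  ring

/-- **Johnson gap**: `E_J(g) ≥ m ‖g‖²` for mean-zero `g` (with `E_J = E2 / 2`). -/
theorem gap (F : Finset α) (k : ℕ) (g : Finset α → ℝ)
    (hg : ∑ x ∈ F.powersetCard k, g x = 0) :
    2 * (F.card : ℝ) * ∑ x ∈ F.powersetCard k, g x ^ 2 ≤ E2 F k g := by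
  rcases k with _ | j
  · simp only [Finset.powersetCard_zero, Finset.sum_singleton] at hg ⊢
    simp [hg, E2]
  · by_cases hj : j + 1 ≤ F.card
    · have h1 := down_norm_le F j hj g hg
      rw [E2_eq]
      have h2 : ∑ x ∈ F.powersetCard (j + 1), g x ^ 2 = ip F (j + 1) g g :=
        Finset.sum_congr rfl fun _ _ => by ring
      rw [h2]
      nlinarith [h1]
    · have : F.powersetCard (j + 1) = ∅ :=
        Finset.powersetCard_eq_empty.mpr (by omega)
      rw [this]
      simpa using E2_nonneg F (j + 1) g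


/-! ### Sums over supersets -/

/-- `bb z = ∑_{x ∈ J(F,k), z ⊆ x} g x`. -/
def bb (F : Finset α) (k : ℕ) (g : Finset α → ℝ) (z : Finset α) : ℝ :=
  ∑ x ∈ (F.powersetCard k).filter (fun x => z ⊆ x), g x

lemma bb_empty (F : Finset α) (k : ℕ) (g : Finset α → ℝ) :
    bb F k g ∅ = ∑ x ∈ F.powersetCard k, g x := by
  simp [bb]

lemma bb_top (F : Finset α) (k : ℕ) (g : Finset α → ℝ) {x : Finset α}
    (hx : x ∈ F.powersetCard k) : bb F k g x = g x := by
  unfold bb
  have : (F.powersetCard k).filter (fun y => x ⊆ y) = {x} := by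
    ext y
    simp only [Finset.mem_filter, Finset.mem_singleton]
    constructor
    · rintro ⟨hy, hxy⟩
      obtain ⟨_, hyc⟩ := Finset.mem_powersetCard.mp hy
      obtain ⟨_, hxc⟩ := Finset.mem_powersetCard.mp hx
      exact (Finset.eq_of_subset_of_card_le hxy (by omega)).symm
    · rintro rfl
      exact ⟨hx, Finset.Subset.refl _⟩
  rw [this, Finset.sum_singleton]

lemma down_bb (F : Finset α) (k : ℕ) (g : Finset α → ℝ) {j : ℕ} {z : Finset α}
    (hz : z ∈ F.powersetCard j) (hjk : j ≤ k) :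
    down F (bb F k g) z = ((k : ℝ) - j) * bb F k g z := by
  obtain ⟨hzF, hzc⟩ := Finset.mem_powersetCard.mp hz
  unfold down bb
  simp_rw [Finset.sum_filter]
  rw [Finset.sum_comm, Finset.mul_sum]
  refine Finset.sum_congr rfl fun x hx => ?_
  obtain ⟨hxF, hxc⟩ := Finset.mem_powersetCard.mp hx
  by_cases hzx : z ⊆ x
  · rw [if_pos hzx, ← Finset.sum_filter, Finset.sum_const]
    have : (F \ z).filter (fun c => insert c z ⊆ x) = x \ z := by
      ext c
      simp only [Finset.mem_filter, Finset.mem_sdiff, Finset.insert_subset_iff]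
      constructor
      · rintro ⟨⟨_, h2⟩, h3, _⟩
        exact ⟨h3, h2⟩
      · rintro ⟨h1, h2⟩
        exact ⟨⟨hxF h1, h2⟩, h1, hzx⟩
    rw [this, Finset.card_sdiff_of_subset hzx, hxc, hzc, nsmul_eq_mul, Nat.cast_sub hjk]
  · rw [if_neg hzx, mul_zero]
    refine Finset.sum_eq_zero fun c _ => ?_
    rw [if_neg]
    intro h
    exact hzx ((Finset.subset_insert _ _).trans h)

/-- The Johnson "slope" at a pair: `a * (m - 2) = k - 1`. -/
noncomputable def aa (F : Finset α) (k : ℕ) : ℝ := ((k : ℝ) - 1) / ((F.card : ℝ) - 2)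

omit [DecidableEq α] in
lemma aa_mul (F : Finset α) {k : ℕ} (h1 : 1 ≤ k) (h2 : k + 1 ≤ F.card) :
    aa F k * ((F.card : ℝ) - 2) = (k : ℝ) - 1 := by
  unfold aa
  by_cases h : (F.card : ℝ) - 2 = 0
  · have hm : (F.card : ℝ) = 2 := by linarith
    have hm' : F.card = 2 := by exact_mod_cast hm
    have hk : k = 1 := by omega
    subst hk
    simp
  · field_simp

/-- The harmonic part on pairs. -/
noncomputable def gam (F : Finset α) (k : ℕ) (g : Finset α → ℝ) (e : Finset α) : ℝ :=
  bb F k g e - aa F k * up (bb F k g) e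

lemma down_sub_mul (F : Finset α) (φ ψ : Finset α → ℝ) (r : ℝ) (z : Finset α) :
    down F (fun x => φ x - r * ψ x) z = down F φ z - r * down F ψ z := by
  unfold down
  rw [Finset.sum_sub_distrib, Finset.mul_sum]

lemma down_mul (F : Finset α) (φ : Finset α → ℝ) (r : ℝ) (z : Finset α) :
    down F (fun x => r * φ x) z = r * down F φ z := by
  unfold down
  rw [Finset.mul_sum]

lemma up_down_bb_one (F : Finset α) (k : ℕ) (g : Finset α → ℝ)
    (hg : ∑ x ∈ F.powersetCard k, g x = 0) {z : Finset α} (hz : z ∈ F.powersetCard 1) :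
    up (down F (bb F k g)) z = 0 := by
  unfold up
  refine Finset.sum_eq_zero fun c hc => ?_
  obtain ⟨hzF, hzc⟩ := Finset.mem_powersetCard.mp hz
  have h0 : z.erase c = ∅ := by
    rw [← Finset.card_eq_zero, Finset.card_erase_of_mem hc, hzc]
  rw [h0]
  have := down_bb F k g (j := 0) (z := ∅) (by simp) (Nat.zero_le _)
  rw [this, bb_empty, hg, mul_zero]

lemma down_gam (F : Finset α) {k : ℕ} (g : Finset α → ℝ) (h1 : 1 ≤ k) (h2 : k + 1 ≤ F.card)
    (hg : ∑ x ∈ F.powersetCard k, g x = 0) {z : Finset α} (hz : z ∈ F.powersetCard 1) :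
    down F (gam F k g) z = 0 := by
  have e : gam F k g = fun x => bb F k g x - aa F k * up (bb F k g) x := rfl
  rw [e, down_sub_mul, down_up F _ hz, up_down_bb_one F k g hg hz, down_bb F k g hz h1]
  have := aa_mul F h1 h2
  push_cast
  linear_combination (-bb F k g z) * this

omit [DecidableEq α] in
lemma ip_congr (F : Finset α) (j : ℕ) {g g' h h' : Finset α → ℝ}
    (hg : ∀ x ∈ F.powersetCard j, g x = g' x) (hh : ∀ x ∈ F.powersetCard j, h x = h' x) :
    ip F j g h = ip F j g' h' :=
  Finset.sum_congr rfl fun x hx => by rw [hg x hx, hh x hx]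

omit [DecidableEq α] in
lemma ip_comm (F : Finset α) (j : ℕ) (g h : Finset α → ℝ) : ip F j g h = ip F j h g :=
  Finset.sum_congr rfl fun _ _ => mul_comm _ _

/-- `‖up bb‖² = (m-2) ‖bb‖²` on mean-zero functions. -/
lemma ip_up_bb_self (F : Finset α) (k : ℕ) (g : Finset α → ℝ)
    (hg : ∑ x ∈ F.powersetCard k, g x = 0) :
    ip F 2 (up (bb F k g)) (up (bb F k g)) = ((F.card : ℝ) - 2) * ip F 1 (bb F k g) (bb F k g) := by
  have e := norm_up F 1 (bb F k g)
  rw [ip_up_down_succ] at e
  have h0 : ip F 0 (down F (bb F k g)) (down F (bb F k g)) = 0 := by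
    have := down_bb F k g (j := 0) (z := ∅) (by simp) (Nat.zero_le _)
    simp [ip, this, bb_empty, hg]
  rw [h0] at e
  push_cast at e
  rw [e]; ring

/-- Orthogonality of `up bb` and `gam` on pairs. -/
lemma ip_up_bb_gam (F : Finset α) {k : ℕ} (g : Finset α → ℝ) (h1 : 1 ≤ k) (h2 : k + 1 ≤ F.card)
    (hg : ∑ x ∈ F.powersetCard k, g x = 0) :
    ip F 2 (up (bb F k g)) (gam F k g) = 0 := by
  rw [ip_comm, ← ip_down]
  unfold ip
  exact Finset.sum_eq_zero fun z hz => by rw [down_gam F g h1 h2 hg hz, zero_mul]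

/-! ### The transform on pairs -/

/-- The states separating the pair `e`. -/
def Dset (F : Finset α) (k : ℕ) (e : Finset α) : Finset (Finset α) :=
  (F.powersetCard k).filter (fun x => (x ∩ e).card = 1)

/-- The sum of `g` on the states separating the pair `e`. -/
def TT (F : Finset α) (k : ℕ) (g : Finset α → ℝ) (e : Finset α) : ℝ :=
  ∑ x ∈ Dset F k e, g x

lemma TT_eq (F : Finset α) (k : ℕ) (g : Finset α → ℝ) {e : Finset α}
    (he : e ∈ F.powersetCard 2) : TT F k g e = up (bb F k g) e - 2 * bb F k g e := by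
  obtain ⟨heF, hec⟩ := Finset.mem_powersetCard.mp he
  obtain ⟨c, d, hcd, rfl⟩ := Finset.card_eq_two.mp hec
  have e1 : up (bb F k g) {c, d} = bb F k g {d} + bb F k g {c} := by
    unfold up
    rw [Finset.sum_pair hcd]
    have h1 : ({c, d} : Finset α).erase c = {d} := by
      ext a; simp only [Finset.mem_erase, Finset.mem_insert, Finset.mem_singleton]
      constructor
      · tauto
      · rintro rfl; exact ⟨Ne.symm hcd, Or.inr rfl⟩
    have h2 : ({c, d} : Finset α).erase d = {c} := by
      ext a; simp only [Finset.mem_erase, Finset.mem_insert, Finset.mem_singleton]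
      constructor
      · tauto
      · rintro rfl; exact ⟨hcd, Or.inl rfl⟩
    rw [h1, h2]
  rw [e1]
  unfold TT Dset bb
  simp only [Finset.sum_filter]
  rw [← Finset.sum_add_distrib, Finset.mul_sum, ← Finset.sum_sub_distrib]
  refine Finset.sum_congr rfl fun x _ => ?_
  by_cases hc : c ∈ x <;> by_cases hd : d ∈ x
  · have hi : x ∩ {c, d} = {c, d} := by
      rw [Finset.inter_eq_right]
      intro a ha
      simp only [Finset.mem_insert, Finset.mem_singleton] at ha
      rcases ha with rfl | rfl <;> assumption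
    have hs : ({c, d} : Finset α) ⊆ x := by
      intro a ha
      simp only [Finset.mem_insert, Finset.mem_singleton] at ha
      rcases ha with rfl | rfl <;> assumption
    rw [hi, Finset.card_pair hcd]
    simp [hc, hd, hs]
    ring
  · have hi : x ∩ {c, d} = {c} := by
      ext a
      simp only [Finset.mem_inter, Finset.mem_insert, Finset.mem_singleton]
      constructor
      · rintro ⟨h, rfl | rfl⟩
        · rfl
        · exact absurd h hd
      · rintro rfl; exact ⟨hc, Or.inl rfl⟩
    have hs : ¬ ({c, d} : Finset α) ⊆ x := fun h => hd (h (by simp))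
    rw [hi]
    simp [hc, hd, hs]
  · have hi : x ∩ {c, d} = {d} := by
      ext a
      simp only [Finset.mem_inter, Finset.mem_insert, Finset.mem_singleton]
      constructor
      · rintro ⟨h, rfl | rfl⟩
        · exact absurd h hc
        · rfl
      · rintro rfl; exact ⟨hd, Or.inr rfl⟩
    have hs : ¬ ({c, d} : Finset α) ⊆ x := fun h => hc (h (by simp))
    rw [hi]
    simp [hc, hd, hs]
  · have hi : x ∩ {c, d} = ∅ := by
      ext a
      simp only [Finset.mem_inter, Finset.mem_insert, Finset.mem_singleton, Finset.notMem_empty,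
        iff_false]
      rintro ⟨h, rfl | rfl⟩
      · exact hc h
      · exact hd h
    have hs : ¬ ({c, d} : Finset α) ⊆ x := fun h => hc (h (by simp))
    rw [hi]
    simp [hc, hd, hs]

/-- Pythagoras for `T`. -/
lemma ip_TT (F : Finset α) {k : ℕ} (g : Finset α → ℝ) (h1 : 1 ≤ k) (h2 : k + 1 ≤ F.card)
    (hg : ∑ x ∈ F.powersetCard k, g x = 0) :
    ip F 2 (TT F k g) (TT F k g) =
      (1 - 2 * aa F k) ^ 2 * ((F.card : ℝ) - 2) * ip F 1 (bb F k g) (bb F k g)
        + 4 * ip F 2 (gam F k g) (gam F k g) := by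
  have e : ∀ x ∈ F.powersetCard 2, TT F k g x =
      (1 - 2 * aa F k) * up (bb F k g) x - 2 * gam F k g x := by
    intro x hx
    rw [TT_eq F k g hx]
    unfold gam
    ring
  have e1 := ip_up_bb_self F k g hg
  have e2 := ip_up_bb_gam F g h1 h2 hg
  rw [ip_congr F 2 e e]
  unfold ip at *
  have : ∀ x ∈ F.powersetCard 2,
      ((1 - 2 * aa F k) * up (bb F k g) x - 2 * gam F k g x) *
        ((1 - 2 * aa F k) * up (bb F k g) x - 2 * gam F k g x) =
      (1 - 2 * aa F k) ^ 2 * (up (bb F k g) x * up (bb F k g) x)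
        - 4 * (1 - 2 * aa F k) * (up (bb F k g) x * gam F k g x)
        + 4 * (gam F k g x * gam F k g x) := fun _ _ => by ring
  rw [Finset.sum_congr rfl this, Finset.sum_add_distrib, Finset.sum_sub_distrib,
    ← Finset.mul_sum, ← Finset.mul_sum, ← Finset.mul_sum, e1, e2]
  ring


/-! ### Cauchy–Schwarz for the first level -/

/-- Reindexing states containing `c` but not `d`. -/
lemma sum_mem_notMem (F : Finset α) (j : ℕ) {c d : α} (hc : c ∈ F) (hcd : c ≠ d)
    (φ : Finset α → ℝ) :
    ∑ x ∈ (F.powersetCard (j + 1)).filter (fun x => c ∈ x ∧ d ∉ x), φ x =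
      ∑ z ∈ ((F.erase c).erase d).powersetCard j, φ (insert c z) := by
  refine Finset.sum_bij' (fun x _ => x.erase c) (fun z _ => insert c z) ?_ ?_ ?_ ?_ ?_
  · intro x hx
    simp only [Finset.mem_filter, Finset.mem_powersetCard] at hx ⊢
    obtain ⟨⟨hxF, hxc⟩, hcx, hdx⟩ := hx
    refine ⟨?_, by rw [Finset.card_erase_of_mem hcx, hxc]; rfl⟩
    intro a ha
    simp only [Finset.mem_erase] at ha ⊢
    exact ⟨fun h => hdx (h ▸ ha.2), ha.1, hxF ha.2⟩
  · intro z hz
    simp only [Finset.mem_filter, Finset.mem_powersetCard] at hz ⊢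
    obtain ⟨hzF, hzc⟩ := hz
    have hcz : c ∉ z := fun h => by
      have := hzF h
      simp at this
    have hdz : d ∉ z := fun h => by
      have := hzF h
      simp at this
    refine ⟨⟨?_, by rw [Finset.card_insert_of_notMem hcz, hzc]⟩, Finset.mem_insert_self _ _, ?_⟩
    · intro a ha
      rcases Finset.mem_insert.mp ha with rfl | ha
      · exact hc
      · have := hzF ha
        simp only [Finset.mem_erase] at this
        exact this.2.2
    · simp only [Finset.mem_insert, not_or]
      exact ⟨fun h => hcd h.symm, hdz⟩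
  · intro x hx
    simp only [Finset.mem_filter] at hx
    exact Finset.insert_erase hx.2.1
  · intro z hz
    simp only [Finset.mem_powersetCard] at hz
    have hcz : c ∉ z := fun h => by
      have := hz.1 h
      simp at this
    exact Finset.erase_insert hcz
  · intro x hx
    simp only [Finset.mem_filter] at hx
    rw [Finset.insert_erase hx.2.1]

/-- The difference of two first-level sums. -/
lemma bb_sub (F : Finset α) (j : ℕ) (g : Finset α → ℝ) {c d : α} (hc : c ∈ F) (hd : d ∈ F)
    (hcd : c ≠ d) :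
    bb F (j + 1) g {c} - bb F (j + 1) g {d} =
      ∑ z ∈ ((F.erase c).erase d).powersetCard j, (g (insert c z) - g (insert d z)) := by
  rw [Finset.sum_sub_distrib, ← sum_mem_notMem F j hc hcd]
  rw [Finset.erase_right_comm, ← sum_mem_notMem F j hd hcd.symm]
  unfold bb
  simp only [Finset.singleton_subset_iff, Finset.sum_filter]
  rw [← Finset.sum_sub_distrib, ← Finset.sum_sub_distrib]
  refine Finset.sum_congr rfl fun x _ => ?_
  by_cases h1 : c ∈ x <;> by_cases h2 : d ∈ x <;> simp [h1, h2]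

/-- Triple sum swap. -/
lemma sum_triple_swap (F : Finset α) (j : ℕ) (ψ : α → α → Finset α → ℝ) :
    ∑ c ∈ F, ∑ d ∈ F.erase c, ∑ z ∈ ((F.erase c).erase d).powersetCard j, ψ c d z =
      ∑ z ∈ F.powersetCard j, ∑ c ∈ F \ z, ∑ d ∈ (F \ z).erase c, ψ c d z := by
  have hsub : ∀ {z : Finset α} {c d : α},
      z ⊆ (F.erase c).erase d ↔ z ⊆ F ∧ c ∉ z ∧ d ∉ z := by
    intro z c d
    constructor
    · intro h
      refine ⟨fun a ha => ?_, fun hh => ?_, fun hh => ?_⟩
      · have := h ha
        simp only [Finset.mem_erase] at this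
        exact this.2.2
      · have := h hh
        simp at this
      · have := h hh
        simp at this
    · rintro ⟨h1, h2, h3⟩ a ha
      simp only [Finset.mem_erase]
      exact ⟨fun h => h3 (h ▸ ha), fun h => h2 (h ▸ ha), h1 ha⟩
  have step1 : ∀ c ∈ F, ∑ d ∈ F.erase c, ∑ z ∈ ((F.erase c).erase d).powersetCard j, ψ c d z =
      ∑ z ∈ (F.powersetCard j).filter (fun z => c ∉ z), ∑ d ∈ (F \ z).erase c, ψ c d z := by
    intro c _
    refine Finset.sum_comm' ?_
    intro d z
    simp only [Finset.mem_erase, Finset.mem_powersetCard, Finset.mem_filter, Finset.mem_sdiff,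
      hsub]
    tauto
  rw [Finset.sum_congr rfl step1]
  refine Finset.sum_comm' ?_
  intro c z
  simp only [Finset.mem_filter, Finset.mem_powersetCard, Finset.mem_sdiff]
  tauto

omit [DecidableEq α] in
lemma ip_one (F : Finset α) (h k : Finset α → ℝ) :
    ip F 1 h k = ∑ c ∈ F, h {c} * k {c} := by
  unfold ip
  rw [Finset.powersetCard_one, Finset.sum_map]
  rfl

/-- First-level Cauchy–Schwarz: `m ∑ β² ≤ N E_J`, with `N = C(m-2, k-1)`. -/
lemma first_level_cs (F : Finset α) (j : ℕ) (g : Finset α → ℝ)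
    (hg : ∑ x ∈ F.powersetCard (j + 1), g x = 0) :
    2 * (F.card : ℝ) * ip F 1 (bb F (j + 1) g) (bb F (j + 1) g) ≤
      ((F.card - 2).choose j : ℝ) * E2 F (j + 1) g := by
  set β : α → ℝ := fun c => bb F (j + 1) g {c} with hβ
  have hsum : ∑ c ∈ F, β c = 0 := by
    have := down_bb F (j + 1) g (j := 0) (z := ∅) (by simp) (Nat.zero_le _)
    rw [bb_empty, hg, mul_zero] at this
    unfold down at this
    simpa [hβ] using this
  have hip : ip F 1 (bb F (j + 1) g) (bb F (j + 1) g) = ∑ c ∈ F, β c ^ 2 := by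
    rw [ip_one]
    exact Finset.sum_congr rfl fun c _ => by rw [hβ]; ring
  have h1 := sum_sq_sub_sq F β
  rw [hsum] at h1
  rw [hip]
  have h2 : ∑ c ∈ F, ∑ d ∈ F, (β c - β d) ^ 2 = 2 * (F.card : ℝ) * ∑ c ∈ F, β c ^ 2 := by
    rw [h1]; ring
  rw [← h2]
  have h3 : ∀ c ∈ F, ∑ d ∈ F, (β c - β d) ^ 2 = ∑ d ∈ F.erase c, (β c - β d) ^ 2 := by
    intro c hc
    rw [← Finset.add_sum_erase F _ hc]
    simp
  rw [Finset.sum_congr rfl h3]
  have h4 : ∀ c ∈ F, ∀ d ∈ F.erase c, (β c - β d) ^ 2 ≤
      ((F.card - 2).choose j : ℝ) *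
        ∑ z ∈ ((F.erase c).erase d).powersetCard j, (g (insert c z) - g (insert d z)) ^ 2 := by
    intro c hc d hd
    have hd' := Finset.mem_erase.mp hd
    have hcd : c ≠ d := Ne.symm hd'.1
    have := bb_sub F j g hc hd'.2 hcd
    rw [hβ]
    simp only
    rw [this]
    have hcard : (((F.erase c).erase d).powersetCard j).card = (F.card - 2).choose j := by
      rw [Finset.card_powersetCard, Finset.card_erase_of_mem hd, Finset.card_erase_of_mem hc]
      rfl
    have := sq_sum_le_card_mul_sum_sq (s := ((F.erase c).erase d).powersetCard j)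
      (f := fun z => g (insert c z) - g (insert d z))
    rw [hcard] at this
    exact this
  calc ∑ c ∈ F, ∑ d ∈ F.erase c, (β c - β d) ^ 2
      ≤ ∑ c ∈ F, ∑ d ∈ F.erase c, ((F.card - 2).choose j : ℝ) *
        ∑ z ∈ ((F.erase c).erase d).powersetCard j, (g (insert c z) - g (insert d z)) ^ 2 :=
        Finset.sum_le_sum fun c hc => Finset.sum_le_sum fun d hd => h4 c hc d hd
    _ = ((F.card - 2).choose j : ℝ) * E2 F (j + 1) g := by
        rw [E2_succ]
        simp_rw [← Finset.mul_sum]
        congr 1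
        rw [sum_triple_swap F j (fun c d z => (g (insert c z) - g (insert d z)) ^ 2)]
        refine Finset.sum_congr rfl fun z _ => Finset.sum_congr rfl fun c hc => ?_
        rw [← Finset.add_sum_erase (F \ z) (fun d => (g (insert c z) - g (insert d z)) ^ 2) hc]
        simp


/-! ### Harmonic lifts and the Bessel bound -/

/-- Normalised iterated up-lift. -/
noncomputable def hs (t : Finset α → ℝ) : ℕ → Finset α → ℝ
  | 0 => t
  | i + 1 => fun x => (1 / ((i : ℝ) + 1)) * up (hs t i) x

lemma up_hs (t : Finset α → ℝ) (i : ℕ) (x : Finset α) :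
    up (hs t i) x = ((i : ℝ) + 1) * hs t (i + 1) x := by
  have : ((i : ℝ) + 1) ≠ 0 := by positivity
  simp only [hs]
  field_simp

lemma erase_mem_level {F z : Finset α} {j : ℕ} (hz : z ∈ F.powersetCard (j + 1)) {c : α}
    (hc : c ∈ z) : z.erase c ∈ F.powersetCard j := by
  obtain ⟨hzF, hzc⟩ := Finset.mem_powersetCard.mp hz
  refine Finset.mem_powersetCard.mpr ⟨(Finset.erase_subset _ _).trans hzF, ?_⟩
  rw [Finset.card_erase_of_mem hc, hzc]; rfl

lemma hs_down (F : Finset α) (t : Finset α → ℝ) (ht : ∀ z ∈ F.powersetCard 1, down F t z = 0) :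
    ∀ i : ℕ, ∀ z ∈ F.powersetCard (i + 2),
      down F (hs t (i + 1)) z = ((F.card : ℝ) - 4 - i) * hs t i z := by
  intro i
  induction i with
  | zero =>
    intro z hz
    have e : hs t (0 + 1) = fun x => (1 / (((0 : ℕ) : ℝ) + 1)) * up (hs t 0) x := rfl
    rw [e, down_mul]
    have e0 : hs t 0 = t := rfl
    rw [e0, down_up F t hz]
    have : up (down F t) z = 0 :=
      Finset.sum_eq_zero fun c hc => ht _ (erase_mem_level hz hc)
    rw [this]
    push_cast
    ring
  | succ i ih =>
    intro z hz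
    have e : hs t (i + 1 + 1) = fun x => (1 / (((i + 1 : ℕ) : ℝ) + 1)) * up (hs t (i + 1)) x := rfl
    rw [e, down_mul, down_up F _ hz]
    have h1 : up (down F (hs t (i + 1))) z = ((F.card : ℝ) - 4 - i) * (((i : ℝ) + 1) * hs t (i + 1) z) := by
      rw [← up_hs]
      unfold up
      rw [Finset.mul_sum]
      exact Finset.sum_congr rfl fun c hc => ih _ (erase_mem_level hz hc)
    rw [h1]
    have : ((i : ℝ) + 2) ≠ 0 := by positivity
    push_cast
    field_simp
    ring

lemma hs_norm (F : Finset α) (t : Finset α → ℝ) (ht : ∀ z ∈ F.powersetCard 1, down F t z = 0)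
    (i : ℕ) :
    ip F (i + 3) (hs t (i + 1)) (hs t (i + 1)) =
      (((F.card : ℝ) - 4 - i) / ((i : ℝ) + 1)) * ip F (i + 2) (hs t i) (hs t i) := by
  have e : hs t (i + 1) = fun x => (1 / ((i : ℝ) + 1)) * up (hs t i) x := rfl
  have h1 : ip F (i + 3) (hs t (i + 1)) (hs t (i + 1)) =
      (1 / ((i : ℝ) + 1)) * ip F (i + 3) (hs t (i + 1)) (up (hs t i)) := by
    unfold ip
    rw [Finset.mul_sum]
    refine Finset.sum_congr rfl fun x _ => ?_
    have hx : hs t (i + 1) x = (1 / ((i : ℝ) + 1)) * up (hs t i) x := rfl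
    calc hs t (i + 1) x * hs t (i + 1) x
        = hs t (i + 1) x * ((1 / ((i : ℝ) + 1)) * up (hs t i) x) := by rw [← hx]
      _ = _ := by ring
  rw [h1, ← ip_down]
  have h2 : ip F (i + 2) (down F (hs t (i + 1))) (hs t i) =
      ((F.card : ℝ) - 4 - i) * ip F (i + 2) (hs t i) (hs t i) := by
    unfold ip
    rw [Finset.mul_sum]
    refine Finset.sum_congr rfl fun z hz => ?_
    rw [hs_down F t ht i z hz]
    ring
  rw [h2]
  ring

lemma hs_bb (F : Finset α) (k : ℕ) (g t : Finset α → ℝ) (i : ℕ) (hi : i + 2 ≤ k) :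
    ip F (i + 3) (bb F k g) (hs t (i + 1)) =
      (((k : ℝ) - (i + 2)) / ((i : ℝ) + 1)) * ip F (i + 2) (bb F k g) (hs t i) := by
  have e : hs t (i + 1) = fun x => (1 / ((i : ℝ) + 1)) * up (hs t i) x := rfl
  have h1 : ip F (i + 3) (bb F k g) (hs t (i + 1)) =
      (1 / ((i : ℝ) + 1)) * ip F (i + 3) (bb F k g) (up (hs t i)) := by
    unfold ip
    rw [Finset.mul_sum]
    refine Finset.sum_congr rfl fun x _ => ?_
    rw [e]
    ring
  rw [h1, ← ip_down]
  have h2 : ip F (i + 2) (down F (bb F k g)) (hs t i) =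
      ((k : ℝ) - (i + 2)) * ip F (i + 2) (bb F k g) (hs t i) := by
    unfold ip
    rw [Finset.mul_sum]
    refine Finset.sum_congr rfl fun z hz => ?_
    rw [down_bb F k g hz hi]
    push_cast
    ring
  rw [h2]
  ring

lemma choose_succ_real (p i : ℕ) :
    (p.choose (i + 1) : ℝ) = (p.choose i : ℝ) * ((p : ℝ) - i) / ((i : ℝ) + 1) := by
  have hi : ((i : ℝ) + 1) ≠ 0 := by positivity
  rw [eq_div_iff hi]
  have := Nat.choose_succ_right_eq p i
  by_cases h : i ≤ p
  · have h' : ((p.choose (i + 1) * (i + 1) : ℕ) : ℝ) = ((p.choose i * (p - i) : ℕ) : ℝ) := by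
      rw [this]
    push_cast [Nat.cast_sub h] at h'
    linarith
  · have h1 : p.choose i = 0 := Nat.choose_eq_zero_of_lt (by omega)
    have h2 : p.choose (i + 1) = 0 := Nat.choose_eq_zero_of_lt (by omega)
    rw [h1, h2]
    simp

lemma ip_bb_gam (F : Finset α) {k : ℕ} (g : Finset α → ℝ) (h1 : 1 ≤ k) (h2 : k + 1 ≤ F.card)
    (hg : ∑ x ∈ F.powersetCard k, g x = 0) :
    ip F 2 (bb F k g) (gam F k g) = ip F 2 (gam F k g) (gam F k g) := by
  have e2 := ip_up_bb_gam F g h1 h2 hg
  have : ip F 2 (bb F k g) (gam F k g) =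
      ip F 2 (gam F k g) (gam F k g) + aa F k * ip F 2 (up (bb F k g)) (gam F k g) := by
    unfold ip
    rw [Finset.mul_sum, ← Finset.sum_add_distrib]
    refine Finset.sum_congr rfl fun x _ => ?_
    unfold gam
    ring
  rw [this, e2, mul_zero, add_zero]

/-- The Bessel bound for the harmonic part. -/
lemma gam_bound (F : Finset α) (p q : ℕ) (hm : F.card = p + 4) (hk : q + 2 + 1 ≤ F.card)
    (g : Finset α → ℝ) (hg : ∑ x ∈ F.powersetCard (q + 2), g x = 0) :
    ip F 2 (gam F (q + 2) g) (gam F (q + 2) g) ≤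
      (p.choose q : ℝ) * ip F (q + 2) g g := by
  set γ := gam F (q + 2) g with hγ
  have ht : ∀ z ∈ F.powersetCard 1, down F γ z = 0 := fun z hz =>
    down_gam F g (by omega) hk hg hz
  have hN : ∀ i : ℕ, ip F (i + 2) (hs γ i) (hs γ i) = (p.choose i : ℝ) * ip F 2 γ γ := by
    intro i
    induction i with
    | zero => simp [hs]
    | succ i ih =>
      have := hs_norm F γ ht i
      rw [show i + 1 + 2 = i + 3 from rfl, this, ih, choose_succ_real, hm]
      push_cast
      ring
  have hB : ∀ i : ℕ, i ≤ q → ip F (i + 2) (bb F (q + 2) g) (hs γ i) =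
      (q.choose i : ℝ) * ip F 2 (bb F (q + 2) g) γ := by
    intro i
    induction i with
    | zero => intro _; simp [hs]
    | succ i ih =>
      intro hi
      have := hs_bb F (q + 2) g γ i (by omega)
      rw [show i + 1 + 2 = i + 3 from rfl, this, ih (by omega), choose_succ_real]
      push_cast
      ring
  have h1 := hB q le_rfl
  rw [Nat.choose_self, ip_bb_gam F g (by omega) hk hg] at h1
  have h2 : ip F (q + 2) (bb F (q + 2) g) (hs γ q) = ip F (q + 2) g (hs γ q) :=
    ip_congr F (q + 2) (fun x hx => bb_top F (q + 2) g hx) (fun _ _ => rfl)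
  rw [h2] at h1
  push_cast at h1
  rw [one_mul] at h1
  have hcs := ip_sq_le F (q + 2) g (hs γ q)
  rw [h1, hN q] at hcs
  have hn := ip_self_nonneg F 2 γ
  by_cases h0 : ip F 2 γ γ = 0
  · rw [h0]
    exact mul_nonneg (by positivity) (ip_self_nonneg _ _ _)
  · have hpos : 0 < ip F 2 γ γ := lt_of_le_of_ne hn (Ne.symm h0)
    have : ip F 2 γ γ * ip F 2 γ γ ≤ ((p.choose q : ℝ) * ip F (q + 2) g g) * ip F 2 γ γ := by
      calc ip F 2 γ γ * ip F 2 γ γ = ip F 2 γ γ ^ 2 := by ring
        _ ≤ _ := hcs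
        _ = _ := by ring
    exact le_of_mul_le_mul_right this hpos

lemma two_gam_le (F : Finset α) (k : ℕ) (h1 : 1 ≤ k) (h2 : k + 1 ≤ F.card)
    (g : Finset α → ℝ) (hg : ∑ x ∈ F.powersetCard k, g x = 0) :
    2 * ip F 2 (gam F k g) (gam F k g) ≤
      ((F.card - 2).choose (k - 1) : ℝ) * ip F k g g := by
  have hGnn : 0 ≤ ((F.card - 2).choose (k - 1) : ℝ) * ip F k g g :=
    mul_nonneg (by positivity) (ip_self_nonneg _ _ _)
  rcases Nat.lt_or_ge k 2 with hk | hk
  · -- `k = 1`
    have hk1 : k = 1 := by omega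
    subst hk1
    have : ip F 2 (gam F 1 g) (gam F 1 g) = 0 := by
      unfold ip
      refine Finset.sum_eq_zero fun e he => ?_
      have hb : bb F 1 g e = 0 := by
        unfold bb
        rw [Finset.filter_false_of_mem, Finset.sum_empty]
        intro x hx hex
        have h3 := (Finset.mem_powersetCard.mp hx).2
        have h4 := (Finset.mem_powersetCard.mp he).2
        have := Finset.card_le_card hex
        omega
      have ha : aa F 1 = 0 := by simp [aa]
      simp [gam, hb, ha]
    rw [this]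
    simpa using hGnn
  · rcases Nat.lt_or_ge F.card 4 with hm | hm
    · -- `m = 3`, `k = 2`
      have hk2 : k = 2 := by omega
      subst hk2
      have hm3 : F.card = 3 := by omega
      have e := norm_up F 2 (gam F 2 g)
      rw [ip_up_down_succ (j := 1)] at e
      have h0 : ip F 1 (down F (gam F 2 g)) (down F (gam F 2 g)) = 0 := by
        unfold ip
        refine Finset.sum_eq_zero fun z hz => ?_
        rw [down_gam F g h1 h2 hg hz, mul_zero]
      rw [h0, hm3] at e
      push_cast at e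
      have h3 := ip_self_nonneg F 3 (up (gam F 2 g))
      have h4 : ip F 2 (gam F 2 g) (gam F 2 g) ≤ 0 := by
        linarith
      linarith
    · obtain ⟨p, hp⟩ : ∃ p, F.card = p + 4 := ⟨F.card - 4, by omega⟩
      obtain ⟨q, rfl⟩ : ∃ q, k = q + 2 := ⟨k - 2, by omega⟩
      have hb := gam_bound F p q hp h2 g hg
      have hpascal : 2 * p.choose q ≤ (p + 2).choose (q + 1) := by
        have e1 : (p + 2).choose (q + 1) = (p + 1).choose q + (p + 1).choose (q + 1) :=
          Nat.choose_succ_succ _ _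
        have e3 : (p + 1).choose (q + 1) = p.choose q + p.choose (q + 1) :=
          Nat.choose_succ_succ _ _
        have e2 : p.choose q ≤ (p + 1).choose q := Nat.choose_le_succ p q
        omega
      have e1 : F.card - 2 = p + 2 := by omega
      have e2 : q + 2 - 1 = q + 1 := by omega
      rw [e1, e2]
      have hp' : (2 : ℝ) * (p.choose q : ℝ) ≤ ((p + 2).choose (q + 1) : ℝ) := by
        exact_mod_cast hpascal
      have := ip_self_nonneg F (q + 2) g
      nlinarith

/-- Expansion of the sum over states separating `{c, d}`. -/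
lemma sum_Dset (F : Finset α) (j : ℕ) {c d : α} (hc : c ∈ F) (hd : d ∈ F) (hcd : c ≠ d)
    (φ : Finset α → ℝ) :
    ∑ x ∈ Dset F (j + 1) {c, d}, φ x =
      ∑ z ∈ ((F.erase c).erase d).powersetCard j, (φ (insert c z) + φ (insert d z)) := by
  rw [Finset.sum_add_distrib, ← sum_mem_notMem F j hc hcd]
  rw [Finset.erase_right_comm, ← sum_mem_notMem F j hd hcd.symm]
  unfold Dset
  simp only [Finset.sum_filter]
  rw [← Finset.sum_add_distrib]
  refine Finset.sum_congr rfl fun x _ => ?_
  by_cases hc' : c ∈ x <;> by_cases hd' : d ∈ x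
  · have hi : x ∩ {c, d} = {c, d} := by
      rw [Finset.inter_eq_right]
      intro a ha
      simp only [Finset.mem_insert, Finset.mem_singleton] at ha
      rcases ha with rfl | rfl <;> assumption
    rw [hi, Finset.card_pair hcd]
    simp [hc', hd']
  · have hi : x ∩ {c, d} = {c} := by
      ext a
      simp only [Finset.mem_inter, Finset.mem_insert, Finset.mem_singleton]
      constructor
      · rintro ⟨h, rfl | rfl⟩
        · rfl
        · exact absurd h hd'
      · rintro rfl; exact ⟨hc', Or.inl rfl⟩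
    rw [hi]
    simp [hc', hd']
  · have hi : x ∩ {c, d} = {d} := by
      ext a
      simp only [Finset.mem_inter, Finset.mem_insert, Finset.mem_singleton]
      constructor
      · rintro ⟨h, rfl | rfl⟩
        · exact absurd h hc'
        · rfl
      · rintro rfl; exact ⟨hd', Or.inr rfl⟩
    rw [hi]
    simp [hc', hd']
  · have hi : x ∩ {c, d} = ∅ := by
      ext a
      simp only [Finset.mem_inter, Finset.mem_insert, Finset.mem_singleton, Finset.notMem_empty,
        iff_false]
      rintro ⟨h, rfl | rfl⟩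
      · exact hc' h
      · exact hd' h
    rw [hi]
    simp [hc', hd']

/-- `|D(e)| = 2 C(m-2, k-1)`. -/
lemma card_Dset (F : Finset α) (j : ℕ) {e : Finset α} (he : e ∈ F.powersetCard 2) :
    ((Dset F (j + 1) e).card : ℝ) = 2 * ((F.card - 2).choose j : ℝ) := by
  obtain ⟨heF, hec⟩ := Finset.mem_powersetCard.mp he
  obtain ⟨c, d, hcd, rfl⟩ := Finset.card_eq_two.mp hec
  have hc : c ∈ F := heF (by simp)
  have hd : d ∈ F := heF (by simp)
  have := sum_Dset F j hc hd hcd (fun _ => (1 : ℝ))
  simp only [Finset.sum_const, nsmul_eq_mul, mul_one] at this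
  rw [this, Finset.card_powersetCard, Finset.card_erase_of_mem, Finset.card_erase_of_mem hc]
  · norm_num
    ring_nf
    rfl
  · exact Finset.mem_erase.mpr ⟨Ne.symm hcd, hd⟩

/-- The key sum of squares bound: `∑_e T(e)² ≤ (N / 2) E2`, `N = C(m-2, k-1)`. -/
lemma ip_TT_le (F : Finset α) (j : ℕ) (h2 : j + 1 + 1 ≤ F.card) (g : Finset α → ℝ)
    (hg : ∑ x ∈ F.powersetCard (j + 1), g x = 0) :
    ip F 2 (TT F (j + 1) g) (TT F (j + 1) g) ≤
      ((F.card - 2).choose j : ℝ) / 2 * E2 F (j + 1) g := by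
  have hT := ip_TT F g (Nat.succ_pos j) h2 hg
  have hA := ip_self_nonneg F 1 (bb F (j + 1) g)
  have hΓ := ip_self_nonneg F 2 (gam F (j + 1) g)
  have hfl := first_level_cs F j g hg
  have hgam := two_gam_le F (j + 1) (Nat.succ_pos j) h2 g hg
  simp only [Nat.add_sub_cancel] at hgam
  have hgap := gap F (j + 1) g hg
  have hG : ∑ x ∈ F.powersetCard (j + 1), g x ^ 2 = ip F (j + 1) g g :=
    Finset.sum_congr rfl fun _ _ => by ring
  rw [hG] at hgap
  have hN : (0 : ℝ) ≤ ((F.card - 2).choose j : ℝ) := by positivity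
  have hm2 : (2 : ℝ) ≤ F.card := by
    have : 2 ≤ F.card := by omega
    exact_mod_cast this
  have hm : (0 : ℝ) < F.card := by linarith
  -- the coefficient
  have hκ : (1 - 2 * aa F (j + 1)) ^ 2 * ((F.card : ℝ) - 2) ≤ (F.card : ℝ) - 2 := by
    have ha := aa_mul F (Nat.succ_pos j) h2
    by_cases h : (F.card : ℝ) - 2 = 0
    · rw [h]; simp
    · have hpos : 0 < (F.card : ℝ) - 2 := lt_of_le_of_ne (by linarith) (Ne.symm h)
      have h0 : 0 ≤ aa F (j + 1) := by
        apply div_nonneg _ hpos.le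
        push_cast; linarith [(Nat.cast_nonneg j : (0:ℝ) ≤ j)]
      have h1 : aa F (j + 1) ≤ 1 := by
        unfold aa
        rw [div_le_one hpos]
        have : ((j + 1 + 1 : ℕ) : ℝ) ≤ F.card := by exact_mod_cast h2
        push_cast at this ⊢
        linarith
      have : (1 - 2 * aa F (j + 1)) ^ 2 ≤ 1 := by nlinarith
      nlinarith
  rw [hT]
  have h3 : ((1 - 2 * aa F (j + 1)) ^ 2 * ((F.card : ℝ) - 2)) *
      ip F 1 (bb F (j + 1) g) (bb F (j + 1) g) ≤
      ((F.card : ℝ) - 2) * ip F 1 (bb F (j + 1) g) (bb F (j + 1) g) :=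
    mul_le_mul_of_nonneg_right hκ hA
  -- multiply through by `m`
  have key : (F.card : ℝ) * (((F.card : ℝ) - 2) * ip F 1 (bb F (j + 1) g) (bb F (j + 1) g)
      + 4 * ip F 2 (gam F (j + 1) g) (gam F (j + 1) g)) ≤
      (F.card : ℝ) * (((F.card - 2).choose j : ℝ) / 2 * E2 F (j + 1) g) := by
    have h4 : ((F.card : ℝ) - 2) * (2 * (F.card : ℝ) * ip F 1 (bb F (j + 1) g) (bb F (j + 1) g)) ≤
        ((F.card : ℝ) - 2) * (((F.card - 2).choose j : ℝ) * E2 F (j + 1) g) :=
      mul_le_mul_of_nonneg_left hfl (by linarith)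
    have h5 : (2 * (F.card : ℝ)) * (2 * ip F 2 (gam F (j + 1) g) (gam F (j + 1) g)) ≤
        (2 * (F.card : ℝ)) * (((F.card - 2).choose j : ℝ) * ip F (j + 1) g g) :=
      mul_le_mul_of_nonneg_left hgam (by linarith)
    have h6 : ((F.card - 2).choose j : ℝ) * (2 * (F.card : ℝ) * ip F (j + 1) g g) ≤
        ((F.card - 2).choose j : ℝ) * E2 F (j + 1) g :=
      mul_le_mul_of_nonneg_left hgap hN
    nlinarith
  have := le_of_mul_le_mul_left key hm
  linarith

/-- **Johnson lemma**: for mean-zero `g` on `J(F,k)`,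
`M(g) = ∑_{pairs e} (∑_{x ∈ D(e)} g x)² / |D(e)| ≤ (1/4) E2 = (1/2) E_J(g)`. -/
theorem M_le (F : Finset α) (k : ℕ) (g : Finset α → ℝ)
    (hg : ∑ x ∈ F.powersetCard k, g x = 0) :
    ∑ e ∈ F.powersetCard 2, (∑ x ∈ Dset F k e, g x) ^ 2 / ((Dset F k e).card : ℝ) ≤
      1 / 4 * E2 F k g := by
  have hE := E2_nonneg F k g
  by_cases hk : 1 ≤ k ∧ k + 1 ≤ F.card
  · obtain ⟨h1, h2⟩ := hk
    obtain ⟨j, rfl⟩ : ∃ j, k = j + 1 := ⟨k - 1, by omega⟩
    have hN : (0 : ℝ) < ((F.card - 2).choose j : ℝ) := by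
      have : 0 < (F.card - 2).choose j := Nat.choose_pos (by omega)
      exact_mod_cast this
    have h3 : ∑ e ∈ F.powersetCard 2, (∑ x ∈ Dset F (j + 1) e, g x) ^ 2 /
        ((Dset F (j + 1) e).card : ℝ) =
        ip F 2 (TT F (j + 1) g) (TT F (j + 1) g) / (2 * ((F.card - 2).choose j : ℝ)) := by
      unfold ip
      rw [Finset.sum_div]
      refine Finset.sum_congr rfl fun e he => ?_
      rw [card_Dset F j he]
      unfold TT
      ring
    rw [h3, div_le_iff₀ (by positivity)]
    have := ip_TT_le F j h2 g hg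
    nlinarith
  · -- trivial levels: `g` vanishes on `D(e)`
    have hzero : ∀ e ∈ F.powersetCard 2, ∑ x ∈ Dset F k e, g x = 0 := by
      intro e _
      rcases Nat.lt_or_ge k 1 with h0 | h0
      · have hk0 : k = 0 := by omega
        subst hk0
        apply Finset.sum_eq_zero
        intro x hx
        simp only [Dset, Finset.mem_filter, Finset.mem_powersetCard] at hx
        have : x = ∅ := Finset.card_eq_zero.mp hx.1.2
        subst this
        simp at hx
      · have hkm : F.card ≤ k := by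
          by_contra hlt
          exact hk ⟨h0, by omega⟩
        rcases Nat.lt_or_ge F.card k with hlt | hge
        · have : F.powersetCard k = ∅ := Finset.powersetCard_eq_empty.mpr hlt
          simp [Dset, this]
        · have hkeq : k = F.card := by omega
          have hone : F.powersetCard k = {F} := by
            rw [hkeq, Finset.powersetCard_self]
          rw [hone, Finset.sum_singleton] at hg
          apply Finset.sum_eq_zero
          intro x hx
          simp only [Dset, Finset.mem_filter, hone, Finset.mem_singleton] at hx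
          rw [hx.1]; exact hg
    rw [Finset.sum_eq_zero]
    · linarith
    · intro e he
      rw [hzero e he]
      simp

end Crest.Agent.SwitchJohnson
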