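import Crest.Agent.Lib.Switch.Basic

/-!
# S0453, Part X: intrinsic definitions of the diagonal-switch energy and of the Jensen term.

For vertices `a b c e`: `π = {a,b}`, `ρ = {c,e}`.
* `DPlus G a b c e`: the block of `G` is the "diagonal" `ac, be`.
* `IsD G a b c e`: the block is one of the two diagonals.
* `OmD`: the realizations with diagonal block.
* `Mpi`: the sum over `π`-classes `K` of `(∑_{K ∩ D} Q_π f)² / |K ∩ D|`.
* `flip`: the switch `ac, be → ae, bc`.
* `DD`: the sum over the diagonal pairs of `(f G - f (flip G))²`.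
-/

set_option autoImplicit false

namespace Crest.Agent.Lib.Switch.XDefs

open Finset Crest.SwitchChain

variable {n : ℕ}

/-- The block of `G` on `{a,b} × {c,e}` is the diagonal `ac, be`. -/
def DPlus (G : Finset (Edge n)) (a b c e : Fin n) : Prop :=
  Adj G a c ∧ Adj G b e ∧ ¬ Adj G a e ∧ ¬ Adj G b c

/-- The block of `G` on `{a,b} × {c,e}` is one of the two diagonals. -/
def IsD (G : Finset (Edge n)) (a b c e : Fin n) : Prop :=
  DPlus G a b c e ∨ DPlus G a b e c

open Classical in
/-- The realizations with diagonal block. -/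
noncomputable def OmD (d : Fin n → ℕ) (a b c e : Fin n) : Finset (Finset (Edge n)) :=
  (realizations d).filter fun G => IsD G a b c e

/-- The Jensen term: `∑_{π-classes K} (∑_{K ∩ D} Q_π f)² / |K ∩ D|`, written as a sum over `D`. -/
noncomputable def Mpi (d : Fin n → ℕ) (f : Finset (Edge n) → ℝ) (a b c e : Fin n) : ℝ :=
  ∑ G ∈ OmD d a b c e,
    avg (OmD d a b c e) (PairRel a b) (resid (realizations d) (PairRel a b) f) G ^ 2

/-- Adjacency after the switch `ac, be → ae, bc`. -/
def flipRel (G : Finset (Edge n)) (a b c e : Fin n) (x y : Fin n) : Prop :=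
  (Adj G x y ∧ ¬ (x = a ∧ y = c ∨ x = c ∧ y = a) ∧ ¬ (x = b ∧ y = e ∨ x = e ∧ y = b)) ∨
    (x = a ∧ y = e ∨ x = e ∧ y = a) ∨ (x = b ∧ y = c ∨ x = c ∧ y = b)

lemma flipRel_symm (G : Finset (Edge n)) (a b c e x y : Fin n) (h : flipRel G a b c e x y) :
    flipRel G a b c e y x := by
  unfold flipRel at h ⊢
  rcases h with ⟨h, h1, h2⟩ | h | h
  · exact Or.inl ⟨h.symm, by tauto, by tauto⟩
  · exact Or.inr (Or.inl (by tauto))
  · exact Or.inr (Or.inr (by tauto))

/-- The switch `ac, be → ae, bc`. -/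
noncomputable def flip (a b c e : Fin n) (G : Finset (Edge n)) : Finset (Edge n) :=
  ofRel (flipRel G a b c e)

lemma adj_flip {G : Finset (Edge n)} {a b c e x y : Fin n} (hae : a ≠ e) (hbc : b ≠ c) :
    Adj (flip a b c e G) x y ↔ flipRel G a b c e x y := by
  unfold flip
  rw [adj_ofRel (flipRel_symm G a b c e)]
  constructor
  · exact fun h => h.2
  · intro h
    refine ⟨?_, h⟩
    rcases h with ⟨h, -, -⟩ | (⟨rfl, rfl⟩ | ⟨rfl, rfl⟩) | (⟨rfl, rfl⟩ | ⟨rfl, rfl⟩)
    · exact h.ne
    · exact hae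
    · exact hae.symm
    · exact hbc
    · exact hbc.symm

open Classical in
/-- The energy of the diagonal switches. -/
noncomputable def DD (d : Fin n → ℕ) (f : Finset (Edge n) → ℝ) (a b c e : Fin n) : ℝ :=
  ∑ G ∈ (realizations d).filter (fun G => DPlus G a b c e), (f G - f (flip a b c e G)) ^ 2

end Crest.Agent.Lib.Switch.XDefs
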