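import Crest.Agent.Lib.Switch.SectorGrid
import Crest.Agent.Lib.Switch.XDefs
import Crest.Agent.Lib.Switch.Final

/-!
# S0453, part X, Piece A: the inequality for one quadruple

`DD - Mpi(π,ρ) - Mpi(ρ,π) ≤ 2 ⟨Q_π f, Q_ρ f⟩`, sector by sector.
-/

set_option autoImplicit false
set_option linter.unusedSimpArgs false
set_option linter.unusedVariables false
set_option linter.unusedSectionVars false

namespace Crest.Agent.Lib.Switch

open Finset Crest.SwitchChain XDefs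

variable {n : ℕ}

/-- Comparing two sums class by class. -/
lemma sum_le_of_cls {α : Type*} {Ω : Finset α} {r : α → α → Prop} (h : IsEquivOn Ω r)
    {F F' : α → ℝ} (hF : ∀ x ∈ Ω, ∑ y ∈ cls Ω r x, F y ≤ ∑ y ∈ cls Ω r x, F' y) :
    ∑ x ∈ Ω, F x ≤ ∑ x ∈ Ω, F' x := by
  rw [← h.sum_eq_sum_avg F, ← h.sum_eq_sum_avg F']
  refine sum_le_sum fun x hx => ?_
  exact div_le_div_of_nonneg_right (hF x hx) (h.card_pos hx).le

/-- Jensen for class averages. -/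
lemma jensen_cls {α : Type*} {D : Finset α} {r : α → α → Prop} (h : IsEquivOn D r) (u : α → ℝ) :
    (∑ x ∈ D, u x) ^ 2 / (D.card : ℝ) ≤ ∑ x ∈ D, avg D r u x ^ 2 := by
  rw [← h.sum_eq_sum_avg u]
  have h1 := sq_sum_le_card_mul_sum_sq (s := D) (f := avg D r u)
  by_cases hD : (D.card : ℝ) = 0
  · rw [hD, div_zero]
    exact sum_nonneg fun _ _ => sq_nonneg _
  · have hD' : (0 : ℝ) < D.card := lt_of_le_of_ne (Nat.cast_nonneg _) (Ne.symm hD)
    rw [div_le_iff₀ hD']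
    linarith

namespace Quad

open Classical Blk

variable {Q : Quad n} {δ : Fin n → ℕ} {G0 : Finset (Edge n)}

lemma bb_true {G : Finset (Edge n)} {x y : Fin n} : bb G x y = true ↔ Adj G x y := by
  simp [bb]

lemma bb_false {G : Finset (Edge n)} {x y : Fin n} : bb G x y = false ↔ ¬ Adj G x y := by
  simp [bb]

lemma dPlus_iff {G : Finset (Edge n)} : DPlus G Q.a Q.b Q.c Q.d ↔ Q.blk G = B5 := by
  simp only [DPlus, blk, B5, Prod.mk.injEq, bb_true, bb_false]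
  constructor
  · rintro ⟨h1, h2, h3, h4⟩
    exact ⟨h1, h3, h4, h2⟩
  · rintro ⟨h1, h2, h3, h4⟩
    exact ⟨h1, h4, h2, h3⟩

lemma dPlus'_iff {G : Finset (Edge n)} : DPlus G Q.a Q.b Q.d Q.c ↔ Q.blk G = B6 := by
  simp only [DPlus, blk, B6, Prod.mk.injEq, bb_true, bb_false]
  constructor
  · rintro ⟨h1, h2, h3, h4⟩
    exact ⟨h3, h1, h2, h4⟩
  · rintro ⟨h1, h2, h3, h4⟩
    exact ⟨h2, h3, h1, h4⟩

lemma isD_iff {G : Finset (Edge n)} : IsD G Q.a Q.b Q.c Q.d ↔ (Q.blk G = B5 ∨ Q.blk G = B6) := by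
  unfold IsD
  rw [dPlus_iff, dPlus'_iff]

lemma isD_swap {G : Finset (Edge n)} : IsD G Q.c Q.d Q.a Q.b ↔ IsD G Q.a Q.b Q.c Q.d := by
  unfold IsD DPlus
  constructor
  · rintro (⟨h1, h2, h3, h4⟩ | ⟨h1, h2, h3, h4⟩)
    · exact Or.inl ⟨h1.symm, h2.symm, fun h => h4 h.symm, fun h => h3 h.symm⟩
    · exact Or.inr ⟨h2.symm, h1.symm, fun h => h3 h.symm, fun h => h4 h.symm⟩
  · rintro (⟨h1, h2, h3, h4⟩ | ⟨h1, h2, h3, h4⟩)
    · exact Or.inl ⟨h1.symm, h2.symm, fun h => h4 h.symm, fun h => h3 h.symm⟩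
    · exact Or.inr ⟨h2.symm, h1.symm, fun h => h3 h.symm, fun h => h4 h.symm⟩

lemma OmD_swap : OmD δ Q.c Q.d Q.a Q.b = OmD δ Q.a Q.b Q.c Q.d := by
  unfold OmD
  exact filter_congr fun G _ => isD_swap

/-- Adjacency after a flip, off the block. -/
lemma adj_flip_off {G : Finset (Edge n)} {x y : Fin n} (h1 : ¬(x = Q.a ∧ y = Q.c ∨ x = Q.c ∧ y = Q.a))
    (h2 : ¬(x = Q.b ∧ y = Q.d ∨ x = Q.d ∧ y = Q.b)) (h3 : ¬(x = Q.a ∧ y = Q.d ∨ x = Q.d ∧ y = Q.a))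
    (h4 : ¬(x = Q.b ∧ y = Q.c ∨ x = Q.c ∧ y = Q.b)) :
    Adj (flip Q.a Q.b Q.c Q.d G) x y ↔ Adj G x y := by
  rw [adj_flip Q.had Q.hbc]
  unfold flipRel
  constructor
  · rintro (⟨h, -, -⟩ | h | h)
    · exact h
    · exact absurd h h3
    · exact absurd h h4
  · exact fun h => Or.inl ⟨h, h1, h2⟩

lemma bit_flip_off {G : Finset (Edge n)} {x y : Fin n} (h1 : ¬(x = Q.a ∧ y = Q.c ∨ x = Q.c ∧ y = Q.a))
    (h2 : ¬(x = Q.b ∧ y = Q.d ∨ x = Q.d ∧ y = Q.b)) (h3 : ¬(x = Q.a ∧ y = Q.d ∨ x = Q.d ∧ y = Q.a))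
    (h4 : ¬(x = Q.b ∧ y = Q.c ∨ x = Q.c ∧ y = Q.b)) :
    bit (flip Q.a Q.b Q.c Q.d G) x y = bit G x y := by
  simp only [bit, adj_flip_off h1 h2 h3 h4]

lemma sectorRel_flip (G : Finset (Edge n)) : Q.SectorRel G (flip Q.a Q.b Q.c Q.d G) := by
  have ha := Q.hab
  have hb := Q.hac
  have hc := Q.had
  have hd := Q.hbc
  have he := Q.hbd
  have hf := Q.hcd
  refine ⟨fun x hx y hy => ?_, ?_, ?_, fun x hx => ?_, fun x hx => ?_⟩
  · obtain ⟨x1, x2, x3, x4⟩ := Q.mem_W.1 hx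
    rw [bit_flip_off] <;> simp [x1, x2, x3, x4]
  · rw [bit_flip_off] <;> simp [ha, hb, hc, hd, he, hf, ha.symm, hb.symm, hc.symm, hd.symm, he.symm, hf.symm]
  · rw [bit_flip_off] <;> simp [ha, hb, hc, hd, he, hf, ha.symm, hb.symm, hc.symm, hd.symm, he.symm, hf.symm]
  · obtain ⟨x1, x2, x3, x4⟩ := Q.mem_W.1 hx
    rw [bit_flip_off, bit_flip_off] <;> simp [ha, hb, hc, hd, he, hf, ha.symm, hb.symm, hc.symm, hd.symm, he.symm, hf.symm, x1, x2, x3, x4, x1.symm, x2.symm, x3.symm, x4.symm]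
  · obtain ⟨x1, x2, x3, x4⟩ := Q.mem_W.1 hx
    rw [bit_flip_off, bit_flip_off] <;> simp [ha, hb, hc, hd, he, hf, ha.symm, hb.symm, hc.symm, hd.symm, he.symm, hf.symm, x1, x2, x3, x4, x1.symm, x2.symm, x3.symm, x4.symm]

lemma rowA_flip (G : Finset (Edge n)) : Q.rowA (flip Q.a Q.b Q.c Q.d G) = Q.rowA G := by
  ext x
  simp only [mem_rowA]
  refine and_congr_right fun hx => ?_
  obtain ⟨x1, x2, x3, x4⟩ := Q.mem_W.1 hx
  rw [adj_flip_off] <;> simp [Q.hab, Q.hac, Q.had, Q.hbc, Q.hbd, Q.hcd, Q.hab.symm, Q.hac.symm,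
    Q.had.symm, Q.hbc.symm, Q.hbd.symm, Q.hcd.symm, x1, x2, x3, x4]

lemma rowC_flip (G : Finset (Edge n)) : Q.rowC (flip Q.a Q.b Q.c Q.d G) = Q.rowC G := by
  ext x
  simp only [mem_rowC]
  refine and_congr_right fun hx => ?_
  obtain ⟨x1, x2, x3, x4⟩ := Q.mem_W.1 hx
  rw [adj_flip_off] <;> simp [Q.hab, Q.hac, Q.had, Q.hbc, Q.hbd, Q.hcd, Q.hab.symm, Q.hac.symm,
    Q.had.symm, Q.hbc.symm, Q.hbd.symm, Q.hcd.symm, x1, x2, x3, x4]

lemma blk_flip {G : Finset (Edge n)} : Q.blk (flip Q.a Q.b Q.c Q.d G) = B6 := by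
  have key : ∀ x y, Adj (flip Q.a Q.b Q.c Q.d G) x y ↔ flipRel G Q.a Q.b Q.c Q.d x y :=
    fun x y => adj_flip Q.had Q.hbc
  simp only [blk, B6, Prod.mk.injEq, bb_true, bb_false, key, flipRel]
  have ha := Q.hab
  have hb := Q.hac
  have hc := Q.had
  have hd := Q.hbc
  have he := Q.hbd
  have hf := Q.hcd
  simp [ha, hb, hc, hd, he, hf, ha.symm, hb.symm, hc.symm, hd.symm, he.symm, hf.symm]

/-- The flip of a `B5` state is the `B6` state with the same rows. -/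
lemma flip_M {X Y : Finset (Fin n)} (hX : Q.CompatA G0 X) (hY : Q.CompatC G0 Y) :
    flip Q.a Q.b Q.c Q.d (Q.M G0 B5 X Y) = Q.M G0 B6 X Y := by
  have h1 : Q.SectorRel G0 (Q.M G0 B5 X Y) := Q.master_sectorRel hX hY
  have h2 := sectorRel_flip (Q := Q) (Q.M G0 B5 X Y)
  have e := Q.sectorRel_isEquivOn (univ : Finset (Finset (Edge n)))
  have h3 : Q.SectorRel G0 (flip Q.a Q.b Q.c Q.d (Q.M G0 B5 X Y)) :=
    e.trans _ (mem_univ _) _ (mem_univ _) _ (mem_univ _) h1 h2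
  rw [← M_blk h3, blk_flip, rowA_flip, rowC_flip, rowA_M hX.1, rowC_M hY.1]

/-- The Jensen step in a sector, for a relation refining the sector relation. -/
lemma mpi_term (hG0 : G0 ∈ realizations δ) {r : Finset (Edge n) → Finset (Edge n) → Prop}
    (hr : ∀ Ω : Finset (Finset (Edge n)), IsEquivOn Ω r)
    (hsec : ∀ G ∈ realizations δ, ∀ G' ∈ realizations δ, r G G' → Q.SectorRel G G')
    (u : Finset (Edge n) → ℝ) :
    (∑ G ∈ (Q.Sec δ G0).filter (fun G => Q.blk G = B5 ∨ Q.blk G = B6), u G) ^ 2 /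
        (((Q.Sec δ G0).filter (fun G => Q.blk G = B5 ∨ Q.blk G = B6)).card : ℝ)
      ≤ ∑ G ∈ Q.Sec δ G0, if IsD G Q.a Q.b Q.c Q.d then
          avg (OmD δ Q.a Q.b Q.c Q.d) r u G ^ 2 else 0 := by
  set DS := (Q.Sec δ G0).filter (fun G => Q.blk G = B5 ∨ Q.blk G = B6) with hDS
  have h1 : (∑ G ∈ Q.Sec δ G0, if IsD G Q.a Q.b Q.c Q.d then
      avg (OmD δ Q.a Q.b Q.c Q.d) r u G ^ 2 else 0) = ∑ G ∈ DS, avg DS r u G ^ 2 := by
    rw [← sum_filter]
    have h2 : (Q.Sec δ G0).filter (fun G => IsD G Q.a Q.b Q.c Q.d) = DS := by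
      rw [hDS]
      exact filter_congr fun G _ => isD_iff
    rw [h2]
    refine sum_congr rfl fun G hG => ?_
    have h3 : cls (OmD δ Q.a Q.b Q.c Q.d) r G = cls DS r G := by
      ext G'
      simp only [mem_cls, OmD, mem_filter, hDS]
      obtain ⟨hGS, -⟩ := mem_filter.1 hG
      obtain ⟨hGΩ, hs⟩ := mem_Sec.1 hGS
      constructor
      · rintro ⟨⟨hΩ, hD⟩, hrG⟩
        refine ⟨⟨⟨hΩ, ?_⟩, isD_iff.1 hD⟩, hrG⟩
        exact (Q.sectorRel_isEquivOn (realizations δ)).trans _ hG0 _ hGΩ _ hΩ hs (hsec G hGΩ G' hΩ hrG)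
      · rintro ⟨⟨hS, hD⟩, hrG⟩
        exact ⟨⟨hS.1, isD_iff.2 hD⟩, hrG⟩
    simp only [avg, h3]
  rw [h1]
  exact jensen_cls (hr DS) u

/-- Per sector form of Piece A. -/
lemma sector_ineq (hG0 : G0 ∈ realizations δ) (f : Finset (Edge n) → ℝ) :
    ∑ G ∈ Q.Sec δ G0, (if DPlus G Q.a Q.b Q.c Q.d then
        (f G - f (flip Q.a Q.b Q.c Q.d G)) ^ 2 else 0)
      - ∑ G ∈ Q.Sec δ G0, (if IsD G Q.a Q.b Q.c Q.d then
        avg (OmD δ Q.a Q.b Q.c Q.d) (PairRel Q.a Q.b)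
          (resid (realizations δ) (PairRel Q.a Q.b) f) G ^ 2 else 0)
      - ∑ G ∈ Q.Sec δ G0, (if IsD G Q.a Q.b Q.c Q.d then
        avg (OmD δ Q.a Q.b Q.c Q.d) (PairRel Q.c Q.d)
          (resid (realizations δ) (PairRel Q.c Q.d) f) G ^ 2 else 0)
    ≤ 2 * ∑ G ∈ Q.Sec δ G0, resid (realizations δ) (PairRel Q.a Q.b) f G *
        resid (realizations δ) (PairRel Q.c Q.d) f G := by
  have hab := mpi_term (Q := Q) hG0 (r := PairRel Q.a Q.b) (fun Ω => pairRel_isEquivOn _ _ Ω)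
    (fun G hG G' hG' h => ((Q.pairRel_ab_iff hG hG').1 h).1)
    (resid (realizations δ) (PairRel Q.a Q.b) f)
  have hcd := mpi_term (Q := Q) hG0 (r := PairRel Q.c Q.d) (fun Ω => pairRel_isEquivOn _ _ Ω)
    (fun G hG G' hG' h => ((Q.pairRel_cd_iff hG hG').1 h).1)
    (resid (realizations δ) (PairRel Q.c Q.d) f)
  by_cases hτ : Q.tau G0 = 2
  · have hs := sector_two (f := f) hG0 hτ
    have h1 : ∑ G ∈ Q.Sec δ G0, (if DPlus G Q.a Q.b Q.c Q.d then
        (f G - f (flip Q.a Q.b Q.c Q.d G)) ^ 2 else 0)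
        = ∑ X ∈ Q.Aset δ G0 1, ∑ Y ∈ Q.Cset δ G0 1, (f (Q.M G0 B5 X Y) - f (Q.M G0 B6 X Y)) ^ 2 := by
      rw [← sum_filter, filter_congr (fun G _ => dPlus_iff (Q := Q) (G := G)),
        sum_sector_blk hG0 (B := B5) (by rw [hτ]; rfl)]
      refine sum_congr rfl fun X hX => sum_congr rfl fun Y hY => ?_
      rw [flip_M (mem_Aset.1 hX).1 (mem_Cset.1 hY).1]
    rw [h1]
    linarith only [hab, hcd, hs]
  · have hs := sector_ne_two hG0 hτ f
    have h0 : ∀ G ∈ Q.Sec δ G0, Q.blk G ≠ B5 ∧ Q.blk G ≠ B6 := by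
      intro G hG
      have h1 := tot_of_mem_Sec hG0 hG
      constructor
      · intro h
        rw [h] at h1
        exact hτ h1.symm
      · intro h
        rw [h] at h1
        exact hτ h1.symm
    have h1 : ∑ G ∈ Q.Sec δ G0, (if DPlus G Q.a Q.b Q.c Q.d then
        (f G - f (flip Q.a Q.b Q.c Q.d G)) ^ 2 else 0) = 0 := by
      refine sum_eq_zero fun G hG => if_neg ?_
      rw [dPlus_iff]
      exact (h0 G hG).1
    have h2 : ∀ g : Finset (Edge n) → ℝ,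
        ∑ G ∈ Q.Sec δ G0, (if IsD G Q.a Q.b Q.c Q.d then g G else 0) = 0 := by
      intro g
      refine sum_eq_zero fun G hG => if_neg ?_
      rw [isD_iff]
      rintro (h | h)
      · exact (h0 G hG).1 h
      · exact (h0 G hG).2 h
    rw [h1, h2, h2]
    linarith only [hs]

end Quad

/-- **Piece A**. -/
theorem pieceA (d : Fin n → ℕ) (f : Finset (Edge n) → ℝ) (a b c e : Fin n)
    (hab : a ≠ b) (hac : a ≠ c) (hae : a ≠ e) (hbc : b ≠ c) (hbe : b ≠ e) (hce : c ≠ e) :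
    DD d f a b c e - Mpi d f a b c e - Mpi d f c e a b ≤ 2 * Final.W d f a b c e := by
  classical
  let Q : Quad n := ⟨a, b, c, e, hab, hac, hae, hbc, hbe, hce⟩
  have hOm : OmD d c e a b = OmD d a b c e := Quad.OmD_swap (Q := Q)
  have h1 : DD d f a b c e = ∑ G ∈ realizations d, (if DPlus G a b c e then
      (f G - f (flip a b c e G)) ^ 2 else 0) := by
    rw [DD, sum_filter]
  have h2 : Mpi d f a b c e = ∑ G ∈ realizations d, (if IsD G a b c e then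
      avg (OmD d a b c e) (PairRel a b) (resid (realizations d) (PairRel a b) f) G ^ 2 else 0) := by
    rw [Mpi, OmD, sum_filter]
  have h3 : Mpi d f c e a b = ∑ G ∈ realizations d, (if IsD G a b c e then
      avg (OmD d a b c e) (PairRel c e) (resid (realizations d) (PairRel c e) f) G ^ 2 else 0) := by
    rw [Mpi, hOm, OmD, sum_filter]
  have h4 : Final.W d f a b c e = ∑ G ∈ realizations d,
      resid (realizations d) (PairRel a b) f G * resid (realizations d) (PairRel c e) f G := rfl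
  rw [h1, h2, h3, h4, ← sum_sub_distrib, ← sum_sub_distrib, mul_sum]
  refine sum_le_of_cls (Q.sectorRel_isEquivOn (realizations d)) fun G0 hG0 => ?_
  have key := Quad.sector_ineq (Q := Q) hG0 f
  rw [sum_sub_distrib, sum_sub_distrib, ← mul_sum]
  exact key

end Crest.Agent.Lib.Switch
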