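import Crest.Agent.Lib.Switch.ThreeRow

/-!
# Three-row tables: the spectral step

`three_row`: `E_0 + E_1 + E_2 ≤ 2` on mean-zero functions on tables, and
`table_cross`: the cross terms of `Q_i = I - E_i` have a nonnegative sum.
-/

namespace Crest.Agent.Lib.Switch.ThreeRow

open Finset

section Abstract

variable {E : Type*} [NormedAddCommGroup E] [InnerProductSpace ℝ E] [FiniteDimensional ℝ E]

open scoped InnerProductSpace

/-- A symmetric operator without eigenvalues above `c` has quadratic form at most `c`. -/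
lemma inner_le_of_no_large_eigenvalue (T : E →ₗ[ℝ] E) (hT : T.IsSymmetric) (c : ℝ)
    (h : ∀ (τ : ℝ) (x : E), c < τ → T x = τ • x → x = 0) (x : E) :
    ⟪x, T x⟫_ℝ ≤ c * ⟪x, x⟫_ℝ := by
  have hn : Module.finrank ℝ E = Module.finrank ℝ E := rfl
  set b := hT.eigenvectorBasis hn with hb
  have hev : ∀ k, hT.eigenvalues hn k ≤ c := by
    intro k
    by_contra hk
    have h1 : T (b k) = (hT.eigenvalues hn k) • b k := by
      rw [hb]; simp
    have h2 := h _ _ (not_le.mp hk) h1
    have h3 : ‖b k‖ = 1 := b.orthonormal.1 k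
    rw [h2] at h3
    simp at h3
  have e1 : ⟪x, T x⟫_ℝ = ∑ k, hT.eigenvalues hn k * (⟪x, b k⟫_ℝ * ⟪x, b k⟫_ℝ) := by
    rw [← b.sum_inner_mul_inner x (T x)]
    apply Finset.sum_congr rfl
    intro k _
    rw [← hT (b k) x]
    have h1 : T (b k) = (hT.eigenvalues hn k) • b k := by
      rw [hb]; simp
    rw [h1, inner_smul_left, real_inner_comm x (b k)]
    simp
    ring
  have e2 : ⟪x, x⟫_ℝ = ∑ k, (⟪x, b k⟫_ℝ * ⟪x, b k⟫_ℝ) := by
    rw [← b.sum_inner_mul_inner x x]
    apply Finset.sum_congr rfl
    intro k _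
    rw [real_inner_comm x (b k)]
  rw [e1, e2, Finset.mul_sum]
  apply Finset.sum_le_sum
  intro k _
  exact mul_le_mul_of_nonneg_right (hev k) (mul_self_nonneg _)

end Abstract

variable {C : Type*} [Fintype C] [DecidableEq C] {s : C → ℕ} {r : Fin 3 → ℕ}

lemma rowMean_add (i : Fin 3) (f g : (Fin 3 → Finset C) → ℝ) (t : Fin 3 → Finset C) :
    rowMean s r i (fun t' => f t' + g t') t = rowMean s r i f t + rowMean s r i g t := by
  simp only [rowMean, Finset.sum_add_distrib, add_div]

lemma rowMean_smul (i : Fin 3) (a : ℝ) (f : (Fin 3 → Finset C) → ℝ) (t : Fin 3 → Finset C) :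
    rowMean s r i (fun t' => a * f t') t = a * rowMean s r i f t := by
  simp only [rowMean, ← Finset.mul_sum, mul_div_assoc]

/-- Pulling out a function of the `i`-th row. -/
lemma rowMean_mul_left (i : Fin 3) (f g : (Fin 3 → Finset C) → ℝ) (t : Fin 3 → Finset C) :
    rowMean s r i (fun t' => rowMean s r i f t' * g t') t = rowMean s r i f t * rowMean s r i g t := by
  have h : ∀ t' ∈ (tables s r).filter (fun t' => t' i = t i),
      rowMean s r i f t' * g t' = rowMean s r i f t * g t' := by
    intro t' ht'
    have := (mem_filter.mp ht').2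
    simp only [rowMean, this]
  simp only [rowMean] at h ⊢
  rw [Finset.sum_congr rfl h, ← Finset.mul_sum, mul_div_assoc]

/-- `E_i` is a symmetric idempotent. -/
lemma sum_rowMean_mul (i : Fin 3) (f g : (Fin 3 → Finset C) → ℝ) :
    ∑ t ∈ tables s r, rowMean s r i f t * g t
      = ∑ t ∈ tables s r, rowMean s r i f t * rowMean s r i g t := by
  rw [← sum_rowMean i (fun t => rowMean s r i f t * g t)]
  exact Finset.sum_congr rfl (fun t _ => rowMean_mul_left i f g t)

lemma sum_mul_rowMean (i : Fin 3) (f g : (Fin 3 → Finset C) → ℝ) :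
    ∑ t ∈ tables s r, f t * rowMean s r i g t
      = ∑ t ∈ tables s r, rowMean s r i f t * rowMean s r i g t := by
  have := sum_rowMean_mul (s := s) (r := r) i g f
  simp only [mul_comm (f _), mul_comm (rowMean s r i f _)]
  exact this

/-! ### The operator on Euclidean space -/

/-- `T3 - 3 Π` at the level of functions, set to zero off the tables. -/
noncomputable def Top (s : C → ℕ) (r : Fin 3 → ℕ) (g : (Fin 3 → Finset C) → ℝ)
    (t : Fin 3 → Finset C) : ℝ :=
  open Classical in
  if t ∈ tables s r then
    ∑ i, rowMean s r i g t - 3 * (∑ t' ∈ tables s r, g t') / (tables s r).card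
  else 0

/-- `Top` as a linear map on Euclidean space. -/
noncomputable def TopL (s : C → ℕ) (r : Fin 3 → ℕ) :
    EuclideanSpace ℝ (Fin 3 → Finset C) →ₗ[ℝ] EuclideanSpace ℝ (Fin 3 → Finset C) where
  toFun x := WithLp.toLp 2 (Top s r (fun t => x t))
  map_add' x y := by
    ext t
    simp only [Top, PiLp.add_apply]
    split_ifs
    · simp only [rowMean_add, Finset.sum_add_distrib]
      ring
    · simp
  map_smul' a x := by
    ext t
    simp only [Top, PiLp.smul_apply, smul_eq_mul, RingHom.id_apply]
    split_ifs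
    · simp only [rowMean_smul, ← Finset.mul_sum]
      ring
    · simp

open scoped InnerProductSpace in
lemma inner_TopL (x y : EuclideanSpace ℝ (Fin 3 → Finset C)) :
    ⟪TopL s r x, y⟫_ℝ = ∑ i, ∑ t ∈ tables s r, rowMean s r i (fun t => x t) t * rowMean s r i (fun t => y t) t
      - 3 * (∑ t ∈ tables s r, x t) * (∑ t ∈ tables s r, y t) / (tables s r).card := by
  classical
  rw [PiLp.inner_apply]
  have h1 : ∀ t, ⟪(TopL s r x) t, y t⟫_ℝ = Top s r (fun t => x t) t * y t := by
    intro t
    simp [TopL, mul_comm]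
  simp only [h1]
  have h2 : ∑ t, Top s r (fun t => x t) t * y t = ∑ t ∈ tables s r,
      (∑ i, rowMean s r i (fun t => x t) t - 3 * (∑ t' ∈ tables s r, x t') / (tables s r).card) * y t := by
    rw [← Finset.sum_subset (Finset.subset_univ (tables s r)) (fun t _ ht => by simp [Top, ht])]
    apply Finset.sum_congr rfl
    intro t ht
    simp [Top, ht]
  rw [h2]
  simp only [sub_mul, Finset.sum_sub_distrib, Finset.sum_mul, ← Finset.mul_sum]
  rw [Finset.sum_comm]
  congr 1
  · apply Finset.sum_congr rfl
    intro i _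
    exact sum_rowMean_mul i _ _
  · ring

open scoped InnerProductSpace in
lemma TopL_symm : (TopL s r).IsSymmetric := by
  intro x y
  rw [inner_TopL, real_inner_comm, inner_TopL]
  simp only [mul_comm]
  congr 1
  ring

lemma rowMean_congr (i : Fin 3) {f g : (Fin 3 → Finset C) → ℝ} (h : ∀ t ∈ tables s r, f t = g t)
    (t : Fin 3 → Finset C) : rowMean s r i f t = rowMean s r i g t := by
  unfold rowMean
  congr 1
  apply Finset.sum_congr rfl
  intro t' ht'
  exact h t' (mem_filter.mp ht').1

lemma TopL_eig (τ : ℝ) (hτ : 2 < τ) (x : EuclideanSpace ℝ (Fin 3 → Finset C))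
    (hx : TopL s r x = τ • x) : x = 0 := by
  classical
  have hτ0 : τ ≠ 0 := by linarith
  have hpt : ∀ t, Top s r (fun t => x t) t = τ * x t := by
    intro t
    have := congrArg (fun y : EuclideanSpace ℝ (Fin 3 → Finset C) => y t) hx
    simpa [TopL] using this
  have hoff : ∀ t, t ∉ tables s r → x t = 0 := by
    intro t ht
    have := hpt t
    simp only [Top, ht, if_false] at this
    exact (mul_eq_zero.mp this.symm).resolve_left hτ0
  set m := 3 * (∑ t' ∈ tables s r, x t') / (tables s r).card with hm
  have hon : ∀ t ∈ tables s r, ∑ i, rowMean s r i (fun t => x t) t - m = τ * x t := by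
    intro t ht
    have := hpt t
    simpa only [Top, ht, if_true] using this
  have hsum : ∑ t ∈ tables s r, x t = 0 := by
    by_cases hne : (tables s r).Nonempty
    · have hcard : ((tables s r).card : ℝ) ≠ 0 := by exact_mod_cast (card_pos.mpr hne).ne'
      have h1 : ∑ t ∈ tables s r, (∑ i, rowMean s r i (fun t => x t) t - m)
          = τ * ∑ t ∈ tables s r, x t := by
        rw [Finset.mul_sum]
        exact Finset.sum_congr rfl hon
      rw [Finset.sum_sub_distrib, Finset.sum_comm] at h1
      simp only [sum_rowMean, Finset.sum_const, card_univ, Fintype.card_fin, nsmul_eq_mul] at h1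
      have h2 : ((tables s r).card : ℝ) * m = 3 * ∑ t ∈ tables s r, x t := by
        rw [hm]; field_simp
      rw [h2] at h1
      push_cast at h1
      have h3 : (τ) * ∑ t ∈ tables s r, x t = 0 := by linarith
      exact (mul_eq_zero.mp h3).resolve_left hτ0
    · rw [not_nonempty_iff_eq_empty.mp hne]; simp
  have hm0 : m = 0 := by rw [hm, hsum]; simp
  have hrigid := rigid s r τ hτ (fun t => x t) hsum (by
    intro t ht
    have := hon t ht
    rwa [hm0, sub_zero] at this)
  ext t
  by_cases ht : t ∈ tables s r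
  · simpa using hrigid t ht
  · simpa using hoff t ht

/-- **Three-row lemma.** `E_0 + E_1 + E_2 ≤ 2` on mean-zero functions on tables. -/
theorem three_row (s : C → ℕ) (r : Fin 3 → ℕ) (f : (Fin 3 → Finset C) → ℝ)
    (h0 : ∑ t ∈ tables s r, f t = 0) :
    ∑ i, ∑ t ∈ tables s r, rowMean s r i f t ^ 2 ≤ 2 * ∑ t ∈ tables s r, f t ^ 2 := by
  classical
  set x : EuclideanSpace ℝ (Fin 3 → Finset C) :=
    WithLp.toLp 2 (fun t => if t ∈ tables s r then f t else 0) with hx
  have hxt : ∀ t ∈ tables s r, x t = f t := by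
    intro t ht
    simp [hx, ht]
  have hmean : ∀ i t, rowMean s r i (fun t => x t) t = rowMean s r i f t := fun i t =>
    rowMean_congr i hxt t
  have hsum : ∑ t ∈ tables s r, x t = 0 := by
    rw [Finset.sum_congr rfl hxt, h0]
  have key := inner_le_of_no_large_eigenvalue (TopL s r) TopL_symm 2
    (fun τ y hτ hy => TopL_eig τ hτ y hy) x
  rw [real_inner_comm, inner_TopL, hsum] at key
  simp only [hmean, mul_zero, zero_div, sub_zero] at key
  have hxx : inner ℝ x x = ∑ t ∈ tables s r, f t ^ 2 := by
    rw [PiLp.inner_apply]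
    rw [← Finset.sum_subset (Finset.subset_univ (tables s r))
      (fun t _ ht => by simp [hx, ht])]
    apply Finset.sum_congr rfl
    intro t ht
    simp [hx, ht, sq]
  rw [hxx] at key
  simpa only [sq] using key

/-- **Cross terms.** For every function `F` on tables, the cross terms of `Q_i = I - E_i`
have a nonnegative sum. -/
theorem table_cross (s : C → ℕ) (r : Fin 3 → ℕ) (F : (Fin 3 → Finset C) → ℝ) :
    0 ≤ ∑ t ∈ tables s r, ∑ i, ∑ j, if i = j then 0 else
      (F t - rowMean s r i F t) * (F t - rowMean s r j F t) := by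
  classical
  by_cases hne : (tables s r).Nonempty
  swap
  · rw [not_nonempty_iff_eq_empty.mp hne]; simp
  have hcard : ((tables s r).card : ℝ) ≠ 0 := by exact_mod_cast (card_pos.mpr hne).ne'
  -- the mean
  set c : ℝ := (∑ t ∈ tables s r, F t) / (tables s r).card with hc
  set g : (Fin 3 → Finset C) → ℝ := fun t => F t - c with hg
  have hg0 : ∑ t ∈ tables s r, g t = 0 := by
    simp only [hg, Finset.sum_sub_distrib, Finset.sum_const, nsmul_eq_mul, hc]
    field_simp
    ring
  have hQ : ∀ i, ∀ t ∈ tables s r, F t - rowMean s r i F t = g t - rowMean s r i g t := by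
    intro i t ht
    have hcls : (((tables s r).filter (fun t' => t' i = t i)).card : ℝ) ≠ 0 := by
      have : ((tables s r).filter (fun t' => t' i = t i)).Nonempty := ⟨t, mem_filter.mpr ⟨ht, rfl⟩⟩
      exact_mod_cast (card_pos.mpr this).ne'
    have : rowMean s r i g t = rowMean s r i F t - c := by
      simp only [rowMean, hg, Finset.sum_sub_distrib, Finset.sum_const, nsmul_eq_mul]
      field_simp
    rw [this]
    simp only [hg]
    ring
  -- the residual sum
  set p : (Fin 3 → Finset C) → ℝ := fun t => ∑ i, (g t - rowMean s r i g t) with hp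
  set S : ℝ := 3 * ∑ t ∈ tables s r, g t ^ 2 - ∑ i, ∑ t ∈ tables s r, rowMean s r i g t ^ 2 with hS
  have hT3 := three_row s r g hg0
  have hgp : ∑ t ∈ tables s r, g t * p t = S := by
    simp only [hp, Finset.mul_sum]
    rw [Finset.sum_comm]
    simp only [mul_sub, Finset.sum_sub_distrib]
    have : ∀ i, ∑ t ∈ tables s r, g t * rowMean s r i g t = ∑ t ∈ tables s r, rowMean s r i g t ^ 2 := by
      intro i
      rw [sum_mul_rowMean]
      simp only [sq]
    simp only [this, Finset.sum_const, card_univ, Fintype.card_fin, nsmul_eq_mul, hS, sq]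
    push_cast
    ring
  have hQsq : ∑ i, ∑ t ∈ tables s r, (g t - rowMean s r i g t) ^ 2 = S := by
    have : ∀ i, ∑ t ∈ tables s r, (g t - rowMean s r i g t) ^ 2
        = ∑ t ∈ tables s r, g t ^ 2 - ∑ t ∈ tables s r, rowMean s r i g t ^ 2 := by
      intro i
      have h1 : ∑ t ∈ tables s r, g t * rowMean s r i g t = ∑ t ∈ tables s r, rowMean s r i g t ^ 2 := by
        rw [sum_mul_rowMean]
        simp only [sq]
      have h2 : ∀ t, (g t - rowMean s r i g t) ^ 2
          = g t ^ 2 - 2 * (g t * rowMean s r i g t) + rowMean s r i g t ^ 2 := by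
        intro t; ring
      simp only [h2, Finset.sum_add_distrib, Finset.sum_sub_distrib, ← Finset.mul_sum, h1]
      ring
    simp only [this, Finset.sum_sub_distrib, Finset.sum_const, card_univ, Fintype.card_fin,
      nsmul_eq_mul, hS]
    push_cast
    ring
  -- the cross terms
  have hcross : ∑ t ∈ tables s r, ∑ i, ∑ j, (if i = j then (0 : ℝ) else
      (F t - rowMean s r i F t) * (F t - rowMean s r j F t)) = ∑ t ∈ tables s r, p t ^ 2 - S := by
    rw [← hQsq, Finset.sum_comm (s := univ), ← Finset.sum_sub_distrib]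
    apply Finset.sum_congr rfl
    intro t ht
    simp only [hp]
    rw [sq, Finset.sum_mul_sum, ← Finset.sum_sub_distrib]
    apply Finset.sum_congr rfl
    intro i _
    rw [Finset.sum_ite, Finset.sum_const_zero, zero_add]
    have hsplit := Finset.sum_filter_add_sum_filter_not (univ : Finset (Fin 3)) (fun j => i = j)
      (fun j => (g t - rowMean s r i g t) * (g t - rowMean s r j g t))
    have hfilt : (univ.filter (fun j => i = j)) = {i} := by
      ext j; simp [eq_comm]
    rw [hfilt, Finset.sum_singleton] at hsplit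
    rw [sq, ← hsplit, add_sub_cancel_left]
    apply Finset.sum_congr rfl
    intro j _
    rw [hQ i t ht, hQ j t ht]
  rw [hcross]
  -- Cauchy-Schwarz
  have hNg : ∑ t ∈ tables s r, g t ^ 2 ≤ S := by
    simp only [hS]
    linarith
  have hCS := Finset.sum_mul_sq_le_sq_mul_sq (tables s r) g p
  rw [hgp] at hCS
  have hP0 : 0 ≤ ∑ t ∈ tables s r, p t ^ 2 := Finset.sum_nonneg (fun t _ => sq_nonneg _)
  have hN0 : 0 ≤ ∑ t ∈ tables s r, g t ^ 2 := Finset.sum_nonneg (fun t _ => sq_nonneg _)
  by_contra hneg
  have hlt : ∑ t ∈ tables s r, p t ^ 2 < S := by linarith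
  have hS0 : 0 < S := by linarith
  nlinarith

end Crest.Agent.Lib.Switch.ThreeRow
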