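import Crest.Agent.Lib.Switch.Triple
import Crest.Agent.Lib.Switch.ThreeRowCross
import Crest.Agent.Lib.Switch.Final

/-!
# S0453, Part Z, in the form of `Final.result_of_parts`

`Triple.partZ_triple` (graph side) + `ThreeRow.table_cross` (the three-row lemma).
-/

set_option autoImplicit false

namespace Crest.Agent.Lib.Switch.PartZ

open Finset Crest.SwitchChain
open Crest.Agent.Lib.Switch

variable {n : ℕ}

theorem tableCross : Triple.TableCross (n := n) := by
  intro s r F
  have h := ThreeRow.table_cross s r F
  convert h using 1

/-- The triple inequality without hypotheses. -/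
theorem partZ (d : Fin n → ℕ) (f : Finset (Edge n) → ℝ)
    {a b c : Fin n} (hab : a ≠ b) (hac : a ≠ c) (hbc : b ≠ c) :
    0 ≤ ∑ G ∈ realizations d,
      (resid (realizations d) (PairRel a b) f G * resid (realizations d) (PairRel a c) f G +
        resid (realizations d) (PairRel a b) f G * resid (realizations d) (PairRel b c) f G +
        resid (realizations d) (PairRel a c) f G * resid (realizations d) (PairRel b c) f G) :=
  Triple.partZ_triple tableCross d f hab hac hbc

/-- **hZ of `Final.result_of_parts`.** -/
theorem hZ (d : Fin n → ℕ) (f : Finset (Edge n) → ℝ) (a b c : Fin n)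
    (hab : a ≠ b) (hac : a ≠ c) (hbc : b ≠ c) :
    0 ≤ Final.W d f a b a c + Final.W d f a b b c + Final.W d f a c b c := by
  have h := partZ d f hab hac hbc
  unfold Final.W Final.Qf
  rw [← Finset.sum_add_distrib, ← Finset.sum_add_distrib]
  exact h

end Crest.Agent.Lib.Switch.PartZ
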