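import Crest.Agent.Lib.Switch.Basic

/-!
# S0453, part X: sectors of two disjoint vertex pairs

`Q : Quad n` is a quadruple of distinct vertices `a,b,c,d`, `π={a,b}`, `ρ={c,d}`.
A sector is a class of `SectorRel`: same cells off `S={a,b,c,d}`, same cells `ab`, `cd`, same
`x_ax+x_bx`, `x_cx+x_dx` for `x ∉ S`. In a sector (of realizations) a graph is determined by the
block `B` and by `rowA = N(a) \ S`, `rowC = N(c) \ S`; `PairRel a b` means "same rowC",
`PairRel c d` means "same rowA".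
-/

set_option autoImplicit false
set_option linter.unusedSimpArgs false
set_option linter.unusedVariables false

namespace Crest.Agent.Lib.Switch

open Finset Crest.SwitchChain

variable {n : ℕ}

/-- Four distinct vertices. -/
structure Quad (n : ℕ) where
  a : Fin n
  b : Fin n
  c : Fin n
  d : Fin n
  hab : a ≠ b
  hac : a ≠ c
  had : a ≠ d
  hbc : b ≠ c
  hbd : b ≠ d
  hcd : c ≠ d

namespace Quad

variable (Q : Quad n)

/-- Exchange the two pairs. -/
def swap : Quad n where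
  a := Q.c
  b := Q.d
  c := Q.a
  d := Q.b
  hab := Q.hcd
  hac := Q.hac.symm
  had := Q.hbc.symm
  hbc := Q.had.symm
  hbd := Q.hbd.symm
  hcd := Q.hab

/-- The vertices outside `S`. -/
noncomputable def W : Finset (Fin n) := univ \ {Q.a, Q.b, Q.c, Q.d}

lemma mem_W {x : Fin n} : x ∈ Q.W ↔ x ≠ Q.a ∧ x ≠ Q.b ∧ x ≠ Q.c ∧ x ≠ Q.d := by
  simp [W]

lemma swap_W : Q.swap.W = Q.W := by
  ext x
  simp only [mem_W, swap]
  tauto

lemma sum_split {M : Type*} [AddCommMonoid M] (g : Fin n → M) :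
    ∑ u, g u = g Q.a + g Q.b + g Q.c + g Q.d + ∑ u ∈ Q.W, g u := by
  have h := Finset.sum_sdiff (s₁ := ({Q.a, Q.b, Q.c, Q.d} : Finset (Fin n)))
    (s₂ := univ) (f := g) (subset_univ _)
  rw [← h]
  have h2 : ∑ x ∈ ({Q.a, Q.b, Q.c, Q.d} : Finset (Fin n)), g x = g Q.a + g Q.b + g Q.c + g Q.d := by
    rw [sum_insert, sum_insert, sum_insert, sum_singleton]
    · simp only [add_assoc]
    · simpa using Q.hcd
    · simp [Q.hbc, Q.hbd]
    · simp [Q.hab, Q.hac, Q.had]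
  rw [h2, add_comm]
  rfl

/-- The sector relation. -/
def SectorRel (G G' : Finset (Edge n)) : Prop :=
  (∀ x ∈ Q.W, ∀ y ∈ Q.W, bit G x y = bit G' x y) ∧
  bit G Q.a Q.b = bit G' Q.a Q.b ∧
  bit G Q.c Q.d = bit G' Q.c Q.d ∧
  (∀ x ∈ Q.W, bit G Q.a x + bit G Q.b x = bit G' Q.a x + bit G' Q.b x) ∧
  (∀ x ∈ Q.W, bit G Q.c x + bit G Q.d x = bit G' Q.c x + bit G' Q.d x)

lemma sectorRel_isEquivOn (Ω : Finset (Finset (Edge n))) : IsEquivOn Ω Q.SectorRel where
  refl _ _ := ⟨fun _ _ _ _ => rfl, rfl, rfl, fun _ _ => rfl, fun _ _ => rfl⟩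
  symm _ _ _ _ h := ⟨fun x hx y hy => (h.1 x hx y hy).symm, h.2.1.symm, h.2.2.1.symm,
    fun x hx => (h.2.2.2.1 x hx).symm, fun x hx => (h.2.2.2.2 x hx).symm⟩
  trans _ _ _ _ _ _ h h' := ⟨fun x hx y hy => (h.1 x hx y hy).trans (h'.1 x hx y hy),
    h.2.1.trans h'.2.1, h.2.2.1.trans h'.2.2.1,
    fun x hx => (h.2.2.2.1 x hx).trans (h'.2.2.2.1 x hx),
    fun x hx => (h.2.2.2.2 x hx).trans (h'.2.2.2.2 x hx)⟩

lemma swap_sectorRel {G G' : Finset (Edge n)} : Q.swap.SectorRel G G' ↔ Q.SectorRel G G' := by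
  simp only [SectorRel, swap_W]
  simp only [swap]
  tauto

open Classical in
/-- `N(a) \ S`. -/
noncomputable def rowA (G : Finset (Edge n)) : Finset (Fin n) := Q.W.filter (Adj G Q.a)

open Classical in
/-- `N(c) \ S`. -/
noncomputable def rowC (G : Finset (Edge n)) : Finset (Fin n) := Q.W.filter (Adj G Q.c)

lemma swap_rowA (G : Finset (Edge n)) : Q.swap.rowA G = Q.rowC G := by
  simp only [rowA, rowC, swap_W]; rfl

lemma swap_rowC (G : Finset (Edge n)) : Q.swap.rowC G = Q.rowA G := by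
  simp only [rowA, rowC, swap_W]; rfl

lemma sum_bit_a (G : Finset (Edge n)) : ∑ x ∈ Q.W, bit G Q.a x = (Q.rowA G).card := by
  classical
  simp only [rowA, card_filter, bit]

lemma sum_bit_c (G : Finset (Edge n)) : ∑ x ∈ Q.W, bit G Q.c x = (Q.rowC G).card := by
  classical
  simp only [rowC, card_filter, bit]

lemma mem_rowA {G : Finset (Edge n)} {x : Fin n} : x ∈ Q.rowA G ↔ x ∈ Q.W ∧ Adj G Q.a x := by
  classical simp [rowA]

lemma mem_rowC {G : Finset (Edge n)} {x : Fin n} : x ∈ Q.rowC G ↔ x ∈ Q.W ∧ Adj G Q.c x := by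
  classical simp [rowC]

/-! ### Degree equations -/

variable {δ : Fin n → ℕ} {G G' : Finset (Edge n)}

lemma deg_a (hG : G ∈ realizations δ) :
    bit G Q.a Q.b + bit G Q.a Q.c + bit G Q.a Q.d + (Q.rowA G).card = δ Q.a := by
  have h : deg G Q.a = δ Q.a := (mem_filter.1 hG).2 Q.a
  rw [deg_eq_sum_bit, Q.sum_split, bit_self, Q.sum_bit_a] at h
  omega

lemma deg_b (hG : G ∈ realizations δ) :
    bit G Q.a Q.b + bit G Q.b Q.c + bit G Q.b Q.d + ∑ x ∈ Q.W, bit G Q.b x = δ Q.b := by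
  have h : deg G Q.b = δ Q.b := (mem_filter.1 hG).2 Q.b
  rw [deg_eq_sum_bit, Q.sum_split, bit_self, bit_comm G Q.b Q.a] at h
  omega

lemma deg_c (hG : G ∈ realizations δ) :
    bit G Q.a Q.c + bit G Q.b Q.c + bit G Q.c Q.d + (Q.rowC G).card = δ Q.c := by
  have h : deg G Q.c = δ Q.c := (mem_filter.1 hG).2 Q.c
  rw [deg_eq_sum_bit, Q.sum_split, bit_self, Q.sum_bit_c, bit_comm G Q.c Q.a,
    bit_comm G Q.c Q.b] at h
  omega

lemma deg_d (hG : G ∈ realizations δ) :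
    bit G Q.a Q.d + bit G Q.b Q.d + bit G Q.c Q.d + ∑ x ∈ Q.W, bit G Q.d x = δ Q.d := by
  have h : deg G Q.d = δ Q.d := (mem_filter.1 hG).2 Q.d
  rw [deg_eq_sum_bit, Q.sum_split, bit_self, bit_comm G Q.d Q.a,
    bit_comm G Q.d Q.b, bit_comm G Q.d Q.c] at h
  omega

/-- Total of the block. -/
noncomputable def tau (G : Finset (Edge n)) : ℕ :=
  bit G Q.a Q.c + bit G Q.a Q.d + bit G Q.b Q.c + bit G Q.b Q.d

lemma tau_eq_of_sector (hG : G ∈ realizations δ) (hG' : G' ∈ realizations δ)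
    (h : Q.SectorRel G G') : Q.tau G = Q.tau G' := by
  have h1 := Q.deg_a hG
  have h2 := Q.deg_b hG
  have h3 := Q.deg_a hG'
  have h4 := Q.deg_b hG'
  have h5 : (Q.rowA G).card + ∑ x ∈ Q.W, bit G Q.b x
      = (Q.rowA G').card + ∑ x ∈ Q.W, bit G' Q.b x := by
    rw [← sum_bit_a, ← sum_bit_a, ← sum_add_distrib, ← sum_add_distrib]
    exact sum_congr rfl h.2.2.2.1
  have h6 := h.2.1
  unfold tau
  omega

/-- Inside a sector, `PairRel a b` is "same rowC". -/
lemma pairRel_ab_iff (hG : G ∈ realizations δ) (hG' : G' ∈ realizations δ) :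
    PairRel Q.a Q.b G G' ↔ Q.SectorRel G G' ∧ Q.rowC G = Q.rowC G' := by
  constructor
  · rintro ⟨h1, h2, h3⟩
    have hc1 : Q.c ≠ Q.a := Q.hac.symm
    have hc2 : Q.c ≠ Q.b := Q.hbc.symm
    have hd1 : Q.d ≠ Q.a := Q.had.symm
    have hd2 : Q.d ≠ Q.b := Q.hbd.symm
    have hcx : ∀ x ∈ Q.W, bit G Q.c x = bit G' Q.c x := fun x hx => by
      have := Q.mem_W.1 hx
      exact h1 _ _ hc1 hc2 this.1 this.2.1
    have hdx : ∀ x ∈ Q.W, bit G Q.d x = bit G' Q.d x := fun x hx => by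
      have := Q.mem_W.1 hx
      exact h1 _ _ hd1 hd2 this.1 this.2.1
    refine ⟨⟨fun x hx y hy => ?_, h2, h1 _ _ hc1 hc2 hd1 hd2, fun x hx => ?_, fun x hx => ?_⟩, ?_⟩
    · have hx' := Q.mem_W.1 hx
      have hy' := Q.mem_W.1 hy
      exact h1 _ _ hx'.1 hx'.2.1 hy'.1 hy'.2.1
    · have hx' := Q.mem_W.1 hx
      exact h3 x hx'.1 hx'.2.1
    · rw [hcx x hx, hdx x hx]
    · ext x
      simp only [mem_rowC]
      refine and_congr_right fun hx => ?_
      rw [← bit_eq_one, ← bit_eq_one, hcx x hx]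
  · rintro ⟨⟨h1, h2, h3, h4, h5⟩, hC⟩
    have hcx : ∀ x ∈ Q.W, bit G Q.c x = bit G' Q.c x := fun x hx => by
      have h6 : Adj G Q.c x ↔ Adj G' Q.c x := by
        have := Finset.ext_iff.1 hC x
        simp only [mem_rowC, hx, true_and] at this
        exact this
      classical
      simp only [bit, h6]
    have hdx : ∀ x ∈ Q.W, bit G Q.d x = bit G' Q.d x := fun x hx => by
      have := h5 x hx
      have := hcx x hx
      omega
    have hcard := congrArg Finset.card hC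
    have hsumd : ∑ x ∈ Q.W, bit G Q.d x = ∑ x ∈ Q.W, bit G' Q.d x := sum_congr rfl hdx
    have hc1 := Q.deg_c hG
    have hc2 := Q.deg_c hG'
    have hd1 := Q.deg_d hG
    have hd2 := Q.deg_d hG'
    refine ⟨fun x y hxa hxb hya hyb => ?_, h2, fun x hxa hxb => ?_⟩
    · -- cells not meeting {a,b}
      by_cases hxc : x = Q.c
      · subst hxc
        by_cases hyc : y = Q.c
        · subst hyc; rw [bit_self, bit_self]
        by_cases hyd : y = Q.d
        · subst hyd; exact h3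
        · exact hcx y (Q.mem_W.2 ⟨hya, hyb, hyc, hyd⟩)
      by_cases hxd : x = Q.d
      · subst hxd
        by_cases hyc : y = Q.c
        · subst hyc; rw [bit_comm G, bit_comm G']; exact h3
        by_cases hyd : y = Q.d
        · subst hyd; rw [bit_self, bit_self]
        · exact hdx y (Q.mem_W.2 ⟨hya, hyb, hyc, hyd⟩)
      have hxW : x ∈ Q.W := Q.mem_W.2 ⟨hxa, hxb, hxc, hxd⟩
      by_cases hyc : y = Q.c
      · subst hyc; rw [bit_comm G, bit_comm G']; exact hcx x hxW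
      by_cases hyd : y = Q.d
      · subst hyd; rw [bit_comm G, bit_comm G']; exact hdx x hxW
      · exact h1 x hxW y (Q.mem_W.2 ⟨hya, hyb, hyc, hyd⟩)
    · by_cases hxc : x = Q.c
      · subst hxc; omega
      by_cases hxd : x = Q.d
      · subst hxd; omega
      · exact h4 x (Q.mem_W.2 ⟨hxa, hxb, hxc, hxd⟩)

/-- Inside a sector, `PairRel c d` is "same rowA". -/
lemma pairRel_cd_iff (hG : G ∈ realizations δ) (hG' : G' ∈ realizations δ) :
    PairRel Q.c Q.d G G' ↔ Q.SectorRel G G' ∧ Q.rowA G = Q.rowA G' := by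
  have := Q.swap.pairRel_ab_iff hG hG'
  simp only [swap_sectorRel, swap_rowC] at this
  exact this

/-- A graph in a sector is determined by the block and the two rows. -/
lemma eq_of_coords (h : Q.SectorRel G G') (hA : Q.rowA G = Q.rowA G') (hC : Q.rowC G = Q.rowC G')
    (hac : bit G Q.a Q.c = bit G' Q.a Q.c) (had : bit G Q.a Q.d = bit G' Q.a Q.d)
    (hbc : bit G Q.b Q.c = bit G' Q.b Q.c) (hbd : bit G Q.b Q.d = bit G' Q.b Q.d) : G = G' := by
  classical
  obtain ⟨h1, h2, h3, h4, h5⟩ := h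
  have hax : ∀ x ∈ Q.W, bit G Q.a x = bit G' Q.a x := fun x hx => by
    have h6 : Adj G Q.a x ↔ Adj G' Q.a x := by
      have := Finset.ext_iff.1 hA x
      simp only [mem_rowA, hx, true_and] at this
      exact this
    simp only [bit, h6]
  have hcx : ∀ x ∈ Q.W, bit G Q.c x = bit G' Q.c x := fun x hx => by
    have h6 : Adj G Q.c x ↔ Adj G' Q.c x := by
      have := Finset.ext_iff.1 hC x
      simp only [mem_rowC, hx, true_and] at this
      exact this
    simp only [bit, h6]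
  have hbx : ∀ x ∈ Q.W, bit G Q.b x = bit G' Q.b x := fun x hx => by
    have := h4 x hx
    have := hax x hx
    omega
  have hdx : ∀ x ∈ Q.W, bit G Q.d x = bit G' Q.d x := fun x hx => by
    have := h5 x hx
    have := hcx x hx
    omega
  -- all cells with first index in S
  have key : ∀ u y, (u = Q.a ∨ u = Q.b ∨ u = Q.c ∨ u = Q.d) → bit G u y = bit G' u y := by
    intro u y hu
    by_cases hya : y = Q.a
    · subst hya
      rcases hu with rfl | rfl | rfl | rfl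
      · rw [bit_self, bit_self]
      · rw [bit_comm G, bit_comm G']; exact h2
      · rw [bit_comm G, bit_comm G']; exact hac
      · rw [bit_comm G, bit_comm G']; exact had
    by_cases hyb : y = Q.b
    · subst hyb
      rcases hu with rfl | rfl | rfl | rfl
      · exact h2
      · rw [bit_self, bit_self]
      · rw [bit_comm G, bit_comm G']; exact hbc
      · rw [bit_comm G, bit_comm G']; exact hbd
    by_cases hyc : y = Q.c
    · subst hyc
      rcases hu with rfl | rfl | rfl | rfl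
      · exact hac
      · exact hbc
      · rw [bit_self, bit_self]
      · rw [bit_comm G, bit_comm G']; exact h3
    by_cases hyd : y = Q.d
    · subst hyd
      rcases hu with rfl | rfl | rfl | rfl
      · exact had
      · exact hbd
      · exact h3
      · rw [bit_self, bit_self]
    have hy : y ∈ Q.W := Q.mem_W.2 ⟨hya, hyb, hyc, hyd⟩
    rcases hu with rfl | rfl | rfl | rfl
    · exact hax y hy
    · exact hbx y hy
    · exact hcx y hy
    · exact hdx y hy
  refine graph_ext_bit fun x y => ?_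
  by_cases hx : x = Q.a ∨ x = Q.b ∨ x = Q.c ∨ x = Q.d
  · exact key x y hx
  by_cases hy : y = Q.a ∨ y = Q.b ∨ y = Q.c ∨ y = Q.d
  · rw [bit_comm G, bit_comm G']; exact key y x hy
  · have hx' : x ∈ Q.W := Q.mem_W.2 (by tauto)
    have hy' : y ∈ Q.W := Q.mem_W.2 (by tauto)
    exact h1 x hx' y hy'

/-! ### The master construction -/

section Master

open Classical

variable (G0 : Finset (Edge n)) (p q r s : Bool) (X Y : Finset (Fin n))

/-- One-directional description of the adjacency of the new graph. -/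
def row (u v : Fin n) : Prop :=
  (u = Q.a ∧ v = Q.b ∧ Adj G0 Q.a Q.b) ∨
  (u = Q.c ∧ v = Q.d ∧ Adj G0 Q.c Q.d) ∨
  (u = Q.a ∧ v = Q.c ∧ p = true) ∨ (u = Q.a ∧ v = Q.d ∧ q = true) ∨
  (u = Q.b ∧ v = Q.c ∧ r = true) ∨ (u = Q.b ∧ v = Q.d ∧ s = true) ∨
  (u = Q.a ∧ v ∈ Q.W ∧ v ∈ X) ∨
  (u = Q.b ∧ v ∈ Q.W ∧ bit G0 Q.a v + bit G0 Q.b v = (if v ∈ X then 1 else 0) + 1) ∨
  (u = Q.c ∧ v ∈ Q.W ∧ v ∈ Y) ∨
  (u = Q.d ∧ v ∈ Q.W ∧ bit G0 Q.c v + bit G0 Q.d v = (if v ∈ Y then 1 else 0) + 1) ∨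
  (u ∈ Q.W ∧ v ∈ Q.W ∧ Adj G0 u v)

/-- The graph with given block and rows. -/
noncomputable def master : Finset (Edge n) :=
  ofRel fun u v => Q.row G0 p q r s X Y u v ∨ Q.row G0 p q r s X Y v u

lemma adj_master {u v : Fin n} : Adj (Q.master G0 p q r s X Y) u v ↔
    u ≠ v ∧ (Q.row G0 p q r s X Y u v ∨ Q.row G0 p q r s X Y v u) :=
  adj_ofRel (fun _ _ h => h.symm)

variable {G0 p q r s X Y}

lemma a_notMem : Q.a ∉ Q.W := by simp [mem_W]
lemma b_notMem : Q.b ∉ Q.W := by simp [mem_W]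
lemma c_notMem : Q.c ∉ Q.W := by simp [mem_W]
lemma d_notMem : Q.d ∉ Q.W := by simp [mem_W]

lemma adj_master_ab : Adj (Q.master G0 p q r s X Y) Q.a Q.b ↔ Adj G0 Q.a Q.b := by
  have h1 := Q.hab; have h2 := Q.hac; have h3 := Q.had; have h4 := Q.hbc; have h5 := Q.hbd
  have h6 := Q.hcd
  have ha := Q.a_notMem; have hb := Q.b_notMem
  rw [adj_master]
  simp only [row]
  simp [h1, h1.symm, h2, h2.symm, h3, h3.symm, h4, h4.symm, h5, h5.symm, h6, h6.symm, ha, hb]

lemma adj_master_cd : Adj (Q.master G0 p q r s X Y) Q.c Q.d ↔ Adj G0 Q.c Q.d := by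
  have h1 := Q.hab; have h2 := Q.hac; have h3 := Q.had; have h4 := Q.hbc; have h5 := Q.hbd
  have h6 := Q.hcd
  have ha := Q.c_notMem; have hb := Q.d_notMem
  rw [adj_master]
  simp only [row]
  simp [h1, h1.symm, h2, h2.symm, h3, h3.symm, h4, h4.symm, h5, h5.symm, h6, h6.symm, ha, hb]

lemma adj_master_ac : Adj (Q.master G0 p q r s X Y) Q.a Q.c ↔ p = true := by
  have h1 := Q.hab; have h2 := Q.hac; have h3 := Q.had; have h4 := Q.hbc; have h5 := Q.hbd
  have h6 := Q.hcd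
  have ha := Q.a_notMem; have hb := Q.c_notMem
  rw [adj_master]
  simp only [row]
  simp [h1, h1.symm, h2, h2.symm, h3, h3.symm, h4, h4.symm, h5, h5.symm, h6, h6.symm, ha, hb]

lemma adj_master_ad : Adj (Q.master G0 p q r s X Y) Q.a Q.d ↔ q = true := by
  have h1 := Q.hab; have h2 := Q.hac; have h3 := Q.had; have h4 := Q.hbc; have h5 := Q.hbd
  have h6 := Q.hcd
  have ha := Q.a_notMem; have hb := Q.d_notMem
  rw [adj_master]
  simp only [row]
  simp [h1, h1.symm, h2, h2.symm, h3, h3.symm, h4, h4.symm, h5, h5.symm, h6, h6.symm, ha, hb]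

lemma adj_master_bc : Adj (Q.master G0 p q r s X Y) Q.b Q.c ↔ r = true := by
  have h1 := Q.hab; have h2 := Q.hac; have h3 := Q.had; have h4 := Q.hbc; have h5 := Q.hbd
  have h6 := Q.hcd
  have ha := Q.b_notMem; have hb := Q.c_notMem
  rw [adj_master]
  simp only [row]
  simp [h1, h1.symm, h2, h2.symm, h3, h3.symm, h4, h4.symm, h5, h5.symm, h6, h6.symm, ha, hb]

lemma adj_master_bd : Adj (Q.master G0 p q r s X Y) Q.b Q.d ↔ s = true := by
  have h1 := Q.hab; have h2 := Q.hac; have h3 := Q.had; have h4 := Q.hbc; have h5 := Q.hbd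
  have h6 := Q.hcd
  have ha := Q.b_notMem; have hb := Q.d_notMem
  rw [adj_master]
  simp only [row]
  simp [h1, h1.symm, h2, h2.symm, h3, h3.symm, h4, h4.symm, h5, h5.symm, h6, h6.symm, ha, hb]

lemma adj_master_ax {x : Fin n} (hx : x ∈ Q.W) :
    Adj (Q.master G0 p q r s X Y) Q.a x ↔ x ∈ X := by
  have h1 := Q.hab; have h2 := Q.hac; have h3 := Q.had; have h4 := Q.hbc; have h5 := Q.hbd
  have h6 := Q.hcd
  have ha := Q.a_notMem
  have hx' := Q.mem_W.1 hx
  obtain ⟨x1, x2, x3, x4⟩ := hx'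
  rw [adj_master]
  simp only [row]
  simp [h1, h1.symm, h2, h2.symm, h3, h3.symm, h4, h4.symm, h5, h5.symm, h6, h6.symm, ha, hx,
    x1, x2, x3, x4, x1.symm, x2.symm, x3.symm, x4.symm]

lemma adj_master_bx {x : Fin n} (hx : x ∈ Q.W) :
    Adj (Q.master G0 p q r s X Y) Q.b x ↔
      bit G0 Q.a x + bit G0 Q.b x = (if x ∈ X then 1 else 0) + 1 := by
  have h1 := Q.hab; have h2 := Q.hac; have h3 := Q.had; have h4 := Q.hbc; have h5 := Q.hbd
  have h6 := Q.hcd
  have ha := Q.b_notMem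
  have hx' := Q.mem_W.1 hx
  obtain ⟨x1, x2, x3, x4⟩ := hx'
  rw [adj_master]
  simp only [row]
  simp [h1, h1.symm, h2, h2.symm, h3, h3.symm, h4, h4.symm, h5, h5.symm, h6, h6.symm, ha, hx,
    x1, x2, x3, x4, x1.symm, x2.symm, x3.symm, x4.symm]

lemma adj_master_cx {x : Fin n} (hx : x ∈ Q.W) :
    Adj (Q.master G0 p q r s X Y) Q.c x ↔ x ∈ Y := by
  have h1 := Q.hab; have h2 := Q.hac; have h3 := Q.had; have h4 := Q.hbc; have h5 := Q.hbd
  have h6 := Q.hcd
  have ha := Q.c_notMem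
  have hx' := Q.mem_W.1 hx
  obtain ⟨x1, x2, x3, x4⟩ := hx'
  rw [adj_master]
  simp only [row]
  simp [h1, h1.symm, h2, h2.symm, h3, h3.symm, h4, h4.symm, h5, h5.symm, h6, h6.symm, ha, hx,
    x1, x2, x3, x4, x1.symm, x2.symm, x3.symm, x4.symm]

lemma adj_master_dx {x : Fin n} (hx : x ∈ Q.W) :
    Adj (Q.master G0 p q r s X Y) Q.d x ↔
      bit G0 Q.c x + bit G0 Q.d x = (if x ∈ Y then 1 else 0) + 1 := by
  have h1 := Q.hab; have h2 := Q.hac; have h3 := Q.had; have h4 := Q.hbc; have h5 := Q.hbd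
  have h6 := Q.hcd
  have ha := Q.d_notMem
  have hx' := Q.mem_W.1 hx
  obtain ⟨x1, x2, x3, x4⟩ := hx'
  rw [adj_master]
  simp only [row]
  simp [h1, h1.symm, h2, h2.symm, h3, h3.symm, h4, h4.symm, h5, h5.symm, h6, h6.symm, ha, hx,
    x1, x2, x3, x4, x1.symm, x2.symm, x3.symm, x4.symm]

lemma adj_master_xy {x y : Fin n} (hx : x ∈ Q.W) (hy : y ∈ Q.W) :
    Adj (Q.master G0 p q r s X Y) x y ↔ Adj G0 x y := by
  obtain ⟨x1, x2, x3, x4⟩ := Q.mem_W.1 hx
  obtain ⟨y1, y2, y3, y4⟩ := Q.mem_W.1 hy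
  rw [adj_master]
  simp only [row]
  simp only [x1, x2, x3, x4, y1, y2, y3, y4, false_and, or_false, false_or, hx, hy, true_and]
  constructor
  · rintro ⟨_, h | h⟩
    · exact h
    · exact h.symm
  · intro h
    exact ⟨h.ne, Or.inl h⟩

/-! ### Bits of the master graph -/

lemma bit_of_iff {G : Finset (Edge n)} {x y : Fin n} {P : Prop} [Decidable P]
    (h : Adj G x y ↔ P) : bit G x y = if P then 1 else 0 := by
  by_cases hP : P
  · rw [if_pos hP]; exact bit_eq_one.2 (h.2 hP)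
  · rw [if_neg hP]; exact bit_eq_zero.2 (fun h' => hP (h.1 h'))

lemma bit_master_ab : bit (Q.master G0 p q r s X Y) Q.a Q.b = bit G0 Q.a Q.b := by
  simp only [bit, Q.adj_master_ab]

lemma bit_master_cd : bit (Q.master G0 p q r s X Y) Q.c Q.d = bit G0 Q.c Q.d := by
  simp only [bit, Q.adj_master_cd]

lemma bit_master_ac : bit (Q.master G0 p q r s X Y) Q.a Q.c = p.toNat := by
  cases p <;> simp [bit, Q.adj_master_ac]

lemma bit_master_ad : bit (Q.master G0 p q r s X Y) Q.a Q.d = q.toNat := by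
  cases q <;> simp [bit, Q.adj_master_ad]

lemma bit_master_bc : bit (Q.master G0 p q r s X Y) Q.b Q.c = r.toNat := by
  cases r <;> simp [bit, Q.adj_master_bc]

lemma bit_master_bd : bit (Q.master G0 p q r s X Y) Q.b Q.d = s.toNat := by
  cases s <;> simp [bit, Q.adj_master_bd]

lemma bit_master_ax {x : Fin n} (hx : x ∈ Q.W) :
    bit (Q.master G0 p q r s X Y) Q.a x = if x ∈ X then 1 else 0 := by
  simp only [bit, Q.adj_master_ax hx]

lemma bit_master_cx {x : Fin n} (hx : x ∈ Q.W) :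
    bit (Q.master G0 p q r s X Y) Q.c x = if x ∈ Y then 1 else 0 := by
  simp only [bit, Q.adj_master_cx hx]

lemma bit_master_xy {x y : Fin n} (hx : x ∈ Q.W) (hy : y ∈ Q.W) :
    bit (Q.master G0 p q r s X Y) x y = bit G0 x y := by
  simp only [bit, Q.adj_master_xy hx hy]

/-- Compatibility of `X` with the column sums: forced columns in, empty columns out. -/
def CompatA (G0 : Finset (Edge n)) (X : Finset (Fin n)) : Prop :=
  X ⊆ Q.W ∧ ∀ x ∈ Q.W, (x ∈ X → 1 ≤ bit G0 Q.a x + bit G0 Q.b x) ∧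
    (bit G0 Q.a x + bit G0 Q.b x = 2 → x ∈ X)

/-- Compatibility of `Y` with the column sums. -/
def CompatC (G0 : Finset (Edge n)) (Y : Finset (Fin n)) : Prop :=
  Y ⊆ Q.W ∧ ∀ x ∈ Q.W, (x ∈ Y → 1 ≤ bit G0 Q.c x + bit G0 Q.d x) ∧
    (bit G0 Q.c x + bit G0 Q.d x = 2 → x ∈ Y)

lemma bit_master_ax_bx (hX : Q.CompatA G0 X) {x : Fin n} (hx : x ∈ Q.W) :
    bit (Q.master G0 p q r s X Y) Q.a x + bit (Q.master G0 p q r s X Y) Q.b x
      = bit G0 Q.a x + bit G0 Q.b x := by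
  have h1 := bit_le_one G0 Q.a x
  have h2 := bit_le_one G0 Q.b x
  obtain ⟨h3, h4⟩ := hX.2 x hx
  rw [Q.bit_master_ax hx]
  have h5 : bit (Q.master G0 p q r s X Y) Q.b x
      = if bit G0 Q.a x + bit G0 Q.b x = (if x ∈ X then 1 else 0) + 1 then 1 else 0 :=
    bit_of_iff (Q.adj_master_bx hx)
  rw [h5]
  by_cases hxX : x ∈ X
  · have := h3 hxX
    simp only [hxX, if_true]
    split_ifs <;> omega
  · have : bit G0 Q.a x + bit G0 Q.b x ≠ 2 := fun h => hxX (h4 h)
    simp only [hxX, if_false]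
    split_ifs <;> omega

lemma bit_master_cx_dx (hY : Q.CompatC G0 Y) {x : Fin n} (hx : x ∈ Q.W) :
    bit (Q.master G0 p q r s X Y) Q.c x + bit (Q.master G0 p q r s X Y) Q.d x
      = bit G0 Q.c x + bit G0 Q.d x := by
  have h1 := bit_le_one G0 Q.c x
  have h2 := bit_le_one G0 Q.d x
  obtain ⟨h3, h4⟩ := hY.2 x hx
  rw [Q.bit_master_cx hx]
  have h5 : bit (Q.master G0 p q r s X Y) Q.d x
      = if bit G0 Q.c x + bit G0 Q.d x = (if x ∈ Y then 1 else 0) + 1 then 1 else 0 :=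
    bit_of_iff (Q.adj_master_dx hx)
  rw [h5]
  by_cases hxY : x ∈ Y
  · have := h3 hxY
    simp only [hxY, if_true]
    split_ifs <;> omega
  · have : bit G0 Q.c x + bit G0 Q.d x ≠ 2 := fun h => hxY (h4 h)
    simp only [hxY, if_false]
    split_ifs <;> omega

lemma sum_mem_W {X : Finset (Fin n)} (hX : X ⊆ Q.W) :
    ∑ x ∈ Q.W, (if x ∈ X then 1 else 0) = X.card := by
  rw [← card_filter]
  congr 1
  ext x
  simp only [mem_filter]
  exact ⟨fun h => h.2, fun h => ⟨hX h, h⟩⟩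

/-- The master graph is in the sector of `G0`. -/
lemma master_sectorRel (hX : Q.CompatA G0 X) (hY : Q.CompatC G0 Y) :
    Q.SectorRel G0 (Q.master G0 p q r s X Y) :=
  ⟨fun x hx y hy => (Q.bit_master_xy hx hy).symm, Q.bit_master_ab.symm, Q.bit_master_cd.symm,
    fun x hx => (Q.bit_master_ax_bx hX hx).symm, fun x hx => (Q.bit_master_cx_dx hY hx).symm⟩

lemma rowA_master (hX : X ⊆ Q.W) : Q.rowA (Q.master G0 p q r s X Y) = X := by
  ext x
  rw [mem_rowA]
  constructor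
  · rintro ⟨hx, h⟩
    exact (Q.adj_master_ax hx).1 h
  · intro h
    exact ⟨hX h, (Q.adj_master_ax (hX h)).2 h⟩

lemma rowC_master (hY : Y ⊆ Q.W) : Q.rowC (Q.master G0 p q r s X Y) = Y := by
  ext x
  rw [mem_rowC]
  constructor
  · rintro ⟨hx, h⟩
    exact (Q.adj_master_cx hx).1 h
  · intro h
    exact ⟨hY h, (Q.adj_master_cx (hY h)).2 h⟩

variable {δ : Fin n → ℕ}

/-- The master graph is a realization. -/
lemma master_mem (hG0 : G0 ∈ realizations δ) (hX : Q.CompatA G0 X) (hY : Q.CompatC G0 Y)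
    (hA : bit G0 Q.a Q.b + p.toNat + q.toNat + X.card = δ Q.a)
    (hC : p.toNat + r.toNat + bit G0 Q.c Q.d + Y.card = δ Q.c)
    (hT : p.toNat + q.toNat + r.toNat + s.toNat = Q.tau G0) :
    Q.master G0 p q r s X Y ∈ realizations δ := by
  set M := Q.master G0 p q r s X Y with hM
  have hsec : Q.SectorRel G0 M := Q.master_sectorRel hX hY
  have hsumA : ∑ x ∈ Q.W, bit M Q.a x = X.card := by
    rw [← Q.sum_mem_W hX.1]
    exact sum_congr rfl fun x hx => Q.bit_master_ax hx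
  have hsumC : ∑ x ∈ Q.W, bit M Q.c x = Y.card := by
    rw [← Q.sum_mem_W hY.1]
    exact sum_congr rfl fun x hx => Q.bit_master_cx hx
  have hsumAB : ∑ x ∈ Q.W, bit M Q.a x + ∑ x ∈ Q.W, bit M Q.b x
      = ∑ x ∈ Q.W, bit G0 Q.a x + ∑ x ∈ Q.W, bit G0 Q.b x := by
    rw [← sum_add_distrib, ← sum_add_distrib]
    exact sum_congr rfl fun x hx => Q.bit_master_ax_bx hX hx
  have hsumCD : ∑ x ∈ Q.W, bit M Q.c x + ∑ x ∈ Q.W, bit M Q.d x
      = ∑ x ∈ Q.W, bit G0 Q.c x + ∑ x ∈ Q.W, bit G0 Q.d x := by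
    rw [← sum_add_distrib, ← sum_add_distrib]
    exact sum_congr rfl fun x hx => Q.bit_master_cx_dx hY hx
  have h0a := Q.deg_a hG0
  have h0b := Q.deg_b hG0
  have h0c := Q.deg_c hG0
  have h0d := Q.deg_d hG0
  rw [← Q.sum_bit_a] at h0a
  rw [← Q.sum_bit_c] at h0c
  have hτ : Q.tau G0 = bit G0 Q.a Q.c + bit G0 Q.a Q.d + bit G0 Q.b Q.c + bit G0 Q.b Q.d := rfl
  have hab := Q.bit_master_ab (G0 := G0) (p := p) (q := q) (r := r) (s := s) (X := X) (Y := Y)
  have hcd := Q.bit_master_cd (G0 := G0) (p := p) (q := q) (r := r) (s := s) (X := X) (Y := Y)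
  have hac := Q.bit_master_ac (G0 := G0) (p := p) (q := q) (r := r) (s := s) (X := X) (Y := Y)
  have had := Q.bit_master_ad (G0 := G0) (p := p) (q := q) (r := r) (s := s) (X := X) (Y := Y)
  have hbc := Q.bit_master_bc (G0 := G0) (p := p) (q := q) (r := r) (s := s) (X := X) (Y := Y)
  have hbd := Q.bit_master_bd (G0 := G0) (p := p) (q := q) (r := r) (s := s) (X := X) (Y := Y)
  rw [← hM] at hab hcd hac had hbc hbd
  refine mem_filter.2 ⟨mem_univ _, fun v => ?_⟩
  rw [deg_eq_sum_bit, Q.sum_split]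
  by_cases hva : v = Q.a
  · subst hva
    rw [bit_self]
    omega
  by_cases hvb : v = Q.b
  · subst hvb
    rw [bit_self, bit_comm M Q.b Q.a]
    omega
  by_cases hvc : v = Q.c
  · subst hvc
    rw [bit_self, bit_comm M Q.c Q.a, bit_comm M Q.c Q.b]
    omega
  by_cases hvd : v = Q.d
  · subst hvd
    rw [bit_self, bit_comm M Q.d Q.a, bit_comm M Q.d Q.b, bit_comm M Q.d Q.c]
    omega
  have hv : v ∈ Q.W := Q.mem_W.2 ⟨hva, hvb, hvc, hvd⟩
  have h1 := Q.bit_master_ax_bx (G0 := G0) (p := p) (q := q) (r := r) (s := s) (X := X) (Y := Y)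
    hX hv
  have h2 := Q.bit_master_cx_dx (G0 := G0) (p := p) (q := q) (r := r) (s := s) (X := X) (Y := Y)
    hY hv
  rw [← hM] at h1 h2
  have h3 : ∑ u ∈ Q.W, bit M v u = ∑ u ∈ Q.W, bit G0 v u :=
    sum_congr rfl fun u hu => Q.bit_master_xy hv hu
  have h4 : deg G0 v = δ v := (mem_filter.1 hG0).2 v
  rw [deg_eq_sum_bit, Q.sum_split] at h4
  rw [bit_comm M v Q.a, bit_comm M v Q.b, bit_comm M v Q.c, bit_comm M v Q.d, h3]
  rw [bit_comm G0 v Q.a, bit_comm G0 v Q.b, bit_comm G0 v Q.c, bit_comm G0 v Q.d] at h4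
  omega

/-- Boolean form of adjacency. -/
noncomputable def bb (G : Finset (Edge n)) (x y : Fin n) : Bool := decide (Adj G x y)

lemma toNat_bb (G : Finset (Edge n)) (x y : Fin n) : (bb G x y).toNat = bit G x y := by
  by_cases h : Adj G x y <;> simp [bb, bit, h]

/-- The coordinates of a graph in a sector are compatible. -/
lemma compatA_rowA {G : Finset (Edge n)} (h : Q.SectorRel G0 G) : Q.CompatA G0 (Q.rowA G) := by
  refine ⟨filter_subset _ _, fun x hx => ⟨fun hxX => ?_, fun h2 => ?_⟩⟩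
  · have h1 := h.2.2.2.1 x hx
    have h2 : bit G Q.a x = 1 := bit_eq_one.2 ((Q.mem_rowA.1 hxX).2)
    omega
  · have h1 := h.2.2.2.1 x hx
    have h3 := bit_le_one G Q.a x
    have h4 := bit_le_one G Q.b x
    have h5 : bit G Q.a x = 1 := by omega
    exact Q.mem_rowA.2 ⟨hx, bit_eq_one.1 h5⟩

lemma compatC_rowC {G : Finset (Edge n)} (h : Q.SectorRel G0 G) : Q.CompatC G0 (Q.rowC G) := by
  refine ⟨filter_subset _ _, fun x hx => ⟨fun hxX => ?_, fun h2 => ?_⟩⟩
  · have h1 := h.2.2.2.2 x hx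
    have h2 : bit G Q.c x = 1 := bit_eq_one.2 ((Q.mem_rowC.1 hxX).2)
    omega
  · have h1 := h.2.2.2.2 x hx
    have h3 := bit_le_one G Q.c x
    have h4 := bit_le_one G Q.d x
    have h5 : bit G Q.c x = 1 := by omega
    exact Q.mem_rowC.2 ⟨hx, bit_eq_one.1 h5⟩

/-- Every graph of the sector is a master graph. -/
lemma eq_master {G : Finset (Edge n)} (h : Q.SectorRel G0 G) :
    G = Q.master G0 (bb G Q.a Q.c) (bb G Q.a Q.d) (bb G Q.b Q.c) (bb G Q.b Q.d)
      (Q.rowA G) (Q.rowC G) := by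
  have hX := Q.compatA_rowA h
  have hY := Q.compatC_rowC h
  have hm := Q.master_sectorRel (G0 := G0) (p := bb G Q.a Q.c) (q := bb G Q.a Q.d)
    (r := bb G Q.b Q.c) (s := bb G Q.b Q.d) hX hY
  have hs : Q.SectorRel G (Q.master G0 (bb G Q.a Q.c) (bb G Q.a Q.d) (bb G Q.b Q.c) (bb G Q.b Q.d)
      (Q.rowA G) (Q.rowC G)) :=
    ⟨fun x hx y hy => (h.1 x hx y hy).symm.trans (hm.1 x hx y hy),
      h.2.1.symm.trans hm.2.1, h.2.2.1.symm.trans hm.2.2.1,
      fun x hx => (h.2.2.2.1 x hx).symm.trans (hm.2.2.2.1 x hx),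
      fun x hx => (h.2.2.2.2 x hx).symm.trans (hm.2.2.2.2 x hx)⟩
  refine Q.eq_of_coords hs (Q.rowA_master hX.1).symm (Q.rowC_master hY.1).symm ?_ ?_ ?_ ?_
  · rw [Q.bit_master_ac, toNat_bb]
  · rw [Q.bit_master_ad, toNat_bb]
  · rw [Q.bit_master_bc, toNat_bb]
  · rw [Q.bit_master_bd, toNat_bb]

end Master

end Quad

end Crest.Agent.Lib.Switch
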