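import Crest.Agent.Lib.Switch.SectorSum
import Crest.Agent.Lib.Switch.GluedGrid

/-!
# S0453, part X: the sector inequality

Sectors with `τ ≠ 2` are products; sectors with `τ = 2` are glued grids.
-/

set_option autoImplicit false
set_option linter.unusedSimpArgs false
set_option linter.unusedVariables false
set_option linter.unusedSectionVars false

namespace Crest.Agent.Lib.Switch

open Finset Crest.SwitchChain GluedGrid

variable {n : ℕ}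

/-- An abstract product: `⟨f - E₁ f, f - E₂ f⟩ ≥ 0` when the two classes form a grid. -/
lemma product_nonneg {α β γ : Type} [DecidableEq β] [DecidableEq γ] (S : Finset α)
    (kA : α → β) (kC : α → γ)
    (hinj : ∀ G ∈ S, ∀ G' ∈ S, kA G = kA G' → kC G = kC G' → G = G')
    (hrect : ∀ G1 ∈ S, ∀ G2 ∈ S, ∃ G3 ∈ S, kA G3 = kA G1 ∧ kC G3 = kC G2) (f : α → ℝ) :
    0 ≤ ∑ G ∈ S,
      (f G - (∑ G' ∈ S.filter (fun G' => kC G' = kC G), f G') /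
          ((S.filter (fun G' => kC G' = kC G)).card : ℝ)) *
      (f G - (∑ G' ∈ S.filter (fun G' => kA G' = kA G), f G') /
          ((S.filter (fun G' => kA G' = kA G)).card : ℝ)) := by
  classical
  have hex : ∀ x : S.image kA, ∀ y : S.image kC, ∃ G, G ∈ S ∧ kA G = x ∧ kC G = y := by
    rintro ⟨x, hx⟩ ⟨y, hy⟩
    obtain ⟨G1, h1, rfl⟩ := mem_image.1 hx
    obtain ⟨G2, h2, rfl⟩ := mem_image.1 hy
    exact hrect G1 h1 G2 h2
  choose Ψ hΨS hΨA hΨC using hex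
  have hsum : ∀ F : α → ℝ, ∑ G ∈ S, F G = ∑ x : S.image kA, ∑ y : S.image kC, F (Ψ x y) := by
    intro F
    rw [← Fintype.sum_prod_type' (f := fun x y => F (Ψ x y))]
    symm
    refine Finset.sum_bij' (fun p _ => Ψ p.1 p.2)
      (fun G hG => ((⟨kA G, mem_image_of_mem _ hG⟩, ⟨kC G, mem_image_of_mem _ hG⟩) :
        S.image kA × S.image kC)) ?_ ?_ ?_ ?_ ?_
    · intro p _; exact hΨS _ _
    · intro G hG; exact mem_univ _
    · intro p _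
      apply Prod.ext <;> apply Subtype.ext
      · exact hΨA _ _
      · exact hΨC _ _
    · intro G hG
      exact hinj _ (hΨS _ _) _ hG (hΨA _ _) (hΨC _ _)
    · intro p _; rfl
  have hC : ∀ (y : S.image kC) (F : α → ℝ),
      ∑ G ∈ S.filter (fun G => kC G = y), F G = ∑ x : S.image kA, F (Ψ x y) := by
    intro y F
    rw [sum_filter, hsum]
    refine sum_congr rfl fun x _ => ?_
    have : ∀ y' : S.image kC, (if kC (Ψ x y') = (y : γ) then F (Ψ x y') else 0)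
        = if y' = y then F (Ψ x y') else 0 := by
      intro y'
      rw [hΨC]
      simp only [Subtype.ext_iff]
    simp only [this, sum_ite_eq', mem_univ, if_true]
  have hA : ∀ (x : S.image kA) (F : α → ℝ),
      ∑ G ∈ S.filter (fun G => kA G = x), F G = ∑ y : S.image kC, F (Ψ x y) := by
    intro x F
    rw [sum_filter, hsum]
    have : ∀ x' : S.image kA, (∑ y : S.image kC, if kA (Ψ x' y) = (x : β) then F (Ψ x' y) else 0)
        = if x' = x then ∑ y : S.image kC, F (Ψ x' y) else 0 := by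
      intro x'
      simp only [hΨA, Subtype.ext_iff]
      split_ifs <;> simp
    simp only [this, sum_ite_eq', mem_univ, if_true]
  have hcard : ∀ (T : Finset α), (T.card : ℝ) = ∑ G ∈ T, (1 : ℝ) := by intro T; simp
  have key := glued_grid (fun x y => f (Ψ x y)) (fun (a : Empty) (b : Empty) => (0 : ℝ))
    (fun (_ : Bool) (a : Empty) (y : S.image kC) => (0 : ℝ))
  have h1 : crossTerm (fun x y => f (Ψ x y)) (fun (a : Empty) (b : Empty) => (0 : ℝ))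
    (fun (_ : Bool) (a : Empty) (y : S.image kC) => (0 : ℝ)) = ∑ G ∈ S,
      (f G - (∑ G' ∈ S.filter (fun G' => kC G' = kC G), f G') /
          ((S.filter (fun G' => kC G' = kC G)).card : ℝ)) *
      (f G - (∑ G' ∈ S.filter (fun G' => kA G' = kA G), f G') /
          ((S.filter (fun G' => kA G' = kA G)).card : ℝ)) := by
    rw [hsum]
    simp only [crossTerm, pC, qH, hΨA, hΨC, hC, hA, hcard]
    simp
  rw [h1] at key
  simp at key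
  linarith

namespace Blk

def B1 : Blk := (true, true, false, false)
def B2 : Blk := (false, false, true, true)
def B3 : Blk := (true, false, true, false)
def B4 : Blk := (false, true, false, true)
def B5 : Blk := (true, false, false, true)
def B6 : Blk := (false, true, true, false)

lemma sum_six (g : Blk → ℝ) :
    ∑ B ∈ univ.filter (fun B : Blk => B.tot = 2), g B = g B1 + g B2 + g B3 + g B4 + g B5 + g B6 := by
  have : univ.filter (fun B : Blk => B.tot = 2) = {B1, B2, B3, B4, B5, B6} := by decide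
  rw [this, sum_insert (by decide), sum_insert (by decide), sum_insert (by decide),
    sum_insert (by decide), sum_insert (by decide), sum_singleton]
  ring

lemma unique_ne_two : ∀ B B' : Blk, B.tot = B'.tot → B.tot ≠ 2 → B.ta = B'.ta → B.sc = B'.sc →
    B = B' := by decide

lemma exists_ne_two : ∀ B B' : Blk, B.tot = B'.tot → B.tot ≠ 2 →
    ∃ B'' : Blk, B''.tot = B.tot ∧ B''.ta = B.ta ∧ B''.sc = B'.sc := by decide

end Blk

namespace Quad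

open Classical Blk

variable {Q : Quad n} {δ : Fin n → ℕ} {G0 : Finset (Edge n)}

/-- Averages of `PairRel a b` on a sector. -/
lemma avg_ab (hG0 : G0 ∈ realizations δ) {G : Finset (Edge n)} (hG : G ∈ Q.Sec δ G0)
    (F : Finset (Edge n) → ℝ) :
    avg (realizations δ) (PairRel Q.a Q.b) F G =
      (∑ G' ∈ (Q.Sec δ G0).filter (fun G' => Q.rowC G' = Q.rowC G), F G') /
        (((Q.Sec δ G0).filter (fun G' => Q.rowC G' = Q.rowC G)).card : ℝ) := by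
  rw [avg, cls_ab_eq hG0 hG]

/-- Averages of `PairRel c d` on a sector. -/
lemma avg_cd (hG0 : G0 ∈ realizations δ) {G : Finset (Edge n)} (hG : G ∈ Q.Sec δ G0)
    (F : Finset (Edge n) → ℝ) :
    avg (realizations δ) (PairRel Q.c Q.d) F G =
      (∑ G' ∈ (Q.Sec δ G0).filter (fun G' => Q.rowA G' = Q.rowA G), F G') /
        (((Q.Sec δ G0).filter (fun G' => Q.rowA G' = Q.rowA G)).card : ℝ) := by
  rw [avg, cls_cd_eq hG0 hG]

/-- Sectors with `τ ≠ 2` are products. -/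
lemma sector_ne_two (hG0 : G0 ∈ realizations δ) (hτ : Q.tau G0 ≠ 2) (f : Finset (Edge n) → ℝ) :
    0 ≤ ∑ G ∈ Q.Sec δ G0, resid (realizations δ) (PairRel Q.a Q.b) f G *
      resid (realizations δ) (PairRel Q.c Q.d) f G := by
  have hinj : ∀ G ∈ Q.Sec δ G0, ∀ G' ∈ Q.Sec δ G0, Q.rowA G = Q.rowA G' → Q.rowC G = Q.rowC G' →
      G = G' := by
    intro G hG G' hG' h1 h2
    have h3 : Q.blk G = Q.blk G' := by
      apply unique_ne_two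
      · rw [tot_of_mem_Sec hG0 hG, tot_of_mem_Sec hG0 hG']
      · rw [tot_of_mem_Sec hG0 hG]; exact hτ
      · have a1 := rowA_mem_Aset hG0 hG
        have a2 := rowA_mem_Aset hG0 hG'
        rw [← h1] at a2
        exact Aset_eq_of_mem a1 a2
      · have a1 := rowC_mem_Cset hG0 hG
        have a2 := rowC_mem_Cset hG0 hG'
        rw [← h2] at a2
        exact Cset_eq_of_mem a1 a2
    rw [← M_blk (mem_Sec.1 hG).2, ← M_blk (mem_Sec.1 hG').2, h1, h2, h3]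
  have hrect : ∀ G1 ∈ Q.Sec δ G0, ∀ G2 ∈ Q.Sec δ G0, ∃ G3 ∈ Q.Sec δ G0,
      Q.rowA G3 = Q.rowA G1 ∧ Q.rowC G3 = Q.rowC G2 := by
    intro G1 h1 G2 h2
    have t1 := tot_of_mem_Sec hG0 h1
    have t2 := tot_of_mem_Sec hG0 h2
    obtain ⟨B, hB1, hB2, hB3⟩ := exists_ne_two (Q.blk G1) (Q.blk G2) (by rw [t1, t2])
      (by rw [t1]; exact hτ)
    have a1 := rowA_mem_Aset hG0 h1
    have a2 := rowC_mem_Cset hG0 h2
    rw [← hB2] at a1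
    rw [← hB3] at a2
    exact ⟨Q.M G0 B (Q.rowA G1) (Q.rowC G2), M_mem hG0 (by rw [hB1, t1]) a1 a2,
      rowA_M (mem_Aset.1 a1).1.1, rowC_M (mem_Cset.1 a2).1.1⟩
  have key := product_nonneg (Q.Sec δ G0) Q.rowA Q.rowC hinj hrect f
  refine key.trans_eq (sum_congr rfl fun G hG => ?_)
  simp only [resid, avg_ab hG0 hG, avg_cd hG0 hG]

section two

variable (hG0 : G0 ∈ realizations δ) (hτ : Q.tau G0 = 2)
include hG0 hτ

lemma sum_sector_two (F : Finset (Edge n) → ℝ) :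
    ∑ G ∈ Q.Sec δ G0, F G =
      ∑ X ∈ Q.Aset δ G0 2, ∑ Y ∈ Q.Cset δ G0 1, F (Q.M G0 B1 X Y)
      + ∑ X ∈ Q.Aset δ G0 0, ∑ Y ∈ Q.Cset δ G0 1, F (Q.M G0 B2 X Y)
      + ∑ X ∈ Q.Aset δ G0 1, ∑ Y ∈ Q.Cset δ G0 2, F (Q.M G0 B3 X Y)
      + ∑ X ∈ Q.Aset δ G0 1, ∑ Y ∈ Q.Cset δ G0 0, F (Q.M G0 B4 X Y)
      + ∑ X ∈ Q.Aset δ G0 1, ∑ Y ∈ Q.Cset δ G0 1, F (Q.M G0 B5 X Y)
      + ∑ X ∈ Q.Aset δ G0 1, ∑ Y ∈ Q.Cset δ G0 1, F (Q.M G0 B6 X Y) := by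
  rw [sum_sector hG0, hτ, sum_six]
  rfl

lemma sum_rowC_one {Y : Finset (Fin n)} (hY : Y ∈ Q.Cset δ G0 1) (F : Finset (Edge n) → ℝ) :
    ∑ G ∈ (Q.Sec δ G0).filter (fun G => Q.rowC G = Y), F G =
      ∑ X ∈ Q.Aset δ G0 2, F (Q.M G0 B1 X Y) + ∑ X ∈ Q.Aset δ G0 0, F (Q.M G0 B2 X Y)
      + ∑ X ∈ Q.Aset δ G0 1, F (Q.M G0 B5 X Y) + ∑ X ∈ Q.Aset δ G0 1, F (Q.M G0 B6 X Y) := by
  have h2 : Y ∉ Q.Cset δ G0 2 := fun h => absurd (Cset_eq_of_mem hY h) (by norm_num)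
  have h0 : Y ∉ Q.Cset δ G0 0 := fun h => absurd (Cset_eq_of_mem hY h) (by norm_num)
  rw [sum_sector_rowC hG0, hτ, sum_six]
  change ∑ X ∈ Q.Aset δ G0 2, (if Y ∈ Q.Cset δ G0 1 then F (Q.M G0 B1 X Y) else 0)
    + ∑ X ∈ Q.Aset δ G0 0, (if Y ∈ Q.Cset δ G0 1 then F (Q.M G0 B2 X Y) else 0)
    + ∑ X ∈ Q.Aset δ G0 1, (if Y ∈ Q.Cset δ G0 2 then F (Q.M G0 B3 X Y) else 0)
    + ∑ X ∈ Q.Aset δ G0 1, (if Y ∈ Q.Cset δ G0 0 then F (Q.M G0 B4 X Y) else 0)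
    + ∑ X ∈ Q.Aset δ G0 1, (if Y ∈ Q.Cset δ G0 1 then F (Q.M G0 B5 X Y) else 0)
    + ∑ X ∈ Q.Aset δ G0 1, (if Y ∈ Q.Cset δ G0 1 then F (Q.M G0 B6 X Y) else 0) = _
  simp only [if_pos hY, if_neg h2, if_neg h0, sum_const_zero, add_zero]

lemma sum_rowC_two {Y : Finset (Fin n)} (hY : Y ∈ Q.Cset δ G0 2) (F : Finset (Edge n) → ℝ) :
    ∑ G ∈ (Q.Sec δ G0).filter (fun G => Q.rowC G = Y), F G =
      ∑ X ∈ Q.Aset δ G0 1, F (Q.M G0 B3 X Y) := by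
  have h1 : Y ∉ Q.Cset δ G0 1 := fun h => absurd (Cset_eq_of_mem hY h) (by norm_num)
  have h0 : Y ∉ Q.Cset δ G0 0 := fun h => absurd (Cset_eq_of_mem hY h) (by norm_num)
  rw [sum_sector_rowC hG0, hτ, sum_six]
  change ∑ X ∈ Q.Aset δ G0 2, (if Y ∈ Q.Cset δ G0 1 then F (Q.M G0 B1 X Y) else 0)
    + ∑ X ∈ Q.Aset δ G0 0, (if Y ∈ Q.Cset δ G0 1 then F (Q.M G0 B2 X Y) else 0)
    + ∑ X ∈ Q.Aset δ G0 1, (if Y ∈ Q.Cset δ G0 2 then F (Q.M G0 B3 X Y) else 0)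
    + ∑ X ∈ Q.Aset δ G0 1, (if Y ∈ Q.Cset δ G0 0 then F (Q.M G0 B4 X Y) else 0)
    + ∑ X ∈ Q.Aset δ G0 1, (if Y ∈ Q.Cset δ G0 1 then F (Q.M G0 B5 X Y) else 0)
    + ∑ X ∈ Q.Aset δ G0 1, (if Y ∈ Q.Cset δ G0 1 then F (Q.M G0 B6 X Y) else 0) = _
  simp only [if_pos hY, if_neg h1, if_neg h0, sum_const_zero, add_zero, zero_add]

lemma sum_rowC_zero {Y : Finset (Fin n)} (hY : Y ∈ Q.Cset δ G0 0) (F : Finset (Edge n) → ℝ) :
    ∑ G ∈ (Q.Sec δ G0).filter (fun G => Q.rowC G = Y), F G =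
      ∑ X ∈ Q.Aset δ G0 1, F (Q.M G0 B4 X Y) := by
  have h1 : Y ∉ Q.Cset δ G0 1 := fun h => absurd (Cset_eq_of_mem hY h) (by norm_num)
  have h2 : Y ∉ Q.Cset δ G0 2 := fun h => absurd (Cset_eq_of_mem hY h) (by norm_num)
  rw [sum_sector_rowC hG0, hτ, sum_six]
  change ∑ X ∈ Q.Aset δ G0 2, (if Y ∈ Q.Cset δ G0 1 then F (Q.M G0 B1 X Y) else 0)
    + ∑ X ∈ Q.Aset δ G0 0, (if Y ∈ Q.Cset δ G0 1 then F (Q.M G0 B2 X Y) else 0)
    + ∑ X ∈ Q.Aset δ G0 1, (if Y ∈ Q.Cset δ G0 2 then F (Q.M G0 B3 X Y) else 0)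
    + ∑ X ∈ Q.Aset δ G0 1, (if Y ∈ Q.Cset δ G0 0 then F (Q.M G0 B4 X Y) else 0)
    + ∑ X ∈ Q.Aset δ G0 1, (if Y ∈ Q.Cset δ G0 1 then F (Q.M G0 B5 X Y) else 0)
    + ∑ X ∈ Q.Aset δ G0 1, (if Y ∈ Q.Cset δ G0 1 then F (Q.M G0 B6 X Y) else 0) = _
  simp only [if_pos hY, if_neg h1, if_neg h2, sum_const_zero, add_zero, zero_add]

lemma sum_rowA_one {X : Finset (Fin n)} (hX : X ∈ Q.Aset δ G0 1) (F : Finset (Edge n) → ℝ) :
    ∑ G ∈ (Q.Sec δ G0).filter (fun G => Q.rowA G = X), F G =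
      ∑ Y ∈ Q.Cset δ G0 2, F (Q.M G0 B3 X Y) + ∑ Y ∈ Q.Cset δ G0 0, F (Q.M G0 B4 X Y)
      + ∑ Y ∈ Q.Cset δ G0 1, F (Q.M G0 B5 X Y) + ∑ Y ∈ Q.Cset δ G0 1, F (Q.M G0 B6 X Y) := by
  have h2 : X ∉ Q.Aset δ G0 2 := fun h => absurd (Aset_eq_of_mem hX h) (by norm_num)
  have h0 : X ∉ Q.Aset δ G0 0 := fun h => absurd (Aset_eq_of_mem hX h) (by norm_num)
  rw [sum_sector_rowA hG0, hτ, sum_six]
  change (if X ∈ Q.Aset δ G0 2 then ∑ Y ∈ Q.Cset δ G0 1, F (Q.M G0 B1 X Y) else 0)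
    + (if X ∈ Q.Aset δ G0 0 then ∑ Y ∈ Q.Cset δ G0 1, F (Q.M G0 B2 X Y) else 0)
    + (if X ∈ Q.Aset δ G0 1 then ∑ Y ∈ Q.Cset δ G0 2, F (Q.M G0 B3 X Y) else 0)
    + (if X ∈ Q.Aset δ G0 1 then ∑ Y ∈ Q.Cset δ G0 0, F (Q.M G0 B4 X Y) else 0)
    + (if X ∈ Q.Aset δ G0 1 then ∑ Y ∈ Q.Cset δ G0 1, F (Q.M G0 B5 X Y) else 0)
    + (if X ∈ Q.Aset δ G0 1 then ∑ Y ∈ Q.Cset δ G0 1, F (Q.M G0 B6 X Y) else 0) = _
  simp only [if_pos hX, if_neg h2, if_neg h0, add_zero, zero_add]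

lemma sum_rowA_two {X : Finset (Fin n)} (hX : X ∈ Q.Aset δ G0 2) (F : Finset (Edge n) → ℝ) :
    ∑ G ∈ (Q.Sec δ G0).filter (fun G => Q.rowA G = X), F G =
      ∑ Y ∈ Q.Cset δ G0 1, F (Q.M G0 B1 X Y) := by
  have h1 : X ∉ Q.Aset δ G0 1 := fun h => absurd (Aset_eq_of_mem hX h) (by norm_num)
  have h0 : X ∉ Q.Aset δ G0 0 := fun h => absurd (Aset_eq_of_mem hX h) (by norm_num)
  rw [sum_sector_rowA hG0, hτ, sum_six]
  change (if X ∈ Q.Aset δ G0 2 then ∑ Y ∈ Q.Cset δ G0 1, F (Q.M G0 B1 X Y) else 0)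
    + (if X ∈ Q.Aset δ G0 0 then ∑ Y ∈ Q.Cset δ G0 1, F (Q.M G0 B2 X Y) else 0)
    + (if X ∈ Q.Aset δ G0 1 then ∑ Y ∈ Q.Cset δ G0 2, F (Q.M G0 B3 X Y) else 0)
    + (if X ∈ Q.Aset δ G0 1 then ∑ Y ∈ Q.Cset δ G0 0, F (Q.M G0 B4 X Y) else 0)
    + (if X ∈ Q.Aset δ G0 1 then ∑ Y ∈ Q.Cset δ G0 1, F (Q.M G0 B5 X Y) else 0)
    + (if X ∈ Q.Aset δ G0 1 then ∑ Y ∈ Q.Cset δ G0 1, F (Q.M G0 B6 X Y) else 0) = _
  simp only [if_pos hX, if_neg h1, if_neg h0, add_zero, zero_add]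

lemma sum_rowA_zero {X : Finset (Fin n)} (hX : X ∈ Q.Aset δ G0 0) (F : Finset (Edge n) → ℝ) :
    ∑ G ∈ (Q.Sec δ G0).filter (fun G => Q.rowA G = X), F G =
      ∑ Y ∈ Q.Cset δ G0 1, F (Q.M G0 B2 X Y) := by
  have h1 : X ∉ Q.Aset δ G0 1 := fun h => absurd (Aset_eq_of_mem hX h) (by norm_num)
  have h2 : X ∉ Q.Aset δ G0 2 := fun h => absurd (Aset_eq_of_mem hX h) (by norm_num)
  rw [sum_sector_rowA hG0, hτ, sum_six]
  change (if X ∈ Q.Aset δ G0 2 then ∑ Y ∈ Q.Cset δ G0 1, F (Q.M G0 B1 X Y) else 0)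
    + (if X ∈ Q.Aset δ G0 0 then ∑ Y ∈ Q.Cset δ G0 1, F (Q.M G0 B2 X Y) else 0)
    + (if X ∈ Q.Aset δ G0 1 then ∑ Y ∈ Q.Cset δ G0 2, F (Q.M G0 B3 X Y) else 0)
    + (if X ∈ Q.Aset δ G0 1 then ∑ Y ∈ Q.Cset δ G0 0, F (Q.M G0 B4 X Y) else 0)
    + (if X ∈ Q.Aset δ G0 1 then ∑ Y ∈ Q.Cset δ G0 1, F (Q.M G0 B5 X Y) else 0)
    + (if X ∈ Q.Aset δ G0 1 then ∑ Y ∈ Q.Cset δ G0 1, F (Q.M G0 B6 X Y) else 0) = _
  simp only [if_pos hX, if_neg h1, if_neg h2, add_zero, zero_add]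

lemma sum_D (F : Finset (Edge n) → ℝ) :
    ∑ G ∈ (Q.Sec δ G0).filter (fun G => Q.blk G = B5 ∨ Q.blk G = B6), F G =
      ∑ X ∈ Q.Aset δ G0 1, ∑ Y ∈ Q.Cset δ G0 1, F (Q.M G0 B5 X Y)
      + ∑ X ∈ Q.Aset δ G0 1, ∑ Y ∈ Q.Cset δ G0 1, F (Q.M G0 B6 X Y) := by
  rw [filter_or, sum_union, sum_sector_blk hG0 (B := B5) (by rw [hτ]; rfl),
    sum_sector_blk hG0 (B := B6) (by rw [hτ]; rfl)]
  · rfl
  · refine disjoint_filter.2 fun G _ h1 h2 => ?_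
    rw [h1] at h2
    exact absurd h2 (by decide)

end two

/-- `Σ Σ` over finsets as `Σ Σ` over their coercions to types. -/
lemma dsum {α β : Type} (A : Finset α) (C : Finset β) (g : α → β → ℝ) :
    ∑ X ∈ A, ∑ Y ∈ C, g X Y = ∑ x : A, ∑ y : C, g x y := by
  rw [← sum_coe_sort A]
  refine sum_congr rfl fun x _ => ?_
  rw [← sum_coe_sort C]

section grid

variable (Q δ G0) (f : Finset (Edge n) → ℝ)

/-- The values on `H`. -/
noncomputable def gH : (↥(Q.Aset δ G0 2) ⊕ ↥(Q.Aset δ G0 0)) → ↥(Q.Cset δ G0 1) → ℝ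
  | Sum.inl a, y => f (Q.M G0 B1 a y)
  | Sum.inr a, y => f (Q.M G0 B2 a y)

/-- The values on `V`. -/
noncomputable def gV : ↥(Q.Aset δ G0 1) → (↥(Q.Cset δ G0 2) ⊕ ↥(Q.Cset δ G0 0)) → ℝ
  | a, Sum.inl y => f (Q.M G0 B3 a y)
  | a, Sum.inr y => f (Q.M G0 B4 a y)

/-- The values on `D`. -/
noncomputable def gD : Bool → ↥(Q.Aset δ G0 1) → ↥(Q.Cset δ G0 1) → ℝ
  | true, a, y => f (Q.M G0 B5 a y)
  | false, a, y => f (Q.M G0 B6 a y)

variable {Q δ G0 f}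

variable (hG0 : G0 ∈ realizations δ) (hτ : Q.tau G0 = 2)
include hG0 hτ

lemma pC_eq (y : ↥(Q.Cset δ G0 1)) :
    pC (gH Q δ G0 f) (gD Q δ G0 f) y =
      (∑ G' ∈ (Q.Sec δ G0).filter (fun G' => Q.rowC G' = y), f G') /
        (((Q.Sec δ G0).filter (fun G' => Q.rowC G' = y)).card : ℝ) := by
  have h1 := sum_rowC_one hG0 hτ y.2 f
  have h2 := sum_rowC_one hG0 hτ y.2 (fun _ => 1)
  simp only [sum_const, nsmul_eq_mul, mul_one] at h2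
  have h3 : (((Q.Sec δ G0).filter (fun G' => Q.rowC G' = y)).card : ℝ) =
      (((Q.Aset δ G0 2).card + (Q.Aset δ G0 0).card : ℕ) : ℝ) + 2 * ((Q.Aset δ G0 1).card : ℝ) := by
    push_cast
    rw [h2]; ring
  rw [h1, h3, pC, Fintype.sum_sum_type, Fintype.sum_bool, Fintype.card_sum, Fintype.card_coe,
    Fintype.card_coe, Fintype.card_coe]
  simp only [gH, gD]
  rw [sum_coe_sort (Q.Aset δ G0 2) (fun a => f (Q.M G0 B1 a y)),
    sum_coe_sort (Q.Aset δ G0 0) (fun a => f (Q.M G0 B2 a y)),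
    sum_coe_sort (Q.Aset δ G0 1) (fun a => f (Q.M G0 B5 a y)),
    sum_coe_sort (Q.Aset δ G0 1) (fun a => f (Q.M G0 B6 a y))]
  ring

lemma pY_inl (y : ↥(Q.Cset δ G0 2)) :
    pY (gV Q δ G0 f) (Sum.inl y) =
      (∑ G' ∈ (Q.Sec δ G0).filter (fun G' => Q.rowC G' = y), f G') /
        (((Q.Sec δ G0).filter (fun G' => Q.rowC G' = y)).card : ℝ) := by
  have h1 := sum_rowC_two hG0 hτ y.2 f
  have h2 := sum_rowC_two hG0 hτ y.2 (fun _ => 1)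
  simp only [sum_const, nsmul_eq_mul, mul_one] at h2
  have h3 : (((Q.Sec δ G0).filter (fun G' => Q.rowC G' = y)).card : ℝ) =
      ((Q.Aset δ G0 1).card : ℝ) := h2
  rw [h1, h3, pY, Fintype.card_coe]
  simp only [gV]
  rw [sum_coe_sort (Q.Aset δ G0 1) (fun a => f (Q.M G0 B3 a y))]

lemma pY_inr (y : ↥(Q.Cset δ G0 0)) :
    pY (gV Q δ G0 f) (Sum.inr y) =
      (∑ G' ∈ (Q.Sec δ G0).filter (fun G' => Q.rowC G' = y), f G') /
        (((Q.Sec δ G0).filter (fun G' => Q.rowC G' = y)).card : ℝ) := by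
  have h1 := sum_rowC_zero hG0 hτ y.2 f
  have h2 := sum_rowC_zero hG0 hτ y.2 (fun _ => 1)
  simp only [sum_const, nsmul_eq_mul, mul_one] at h2
  have h3 : (((Q.Sec δ G0).filter (fun G' => Q.rowC G' = y)).card : ℝ) =
      ((Q.Aset δ G0 1).card : ℝ) := h2
  rw [h1, h3, pY, Fintype.card_coe]
  simp only [gV]
  rw [sum_coe_sort (Q.Aset δ G0 1) (fun a => f (Q.M G0 B4 a y))]

lemma qA_eq (x : ↥(Q.Aset δ G0 1)) :
    qA (gV Q δ G0 f) (gD Q δ G0 f) x =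
      (∑ G' ∈ (Q.Sec δ G0).filter (fun G' => Q.rowA G' = x), f G') /
        (((Q.Sec δ G0).filter (fun G' => Q.rowA G' = x)).card : ℝ) := by
  have h1 := sum_rowA_one hG0 hτ x.2 f
  have h2 := sum_rowA_one hG0 hτ x.2 (fun _ => 1)
  simp only [sum_const, nsmul_eq_mul, mul_one] at h2
  have h3 : (((Q.Sec δ G0).filter (fun G' => Q.rowA G' = x)).card : ℝ) =
      (((Q.Cset δ G0 2).card + (Q.Cset δ G0 0).card : ℕ) : ℝ) + 2 * ((Q.Cset δ G0 1).card : ℝ) := by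
    push_cast
    rw [h2]; ring
  rw [h1, h3, qA, Fintype.sum_sum_type, Fintype.sum_bool, Fintype.card_sum, Fintype.card_coe,
    Fintype.card_coe, Fintype.card_coe]
  simp only [gV, gD]
  rw [sum_coe_sort (Q.Cset δ G0 2) (fun a => f (Q.M G0 B3 x a)),
    sum_coe_sort (Q.Cset δ G0 0) (fun a => f (Q.M G0 B4 x a)),
    sum_coe_sort (Q.Cset δ G0 1) (fun a => f (Q.M G0 B5 x a)),
    sum_coe_sort (Q.Cset δ G0 1) (fun a => f (Q.M G0 B6 x a))]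
  ring

lemma qH_inl (x : ↥(Q.Aset δ G0 2)) :
    qH (gH Q δ G0 f) (Sum.inl x) =
      (∑ G' ∈ (Q.Sec δ G0).filter (fun G' => Q.rowA G' = x), f G') /
        (((Q.Sec δ G0).filter (fun G' => Q.rowA G' = x)).card : ℝ) := by
  have h1 := sum_rowA_two hG0 hτ x.2 f
  have h2 := sum_rowA_two hG0 hτ x.2 (fun _ => 1)
  simp only [sum_const, nsmul_eq_mul, mul_one] at h2
  have h3 : (((Q.Sec δ G0).filter (fun G' => Q.rowA G' = x)).card : ℝ) =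
      ((Q.Cset δ G0 1).card : ℝ) := h2
  rw [h1, h3, qH, Fintype.card_coe]
  simp only [gH]
  rw [sum_coe_sort (Q.Cset δ G0 1) (fun a => f (Q.M G0 B1 x a))]

lemma qH_inr (x : ↥(Q.Aset δ G0 0)) :
    qH (gH Q δ G0 f) (Sum.inr x) =
      (∑ G' ∈ (Q.Sec δ G0).filter (fun G' => Q.rowA G' = x), f G') /
        (((Q.Sec δ G0).filter (fun G' => Q.rowA G' = x)).card : ℝ) := by
  have h1 := sum_rowA_zero hG0 hτ x.2 f
  have h2 := sum_rowA_zero hG0 hτ x.2 (fun _ => 1)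
  simp only [sum_const, nsmul_eq_mul, mul_one] at h2
  have h3 : (((Q.Sec δ G0).filter (fun G' => Q.rowA G' = x)).card : ℝ) =
      ((Q.Cset δ G0 1).card : ℝ) := h2
  rw [h1, h3, qH, Fintype.card_coe]
  simp only [gH]
  rw [sum_coe_sort (Q.Cset δ G0 1) (fun a => f (Q.M G0 B2 x a))]

/-- `resid` in the coordinates, for `PairRel a b`. -/
lemma residAB {B : Blk} (hB : B.tot = Q.tau G0) {X Y : Finset (Fin n)}
    (hX : X ∈ Q.Aset δ G0 B.ta) (hY : Y ∈ Q.Cset δ G0 B.sc) :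
    resid (realizations δ) (PairRel Q.a Q.b) f (Q.M G0 B X Y) = f (Q.M G0 B X Y) -
      (∑ G' ∈ (Q.Sec δ G0).filter (fun G' => Q.rowC G' = Y), f G') /
        (((Q.Sec δ G0).filter (fun G' => Q.rowC G' = Y)).card : ℝ) := by
  rw [resid, avg_ab hG0 (M_mem hG0 hB hX hY), rowC_M (mem_Cset.1 hY).1.1]

/-- `resid` in the coordinates, for `PairRel c d`. -/
lemma residCD {B : Blk} (hB : B.tot = Q.tau G0) {X Y : Finset (Fin n)}
    (hX : X ∈ Q.Aset δ G0 B.ta) (hY : Y ∈ Q.Cset δ G0 B.sc) :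
    resid (realizations δ) (PairRel Q.c Q.d) f (Q.M G0 B X Y) = f (Q.M G0 B X Y) -
      (∑ G' ∈ (Q.Sec δ G0).filter (fun G' => Q.rowA G' = X), f G') /
        (((Q.Sec δ G0).filter (fun G' => Q.rowA G' = X)).card : ℝ) := by
  rw [resid, avg_cd hG0 (M_mem hG0 hB hX hY), rowA_M (mem_Aset.1 hX).1.1]

lemma crossTerm_eq :
    crossTerm (gH Q δ G0 f) (gV Q δ G0 f) (gD Q δ G0 f) =
      ∑ G ∈ Q.Sec δ G0, resid (realizations δ) (PairRel Q.a Q.b) f G *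
        resid (realizations δ) (PairRel Q.c Q.d) f G := by
  have t1 : ∀ (B : Blk) (hB : B.tot = Q.tau G0) (p : ℕ) (hp : B.ta = p) (r : ℕ) (hr : B.sc = r)
      (P : ↥(Q.Cset δ G0 r) → ℝ) (R : ↥(Q.Aset δ G0 p) → ℝ)
      (hP : ∀ y : ↥(Q.Cset δ G0 r), P y = (∑ G' ∈ (Q.Sec δ G0).filter (fun G' => Q.rowC G' = y), f G') /
        (((Q.Sec δ G0).filter (fun G' => Q.rowC G' = y)).card : ℝ))
      (hR : ∀ x : ↥(Q.Aset δ G0 p), R x = (∑ G' ∈ (Q.Sec δ G0).filter (fun G' => Q.rowA G' = x), f G') /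
        (((Q.Sec δ G0).filter (fun G' => Q.rowA G' = x)).card : ℝ)),
      ∑ X ∈ Q.Aset δ G0 p, ∑ Y ∈ Q.Cset δ G0 r,
        resid (realizations δ) (PairRel Q.a Q.b) f (Q.M G0 B X Y) *
        resid (realizations δ) (PairRel Q.c Q.d) f (Q.M G0 B X Y)
      = ∑ x : ↥(Q.Aset δ G0 p), ∑ y : ↥(Q.Cset δ G0 r),
        (f (Q.M G0 B x y) - P y) * (f (Q.M G0 B x y) - R x) := by
    intro B hB p hp r hr P R hP hR
    subst hp hr
    rw [dsum]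
    refine sum_congr rfl fun x _ => sum_congr rfl fun y _ => ?_
    rw [residAB hG0 hτ hB x.2 y.2, residCD hG0 hτ hB x.2 y.2, hP, hR]
  have hB : ∀ B : Blk, B.tot = 2 → B.tot = Q.tau G0 := fun B h => by rw [h, hτ]
  rw [sum_sector_two hG0 hτ]
  rw [t1 B1 (hB _ rfl) 2 rfl 1 rfl (pC (gH Q δ G0 f) (gD Q δ G0 f)) (fun x => qH (gH Q δ G0 f) (Sum.inl x))
      (pC_eq hG0 hτ) (qH_inl hG0 hτ),
    t1 B2 (hB _ rfl) 0 rfl 1 rfl (pC (gH Q δ G0 f) (gD Q δ G0 f)) (fun x => qH (gH Q δ G0 f) (Sum.inr x))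
      (pC_eq hG0 hτ) (qH_inr hG0 hτ),
    t1 B3 (hB _ rfl) 1 rfl 2 rfl (fun y => pY (gV Q δ G0 f) (Sum.inl y)) (qA (gV Q δ G0 f) (gD Q δ G0 f))
      (pY_inl hG0 hτ) (qA_eq hG0 hτ),
    t1 B4 (hB _ rfl) 1 rfl 0 rfl (fun y => pY (gV Q δ G0 f) (Sum.inr y)) (qA (gV Q δ G0 f) (gD Q δ G0 f))
      (pY_inr hG0 hτ) (qA_eq hG0 hτ),
    t1 B5 (hB _ rfl) 1 rfl 1 rfl (pC (gH Q δ G0 f) (gD Q δ G0 f)) (qA (gV Q δ G0 f) (gD Q δ G0 f))
      (pC_eq hG0 hτ) (qA_eq hG0 hτ),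
    t1 B6 (hB _ rfl) 1 rfl 1 rfl (pC (gH Q δ G0 f) (gD Q δ G0 f)) (qA (gV Q δ G0 f) (gD Q δ G0 f))
      (pC_eq hG0 hτ) (qA_eq hG0 hτ)]
  unfold crossTerm
  rw [Fintype.sum_sum_type, Fintype.sum_bool]
  simp only [Fintype.sum_sum_type, sum_add_distrib, gH, gV, gD]
  ring

lemma sumD_u :
    ∑ s, ∑ A, ∑ C, (gD Q δ G0 f s A C - pC (gH Q δ G0 f) (gD Q δ G0 f) C) =
      ∑ G ∈ (Q.Sec δ G0).filter (fun G => Q.blk G = B5 ∨ Q.blk G = B6),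
        resid (realizations δ) (PairRel Q.a Q.b) f G := by
  have hB : ∀ B : Blk, B.tot = 2 → B.tot = Q.tau G0 := fun B h => by rw [h, hτ]
  rw [sum_D hG0 hτ, Fintype.sum_bool, dsum (Q.Aset δ G0 1) (Q.Cset δ G0 1),
    dsum (Q.Aset δ G0 1) (Q.Cset δ G0 1)]
  refine congrArg₂ (· + ·) ?_ ?_
  · refine sum_congr rfl fun x _ => sum_congr rfl fun y _ => ?_
    rw [residAB hG0 hτ (B := B5) (hB _ rfl) x.2 y.2, pC_eq hG0 hτ]
    rfl
  · refine sum_congr rfl fun x _ => sum_congr rfl fun y _ => ?_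
    rw [residAB hG0 hτ (B := B6) (hB _ rfl) x.2 y.2, pC_eq hG0 hτ]
    rfl

lemma sumD_v :
    ∑ s, ∑ A, ∑ C, (gD Q δ G0 f s A C - qA (gV Q δ G0 f) (gD Q δ G0 f) A) =
      ∑ G ∈ (Q.Sec δ G0).filter (fun G => Q.blk G = B5 ∨ Q.blk G = B6),
        resid (realizations δ) (PairRel Q.c Q.d) f G := by
  have hB : ∀ B : Blk, B.tot = 2 → B.tot = Q.tau G0 := fun B h => by rw [h, hτ]
  rw [sum_D hG0 hτ, Fintype.sum_bool, dsum (Q.Aset δ G0 1) (Q.Cset δ G0 1),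
    dsum (Q.Aset δ G0 1) (Q.Cset δ G0 1)]
  refine congrArg₂ (· + ·) ?_ ?_
  · refine sum_congr rfl fun x _ => sum_congr rfl fun y _ => ?_
    rw [residCD hG0 hτ (B := B5) (hB _ rfl) x.2 y.2, qA_eq hG0 hτ]
    rfl
  · refine sum_congr rfl fun x _ => sum_congr rfl fun y _ => ?_
    rw [residCD hG0 hτ (B := B6) (hB _ rfl) x.2 y.2, qA_eq hG0 hτ]
    rfl

lemma card_D :
    (((Q.Sec δ G0).filter (fun G => Q.blk G = B5 ∨ Q.blk G = B6)).card : ℝ) =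
      2 * (Fintype.card ↥(Q.Aset δ G0 1) : ℝ) * (Fintype.card ↥(Q.Cset δ G0 1) : ℝ) := by
  have h2 := sum_D hG0 hτ (fun _ => (1 : ℝ))
  simp only [sum_const, nsmul_eq_mul, mul_one] at h2
  rw [h2, Fintype.card_coe, Fintype.card_coe]
  ring

/-- The sector inequality for `τ = 2`. -/
theorem sector_two :
    ∑ X ∈ Q.Aset δ G0 1, ∑ Y ∈ Q.Cset δ G0 1, (f (Q.M G0 B5 X Y) - f (Q.M G0 B6 X Y)) ^ 2
      - (∑ G ∈ (Q.Sec δ G0).filter (fun G => Q.blk G = B5 ∨ Q.blk G = B6),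
          resid (realizations δ) (PairRel Q.a Q.b) f G) ^ 2 /
        (((Q.Sec δ G0).filter (fun G => Q.blk G = B5 ∨ Q.blk G = B6)).card : ℝ)
      - (∑ G ∈ (Q.Sec δ G0).filter (fun G => Q.blk G = B5 ∨ Q.blk G = B6),
          resid (realizations δ) (PairRel Q.c Q.d) f G) ^ 2 /
        (((Q.Sec δ G0).filter (fun G => Q.blk G = B5 ∨ Q.blk G = B6)).card : ℝ)
    ≤ 2 * ∑ G ∈ Q.Sec δ G0, resid (realizations δ) (PairRel Q.a Q.b) f G *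
        resid (realizations δ) (PairRel Q.c Q.d) f G := by
  have key := glued_grid (gH Q δ G0 f) (gV Q δ G0 f) (gD Q δ G0 f)
  rw [crossTerm_eq hG0 hτ, sumD_u hG0 hτ, sumD_v hG0 hτ, ← card_D hG0 hτ] at key
  rw [dsum (Q.Aset δ G0 1) (Q.Cset δ G0 1)]
  exact key

end grid

end Quad

end Crest.Agent.Lib.Switch
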