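import Crest.Agent.Lib.Switch.Sector

/-!
# S0453, part X: summing over a sector

Sums over a sector as sums over `(block, X, Y)`, and the classes of `PairRel a b`, `PairRel c d`
in these coordinates.
-/

set_option autoImplicit false
set_option linter.unusedSimpArgs false
set_option linter.unusedVariables false

namespace Crest.Agent.Lib.Switch

open Finset Crest.SwitchChain

variable {n : ℕ}

/-- A block of four bits `(ac, ad, bc, bd)`. -/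
abbrev Blk := Bool × Bool × Bool × Bool

namespace Blk

/-- Row sum of row `a`. -/
def ta (B : Blk) : ℕ := B.1.toNat + B.2.1.toNat
/-- Column sum of column `c`. -/
def sc (B : Blk) : ℕ := B.1.toNat + B.2.2.1.toNat
/-- Total. -/
def tot (B : Blk) : ℕ := B.1.toNat + B.2.1.toNat + B.2.2.1.toNat + B.2.2.2.toNat

end Blk

namespace Quad

open Classical

variable (Q : Quad n) (δ : Fin n → ℕ) (G0 : Finset (Edge n))

/-- Possible rows of `a`, given the row sum `t` of the block. -/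
noncomputable def Aset (t : ℕ) : Finset (Finset (Fin n)) :=
  Q.W.powerset.filter fun X => Q.CompatA G0 X ∧ bit G0 Q.a Q.b + t + X.card = δ Q.a

/-- Possible rows of `c`, given the column sum `s` of the block. -/
noncomputable def Cset (s : ℕ) : Finset (Finset (Fin n)) :=
  Q.W.powerset.filter fun Y => Q.CompatC G0 Y ∧ s + bit G0 Q.c Q.d + Y.card = δ Q.c

/-- The master graph of a block. -/
noncomputable def M (B : Blk) (X Y : Finset (Fin n)) : Finset (Edge n) :=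
  Q.master G0 B.1 B.2.1 B.2.2.1 B.2.2.2 X Y

/-- The block of a graph. -/
noncomputable def blk (G : Finset (Edge n)) : Blk :=
  (bb G Q.a Q.c, bb G Q.a Q.d, bb G Q.b Q.c, bb G Q.b Q.d)

/-- The sector of `G0` in the realizations of `δ`. -/
noncomputable abbrev Sec : Finset (Finset (Edge n)) := cls (realizations δ) Q.SectorRel G0

variable {Q δ G0}

lemma mem_Sec {G : Finset (Edge n)} : G ∈ Q.Sec δ G0 ↔ G ∈ realizations δ ∧ Q.SectorRel G0 G :=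
  mem_cls

lemma mem_Aset {t : ℕ} {X : Finset (Fin n)} :
    X ∈ Q.Aset δ G0 t ↔ Q.CompatA G0 X ∧ bit G0 Q.a Q.b + t + X.card = δ Q.a := by
  simp only [Aset, mem_filter, mem_powerset]
  exact ⟨fun h => h.2, fun h => ⟨h.1.1, h⟩⟩

lemma mem_Cset {t : ℕ} {Y : Finset (Fin n)} :
    Y ∈ Q.Cset δ G0 t ↔ Q.CompatC G0 Y ∧ t + bit G0 Q.c Q.d + Y.card = δ Q.c := by
  simp only [Cset, mem_filter, mem_powerset]
  exact ⟨fun h => h.2, fun h => ⟨h.1.1, h⟩⟩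

lemma rowA_M {B : Blk} {X Y : Finset (Fin n)} (hX : X ⊆ Q.W) :
    Q.rowA (Q.M G0 B X Y) = X := Q.rowA_master hX

lemma rowC_M {B : Blk} {X Y : Finset (Fin n)} (hY : Y ⊆ Q.W) :
    Q.rowC (Q.M G0 B X Y) = Y := Q.rowC_master hY

lemma bb_of_iff {G : Finset (Edge n)} {x y : Fin n} {p : Bool} (h : Adj G x y ↔ p = true) :
    bb G x y = p := by
  unfold bb
  cases p <;> simp [h]

lemma blk_M {B : Blk} {X Y : Finset (Fin n)} : Q.blk (Q.M G0 B X Y) = B := by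
  obtain ⟨p, q, r, s⟩ := B
  simp only [blk, M]
  rw [bb_of_iff Q.adj_master_ac, bb_of_iff Q.adj_master_ad, bb_of_iff Q.adj_master_bc,
    bb_of_iff Q.adj_master_bd]

lemma M_blk {G : Finset (Edge n)} (h : Q.SectorRel G0 G) :
    Q.M G0 (Q.blk G) (Q.rowA G) (Q.rowC G) = G := (Q.eq_master h).symm

lemma tot_blk (G : Finset (Edge n)) : (Q.blk G).tot = Q.tau G := by
  simp [blk, Blk.tot, tau, toNat_bb]

lemma ta_blk (G : Finset (Edge n)) : (Q.blk G).ta = bit G Q.a Q.c + bit G Q.a Q.d := by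
  simp [blk, Blk.ta, toNat_bb]

lemma sc_blk (G : Finset (Edge n)) : (Q.blk G).sc = bit G Q.a Q.c + bit G Q.b Q.c := by
  simp [blk, Blk.sc, toNat_bb]

lemma M_mem (hG0 : G0 ∈ realizations δ) {B : Blk} (hB : B.tot = Q.tau G0)
    {X Y : Finset (Fin n)} (hX : X ∈ Q.Aset δ G0 B.ta) (hY : Y ∈ Q.Cset δ G0 B.sc) :
    Q.M G0 B X Y ∈ Q.Sec δ G0 := by
  obtain ⟨hXc, hX2⟩ := mem_Aset.1 hX
  obtain ⟨hYc, hY2⟩ := mem_Cset.1 hY
  refine mem_Sec.2 ⟨Q.master_mem hG0 hXc hYc ?_ ?_ hB, Q.master_sectorRel hXc hYc⟩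
  · simp only [Blk.ta] at hX2; omega
  · simp only [Blk.sc] at hY2; omega

lemma rowA_mem_Aset (hG0 : G0 ∈ realizations δ) {G : Finset (Edge n)} (hG : G ∈ Q.Sec δ G0) :
    Q.rowA G ∈ Q.Aset δ G0 (Q.blk G).ta := by
  obtain ⟨hGΩ, hs⟩ := mem_Sec.1 hG
  refine mem_Aset.2 ⟨Q.compatA_rowA hs, ?_⟩
  have h1 := Q.deg_a hGΩ
  have h2 := hs.2.1
  rw [ta_blk]
  omega

lemma rowC_mem_Cset (hG0 : G0 ∈ realizations δ) {G : Finset (Edge n)} (hG : G ∈ Q.Sec δ G0) :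
    Q.rowC G ∈ Q.Cset δ G0 (Q.blk G).sc := by
  obtain ⟨hGΩ, hs⟩ := mem_Sec.1 hG
  refine mem_Cset.2 ⟨Q.compatC_rowC hs, ?_⟩
  have h1 := Q.deg_c hGΩ
  have h2 := hs.2.2.1
  rw [sc_blk]
  omega

lemma tot_of_mem_Sec (hG0 : G0 ∈ realizations δ) {G : Finset (Edge n)} (hG : G ∈ Q.Sec δ G0) :
    (Q.blk G).tot = Q.tau G0 := by
  obtain ⟨hGΩ, hs⟩ := mem_Sec.1 hG
  rw [tot_blk]
  exact (Q.tau_eq_of_sector hG0 hGΩ hs).symm

/-- One block of a sector. -/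
lemma sum_sector_blk (hG0 : G0 ∈ realizations δ) {B : Blk} (hB : B.tot = Q.tau G0)
    (F : Finset (Edge n) → ℝ) :
    ∑ G ∈ (Q.Sec δ G0).filter (fun G => Q.blk G = B), F G =
      ∑ X ∈ Q.Aset δ G0 B.ta, ∑ Y ∈ Q.Cset δ G0 B.sc, F (Q.M G0 B X Y) := by
  rw [← sum_product']
  refine sum_bij' (fun G _ => (Q.rowA G, Q.rowC G)) (fun p _ => Q.M G0 B p.1 p.2) ?_ ?_ ?_ ?_ ?_
  · intro G hG
    obtain ⟨hG', rfl⟩ := mem_filter.1 hG
    exact mem_product.2 ⟨rowA_mem_Aset hG0 hG', rowC_mem_Cset hG0 hG'⟩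
  · intro p hp
    obtain ⟨h1, h2⟩ := mem_product.1 hp
    exact mem_filter.2 ⟨M_mem hG0 hB h1 h2, blk_M⟩
  · intro G hG
    obtain ⟨hG', rfl⟩ := mem_filter.1 hG
    exact M_blk (mem_Sec.1 hG').2
  · intro p hp
    obtain ⟨h1, h2⟩ := mem_product.1 hp
    exact Prod.ext (rowA_M (mem_Aset.1 h1).1.1) (rowC_M (mem_Cset.1 h2).1.1)
  · intro G hG
    obtain ⟨hG', rfl⟩ := mem_filter.1 hG
    rw [M_blk (mem_Sec.1 hG').2]

/-- A sector as a sum over blocks. -/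
lemma sum_sector (hG0 : G0 ∈ realizations δ) (F : Finset (Edge n) → ℝ) :
    ∑ G ∈ Q.Sec δ G0, F G =
      ∑ B ∈ univ.filter (fun B : Blk => B.tot = Q.tau G0),
        ∑ X ∈ Q.Aset δ G0 B.ta, ∑ Y ∈ Q.Cset δ G0 B.sc, F (Q.M G0 B X Y) := by
  rw [← sum_fiberwise_of_maps_to (s := Q.Sec δ G0)
    (t := univ.filter (fun B : Blk => B.tot = Q.tau G0)) (g := Q.blk) (f := F)]
  · refine sum_congr rfl fun B hB => ?_
    exact sum_sector_blk hG0 (mem_filter.1 hB).2 F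
  · intro G hG
    exact mem_filter.2 ⟨mem_univ _, tot_of_mem_Sec hG0 hG⟩

/-- `Y` lies in exactly one `Cset`. -/
lemma Aset_eq_of_mem {t t' : ℕ} {X : Finset (Fin n)} (h : X ∈ Q.Aset δ G0 t)
    (h' : X ∈ Q.Aset δ G0 t') : t = t' := by
  have h1 := (mem_Aset.1 h).2
  have h2 := (mem_Aset.1 h').2
  omega

lemma Cset_eq_of_mem {t t' : ℕ} {Y : Finset (Fin n)} (h : Y ∈ Q.Cset δ G0 t)
    (h' : Y ∈ Q.Cset δ G0 t') : t = t' := by
  have h1 := (mem_Cset.1 h).2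
  have h2 := (mem_Cset.1 h').2
  omega

/-- Sum over the graphs of a sector with a given `rowC`. -/
lemma sum_sector_rowC (hG0 : G0 ∈ realizations δ) (Y : Finset (Fin n))
    (F : Finset (Edge n) → ℝ) :
    ∑ G ∈ (Q.Sec δ G0).filter (fun G => Q.rowC G = Y), F G =
      ∑ B ∈ univ.filter (fun B : Blk => B.tot = Q.tau G0),
        ∑ X ∈ Q.Aset δ G0 B.ta, if Y ∈ Q.Cset δ G0 B.sc then F (Q.M G0 B X Y) else 0 := by
  rw [sum_filter, sum_sector hG0]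
  refine sum_congr rfl fun B _ => sum_congr rfl fun X _ => ?_
  have : ∀ Y' ∈ Q.Cset δ G0 B.sc, (if Q.rowC (Q.M G0 B X Y') = Y then F (Q.M G0 B X Y') else 0)
      = if Y' = Y then F (Q.M G0 B X Y') else 0 := by
    intro Y' hY'
    rw [rowC_M (mem_Cset.1 hY').1.1]
  rw [sum_congr rfl this, sum_ite_eq']

/-- Sum over the graphs of a sector with a given `rowA`. -/
lemma sum_sector_rowA (hG0 : G0 ∈ realizations δ) (X : Finset (Fin n))
    (F : Finset (Edge n) → ℝ) :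
    ∑ G ∈ (Q.Sec δ G0).filter (fun G => Q.rowA G = X), F G =
      ∑ B ∈ univ.filter (fun B : Blk => B.tot = Q.tau G0),
        if X ∈ Q.Aset δ G0 B.ta then ∑ Y ∈ Q.Cset δ G0 B.sc, F (Q.M G0 B X Y) else 0 := by
  rw [sum_filter, sum_sector hG0]
  refine sum_congr rfl fun B _ => ?_
  have : ∀ X' ∈ Q.Aset δ G0 B.ta, (∑ Y ∈ Q.Cset δ G0 B.sc,
        if Q.rowA (Q.M G0 B X' Y) = X then F (Q.M G0 B X' Y) else 0)
      = if X' = X then ∑ Y ∈ Q.Cset δ G0 B.sc, F (Q.M G0 B X' Y) else 0 := by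
    intro X' hX'
    simp only [rowA_M (mem_Aset.1 hX').1.1]
    split_ifs <;> simp
  rw [sum_congr rfl this, sum_ite_eq']

/-- `PairRel a b`-classes in terms of `rowC`. -/
lemma cls_ab_eq (hG0 : G0 ∈ realizations δ) {G : Finset (Edge n)} (hG : G ∈ Q.Sec δ G0) :
    cls (realizations δ) (PairRel Q.a Q.b) G = (Q.Sec δ G0).filter (fun G' => Q.rowC G' = Q.rowC G) := by
  obtain ⟨hGΩ, hs⟩ := mem_Sec.1 hG
  ext G'
  simp only [mem_cls, mem_filter, mem_Sec]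
  constructor
  · rintro ⟨hΩ, hr⟩
    obtain ⟨h1, h2⟩ := (Q.pairRel_ab_iff hGΩ hΩ).1 hr
    exact ⟨⟨hΩ, (Q.sectorRel_isEquivOn (realizations δ)).trans _ hG0 _ hGΩ _ hΩ hs h1⟩, h2.symm⟩
  · rintro ⟨⟨hΩ, h1⟩, h2⟩
    refine ⟨hΩ, (Q.pairRel_ab_iff hGΩ hΩ).2 ⟨?_, h2.symm⟩⟩
    have e := Q.sectorRel_isEquivOn (realizations δ)
    exact e.trans _ hGΩ _ hG0 _ hΩ (e.symm _ hG0 _ hGΩ hs) h1

/-- `PairRel c d`-classes in terms of `rowA`. -/
lemma cls_cd_eq (hG0 : G0 ∈ realizations δ) {G : Finset (Edge n)} (hG : G ∈ Q.Sec δ G0) :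
    cls (realizations δ) (PairRel Q.c Q.d) G = (Q.Sec δ G0).filter (fun G' => Q.rowA G' = Q.rowA G) := by
  obtain ⟨hGΩ, hs⟩ := mem_Sec.1 hG
  ext G'
  simp only [mem_cls, mem_filter, mem_Sec]
  constructor
  · rintro ⟨hΩ, hr⟩
    obtain ⟨h1, h2⟩ := (Q.pairRel_cd_iff hGΩ hΩ).1 hr
    exact ⟨⟨hΩ, (Q.sectorRel_isEquivOn (realizations δ)).trans _ hG0 _ hGΩ _ hΩ hs h1⟩, h2.symm⟩
  · rintro ⟨⟨hΩ, h1⟩, h2⟩
    refine ⟨hΩ, (Q.pairRel_cd_iff hGΩ hΩ).2 ⟨?_, h2.symm⟩⟩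
    have e := Q.sectorRel_isEquivOn (realizations δ)
    exact e.trans _ hGΩ _ hG0 _ hΩ (e.symm _ hG0 _ hGΩ hs) h1

end Quad

end Crest.Agent.Lib.Switch
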