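import Crest.Agent.Lib.Switch.ThreeRowPair

/-!
# Three-row tables: rigidity of top eigenfunctions

`rigid`: a mean-zero eigenfunction of `E_0 + E_1 + E_2` on tables with eigenvalue `τ > 2` vanishes.
-/

namespace Crest.Agent.Lib.Switch.ThreeRow

open Finset

variable {C : Type*} [Fintype C] [DecidableEq C]

/-! ### Fin 3 -/

lemma fin3_sum {α : Type*} [AddCommMonoid α] (F : Fin 3 → α) (i : Fin 3) :
    ∑ l, F l = F i + F (i + 1) + F (i + 2) := by
  rw [Fin.sum_univ_three]
  fin_cases i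
  · rfl
  · show F 0 + F 1 + F 2 = F 1 + F 2 + F 0
    abel
  · show F 0 + F 1 + F 2 = F 2 + F 0 + F 1
    abel

lemma fin3_cases (i l : Fin 3) : l = i ∨ l = i + 1 ∨ l = i + 2 := by
  revert i l; decide

lemma fin3_ne1 (i : Fin 3) : i + 1 ≠ i := by revert i; decide
lemma fin3_ne2 (i : Fin 3) : i + 2 ≠ i := by revert i; decide
lemma fin3_ne3 (i : Fin 3) : i + 2 ≠ i + 1 := by revert i; decide

/-- The table with rows `R`, `Y`, `Z` at positions `i`, `i+1`, `i+2`. -/
def mk (i : Fin 3) (R Y Z : Finset C) : Fin 3 → Finset C :=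
  fun l => if l = i then R else if l = i + 1 then Y else Z

omit [Fintype C] [DecidableEq C] in
@[simp] lemma mk_i (i : Fin 3) (R Y Z : Finset C) : mk i R Y Z i = R := by simp [mk]
omit [Fintype C] [DecidableEq C] in
@[simp] lemma mk_j (i : Fin 3) (R Y Z : Finset C) : mk i R Y Z (i + 1) = Y := by
  simp [mk, fin3_ne1 i]
omit [Fintype C] [DecidableEq C] in
@[simp] lemma mk_k (i : Fin 3) (R Y Z : Finset C) : mk i R Y Z (i + 2) = Z := by
  simp [mk, fin3_ne2 i, fin3_ne3 i]

omit [Fintype C] [DecidableEq C] in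
lemma mk_eta (i : Fin 3) (t : Fin 3 → Finset C) : mk i (t i) (t (i + 1)) (t (i + 2)) = t := by
  funext l
  rcases fin3_cases i l with rfl | rfl | rfl <;> simp

variable {s : C → ℕ} {r : Fin 3 → ℕ}

omit [Fintype C] in
lemma isTable_iff (i : Fin 3) {t : Fin 3 → Finset C} :
    IsTable s r t ↔ (t i).card = r i ∧ (t (i + 1)).card = r (i + 1) ∧ (t (i + 2)).card = r (i + 2) ∧
      ∀ x, ind x (t i) + ind x (t (i + 1)) + ind x (t (i + 2)) = s x := by
  constructor
  · rintro ⟨h1, h2⟩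
    refine ⟨h1 _, h1 _, h1 _, fun x => ?_⟩
    rw [← h2 x, fin3_sum _ i]
    rfl
  · rintro ⟨h1, h2, h3, h4⟩
    refine ⟨fun l => ?_, fun x => ?_⟩
    · rcases fin3_cases i l with rfl | rfl | rfl <;> assumption
    · rw [← h4 x, fin3_sum _ i]
      rfl

lemma mk_mem_tables {i : Fin 3} {R : Finset C} {p : Finset C × Finset C} (hR : R.card = r i)
    (hp : p ∈ Fib s (r (i + 1)) (r (i + 2)) R) : mk i R p.1 p.2 ∈ tables s r := by
  rw [mem_Fib] at hp
  rw [mem_tables, isTable_iff i]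
  simpa using ⟨hR, hp⟩

lemma mem_Fib_of_table {i : Fin 3} {t : Fin 3 → Finset C} (ht : t ∈ tables s r) :
    ((t (i + 1), t (i + 2)) : Finset C × Finset C) ∈ Fib s (r (i + 1)) (r (i + 2)) (t i) := by
  rw [mem_tables, isTable_iff i] at ht
  rw [mem_Fib]
  exact ⟨ht.2.1, ht.2.2.1, ht.2.2.2⟩

/-- Bridge between tables with `i`-th row `R` and pairs completing `R`. -/
lemma bridge_sum {i : Fin 3} {R : Finset C} (hR : R.card = r i) (F : Finset C → Finset C → ℝ) :
    ∑ t ∈ (tables s r).filter (fun t => t i = R), F (t (i + 1)) (t (i + 2))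
      = ∑ p ∈ Fib s (r (i + 1)) (r (i + 2)) R, F p.1 p.2 := by
  apply Finset.sum_nbij' (fun t => (t (i + 1), t (i + 2))) (fun p => mk i R p.1 p.2)
  · intro t ht
    obtain ⟨h1, h2⟩ := mem_filter.mp ht
    subst h2
    exact mem_Fib_of_table h1
  · intro p hp
    exact mem_filter.mpr ⟨mk_mem_tables hR hp, by simp⟩
  · intro t ht
    obtain ⟨h1, h2⟩ := mem_filter.mp ht
    subst h2
    simpa using mk_eta i t
  · intro p _
    simp
  · intro t _
    rfl

lemma bridge_card {i : Fin 3} {R : Finset C} (hR : R.card = r i) :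
    ((tables s r).filter (fun t => t i = R)).card = (Fib s (r (i + 1)) (r (i + 2)) R).card := by
  apply Finset.card_nbij' (fun t => (t (i + 1), t (i + 2))) (fun p => mk i R p.1 p.2)
  · intro t ht
    obtain ⟨h1, h2⟩ := mem_filter.mp ht
    subst h2
    exact mem_Fib_of_table h1
  · intro p hp
    exact mem_filter.mpr ⟨mk_mem_tables hR hp, by simp⟩
  · intro t ht
    obtain ⟨h1, h2⟩ := mem_filter.mp ht
    subst h2
    simpa using mk_eta i t
  · intro p _
    simp

/-! ### Feasible rows, row functions -/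

/-- `Y` occurs as the `i`-th row of a table. -/
def Feas (s : C → ℕ) (r : Fin 3 → ℕ) (i : Fin 3) (Y : Finset C) : Prop := ∃ t ∈ tables s r, t i = Y

lemma Feas.card {i : Fin 3} {Y : Finset C} (h : Feas s r i Y) : Y.card = r i := by
  obtain ⟨t, ht, rfl⟩ := h
  exact (mem_tables.mp ht).1 i

lemma feas_of_Fib {i : Fin 3} {R : Finset C} (hR : R.card = r i) {p : Finset C × Finset C}
    (hp : p ∈ Fib s (r (i + 1)) (r (i + 2)) R) : Feas s r (i + 1) p.1 ∧ Feas s r (i + 2) p.2 :=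
  ⟨⟨_, mk_mem_tables hR hp, by simp⟩, ⟨_, mk_mem_tables hR hp, by simp⟩⟩

lemma Fib_nonempty {i : Fin 3} {R : Finset C} (h : Feas s r i R) :
    (Fib s (r (i + 1)) (r (i + 2)) R).Nonempty := by
  obtain ⟨t, ht, rfl⟩ := h
  exact ⟨_, mem_Fib_of_table ht⟩

/-- Average of `φ (i+1) (t (i+1)) + φ (i+2) (t (i+2))` on the tables with `i`-th row `R`. -/
noncomputable def B (s : C → ℕ) (r : Fin 3 → ℕ) (φ : Fin 3 → Finset C → ℝ) (i : Fin 3)
    (R : Finset C) : ℝ :=
  (∑ t ∈ (tables s r).filter (fun t => t i = R), (φ (i + 1) (t (i + 1)) + φ (i + 2) (t (i + 2)))) /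
    ((tables s r).filter (fun t => t i = R)).card

lemma B_eq {φ : Fin 3 → Finset C → ℝ} {i : Fin 3} {R : Finset C} (hR : R.card = r i) :
    B s r φ i R = (∑ p ∈ Fib s (r (i + 1)) (r (i + 2)) R, (φ (i + 1) p.1 + φ (i + 2) p.2)) /
      (Fib s (r (i + 1)) (r (i + 2)) R).card := by
  rw [B, bridge_card hR, bridge_sum hR (fun Y Z => φ (i + 1) Y + φ (i + 2) Z)]

lemma avg_diff_le {n n' S S' x : ℝ} (hn : 0 < n) (hn' : 0 < n')
    (h : |n' * S - n * S'| ≤ n * n' * x) : |S / n - S' / n'| ≤ x := by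
  have hnn : 0 < n * n' := mul_pos hn hn'
  have e : S / n - S' / n' = (n' * S - n * S') / (n * n') := by
    field_simp
  rw [e, abs_div, abs_of_pos hnn, div_le_iff₀ hnn]
  linarith

/-- Bound on all pure edge gradients. -/
def PureBd (s : C → ℕ) (r : Fin 3 → ℕ) (φ : Fin 3 → Finset C → ℝ) (x : ℝ) : Prop :=
  ∀ i Y u v, Feas s r i Y → Feas s r i (ex Y u v) → u ∈ Y → v ∉ Y → s u = s v →
    |φ i Y - φ i (ex Y u v)| ≤ x

/-- Bound on all mixed edge gradients. -/
def MixedBd (s : C → ℕ) (r : Fin 3 → ℕ) (φ : Fin 3 → Finset C → ℝ) (x : ℝ) : Prop :=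
  ∀ i Y u v, Feas s r i Y → Feas s r i (ex Y u v) → u ∈ Y → v ∉ Y → s u ≠ s v →
    |φ i Y - φ i (ex Y u v)| ≤ x

lemma step_pure {φ : Fin 3 → Finset C → ℝ} {xp : ℝ} (hp : PureBd s r φ xp)
    {i : Fin 3} {Y : Finset C} {u v : C} (h1 : Feas s r i Y) (h2 : Feas s r i (ex Y u v))
    (hu : u ∈ Y) (hv : v ∉ Y) (hs : s u = s v) :
    |B s r φ i Y - B s r φ i (ex Y u v)| ≤ xp := by
  rw [B_eq h1.card, B_eq h2.card]
  apply avg_diff_le
  · exact_mod_cast card_pos.mpr (Fib_nonempty h1)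
  · exact_mod_cast card_pos.mpr (Fib_nonempty h2)
  · exact pure_exchange (Sg := Feas s r (i + 1)) (Sh := Feas s r (i + 2))
      (fun Y u v a b c d e => hp _ Y u v a b c d e) (fun Y u v a b c d e => hp _ Y u v a b c d e)
      hu hv hs (fun p hp => feas_of_Fib h1.card hp) (fun p hp => feas_of_Fib h2.card hp)

lemma step_mixed {φ : Fin 3 → Finset C → ℝ} {xp xm : ℝ} (hp : PureBd s r φ xp)
    (hm : MixedBd s r φ xm) (hxp : 0 ≤ xp)
    {i : Fin 3} {Y : Finset C} {u v : C} (h1 : Feas s r i Y) (h2 : Feas s r i (ex Y u v))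
    (hu : u ∈ Y) (hv : v ∉ Y) (hsu : s u = 2) (hsv : s v = 1) :
    |B s r φ i Y - B s r φ i (ex Y u v)| ≤ xp + xm := by
  rw [B_eq h1.card, B_eq h2.card]
  apply avg_diff_le
  · exact_mod_cast card_pos.mpr (Fib_nonempty h1)
  · exact_mod_cast card_pos.mpr (Fib_nonempty h2)
  · exact mixed_exchange (Sg := Feas s r (i + 1)) (Sh := Feas s r (i + 2))
      ⟨fun Y u v a b c d e => hp _ Y u v a b c d e, fun Y u v a b c d e => hm _ Y u v a b c d e⟩
      ⟨fun Y u v a b c d e => hp _ Y u v a b c d e, fun Y u v a b c d e => hm _ Y u v a b c d e⟩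
      hu hv hsu hsv (fun p hp => feas_of_Fib h1.card hp) (fun p hp => feas_of_Fib h2.card hp)
      (Fib_nonempty h2) hxp

/-! ### Maximum principle -/

lemma max_principle {ι : Type*} [Finite ι] (a : ι → ℝ) (hnn : ∀ i, 0 ≤ a i) (L : ℝ) (hL : 1 < L)
    (h : ∀ x, (∀ i, a i ≤ x) → ∀ i, L * a i ≤ x) : ∀ i, a i = 0 := by
  intro i
  have : Nonempty ι := ⟨i⟩
  obtain ⟨i0, hi0⟩ := Finite.exists_max a
  have h1 := h (a i0) hi0 i0
  have h2 := hnn i0
  have h3 : a i0 ≤ 0 := by nlinarith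
  exact le_antisymm ((hi0 i).trans h3) (hnn i)

/-! ### Column sums of feasible rows -/

lemma s_ge_one {i : Fin 3} {Y : Finset C} {x : C} (h : Feas s r i Y) (hx : x ∈ Y) : 1 ≤ s x := by
  obtain ⟨t, ht, rfl⟩ := h
  have := (isTable_iff i).mp (mem_tables.mp ht)
  have h4 := this.2.2.2 x
  rw [ind_of_mem hx] at h4
  omega

lemma s_le_two {i : Fin 3} {Y : Finset C} {x : C} (h : Feas s r i Y) (hx : x ∉ Y) : s x ≤ 2 := by
  obtain ⟨t, ht, rfl⟩ := h
  have := (isTable_iff i).mp (mem_tables.mp ht)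
  have h4 := this.2.2.2 x
  rw [ind_of_not_mem hx] at h4
  have h5 := ind_le_one x (t (i + 1))
  have h6 := ind_le_one x (t (i + 2))
  omega

omit [Fintype C] in
lemma notMem_ex_left {Y : Finset C} {u v : C} (huv : u ≠ v) : u ∉ ex Y u v := by
  rw [mem_ex]
  rintro (h | ⟨h, _⟩)
  · exact huv h
  · exact h rfl

omit [Fintype C] in
lemma mem_ex_right {Y : Finset C} {u v : C} : v ∈ ex Y u v := mem_ex.mpr (Or.inl rfl)

/-! ### Moves between feasible rows -/

/-- A swap of two columns of the same sum gives a table. -/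
lemma feas_swap {i : Fin 3} {Y : Finset C} {u v : C} (h : Feas s r i Y) (hu : u ∈ Y) (hv : v ∉ Y)
    (hs : s u = s v) : Feas s r i (ex Y u v) := by
  obtain ⟨t, ht, rfl⟩ := h
  refine ⟨fun l => sw u v (t l), ?_, sw_eq_ex hu hv⟩
  rw [mem_tables]
  obtain ⟨h1, h2⟩ := mem_tables.mp ht
  refine ⟨fun l => by rw [card_sw]; exact h1 l, fun x => ?_⟩
  rw [← s_swap hs x, ← h2]
  apply Finset.sum_congr rfl
  intro l _
  simp [mem_sw]

/-- If `s u = 1`, `s v = 2` then `u` can always be exchanged for `v`. -/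
lemma feas_up {i : Fin 3} {Y : Finset C} {u v : C} (h : Feas s r i Y) (hu : u ∈ Y) (hv : v ∉ Y)
    (hsu : s u = 1) (hsv : s v = 2) : Feas s r i (ex Y u v) := by
  obtain ⟨t, ht, rfl⟩ := h
  have huv : u ≠ v := ne_of_mem_notMem hu hv
  obtain ⟨c1, c2, c3, c4⟩ := (isTable_iff i).mp (mem_tables.mp ht)
  have hcu := c4 u
  have hcv := c4 v
  rw [ind_of_mem hu] at hcu
  rw [ind_of_not_mem hv] at hcv
  have k1 : u ∉ t (i + 1) := ind_eq_zero_iff.mp (by omega)
  have k2 : u ∉ t (i + 2) := ind_eq_zero_iff.mp (by omega)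
  have k3 : v ∈ t (i + 1) := by
    have := ind_le_one v (t (i + 1))
    have := ind_le_one v (t (i + 2))
    exact ind_eq_one_iff.mp (by omega)
  have k4 : v ∈ t (i + 2) := by
    have := ind_le_one v (t (i + 1))
    have := ind_le_one v (t (i + 2))
    exact ind_eq_one_iff.mp (by omega)
  refine ⟨mk i (ex (t i) u v) (ex (t (i + 1)) v u) (t (i + 2)), ?_, by simp⟩
  rw [mem_tables, isTable_iff i]
  simp only [mk_i, mk_j, mk_k]
  refine ⟨by rw [card_ex hu hv]; exact c1, by rw [card_ex k3 k1]; exact c2, c3, fun x => ?_⟩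
  simp only [ind_ex]
  have hx := c4 x
  by_cases hxu : x = u
  · subst hxu
    simp [huv, hsu, ind_of_not_mem k2]
  · by_cases hxv : x = v
    · subst hxv
      simp [hxu, hsv, ind_of_mem k4]
    · simp only [hxu, hxv, if_false]
      exact hx

/-- Rows connected by exchanges: a function without edge gradients is constant on feasible rows. -/
lemma const_of_edges {i : Fin 3} {g : Finset C → ℝ}
    (hg : ∀ Y u v, Feas s r i Y → Feas s r i (ex Y u v) → u ∈ Y → v ∉ Y → g Y = g (ex Y u v)) :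
    ∀ (n : ℕ) (Y Y' : Finset C), Feas s r i Y → Feas s r i Y' → (Y \ Y').card = n → g Y = g Y' := by
  intro n
  induction n with
  | zero =>
    intro Y Y' h1 h2 h3
    have hsub : Y ⊆ Y' := by
      rwa [card_eq_zero, sdiff_eq_empty_iff_subset] at h3
    rw [Finset.eq_of_subset_of_card_le hsub (by rw [h1.card, h2.card])]
  | succ n ih =>
    intro Y Y' h1 h2 h3
    obtain ⟨a, ha⟩ : (Y \ Y').Nonempty := card_pos.mp (by omega)
    have hcomm : (Y' \ Y).card = n + 1 := by
      rw [← h3]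
      exact (Finset.card_sdiff_comm (by rw [h1.card, h2.card])).symm
    obtain ⟨b, hb⟩ : (Y' \ Y).Nonempty := card_pos.mp (by omega)
    obtain ⟨ha1, ha2⟩ := mem_sdiff.mp ha
    obtain ⟨hb1, hb2⟩ := mem_sdiff.mp hb
    have hab : a ≠ b := ne_of_mem_notMem ha1 hb2
    -- moving on the `Y` side
    have left : Feas s r i (ex Y a b) → g Y = g Y' := by
      intro hf
      rw [hg Y a b h1 hf ha1 hb2]
      apply ih _ _ hf h2
      have : ex Y a b \ Y' = (Y \ Y').erase a := by
        ext x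
        simp only [mem_sdiff, mem_ex, mem_erase]
        constructor
        · rintro ⟨h4 | ⟨h4, h5⟩, h6⟩
          · exact absurd (h4 ▸ hb1) h6
          · exact ⟨h4, h5, h6⟩
        · rintro ⟨h4, h5, h6⟩
          exact ⟨Or.inr ⟨h4, h5⟩, h6⟩
      rw [this, card_erase_of_mem ha, h3]
      rfl
    -- moving on the `Y'` side
    have right : Feas s r i (ex Y' b a) → g Y = g Y' := by
      intro hf
      rw [hg Y' b a h2 hf hb1 ha2]
      apply ih _ _ h1 hf
      have : Y \ ex Y' b a = (Y \ Y').erase a := by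
        ext x
        simp only [mem_sdiff, mem_ex, mem_erase, not_or, not_and_or, not_not]
        constructor
        · rintro ⟨h4, h5, h6⟩
          refine ⟨h5, h4, ?_⟩
          rcases h6 with h6 | h6
          · exact absurd (h6 ▸ h4) hb2
          · exact h6
        · rintro ⟨h4, h5, h6⟩
          exact ⟨h5, h4, Or.inr h6⟩
      rw [this, card_erase_of_mem ha, h3]
      rfl
    have sa1 := s_ge_one h1 ha1
    have sa2 := s_le_two h2 ha2
    have sb1 := s_ge_one h2 hb1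
    have sb2 := s_le_two h1 hb2
    by_cases hs : s a = s b
    · exact left (feas_swap h1 ha1 hb2 hs)
    · by_cases hsa : s a = 1
      · exact left (feas_up h1 ha1 hb2 hsa (by omega))
      · exact right (feas_up h2 hb1 ha2 (by omega) (by omega))

/-! ### The row functions of an eigenfunction are constant -/

theorem edges_zero {φ : Fin 3 → Finset C → ℝ} {L : ℝ} (hL : 1 < L)
    (heig : ∀ i R, Feas s r i R → L * φ i R = B s r φ i R) :
    ∀ i Y u v, Feas s r i Y → Feas s r i (ex Y u v) → u ∈ Y → v ∉ Y → φ i Y = φ i (ex Y u v) := by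
  classical
  have hL0 : 0 < L := by linarith
  -- pure edges first
  have hpure : ∀ i Y u v, Feas s r i Y → Feas s r i (ex Y u v) → u ∈ Y → v ∉ Y → s u = s v →
      |φ i Y - φ i (ex Y u v)| = 0 := by
    let ι := {e : Fin 3 × Finset C × C × C // Feas s r e.1 e.2.1 ∧
      Feas s r e.1 (ex e.2.1 e.2.2.1 e.2.2.2) ∧ e.2.2.1 ∈ e.2.1 ∧ e.2.2.2 ∉ e.2.1 ∧
      s e.2.2.1 = s e.2.2.2}
    have key := max_principle (ι := ι) (fun e => |φ e.1.1 e.1.2.1 - φ e.1.1 (ex e.1.2.1 e.1.2.2.1 e.1.2.2.2)|)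
      (fun e => abs_nonneg _) L hL ?_
    · intro i Y u v h1 h2 h3 h4 h5
      exact key ⟨(i, Y, u, v), h1, h2, h3, h4, h5⟩
    · rintro x hx ⟨⟨i, Y, u, v⟩, h1, h2, h3, h4, h5⟩
      have hBd : PureBd s r φ x := by
        intro i Y u v h1 h2 h3 h4 h5
        exact hx ⟨(i, Y, u, v), h1, h2, h3, h4, h5⟩
      simp only at h1 h2 h3 h4 h5 ⊢
      have := step_pure hBd h1 h2 h3 h4 h5
      rw [← heig i Y h1, ← heig i _ h2, ← mul_sub, abs_mul, abs_of_pos hL0] at this
      exact this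
  have hP0 : PureBd s r φ 0 := by
    intro i Y u v h1 h2 h3 h4 h5
    exact (hpure i Y u v h1 h2 h3 h4 h5).le
  have hmixed : ∀ i Y u v, Feas s r i Y → Feas s r i (ex Y u v) → u ∈ Y → v ∉ Y → s u ≠ s v →
      |φ i Y - φ i (ex Y u v)| = 0 := by
    let ι := {e : Fin 3 × Finset C × C × C // Feas s r e.1 e.2.1 ∧
      Feas s r e.1 (ex e.2.1 e.2.2.1 e.2.2.2) ∧ e.2.2.1 ∈ e.2.1 ∧ e.2.2.2 ∉ e.2.1 ∧
      s e.2.2.1 ≠ s e.2.2.2}
    have key := max_principle (ι := ι) (fun e => |φ e.1.1 e.1.2.1 - φ e.1.1 (ex e.1.2.1 e.1.2.2.1 e.1.2.2.2)|)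
      (fun e => abs_nonneg _) L hL ?_
    · intro i Y u v h1 h2 h3 h4 h5
      exact key ⟨(i, Y, u, v), h1, h2, h3, h4, h5⟩
    · rintro x hx ⟨⟨i, Y, u, v⟩, h1, h2, h3, h4, h5⟩
      have hBd : MixedBd s r φ x := by
        intro i Y u v h1 h2 h3 h4 h5
        exact hx ⟨(i, Y, u, v), h1, h2, h3, h4, h5⟩
      simp only at h1 h2 h3 h4 h5 ⊢
      have huv : u ≠ v := ne_of_mem_notMem h3 h4
      have su1 := s_ge_one h1 h3
      have su2 := s_le_two h2 (notMem_ex_left huv)
      have sv1 := s_ge_one h2 mem_ex_right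
      have sv2 := s_le_two h1 h4
      by_cases hsu : s u = 2
      · have := step_mixed hP0 hBd le_rfl h1 h2 h3 h4 hsu (by omega)
        rw [← heig i Y h1, ← heig i _ h2, ← mul_sub, abs_mul, abs_of_pos hL0, zero_add] at this
        exact this
      · have e1 : ex (ex Y u v) v u = Y := ex_ex h3 h4
        have h2' : Feas s r i (ex (ex Y u v) v u) := by rw [e1]; exact h1
        have := step_mixed hP0 hBd le_rfl h2 h2' mem_ex_right (notMem_ex_left huv)
          (by omega) (by omega)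
        rw [e1, ← heig i Y h1, ← heig i _ h2, ← mul_sub, abs_mul, abs_of_pos hL0, zero_add,
          abs_sub_comm] at this
        exact this
  intro i Y u v h1 h2 h3 h4
  by_cases h5 : s u = s v
  · exact sub_eq_zero.mp (abs_eq_zero.mp (hpure i Y u v h1 h2 h3 h4 h5))
  · exact sub_eq_zero.mp (abs_eq_zero.mp (hmixed i Y u v h1 h2 h3 h4 h5))

/-! ### Rigidity -/

lemma sum_rowMean (i : Fin 3) (f : (Fin 3 → Finset C) → ℝ) :
    ∑ t ∈ tables s r, rowMean s r i f t = ∑ t ∈ tables s r, f t := by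
  classical
  have h1 : ∀ F : (Fin 3 → Finset C) → ℝ, ∑ R ∈ (tables s r).image (fun t => t i),
      ∑ t ∈ (tables s r).filter (fun t => t i = R), F t = ∑ t ∈ tables s r, F t := by
    intro F
    exact Finset.sum_fiberwise_of_maps_to (fun t ht => mem_image_of_mem _ ht) F
  rw [← h1 f, ← h1 (rowMean s r i f)]
  apply Finset.sum_congr rfl
  intro R hR
  obtain ⟨t0, ht0, rfl⟩ := mem_image.mp hR
  have hne : ((tables s r).filter (fun t => t i = t0 i)).Nonempty := ⟨t0, mem_filter.mpr ⟨ht0, rfl⟩⟩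
  have hcard : (((tables s r).filter (fun t => t i = t0 i)).card : ℝ) ≠ 0 := by
    exact_mod_cast (card_pos.mpr hne).ne'
  have h2 : ∀ t ∈ (tables s r).filter (fun t => t i = t0 i), rowMean s r i f t = rowMean s r i f t0 := by
    intro t ht
    have := (mem_filter.mp ht).2
    simp only [rowMean, this]
  rw [Finset.sum_congr rfl h2, Finset.sum_const, nsmul_eq_mul, rowMean]
  field_simp

/-- **Rigidity**: a mean-zero eigenfunction of `E_0 + E_1 + E_2` with eigenvalue `τ > 2` vanishes. -/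
theorem rigid (s : C → ℕ) (r : Fin 3 → ℕ) (τ : ℝ) (hτ : 2 < τ) (f : (Fin 3 → Finset C) → ℝ)
    (h0 : ∑ t ∈ tables s r, f t = 0)
    (heig : ∀ t ∈ tables s r, ∑ i, rowMean s r i f t = τ * f t) :
    ∀ t ∈ tables s r, f t = 0 := by
  classical
  set φ : Fin 3 → Finset C → ℝ := fun i R =>
    (∑ t' ∈ (tables s r).filter (fun t' => t' i = R), f t') /
      ((tables s r).filter (fun t' => t' i = R)).card with hφ
  have hrow : ∀ i t, rowMean s r i f t = φ i (t i) := fun _ _ => rfl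
  have hB : ∀ i R, Feas s r i R → (τ - 1) * φ i R = B s r φ i R := by
    rintro i R ⟨t0, ht0, rfl⟩
    set A := (tables s r).filter (fun t' => t' i = t0 i) with hA
    have hne : A.Nonempty := ⟨t0, mem_filter.mpr ⟨ht0, rfl⟩⟩
    have hcard : (A.card : ℝ) ≠ 0 := by exact_mod_cast (card_pos.mpr hne).ne'
    have hsumf : ∑ t ∈ A, f t = A.card * φ i (t0 i) := by
      simp only [hφ]
      rw [← hA]
      field_simp
    have h1 : ∑ t ∈ A, (φ (i + 1) (t (i + 1)) + φ (i + 2) (t (i + 2)))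
        = ∑ t ∈ A, (τ * f t - φ i (t0 i)) := by
      apply Finset.sum_congr rfl
      intro t ht
      obtain ⟨h2, h3⟩ := mem_filter.mp ht
      have h4 := heig t h2
      rw [fin3_sum _ i] at h4
      simp only [hrow] at h4
      rw [h3] at h4
      linarith
    rw [B, ← hA, h1, Finset.sum_sub_distrib, ← Finset.mul_sum, hsumf, Finset.sum_const, nsmul_eq_mul]
    field_simp
  have hL : 1 < τ - 1 := by linarith
  have hedge := edges_zero (L := τ - 1) hL hB
  have hconst : ∀ i, ∀ t ∈ tables s r, ∀ t' ∈ tables s r, φ i (t i) = φ i (t' i) := by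
    intro i t ht t' ht'
    exact const_of_edges (hedge i) _ _ _ ⟨t, ht, rfl⟩ ⟨t', ht', rfl⟩ rfl
  have hzero : ∀ i, ∀ t ∈ tables s r, φ i (t i) = 0 := by
    intro i t ht
    have h1 := sum_rowMean (s := s) (r := r) i f
    rw [h0] at h1
    have h2 : ∑ t' ∈ tables s r, rowMean s r i f t' = ((tables s r).card : ℝ) * φ i (t i) := by
      rw [← nsmul_eq_mul, ← Finset.sum_const]
      apply Finset.sum_congr rfl
      intro t' ht'
      rw [hrow]
      exact hconst i t' ht' t ht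
    rw [h2] at h1
    have hcard : ((tables s r).card : ℝ) ≠ 0 := by
      exact_mod_cast (card_pos.mpr ⟨t, ht⟩).ne'
    exact (mul_eq_zero.mp h1).resolve_left hcard
  intro t ht
  have h1 := heig t ht
  have h2 : ∑ i, rowMean s r i f t = 0 := by
    apply Finset.sum_eq_zero
    intro i _
    rw [hrow]
    exact hzero i t ht
  rw [h2] at h1
  have hτ0 : τ ≠ 0 := by linarith
  exact (mul_eq_zero.mp h1.symm).resolve_left hτ0

end Crest.Agent.Lib.Switch.ThreeRow
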