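import Mathlib

/-!
# Three-row tables: definitions

Shared definitions for the three-row lemma (S0453). Columns `C`, column sums `s`,
row sizes `r`; a *table* is a triple of rows (subsets of the columns) with the prescribed
row sizes and column sums.  `rowMean s r i f t` is the average of `f` over the tables having the
same `i`-th row as `t`.
-/

namespace Crest.Agent.Lib.Switch.ThreeRow

open Finset

variable {C : Type*} [Fintype C] [DecidableEq C]

/-- `t` is a table with column sums `s` and row sizes `r`. -/
def IsTable (s : C → ℕ) (r : Fin 3 → ℕ) (t : Fin 3 → Finset C) : Prop :=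
  (∀ l, (t l).card = r l) ∧ ∀ x, (∑ l, if x ∈ t l then 1 else 0) = s x

open Classical in
/-- All tables with column sums `s` and row sizes `r`. -/
noncomputable def tables (s : C → ℕ) (r : Fin 3 → ℕ) : Finset (Fin 3 → Finset C) :=
  Finset.univ.filter (IsTable s r)

theorem mem_tables {s : C → ℕ} {r : Fin 3 → ℕ} {t : Fin 3 → Finset C} :
    t ∈ tables s r ↔ IsTable s r t := by
  classical
  simp [tables]

/-- `E_i f`: the average of `f` over the tables with the same `i`-th row as `t`. -/
noncomputable def rowMean (s : C → ℕ) (r : Fin 3 → ℕ) (i : Fin 3)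
    (f : (Fin 3 → Finset C) → ℝ) (t : Fin 3 → Finset C) : ℝ :=
  (∑ t' ∈ (tables s r).filter (fun t' => t' i = t i), f t') /
    ((tables s r).filter (fun t' => t' i = t i)).card

end Crest.Agent.Lib.Switch.ThreeRow
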