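import Crest.Agent.Lib.Switch.ThreeRowDefs

/-!
# Three-row tables: pair level

Fix the `i`-th row `R`. The other two rows form a pair `(Y, Z)` in `Fib s ry rz R`.
Two exchange lemmas compare the averages of `g Y + h Z` over `Fib R` and `Fib R'` where
`R' = ex R a b`: pure exchanges (`s a = s b`, a column swap) and mixed exchanges (`s a = 2`,
`s b = 1`, a double count).
-/

namespace Crest.Agent.Lib.Switch.ThreeRow

open Finset

variable {C : Type*} [Fintype C] [DecidableEq C]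

/-- The entry of column `x` in the row `S`. -/
def ind (x : C) (S : Finset C) : ℕ := if x ∈ S then 1 else 0

omit [Fintype C] in
lemma ind_of_mem {x : C} {S : Finset C} (h : x ∈ S) : ind x S = 1 := by simp [ind, h]

omit [Fintype C] in
lemma ind_of_not_mem {x : C} {S : Finset C} (h : x ∉ S) : ind x S = 0 := by simp [ind, h]

omit [Fintype C] in
lemma ind_le_one (x : C) (S : Finset C) : ind x S ≤ 1 := by
  unfold ind; split_ifs <;> omega

omit [Fintype C] in
lemma ind_eq_one_iff {x : C} {S : Finset C} : ind x S = 1 ↔ x ∈ S := by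
  unfold ind; split_ifs with h <;> simp [h]

omit [Fintype C] in
lemma ind_eq_zero_iff {x : C} {S : Finset C} : ind x S = 0 ↔ x ∉ S := by
  unfold ind; split_ifs with h <;> simp [h]

/-- Exchange: remove `u`, add `v`. -/
def ex (Y : Finset C) (u v : C) : Finset C := insert v (Y.erase u)

omit [Fintype C] in
lemma mem_ex {Y : Finset C} {u v x : C} : x ∈ ex Y u v ↔ x = v ∨ (x ≠ u ∧ x ∈ Y) := by
  simp [ex, mem_insert, mem_erase]

omit [Fintype C] in
lemma ind_ex (Y : Finset C) (u v x : C) :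
    ind x (ex Y u v) = if x = v then 1 else if x = u then 0 else ind x Y := by
  by_cases h1 : x = v
  · simp [h1, ind, mem_ex]
  · by_cases h2 : x = u
    · simp [h2, ind, mem_ex]
    · simp [h1, h2, ind, mem_ex]

omit [Fintype C] in
lemma card_ex {Y : Finset C} {u v : C} (hu : u ∈ Y) (hv : v ∉ Y) : (ex Y u v).card = Y.card := by
  have hv' : v ∉ Y.erase u := fun h => hv (mem_of_mem_erase h)
  rw [ex, card_insert_of_notMem hv', card_erase_of_mem hu]
  have : 0 < Y.card := card_pos.mpr ⟨u, hu⟩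
  omega

omit [Fintype C] in
lemma ex_ex {Y : Finset C} {u v : C} (hu : u ∈ Y) (hv : v ∉ Y) : ex (ex Y u v) v u = Y := by
  ext x
  simp only [mem_ex]
  by_cases h1 : x = u
  · subst h1; simp [hu]
  · by_cases h2 : x = v
    · subst h2; simp [hv, h1]
    · simp [h1, h2]

omit [Fintype C] [DecidableEq C] in
lemma ne_of_mem_notMem {Y : Finset C} {u v : C} (hu : u ∈ Y) (hv : v ∉ Y) : u ≠ v := by
  rintro rfl; exact hv hu

/-- Pairs of rows completing the row `R` to a table. -/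
def Fib (s : C → ℕ) (ry rz : ℕ) (R : Finset C) : Finset (Finset C × Finset C) :=
  univ.filter fun p => p.1.card = ry ∧ p.2.card = rz ∧ ∀ x, ind x R + ind x p.1 + ind x p.2 = s x

lemma mem_Fib {s : C → ℕ} {ry rz : ℕ} {R : Finset C} {p : Finset C × Finset C} :
    p ∈ Fib s ry rz R ↔
      p.1.card = ry ∧ p.2.card = rz ∧ ∀ x, ind x R + ind x p.1 + ind x p.2 = s x := by
  simp [Fib]

/-- Edge bounds for a row function: `xp` for pure exchanges, `xm` for mixed exchanges,
between rows in `S`. -/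
structure EdgeHyp (s : C → ℕ) (S : Finset C → Prop) (g : Finset C → ℝ) (xp xm : ℝ) : Prop where
  pure : ∀ Y u v, S Y → S (ex Y u v) → u ∈ Y → v ∉ Y → s u = s v → |g Y - g (ex Y u v)| ≤ xp
  mixed : ∀ Y u v, S Y → S (ex Y u v) → u ∈ Y → v ∉ Y → s u ≠ s v → |g Y - g (ex Y u v)| ≤ xm

/-! ### Double counting -/

open Classical in
/-- Double count on a biregular relation. -/
lemma double_count {α β : Type*} (A : Finset α) (B : Finset β) (ρ : α → β → Prop)
    (d e : ℕ) (hd : 0 < d)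
    (hA : ∀ a ∈ A, (B.filter (ρ a)).card = d)
    (hB : ∀ b ∈ B, (A.filter (fun a => ρ a b)).card = e)
    (G : α → ℝ) (G' : β → ℝ) (x : ℝ)
    (hx : ∀ a ∈ A, ∀ b ∈ B, ρ a b → |G a - G' b| ≤ x) :
    |(B.card : ℝ) * ∑ a ∈ A, G a - A.card * ∑ b ∈ B, G' b| ≤ A.card * B.card * x := by
  have hcomm : ∀ F : β → ℝ, ∑ a ∈ A, ∑ b ∈ B.filter (ρ a), F b = e * ∑ b ∈ B, F b := by
    intro F
    have : ∑ a ∈ A, ∑ b ∈ B.filter (ρ a), F b = ∑ b ∈ B, ∑ a ∈ A.filter (fun a => ρ a b), F b := by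
      apply Finset.sum_comm'
      intro a b
      simp only [mem_filter]
      tauto
    rw [this, Finset.mul_sum]
    apply Finset.sum_congr rfl
    intro b hb
    rw [Finset.sum_const, hB b hb, nsmul_eq_mul]
  have hcount : (d : ℝ) * A.card = e * B.card := by
    have h := hcomm (fun _ => 1)
    simp only [Finset.sum_const, nsmul_eq_mul, mul_one] at h
    have h2 : ∑ a ∈ A, (((B.filter (ρ a)).card : ℕ) : ℝ) = ∑ a ∈ A, (d : ℝ) :=
      Finset.sum_congr rfl (fun a ha => by rw [hA a ha])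
    rw [h2] at h
    simp only [Finset.sum_const, nsmul_eq_mul] at h
    linarith
  have hsum1 : ∑ a ∈ A, ∑ b ∈ B.filter (ρ a), G a = d * ∑ a ∈ A, G a := by
    rw [Finset.mul_sum]
    apply Finset.sum_congr rfl
    intro a ha
    rw [Finset.sum_const, hA a ha, nsmul_eq_mul]
  have hdiff : ∑ a ∈ A, ∑ b ∈ B.filter (ρ a), (G a - G' b)
      = d * ∑ a ∈ A, G a - e * ∑ b ∈ B, G' b := by
    simp only [Finset.sum_sub_distrib]
    rw [hsum1, hcomm]
  have hbound : |(d : ℝ) * ∑ a ∈ A, G a - e * ∑ b ∈ B, G' b| ≤ d * A.card * x := by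
    rw [← hdiff]
    calc |∑ a ∈ A, ∑ b ∈ B.filter (ρ a), (G a - G' b)|
        ≤ ∑ a ∈ A, |∑ b ∈ B.filter (ρ a), (G a - G' b)| := Finset.abs_sum_le_sum_abs _ _
      _ ≤ ∑ a ∈ A, (d * x) := by
          apply Finset.sum_le_sum
          intro a ha
          calc |∑ b ∈ B.filter (ρ a), (G a - G' b)|
              ≤ ∑ b ∈ B.filter (ρ a), |G a - G' b| := Finset.abs_sum_le_sum_abs _ _
            _ ≤ ∑ b ∈ B.filter (ρ a), x := by
                apply Finset.sum_le_sum
                intro b hb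
                rw [mem_filter] at hb
                exact hx a ha b hb.1 hb.2
            _ = d * x := by rw [Finset.sum_const, hA a ha, nsmul_eq_mul]
      _ = d * A.card * x := by
          rw [Finset.sum_const, nsmul_eq_mul]; ring
  have hdpos : (0 : ℝ) < d := by exact_mod_cast hd
  have hkey : (d : ℝ) * ((B.card : ℝ) * ∑ a ∈ A, G a - A.card * ∑ b ∈ B, G' b)
      = B.card * ((d : ℝ) * ∑ a ∈ A, G a - e * ∑ b ∈ B, G' b) := by
    have : (d : ℝ) * (A.card * ∑ b ∈ B, G' b) = (d * A.card) * ∑ b ∈ B, G' b := by ring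
    calc (d : ℝ) * ((B.card : ℝ) * ∑ a ∈ A, G a - A.card * ∑ b ∈ B, G' b)
        = B.card * (d * ∑ a ∈ A, G a) - (d * A.card) * ∑ b ∈ B, G' b := by ring
      _ = B.card * (d * ∑ a ∈ A, G a) - (e * B.card) * ∑ b ∈ B, G' b := by rw [hcount]
      _ = _ := by ring
  have hB0 : (0 : ℝ) ≤ B.card := by positivity
  have h3 : (d : ℝ) * |(B.card : ℝ) * ∑ a ∈ A, G a - A.card * ∑ b ∈ B, G' b|
      ≤ d * (A.card * B.card * x) := by
    rw [← abs_of_pos hdpos, ← abs_mul, hkey, abs_mul, abs_of_nonneg hB0, abs_of_pos hdpos]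
    calc (B.card : ℝ) * |(d : ℝ) * ∑ a ∈ A, G a - e * ∑ b ∈ B, G' b|
        ≤ B.card * (d * A.card * x) := mul_le_mul_of_nonneg_left hbound hB0
      _ = _ := by ring
  exact le_of_mul_le_mul_left h3 hdpos

/-- The bijective special case of the double count. -/
lemma bij_count {α β : Type*} (A : Finset α) (B : Finset β) (Φ : α → β) (Ψ : β → α)
    (h1 : ∀ a ∈ A, Φ a ∈ B) (h2 : ∀ b ∈ B, Ψ b ∈ A)
    (h3 : ∀ a ∈ A, Ψ (Φ a) = a) (h4 : ∀ b ∈ B, Φ (Ψ b) = b)
    (G : α → ℝ) (G' : β → ℝ) (x : ℝ)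
    (hx : ∀ a ∈ A, |G a - G' (Φ a)| ≤ x) :
    |(B.card : ℝ) * ∑ a ∈ A, G a - A.card * ∑ b ∈ B, G' b| ≤ A.card * B.card * x := by
  classical
  have hcard : A.card = B.card := Finset.card_nbij' Φ Ψ h1 h2 h3 h4
  have hs : ∑ b ∈ B, G' b = ∑ a ∈ A, G' (Φ a) := by
    symm
    exact Finset.sum_nbij' Φ Ψ h1 h2 h3 h4 (fun _ _ => rfl)
  rw [← hcard, hs, ← mul_sub, ← Finset.sum_sub_distrib, abs_mul,
    abs_of_nonneg (by positivity : (0 : ℝ) ≤ A.card), mul_assoc]
  apply mul_le_mul_of_nonneg_left _ (by positivity)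
  calc |∑ a ∈ A, (G a - G' (Φ a))| ≤ ∑ a ∈ A, |G a - G' (Φ a)| := Finset.abs_sum_le_sum_abs _ _
    _ ≤ ∑ a ∈ A, x := Finset.sum_le_sum hx
    _ = A.card * x := by rw [Finset.sum_const, nsmul_eq_mul]

/-! ### Pure exchanges: column swaps -/

/-- Column swap applied to a row. -/
def sw (a b : C) (Y : Finset C) : Finset C := Y.image (Equiv.swap a b)

omit [Fintype C] in
lemma mem_sw {a b x : C} {Y : Finset C} : x ∈ sw a b Y ↔ Equiv.swap a b x ∈ Y := by
  simp only [sw, mem_image]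
  constructor
  · rintro ⟨y, hy, rfl⟩
    simpa using hy
  · intro h
    exact ⟨_, h, by simp⟩

omit [Fintype C] in
lemma ind_sw (a b x : C) (Y : Finset C) : ind x (sw a b Y) = ind (Equiv.swap a b x) Y := by
  simp [ind, mem_sw]

omit [Fintype C] in
lemma card_sw (a b : C) (Y : Finset C) : (sw a b Y).card = Y.card :=
  Finset.card_image_of_injective _ (Equiv.swap a b).injective

omit [Fintype C] in
lemma sw_sw (a b : C) (Y : Finset C) : sw a b (sw a b Y) = Y := by
  ext x; simp [mem_sw]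

omit [Fintype C] in
lemma sw_eq_ex {a b : C} {Y : Finset C} (ha : a ∈ Y) (hb : b ∉ Y) : sw a b Y = ex Y a b := by
  ext x
  rw [mem_sw, mem_ex]
  have hab : a ≠ b := ne_of_mem_notMem ha hb
  by_cases h1 : x = a
  · subst h1; simp [hb, hab]
  · by_cases h2 : x = b
    · subst h2; simp [ha]
    · simp [Equiv.swap_apply_of_ne_of_ne h1 h2, h1, h2]

omit [Fintype C] in
lemma sw_eq_self {a b : C} {Y : Finset C} (h : a ∈ Y ↔ b ∈ Y) : sw a b Y = Y := by
  ext x
  rw [mem_sw]
  by_cases h1 : x = a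
  · subst h1; simp [h]
  · by_cases h2 : x = b
    · subst h2; simp [h]
    · simp [Equiv.swap_apply_of_ne_of_ne h1 h2]

omit [Fintype C] in
lemma s_swap {s : C → ℕ} {a b : C} (hs : s a = s b) (x : C) : s (Equiv.swap a b x) = s x := by
  by_cases h1 : x = a
  · subst h1; simp [hs]
  · by_cases h2 : x = b
    · subst h2; simp [hs]
    · simp [Equiv.swap_apply_of_ne_of_ne h1 h2]

lemma sw_mem_Fib {s : C → ℕ} {ry rz : ℕ} {R : Finset C} {a b : C} (hs : s a = s b)
    {p : Finset C × Finset C} (hp : p ∈ Fib s ry rz R) :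
    (sw a b p.1, sw a b p.2) ∈ Fib s ry rz (sw a b R) := by
  rw [mem_Fib] at hp ⊢
  refine ⟨by simpa [card_sw] using hp.1, by simpa [card_sw] using hp.2.1, fun x => ?_⟩
  simp only [ind_sw]
  rw [hp.2.2, s_swap hs]

/-- Pure exchange: `|n' S - n S'| ≤ n n' xp`. -/
theorem pure_exchange {s : C → ℕ} {ry rz : ℕ} {R : Finset C} {a b : C}
    {Sg Sh : Finset C → Prop} {g h : Finset C → ℝ} {xp : ℝ}
    (hg : ∀ Y u v, Sg Y → Sg (ex Y u v) → u ∈ Y → v ∉ Y → s u = s v → |g Y - g (ex Y u v)| ≤ xp)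
    (hh : ∀ Y u v, Sh Y → Sh (ex Y u v) → u ∈ Y → v ∉ Y → s u = s v → |h Y - h (ex Y u v)| ≤ xp)
    (ha : a ∈ R) (hb : b ∉ R) (hs : s a = s b)
    (hS : ∀ p ∈ Fib s ry rz R, Sg p.1 ∧ Sh p.2)
    (hS' : ∀ p ∈ Fib s ry rz (ex R a b), Sg p.1 ∧ Sh p.2) :
    |((Fib s ry rz (ex R a b)).card : ℝ) * ∑ p ∈ Fib s ry rz R, (g p.1 + h p.2)
        - (Fib s ry rz R).card * ∑ p ∈ Fib s ry rz (ex R a b), (g p.1 + h p.2)|
      ≤ (Fib s ry rz R).card * (Fib s ry rz (ex R a b)).card * xp := by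
  have hR : sw a b R = ex R a b := sw_eq_ex ha hb
  have hab : a ≠ b := ne_of_mem_notMem ha hb
  have hcomm : ∀ Y : Finset C, sw a b Y = sw b a Y := by
    intro Y; simp [sw, Equiv.swap_comm]
  apply bij_count (Fib s ry rz R) (Fib s ry rz (ex R a b))
    (fun p => (sw a b p.1, sw a b p.2)) (fun p => (sw a b p.1, sw a b p.2))
  · intro p hp
    rw [← hR]; exact sw_mem_Fib hs hp
  · intro p hp
    rw [← hR] at hp
    have := sw_mem_Fib hs hp
    rwa [sw_sw] at this
  · intro p _; simp [sw_sw]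
  · intro p _; simp [sw_sw]
  · intro p hp
    have hp' : (sw a b p.1, sw a b p.2) ∈ Fib s ry rz (ex R a b) := by
      rw [← hR]; exact sw_mem_Fib hs hp
    obtain ⟨h1, h2⟩ := hS p hp
    obtain ⟨h1', h2'⟩ := hS' _ hp'
    simp only at h1' h2' ⊢
    have hca := (mem_Fib.mp hp).2.2 a
    have hcb := (mem_Fib.mp hp).2.2 b
    rw [ind_of_mem ha] at hca
    rw [ind_of_not_mem hb, hs.symm] at hcb
    have key : (b ∈ p.1 ∧ a ∉ p.1 ∧ (a ∈ p.2 ↔ b ∈ p.2)) ∨
        (b ∈ p.2 ∧ a ∉ p.2 ∧ (a ∈ p.1 ↔ b ∈ p.1)) := by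
      by_cases h1 : a ∈ p.1 <;> by_cases h2 : b ∈ p.1 <;> by_cases h3 : a ∈ p.2 <;>
        by_cases h4 : b ∈ p.2 <;> simp only [ind, h1, h2, h3, h4, if_true, if_false] at hca hcb <;>
        simp only [h1, h2, h3, h4, and_true, and_false, not_true, not_false_iff,
          or_false, false_or, iff_true, iff_false, iff_self] <;> omega
    rcases key with ⟨k1, k2, k3⟩ | ⟨k1, k2, k3⟩
    · have e1 : sw a b p.1 = ex p.1 b a := by rw [hcomm]; exact sw_eq_ex k1 k2
      have e2 : sw a b p.2 = p.2 := sw_eq_self k3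
      rw [e1] at h1' ⊢
      rw [e2]
      have := hg p.1 b a h1 h1' k1 k2 hs.symm
      have e3 : g p.1 + h p.2 - (g (ex p.1 b a) + h p.2) = g p.1 - g (ex p.1 b a) := by ring
      rwa [e3]
    · have e1 : sw a b p.2 = ex p.2 b a := by rw [hcomm]; exact sw_eq_ex k1 k2
      have e2 : sw a b p.1 = p.1 := sw_eq_self k3
      rw [e1] at h2' ⊢
      rw [e2]
      have := hh p.2 b a h2 h2' k1 k2 hs.symm
      have e3 : g p.1 + h p.2 - (g p.1 + h (ex p.2 b a)) = h p.2 - h (ex p.2 b a) := by ring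
      rwa [e3]

/-! ### Mixed exchanges: `s a = 2`, `s b = 1`. -/

section Mixed

variable {s : C → ℕ} {ry rz : ℕ} {R : Finset C} {a b : C}

/-- In `Fib R`, `a` is in exactly one of the two rows and so is `b`. -/
lemma mixed_old (ha : a ∈ R) (hb : b ∉ R) (hsa : s a = 2) (hsb : s b = 1)
    {p : Finset C × Finset C} (hp : p ∈ Fib s ry rz R) :
    ind a p.1 + ind a p.2 = 1 ∧ ind b p.1 + ind b p.2 = 1 := by
  have hca := (mem_Fib.mp hp).2.2 a
  have hcb := (mem_Fib.mp hp).2.2 b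
  rw [ind_of_mem ha] at hca
  rw [ind_of_not_mem hb] at hcb
  omega

/-- In `Fib R'`, `a` is in both rows and `b` in none. -/
lemma mixed_new (ha : a ∈ R) (hb : b ∉ R) (hsa : s a = 2) (hsb : s b = 1)
    {p : Finset C × Finset C} (hp : p ∈ Fib s ry rz (ex R a b)) :
    a ∈ p.1 ∧ a ∈ p.2 ∧ b ∉ p.1 ∧ b ∉ p.2 := by
  have hab : a ≠ b := ne_of_mem_notMem ha hb
  have hca := (mem_Fib.mp hp).2.2 a
  have hcb := (mem_Fib.mp hp).2.2 b
  rw [ind_ex] at hca hcb
  simp only [hab, if_false, if_true] at hca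
  simp only [if_true] at hcb
  have h1 := ind_le_one a p.1
  have h2 := ind_le_one a p.2
  refine ⟨ind_eq_one_iff.mp (by omega), ind_eq_one_iff.mp (by omega),
    ind_eq_zero_iff.mp (by omega), ind_eq_zero_iff.mp (by omega)⟩

/-- Type JK: `a` in the first row, `b` in the second row. -/
theorem typeJK {Sg Sh : Finset C → Prop} {g h : Finset C → ℝ} {xp xm : ℝ}
    (hh : EdgeHyp s Sh h xp xm)
    (ha : a ∈ R) (hb : b ∉ R) (hsa : s a = 2) (hsb : s b = 1)
    (hS : ∀ p ∈ Fib s ry rz R, Sg p.1 ∧ Sh p.2)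
    (hS' : ∀ p ∈ Fib s ry rz (ex R a b), Sg p.1 ∧ Sh p.2) :
    |((Fib s ry rz (ex R a b)).card : ℝ) *
          ∑ p ∈ (Fib s ry rz R).filter (fun p => a ∈ p.1 ∧ b ∉ p.1), (g p.1 + h p.2)
        - ((Fib s ry rz R).filter (fun p => a ∈ p.1 ∧ b ∉ p.1)).card *
          ∑ p ∈ Fib s ry rz (ex R a b), (g p.1 + h p.2)|
      ≤ ((Fib s ry rz R).filter (fun p => a ∈ p.1 ∧ b ∉ p.1)).card *
          (Fib s ry rz (ex R a b)).card * xm := by
  have hab : a ≠ b := ne_of_mem_notMem ha hb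
  have facts : ∀ p ∈ (Fib s ry rz R).filter (fun p => a ∈ p.1 ∧ b ∉ p.1), a ∉ p.2 ∧ b ∈ p.2 := by
    intro p hp
    rw [mem_filter] at hp
    obtain ⟨h1, h2⟩ := mixed_old ha hb hsa hsb hp.1
    rw [ind_of_mem hp.2.1] at h1
    rw [ind_of_not_mem hp.2.2] at h2
    exact ⟨ind_eq_zero_iff.mp (by omega), ind_eq_one_iff.mp (by omega)⟩
  apply bij_count _ _ (fun p => (p.1, ex p.2 b a)) (fun p => (p.1, ex p.2 a b))
  · intro p hp
    obtain ⟨k1, k2⟩ := facts p hp
    rw [mem_filter] at hp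
    obtain ⟨hp, k3, k4⟩ := hp
    rw [mem_Fib] at hp ⊢
    refine ⟨hp.1, by simp only; rw [card_ex k2 k1]; exact hp.2.1, fun x => ?_⟩
    simp only [ind_ex]
    have hx := hp.2.2 x
    by_cases hxa : x = a
    · subst hxa
      simp [hab, ind_of_mem k3, hsa]
    · by_cases hxb : x = b
      · subst hxb
        simp [hxa, ind_of_not_mem k4, hsb]
      · simp only [hxa, hxb, if_false]
        exact hx
  · intro p hp
    obtain ⟨k1, k2, k3, k4⟩ := mixed_new ha hb hsa hsb hp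
    rw [mem_filter]
    refine ⟨?_, k1, k3⟩
    rw [mem_Fib] at hp ⊢
    refine ⟨hp.1, by simp only; rw [card_ex k2 k4]; exact hp.2.1, fun x => ?_⟩
    have hx := hp.2.2 x
    simp only [ind_ex] at hx ⊢
    by_cases hxa : x = a
    · subst hxa
      simp [hab, ind_of_mem k1, ind_of_mem ha, hsa]
    · by_cases hxb : x = b
      · subst hxb
        simp [ind_of_not_mem k3, ind_of_not_mem hb, hsb]
      · simp only [hxa, hxb, if_false] at hx ⊢
        exact hx
  · intro p hp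
    obtain ⟨k1, k2⟩ := facts p hp
    simp only [ex_ex k2 k1]
  · intro p hp
    obtain ⟨k1, k2, k3, k4⟩ := mixed_new ha hb hsa hsb hp
    simp only [ex_ex k2 k4]
  · intro p hp
    obtain ⟨k1, k2⟩ := facts p hp
    have hp1 := (mem_filter.mp hp).1
    have hp' : ((p.1, ex p.2 b a) : Finset C × Finset C) ∈ Fib s ry rz (ex R a b) := by
      obtain ⟨hp, k3, k4⟩ := mem_filter.mp hp
      rw [mem_Fib] at hp ⊢
      refine ⟨hp.1, by simp only; rw [card_ex k2 k1]; exact hp.2.1, fun x => ?_⟩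
      simp only [ind_ex]
      have hx := hp.2.2 x
      by_cases hxa : x = a
      · subst hxa
        simp [hab, ind_of_mem k3, hsa]
      · by_cases hxb : x = b
        · subst hxb
          simp [hxa, ind_of_not_mem k4, hsb]
        · simp only [hxa, hxb, if_false]
          exact hx
    have h1 := (hS p hp1).2
    have h2 := (hS' _ hp').2
    have := hh.mixed p.2 b a h1 h2 k2 k1 (by omega)
    have e3 : g p.1 + h p.2 - (g p.1 + h (ex p.2 b a)) = h p.2 - h (ex p.2 b a) := by ring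
    simp only
    rwa [e3]

/-- The common part of the two rows of a pair completing `R`. -/
def Core (s : C → ℕ) (R : Finset C) : Finset C := univ.filter fun x => ind x R + 2 = s x

lemma inter_eq_core {p : Finset C × Finset C} (hp : p ∈ Fib s ry rz R) :
    p.1 ∩ p.2 = Core s R := by
  ext x
  have hx := (mem_Fib.mp hp).2.2 x
  have h1 := ind_le_one x p.1
  have h2 := ind_le_one x p.2
  simp only [mem_inter, Core, mem_filter, mem_univ, true_and]
  constructor
  · rintro ⟨k1, k2⟩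
    rw [ind_of_mem k1, ind_of_mem k2] at hx
    omega
  · intro k
    exact ⟨ind_eq_one_iff.mp (by omega), ind_eq_one_iff.mp (by omega)⟩

lemma card_sdiff_snd {p : Finset C × Finset C} (hp : p ∈ Fib s ry rz R) :
    (p.2 \ p.1).card = rz - (Core s R).card := by
  have h := Finset.card_sdiff_add_card_inter p.2 p.1
  rw [inter_comm, inter_eq_core hp, (mem_Fib.mp hp).2.1] at h
  omega

lemma card_sdiff_fst {p : Finset C × Finset C} (hp : p ∈ Fib s ry rz R) :
    (p.1 \ p.2).card = ry - (Core s R).card := by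
  have h := Finset.card_sdiff_add_card_inter p.1 p.2
  rw [inter_eq_core hp, (mem_Fib.mp hp).1] at h
  omega

/-- `Core R` is strictly smaller than the second row of any pair completing `R'`. -/
lemma core_lt (ha : a ∈ R) (hb : b ∉ R) (hsa : s a = 2) (hsb : s b = 1)
    {p : Finset C × Finset C} (hp : p ∈ Fib s ry rz (ex R a b)) :
    (Core s R).card < rz := by
  obtain ⟨k1, k2, k3, k4⟩ := mixed_new ha hb hsa hsb hp
  have hab : a ≠ b := ne_of_mem_notMem ha hb
  rw [← (mem_Fib.mp hp).2.1]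
  apply Finset.card_lt_card
  rw [Finset.ssubset_iff_of_subset]
  · refine ⟨a, k2, ?_⟩
    simp [Core, ind_of_mem ha, hsa]
  · intro x hx
    simp only [Core, mem_filter, mem_univ, true_and] at hx
    have hxa : x ≠ a := by
      rintro rfl
      rw [ind_of_mem ha, hsa] at hx; omega
    have hxb : x ≠ b := by
      rintro rfl
      rw [hsb] at hx; omega
    have hc := (mem_Fib.mp hp).2.2 x
    rw [ind_ex] at hc
    simp only [hxa, hxb, if_false] at hc
    have h1 := ind_le_one x p.1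
    exact ind_eq_one_iff.mp (by have := ind_le_one x p.2; omega)

/-- The exchange of type JJ stays in the tables. -/
lemma JJ_forward (ha : a ∈ R) (hb : b ∉ R) (hsa : s a = 2) (hsb : s b = 1)
    {p : Finset C × Finset C} (hp : p ∈ Fib s ry rz R) (h1 : a ∈ p.1) (h2 : b ∈ p.1)
    {z : C} (hz : z ∈ p.2) (hz' : z ∉ p.1) :
    ((ex p.1 b z, ex p.2 z a) : Finset C × Finset C) ∈ Fib s ry rz (ex R a b) := by
  have hab : a ≠ b := ne_of_mem_notMem ha hb
  obtain ⟨c1, c2⟩ := mixed_old ha hb hsa hsb hp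
  rw [ind_of_mem h1] at c1
  rw [ind_of_mem h2] at c2
  have ha2 : a ∉ p.2 := ind_eq_zero_iff.mp (by omega)
  have hb2 : b ∉ p.2 := ind_eq_zero_iff.mp (by omega)
  have hza : z ≠ a := fun h => ha2 (h ▸ hz)
  have hzb : z ≠ b := fun h => hb2 (h ▸ hz)
  rw [mem_Fib] at hp ⊢
  refine ⟨by simp only; rw [card_ex h2 hz']; exact hp.1,
    by simp only; rw [card_ex hz ha2]; exact hp.2.1, fun x => ?_⟩
  simp only [ind_ex]
  have hx := hp.2.2 x
  by_cases hxa : x = a
  · subst hxa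
    simp [hab, hza.symm, ind_of_mem h1, hsa]
  · by_cases hxb : x = b
    · subst hxb
      simp [hxa, hzb.symm, hsb, ind_of_not_mem hb2]
    · by_cases hxz : x = z
      · subst hxz
        simp only [hxa, hxb, if_false, if_true]
        rw [ind_of_not_mem hz', ind_of_mem hz] at hx
        omega
      · simp only [hxa, hxb, hxz, if_false]
        exact hx

/-- The inverse exchange of type JJ stays in the tables. -/
lemma JJ_backward (ha : a ∈ R) (hb : b ∉ R) (hsa : s a = 2) (hsb : s b = 1)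
    {p : Finset C × Finset C} (hp : p ∈ Fib s ry rz (ex R a b))
    {z : C} (hz : z ∈ p.1) (hz' : z ∉ p.2) :
    ((ex p.1 z b, ex p.2 a z) : Finset C × Finset C) ∈ Fib s ry rz R := by
  have hab : a ≠ b := ne_of_mem_notMem ha hb
  obtain ⟨k1, k2, k3, k4⟩ := mixed_new ha hb hsa hsb hp
  have hza : z ≠ a := fun h => hz' (h ▸ k2)
  have hzb : z ≠ b := fun h => k3 (h ▸ hz)
  rw [mem_Fib] at hp ⊢
  refine ⟨by simp only; rw [card_ex hz k3]; exact hp.1,
    by simp only; rw [card_ex k2 hz']; exact hp.2.1, fun x => ?_⟩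
  simp only [ind_ex]
  have hx := hp.2.2 x
  simp only [ind_ex] at hx
  by_cases hxa : x = a
  · subst hxa
    simp [hab, hza.symm, ind_of_mem ha, ind_of_mem k1, hsa]
  · by_cases hxb : x = b
    · subst hxb
      simp [hxa, hzb.symm, hsb, ind_of_not_mem hb, ind_of_not_mem k4]
    · by_cases hxz : x = z
      · subst hxz
        simp only [hxa, hxb, if_false, if_true] at hx ⊢
        rw [ind_of_mem hz, ind_of_not_mem hz'] at hx
        omega
      · simp only [hxa, hxb, hxz, if_false] at hx ⊢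
        exact hx

omit [Fintype C] in
lemma ex_injective_right {Y : Finset C} {u z z' : C} (hz : z ∉ Y)
    (h : ex Y u z = ex Y u z') : z = z' := by
  have : z ∈ ex Y u z' := by rw [← h]; exact mem_ex.mpr (Or.inl rfl)
  rcases mem_ex.mp this with h1 | ⟨_, h2⟩
  · exact h1
  · exact absurd h2 hz

/-- Type JJ: `a` and `b` both in the first row. -/
theorem typeJJ {Sg Sh : Finset C → Prop} {g h : Finset C → ℝ} {xp xm : ℝ}
    (hg : EdgeHyp s Sg g xp xm) (hh : EdgeHyp s Sh h xp xm)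
    (ha : a ∈ R) (hb : b ∉ R) (hsa : s a = 2) (hsb : s b = 1)
    (hS : ∀ p ∈ Fib s ry rz R, Sg p.1 ∧ Sh p.2)
    (hS' : ∀ p ∈ Fib s ry rz (ex R a b), Sg p.1 ∧ Sh p.2)
    (hne : (Fib s ry rz (ex R a b)).Nonempty) :
    |((Fib s ry rz (ex R a b)).card : ℝ) *
          ∑ p ∈ (Fib s ry rz R).filter (fun p => a ∈ p.1 ∧ b ∈ p.1), (g p.1 + h p.2)
        - ((Fib s ry rz R).filter (fun p => a ∈ p.1 ∧ b ∈ p.1)).card *
          ∑ p ∈ Fib s ry rz (ex R a b), (g p.1 + h p.2)|
      ≤ ((Fib s ry rz R).filter (fun p => a ∈ p.1 ∧ b ∈ p.1)).card *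
          (Fib s ry rz (ex R a b)).card * (xp + xm) := by
  classical
  have hab : a ≠ b := ne_of_mem_notMem ha hb
  obtain ⟨p0, hp0⟩ := hne
  have hd : 0 < rz - (Core s R).card := by
    have := core_lt ha hb hsa hsb hp0
    omega
  apply double_count _ _
    (fun (p p' : Finset C × Finset C) =>
      ∃ z, z ∈ p.2 ∧ z ∉ p.1 ∧ p'.1 = ex p.1 b z ∧ p'.2 = ex p.2 z a)
    (rz - (Core s R).card) (ry - (Core s (ex R a b)).card) hd
  · intro p hp
    obtain ⟨hpF, h1, h2⟩ := mem_filter.mp hp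
    refine (congrArg Finset.card (?_ : _ = (p.2 \ p.1).image
      (fun z => (ex p.1 b z, ex p.2 z a)))).trans ?_
    · ext p'
      simp only [mem_filter, mem_image, mem_sdiff]
      constructor
      · rintro ⟨_, z, k1, k2, k3, k4⟩
        exact ⟨z, ⟨k1, k2⟩, Prod.ext k3.symm k4.symm⟩
      · rintro ⟨z, ⟨k1, k2⟩, rfl⟩
        exact ⟨JJ_forward ha hb hsa hsb hpF h1 h2 k1 k2, z, k1, k2, rfl, rfl⟩
    · rw [Finset.card_image_of_injOn, card_sdiff_snd hpF]
      intro z hz z' hz' hzz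
      simp only [coe_sdiff, Set.mem_sdiff, mem_coe] at hz hz'
      exact ex_injective_right hz.2 (Prod.ext_iff.mp hzz).1
  · intro p' hp'
    obtain ⟨k1, k2, k3, k4⟩ := mixed_new ha hb hsa hsb hp'
    refine (congrArg Finset.card (?_ : _ = (p'.1 \ p'.2).image
      (fun z => (ex p'.1 z b, ex p'.2 a z)))).trans ?_
    · ext p
      simp only [mem_filter, mem_image, mem_sdiff]
      constructor
      · rintro ⟨⟨hp, h1, h2⟩, z, m1, m2, m3, m4⟩
        obtain ⟨c1, c2⟩ := mixed_old ha hb hsa hsb hp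
        rw [ind_of_mem h1] at c1
        rw [ind_of_mem h2] at c2
        have ha2 : a ∉ p.2 := ind_eq_zero_iff.mp (by omega)
        refine ⟨z, ⟨?_, ?_⟩, ?_⟩
        · rw [m3]; exact mem_ex.mpr (Or.inl rfl)
        · rw [m4, mem_ex]
          rintro (h5 | ⟨h5, _⟩)
          · exact ha2 (h5 ▸ m1)
          · exact h5 rfl
        · apply Prod.ext
          · simp only
            rw [m3]; exact ex_ex h2 m2
          · simp only
            rw [m4]; exact ex_ex m1 ha2
      · rintro ⟨z, ⟨m1, m2⟩, rfl⟩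
        have hzb : z ≠ b := fun h5 => k3 (h5 ▸ m1)
        have hza : z ≠ a := fun h5 => m2 (h5 ▸ k2)
        refine ⟨⟨JJ_backward ha hb hsa hsb hp' m1 m2, ?_, ?_⟩, z, ?_, ?_, ?_, ?_⟩
        · simp only; exact mem_ex.mpr (Or.inr ⟨hza.symm, k1⟩)
        · simp only; exact mem_ex.mpr (Or.inl rfl)
        · simp only; exact mem_ex.mpr (Or.inl rfl)
        · simp only
          rw [mem_ex]
          rintro (h5 | ⟨h5, _⟩)
          · exact hzb h5
          · exact h5 rfl
        · simp only; exact (ex_ex m1 k3).symm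
        · simp only; exact (ex_ex k2 m2).symm
    · rw [Finset.card_image_of_injOn, card_sdiff_fst hp']
      intro z hz z' hz' hzz
      simp only [coe_sdiff, Set.mem_sdiff, mem_coe] at hz hz'
      exact ex_injective_right hz.2 (Prod.ext_iff.mp hzz).2
  · rintro p hp p' hp' ⟨z, m1, m2, m3, m4⟩
    obtain ⟨hpF, h1, h2⟩ := mem_filter.mp hp
    obtain ⟨c1, c2⟩ := mixed_old ha hb hsa hsb hpF
    rw [ind_of_mem h1] at c1
    rw [ind_of_mem h2] at c2
    have ha2 : a ∉ p.2 := ind_eq_zero_iff.mp (by omega)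
    have hsz : s z = ind z R + 1 := by
      have hc := (mem_Fib.mp hpF).2.2 z
      rw [ind_of_not_mem m2, ind_of_mem m1] at hc
      omega
    have hzR := ind_le_one z R
    obtain ⟨s1, s2⟩ := hS p hpF
    obtain ⟨s3, s4⟩ := hS' p' hp'
    rw [m3] at s3
    rw [m4] at s4
    rw [m3, m4]
    have e3 : g p.1 + h p.2 - (g (ex p.1 b z) + h (ex p.2 z a))
        = (g p.1 - g (ex p.1 b z)) + (h p.2 - h (ex p.2 z a)) := by ring
    rw [e3]
    refine (abs_add_le _ _).trans ?_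
    by_cases hz1 : s z = 1
    · have b1 := hg.pure p.1 b z s1 s3 h2 m2 (by omega)
      have b2 := hh.mixed p.2 z a s2 s4 m1 ha2 (by omega)
      linarith
    · have b1 := hg.mixed p.1 b z s1 s3 h2 m2 (by omega)
      have b2 := hh.pure p.2 z a s2 s4 m1 ha2 (by omega)
      linarith

lemma swap_mem_Fib {p : Finset C × Finset C} (hp : p ∈ Fib s ry rz R) :
    p.swap ∈ Fib s rz ry R := by
  rw [mem_Fib] at hp ⊢
  refine ⟨hp.2.1, hp.1, fun x => ?_⟩
  have := hp.2.2 x
  simp only [Prod.fst_swap, Prod.snd_swap]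
  omega

lemma filter_swap_sum (P P' : Finset C × Finset C → Prop) [DecidablePred P] [DecidablePred P']
    (hPP' : ∀ p, P p.swap ↔ P' p) (w w' : Finset C × Finset C → ℝ) (hw : ∀ p, w p.swap = w' p) :
    ∑ p ∈ (Fib s rz ry R).filter P, w p = ∑ p ∈ (Fib s ry rz R).filter P', w' p := by
  apply Finset.sum_nbij' Prod.swap Prod.swap
  · intro p hp
    obtain ⟨h1, h2⟩ := mem_filter.mp hp
    refine mem_filter.mpr ⟨swap_mem_Fib h1, (hPP' _).mp ?_⟩
    simpa using h2
  · intro p hp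
    obtain ⟨h1, h2⟩ := mem_filter.mp hp
    exact mem_filter.mpr ⟨swap_mem_Fib h1, (hPP' _).mpr h2⟩
  · intro p _; simp
  · intro p _; simp
  · intro p _
    rw [← hw]; simp

lemma filter_swap_card (P P' : Finset C × Finset C → Prop) [DecidablePred P] [DecidablePred P']
    (hPP' : ∀ p, P p.swap ↔ P' p) :
    ((Fib s rz ry R).filter P).card = ((Fib s ry rz R).filter P').card := by
  apply Finset.card_nbij' Prod.swap Prod.swap
  · intro p hp
    obtain ⟨h1, h2⟩ := mem_filter.mp hp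
    refine mem_filter.mpr ⟨swap_mem_Fib h1, (hPP' _).mp ?_⟩
    simpa using h2
  · intro p hp
    obtain ⟨h1, h2⟩ := mem_filter.mp hp
    exact mem_filter.mpr ⟨swap_mem_Fib h1, (hPP' _).mpr h2⟩
  · intro p _; simp
  · intro p _; simp

/-- Mixed exchange: `|n' S - n S'| ≤ n n' (xp + xm)`. -/
theorem mixed_exchange {Sg Sh : Finset C → Prop} {g h : Finset C → ℝ} {xp xm : ℝ}
    (hg : EdgeHyp s Sg g xp xm) (hh : EdgeHyp s Sh h xp xm)
    (ha : a ∈ R) (hb : b ∉ R) (hsa : s a = 2) (hsb : s b = 1)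
    (hS : ∀ p ∈ Fib s ry rz R, Sg p.1 ∧ Sh p.2)
    (hS' : ∀ p ∈ Fib s ry rz (ex R a b), Sg p.1 ∧ Sh p.2)
    (hne : (Fib s ry rz (ex R a b)).Nonempty) (hxp : 0 ≤ xp) :
    |((Fib s ry rz (ex R a b)).card : ℝ) * ∑ p ∈ Fib s ry rz R, (g p.1 + h p.2)
        - (Fib s ry rz R).card * ∑ p ∈ Fib s ry rz (ex R a b), (g p.1 + h p.2)|
      ≤ (Fib s ry rz R).card * (Fib s ry rz (ex R a b)).card * (xp + xm) := by
  classical
  set F := Fib s ry rz R with hF
  set F' := Fib s ry rz (ex R a b) with hF'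
  set G : Finset C × Finset C → ℝ := fun p => g p.1 + h p.2 with hG
  set T1 := F.filter (fun p => a ∈ p.1 ∧ b ∉ p.1) with hT1
  set T2 := F.filter (fun p => a ∈ p.2 ∧ b ∉ p.2) with hT2
  set T3 := F.filter (fun p => a ∈ p.1 ∧ b ∈ p.1) with hT3
  set T4 := F.filter (fun p => a ∈ p.2 ∧ b ∈ p.2) with hT4
  have hpart : ∀ w : Finset C × Finset C → ℝ,
      ∑ p ∈ F, w p = ∑ p ∈ T1, w p + ∑ p ∈ T2, w p + ∑ p ∈ T3, w p + ∑ p ∈ T4, w p := by
    intro w
    simp only [hT1, hT2, hT3, hT4, Finset.sum_filter, ← Finset.sum_add_distrib]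
    apply Finset.sum_congr rfl
    intro p hp
    obtain ⟨c1, c2⟩ := mixed_old ha hb hsa hsb hp
    by_cases m1 : a ∈ p.1 <;> by_cases m2 : a ∈ p.2 <;> by_cases m3 : b ∈ p.1 <;>
      by_cases m4 : b ∈ p.2 <;>
      simp only [ind, m1, m2, m3, m4, if_true, if_false] at c1 c2 <;> first | omega | simp [m1, m2, m3, m4]
  have hcard : (F.card : ℝ) = T1.card + T2.card + T3.card + T4.card := by
    have := hpart (fun _ => 1)
    simpa using this
  have b1 : |(F'.card : ℝ) * ∑ p ∈ T1, G p - T1.card * ∑ p ∈ F', G p| ≤ T1.card * F'.card * (xp + xm) := by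
    refine (typeJK (Sg := Sg) hh ha hb hsa hsb hS hS').trans ?_
    apply mul_le_mul_of_nonneg_left (by linarith) (by positivity)
  have b3 : |(F'.card : ℝ) * ∑ p ∈ T3, G p - T3.card * ∑ p ∈ F', G p| ≤ T3.card * F'.card * (xp + xm) :=
    typeJJ hg hh ha hb hsa hsb hS hS' hne
  have swS : ∀ p ∈ Fib s rz ry R, Sh p.1 ∧ Sg p.2 := by
    intro p hp
    have := hS _ (swap_mem_Fib hp)
    exact ⟨this.2, this.1⟩
  have swS' : ∀ p ∈ Fib s rz ry (ex R a b), Sh p.1 ∧ Sg p.2 := by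
    intro p hp
    have := hS' _ (swap_mem_Fib hp)
    exact ⟨this.2, this.1⟩
  have swne : (Fib s rz ry (ex R a b)).Nonempty := by
    obtain ⟨p, hp⟩ := hne
    exact ⟨_, swap_mem_Fib hp⟩
  have hcF' : (Fib s rz ry (ex R a b)).card = F'.card := by
    have := filter_swap_card (s := s) (ry := ry) (rz := rz) (R := ex R a b)
      (fun _ => True) (fun _ => True) (by simp)
    simpa using this
  have hsF' : ∑ p ∈ Fib s rz ry (ex R a b), (h p.1 + g p.2) = ∑ p ∈ F', G p := by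
    have := filter_swap_sum (s := s) (ry := ry) (rz := rz) (R := ex R a b)
      (fun _ => True) (fun _ => True) (by simp) (fun p => h p.1 + g p.2) G
      (by intro p; simp [hG, add_comm])
    simpa using this
  have b2 : |(F'.card : ℝ) * ∑ p ∈ T2, G p - T2.card * ∑ p ∈ F', G p| ≤ T2.card * F'.card * (xp + xm) := by
    have key := typeJK (s := s) (ry := rz) (rz := ry) (Sg := Sh) (Sh := Sg) (g := h) (h := g) (xp := xp)
      (xm := xm) hg ha hb hsa hsb swS swS'
    have e1 : ∑ p ∈ (Fib s rz ry R).filter (fun p => a ∈ p.1 ∧ b ∉ p.1), (h p.1 + g p.2) = ∑ p ∈ T2, G p :=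
      filter_swap_sum _ _ (by intro p; simp) _ _ (by intro p; simp [hG, add_comm])
    have e2 : ((Fib s rz ry R).filter (fun p => a ∈ p.1 ∧ b ∉ p.1)).card = T2.card :=
      filter_swap_card _ _ (by intro p; simp)
    rw [e1, e2, hcF', hsF'] at key
    refine key.trans ?_
    apply mul_le_mul_of_nonneg_left (by linarith) (by positivity)
  have b4 : |(F'.card : ℝ) * ∑ p ∈ T4, G p - T4.card * ∑ p ∈ F', G p| ≤ T4.card * F'.card * (xp + xm) := by
    have key := typeJJ (s := s) (ry := rz) (rz := ry) (Sg := Sh) (Sh := Sg) (g := h) (h := g) (xp := xp)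
      (xm := xm) hh hg ha hb hsa hsb swS swS' swne
    have e1 : ∑ p ∈ (Fib s rz ry R).filter (fun p => a ∈ p.1 ∧ b ∈ p.1), (h p.1 + g p.2) = ∑ p ∈ T4, G p :=
      filter_swap_sum _ _ (by intro p; simp) _ _ (by intro p; simp [hG, add_comm])
    have e2 : ((Fib s rz ry R).filter (fun p => a ∈ p.1 ∧ b ∈ p.1)).card = T4.card :=
      filter_swap_card _ _ (by intro p; simp)
    rw [e1, e2, hcF', hsF'] at key
    exact key
  have hdecomp : (F'.card : ℝ) * ∑ p ∈ F, G p - F.card * ∑ p ∈ F', G p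
      = ((F'.card : ℝ) * ∑ p ∈ T1, G p - T1.card * ∑ p ∈ F', G p)
        + ((F'.card : ℝ) * ∑ p ∈ T2, G p - T2.card * ∑ p ∈ F', G p)
        + ((F'.card : ℝ) * ∑ p ∈ T3, G p - T3.card * ∑ p ∈ F', G p)
        + ((F'.card : ℝ) * ∑ p ∈ T4, G p - T4.card * ∑ p ∈ F', G p) := by
    rw [hpart G, hcard]; ring
  rw [hdecomp, hcard]
  refine (abs_add_le _ _).trans ?_
  have k1 := abs_add_le ((F'.card : ℝ) * ∑ p ∈ T1, G p - T1.card * ∑ p ∈ F', G p)
    ((F'.card : ℝ) * ∑ p ∈ T2, G p - T2.card * ∑ p ∈ F', G p)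
  have k2 := abs_add_le ((F'.card : ℝ) * ∑ p ∈ T1, G p - T1.card * ∑ p ∈ F', G p
    + ((F'.card : ℝ) * ∑ p ∈ T2, G p - T2.card * ∑ p ∈ F', G p))
    ((F'.card : ℝ) * ∑ p ∈ T3, G p - T3.card * ∑ p ∈ F', G p)
  nlinarith [b1, b2, b3, b4, k1, k2]

end Mixed

end Crest.Agent.Lib.Switch.ThreeRow
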