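import Crest.Agent.Lib.Switch.LgeP
import Crest.Agent.Lib.Switch.XDefs

/-!
# S0453, Part X, piece B: the Johnson sum.

For a fixed ordered pair `a ≠ b`:
`∑_{c,e} Mpi d f a b c e ≤ (1/2) ∑_{c,e} DD d f a b c e`.
-/

set_option autoImplicit false
set_option linter.unusedSimpArgs false
set_option linter.unusedVariables false

namespace Crest.Agent.Lib.Switch.XJohnson

open Finset Crest.SwitchChain Crest.Agent.Lib.Switch Crest.Agent.Lib.Switch.XDefs
open Crest.Agent.Lib.Switch.LgeP Crest.Agent.SwitchJohnson

variable {n : ℕ}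

/-! ### Ordered pairs to unordered pairs -/

/-- Ordered pairs of distinct elements vs. two-element subsets. -/
lemma sum_ordered_pairs {α : Type*} [DecidableEq α] (F : Finset α) (T : Finset α → ℝ) :
    ∑ c ∈ F, ∑ e ∈ F, (if c ≠ e then T {c, e} else 0) = 2 * ∑ s ∈ F.powersetCard 2, T s := by
  have e1 : ∑ c ∈ F, ∑ e ∈ F, (if c ≠ e then T {c, e} else 0) =
      ∑ p ∈ F.offDiag, T {p.1, p.2} := by
    have h : F.offDiag = (F ×ˢ F).filter (fun p => p.1 ≠ p.2) := by
      ext p
      simp only [mem_offDiag, mem_filter, mem_product, and_assoc]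
    rw [h, Finset.sum_filter, Finset.sum_product]
  rw [e1]
  have hm : ∀ p ∈ F.offDiag, ({p.1, p.2} : Finset α) ∈ F.powersetCard 2 := by
    intro p hp
    obtain ⟨h1, h2, h3⟩ := mem_offDiag.1 hp
    rw [mem_powersetCard]
    refine ⟨?_, card_pair h3⟩
    intro t ht
    simp only [mem_insert, mem_singleton] at ht
    rcases ht with rfl | rfl
    · exact h1
    · exact h2
  rw [← Finset.sum_fiberwise_of_maps_to hm, Finset.mul_sum]
  refine Finset.sum_congr rfl fun s hs => ?_
  have hf : ∀ p ∈ F.offDiag.filter (fun p => ({p.1, p.2} : Finset α) = s),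
      T {p.1, p.2} = T s := by
    intro p hp
    rw [(mem_filter.1 hp).2]
  rw [Finset.sum_congr rfl hf, Finset.sum_const, nsmul_eq_mul]
  obtain ⟨hsF, hs2⟩ := mem_powersetCard.1 hs
  obtain ⟨u, v, huv, rfl⟩ := Finset.card_eq_two.1 hs2
  have hu : u ∈ F := hsF (by simp)
  have hv : v ∈ F := hsF (by simp)
  have : F.offDiag.filter (fun p => ({p.1, p.2} : Finset α) = {u, v}) = {(u, v), (v, u)} := by
    ext ⟨x, y⟩
    simp only [mem_filter, mem_offDiag, mem_insert, mem_singleton, Prod.mk.injEq]
    constructor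
    · rintro ⟨⟨hx, hy, hxy⟩, h⟩
      have hxm : x ∈ ({u, v} : Finset α) := h ▸ (by simp)
      have hym : y ∈ ({u, v} : Finset α) := h ▸ (by simp)
      simp only [mem_insert, mem_singleton] at hxm hym
      rcases hxm with rfl | rfl <;> rcases hym with rfl | rfl
      · exact absurd rfl hxy
      · exact Or.inl ⟨rfl, rfl⟩
      · exact Or.inr ⟨rfl, rfl⟩
      · exact absurd rfl hxy
    · rintro (⟨rfl, rfl⟩ | ⟨rfl, rfl⟩)
      · exact ⟨⟨hu, hv, huv⟩, rfl⟩
      · exact ⟨⟨hv, hu, huv.symm⟩, Finset.pair_comm _ _⟩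
  rw [this, card_pair]
  · norm_num
  · intro h
    exact huv (Prod.mk.inj h).1

/-! ### The fibre -/

section Fibre

variable {G : Finset (Edge n)} {a b : Fin n}

/-- The distinctness condition. -/
def PP (a b c e : Fin n) : Prop := a ≠ c ∧ a ≠ e ∧ b ≠ c ∧ b ≠ e ∧ c ≠ e

lemma not_adj_of_not_free (hab : a ≠ b) {X : Finset (Fin n)} {c : Fin n} (hac : a ≠ c) (hbc : b ≠ c)
    (hc : c ∉ freeSet G a b) : ¬ (Adj (fill G a b X) a c ∧ ¬ Adj (fill G a b X) b c) ∧
      ¬ (Adj (fill G a b X) b c ∧ ¬ Adj (fill G a b X) a c) := by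
  classical
  have hp := pairRel_fill (G := G) hab X
  have h1 := hp.2.2 c hac.symm hbc.symm
  have h2 : bit G a c + bit G b c ≠ 1 := fun h => hc (mem_freeSet.2 ⟨hac.symm, hbc.symm, h⟩)
  rw [h1] at h2
  unfold bit at h2
  constructor
  · rintro ⟨h3, h4⟩
    simp [h3, h4] at h2
  · rintro ⟨h3, h4⟩
    simp [h3, h4] at h2

lemma dPlus_fill_iff (hab : a ≠ b) {X : Finset (Fin n)} {c e : Fin n} (hP : PP a b c e) :
    DPlus (fill G a b X) a b c e ↔
      c ∈ freeSet G a b ∧ e ∈ freeSet G a b ∧ c ∈ X ∧ e ∉ X := by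
  obtain ⟨hac, hae, hbc, hbe, hce⟩ := hP
  by_cases hc : c ∈ freeSet G a b
  · by_cases he : e ∈ freeSet G a b
    · unfold DPlus
      rw [adj_fill_a hab hc, adj_fill_b hab he, adj_fill_a hab he, adj_fill_b hab hc]
      simp only [hc, he, true_and, not_not]
      tauto
    · have := (not_adj_of_not_free (G := G) (X := X) hab hae hbe he).2
      simp only [DPlus, hc, he, false_and, and_false, iff_false, true_and]
      tauto
  · have := (not_adj_of_not_free (G := G) (X := X) hab hac hbc hc).1
    simp only [DPlus, hc, false_and, iff_false]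
    tauto

lemma inter_pair_card_iff {X : Finset (Fin n)} {c e : Fin n} (hce : c ≠ e) :
    (X ∩ {c, e}).card = 1 ↔ (c ∈ X ∧ e ∉ X) ∨ (e ∈ X ∧ c ∉ X) := by
  by_cases h1 : c ∈ X <;> by_cases h2 : e ∈ X
  · have : X ∩ {c, e} = {c, e} := by
      ext t; simp only [mem_inter, mem_insert, mem_singleton]
      constructor
      · exact fun h => h.2
      · rintro (rfl | rfl)
        · exact ⟨h1, Or.inl rfl⟩
        · exact ⟨h2, Or.inr rfl⟩
    rw [this, card_pair hce]; simp [h1, h2]
  · have : X ∩ {c, e} = {c} := by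
      ext t; simp only [mem_inter, mem_insert, mem_singleton]
      constructor
      · rintro ⟨h, rfl | rfl⟩
        · rfl
        · exact absurd h h2
      · rintro rfl
        exact ⟨h1, Or.inl rfl⟩
    rw [this]; simp [h1, h2]
  · have : X ∩ {c, e} = {e} := by
      ext t; simp only [mem_inter, mem_insert, mem_singleton]
      constructor
      · rintro ⟨h, rfl | rfl⟩
        · exact absurd h h1
        · rfl
      · rintro rfl
        exact ⟨h2, Or.inr rfl⟩
    rw [this]; simp [h1, h2]
  · have : X ∩ {c, e} = ∅ := by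
      ext t; simp only [mem_inter, mem_insert, mem_singleton, notMem_empty, iff_false]
      rintro ⟨h, rfl | rfl⟩
      · exact h1 h
      · exact h2 h
    rw [this]; simp [h1, h2]

lemma isD_fill_iff (hab : a ≠ b) {X : Finset (Fin n)} {c e : Fin n} (hP : PP a b c e) :
    IsD (fill G a b X) a b c e ↔
      c ∈ freeSet G a b ∧ e ∈ freeSet G a b ∧ (X ∩ {c, e}).card = 1 := by
  obtain ⟨hac, hae, hbc, hbe, hce⟩ := id hP
  have hP' : PP a b e c := ⟨hae, hac, hbe, hbc, hce.symm⟩
  unfold IsD
  rw [dPlus_fill_iff hab hP, dPlus_fill_iff hab hP', inter_pair_card_iff hce]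
  tauto

/-- `flip` of a fill is a fill. -/
lemma flip_fill (hab : a ≠ b) {X : Finset (Fin n)} (hX : X ⊆ freeSet G a b) {c e : Fin n}
    (hc : c ∈ X) (he : e ∈ freeSet G a b) (heX : e ∉ X) :
    flip a b c e (fill G a b X) = fill G a b (insert e (X.erase c)) := by
  have hcF := hX hc
  obtain ⟨hca, hcb, -⟩ := mem_freeSet.1 hcF
  obtain ⟨hea, heb, -⟩ := mem_freeSet.1 he
  have hce : c ≠ e := fun h => heX (h ▸ hc)
  have hfa : a ∉ freeSet G a b := fun h => (mem_freeSet.1 h).1 rfl
  have hfb : b ∉ freeSet G a b := fun h => (mem_freeSet.1 h).2.1 rfl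
  set H := fill G a b X with hH
  set Y := insert e (X.erase c) with hY
  have hmemY : ∀ t, t ∈ Y ↔ t = e ∨ (t ≠ c ∧ t ∈ X) := by
    intro t; simp [hY, mem_insert, mem_erase]
  have ha : ∀ v, Adj (fill G a b Y) a v ↔ (Adj H a v ∧ v ≠ c) ∨ v = e := by
    intro v
    by_cases hv : v ∈ freeSet G a b
    · rw [adj_fill_a hab hv, adj_fill_a hab hv, hmemY]
      tauto
    · have hvx : v ≠ c := fun h => hv (h ▸ hcF)
      have hvy : v ≠ e := fun h => hv (h ▸ he)
      have e1 : Adj (fill G a b Y) a v ↔ Adj G a v := adj_fill_other (fun h => hv h.2)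
        (fun h => hfa h.2) (fun h => hab h.1) (fun h => hfa h.2)
      have e2 : Adj H a v ↔ Adj G a v := adj_fill_other (fun h => hv h.2)
        (fun h => hfa h.2) (fun h => hab h.1) (fun h => hfa h.2)
      rw [e1, e2]
      tauto
  have hb : ∀ v, Adj (fill G a b Y) b v ↔ (Adj H b v ∧ v ≠ e) ∨ v = c := by
    intro v
    by_cases hv : v ∈ freeSet G a b
    · rw [adj_fill_b hab hv, adj_fill_b hab hv, hmemY]
      by_cases hvx : v = c
      · subst hvx; simp [hc, hce]
      by_cases hvy : v = e
      · subst hvy; simp [heX, hce.symm]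
      simp [hvx, hvy]
    · have hvx : v ≠ c := fun h => hv (h ▸ hcF)
      have hvy : v ≠ e := fun h => hv (h ▸ he)
      have e1 : Adj (fill G a b Y) b v ↔ Adj G b v := adj_fill_other (fun h => hab.symm h.1)
        (fun h => hfb h.2) (fun h => hv h.2) (fun h => hfb h.2)
      have e2 : Adj H b v ↔ Adj G b v := adj_fill_other (fun h => hab.symm h.1)
        (fun h => hfb h.2) (fun h => hv h.2) (fun h => hfb h.2)
      rw [e1, e2]
      tauto
  refine graph_ext fun u v => ?_
  rw [adj_flip hea.symm hcb.symm]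
  unfold flipRel
  by_cases hua : u = a
  · subst hua
    rw [ha]
    have := hab.symm
    have := hca.symm
    have := hea.symm
    simp_all
  by_cases hub : u = b
  · subst hub
    rw [hb]
    have := hcb.symm
    have := heb.symm
    simp_all
  by_cases hva : v = a
  · subst hva
    rw [adj_comm (G := H), adj_comm (G := fill G v b Y), ha]
    simp_all
  by_cases hvb : v = b
  · subst hvb
    rw [adj_comm (G := H), adj_comm (G := fill G a v Y), hb]
    simp_all
  · have e1 : Adj (fill G a b Y) u v ↔ Adj G u v := adj_fill_other (fun h => hua h.1)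
      (fun h => hva h.1) (fun h => hub h.1) (fun h => hvb h.1)
    have e2 : Adj H u v ↔ Adj G u v := adj_fill_other (fun h => hua h.1)
      (fun h => hva h.1) (fun h => hub h.1) (fun h => hvb h.1)
    rw [e1, e2]
    simp [hua, hub, hva, hvb]

end Fibre

/-! ### The class inequality -/

section ClassIneq

variable {d : Fin n → ℕ} {a b : Fin n} {f : Finset (Edge n) → ℝ}

open Classical in
/-- The `Mpi` summand at a graph. -/
noncomputable def FF (d : Fin n → ℕ) (f : Finset (Edge n) → ℝ) (a b : Fin n)
    (H : Finset (Edge n)) : ℝ :=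
  ∑ c, ∑ e, if PP a b c e then
    (if IsD H a b c e then
      avg (OmD d a b c e) (PairRel a b) (resid (realizations d) (PairRel a b) f) H ^ 2 else 0)
    else 0

open Classical in
/-- The `DD` summand at a graph. -/
noncomputable def HH (f : Finset (Edge n) → ℝ) (a b : Fin n) (H : Finset (Edge n)) : ℝ :=
  ∑ c, ∑ e, if PP a b c e then
    (if DPlus H a b c e then (f H - f (flip a b c e H)) ^ 2 else 0) else 0

open Classical in
lemma sum_FF (hab : a ≠ b) :
    ∑ H ∈ realizations d, FF d f a b H =
      ∑ c, ∑ e, if PP a b c e then Mpi d f a b c e else 0 := by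
  unfold FF Mpi OmD
  rw [Finset.sum_comm]
  refine Finset.sum_congr rfl fun c _ => ?_
  rw [Finset.sum_comm]
  refine Finset.sum_congr rfl fun e _ => ?_
  by_cases hP : PP a b c e
  · simp only [if_pos hP]
    rw [Finset.sum_filter]
  · simp only [if_neg hP, Finset.sum_const_zero]

open Classical in
lemma sum_HH (hab : a ≠ b) :
    ∑ H ∈ realizations d, HH f a b H =
      ∑ c, ∑ e, if PP a b c e then DD d f a b c e else 0 := by
  unfold HH DD
  rw [Finset.sum_comm]
  refine Finset.sum_congr rfl fun c _ => ?_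
  rw [Finset.sum_comm]
  refine Finset.sum_congr rfl fun e _ => ?_
  by_cases hP : PP a b c e
  · simp only [if_pos hP]
    rw [Finset.sum_filter]
  · simp only [if_neg hP, Finset.sum_const_zero]

variable {G : Finset (Edge n)}

lemma not_mem_free_left : a ∉ freeSet G a b := fun h => (mem_freeSet.1 h).1 rfl
lemma not_mem_free_right : b ∉ freeSet G a b := fun h => (mem_freeSet.1 h).2.1 rfl

lemma pp_of_free {c e : Fin n} (hc : c ∈ freeSet G a b) (he : e ∈ freeSet G a b) (hce : c ≠ e) :
    PP a b c e := by
  obtain ⟨h1, h2, -⟩ := mem_freeSet.1 hc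
  obtain ⟨h3, h4, -⟩ := mem_freeSet.1 he
  exact ⟨h1.symm, h3.symm, h2.symm, h4.symm, hce⟩

/-- On a class, `Q` is `f` minus a constant. -/
lemma resid_fill (hab : a ≠ b) (hG : G ∈ realizations d) {X : Finset (Fin n)}
    (hX : X ∈ (freeSet G a b).powersetCard (state G a b).card) :
    resid (realizations d) (PairRel a b) f (fill G a b X) =
      f (fill G a b X) - avg (realizations d) (PairRel a b) f G := by
  have hequiv := pairRel_isEquivOn (n := n) a b (realizations d)
  have hm : fill G a b X ∈ realizations d :=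
    fill_mem_realizations hab hG (mem_powersetCard.1 hX).1 (mem_powersetCard.1 hX).2
  unfold resid
  rw [hequiv.avg_eq hm hG (pairRel_fill hab X).symm]

lemma fill_inj (hab : a ≠ b) :
    Set.InjOn (fill G a b) (((freeSet G a b).powersetCard (state G a b).card : Finset _) :
      Set (Finset (Fin n))) := by
  intro X hX Y hY h
  exact fill_injOn hab (mem_powersetCard.1 (mem_coe.1 hX)).1 (mem_powersetCard.1 (mem_coe.1 hY)).1 h

open Classical in
/-- The diagonal part of a `π`-class is the image of `Dset`. -/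
lemma cls_D_eq (hab : a ≠ b) (hG : G ∈ realizations d) {c e : Fin n} (hP : PP a b c e)
    (hc : c ∈ freeSet G a b) (he : e ∈ freeSet G a b) {X : Finset (Fin n)}
    (hX : X ∈ Dset (freeSet G a b) (state G a b).card {c, e}) :
    cls (OmD d a b c e) (PairRel a b) (fill G a b X) =
      (Dset (freeSet G a b) (state G a b).card {c, e}).image (fill G a b) := by
  ext H
  simp only [mem_cls, mem_image]
  have hXJ := (mem_filter.1 hX).1
  constructor
  · rintro ⟨hH, hr⟩
    obtain ⟨hHΩ, hHD⟩ := mem_filter.1 hH
    have hr' : PairRel a b G H := (pairRel_fill hab X).trans hr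
    have hHc : H ∈ cls (realizations d) (PairRel a b) G := mem_cls.2 ⟨hHΩ, hr'⟩
    rw [cls_eq_image hab hG] at hHc
    obtain ⟨Y, hY, rfl⟩ := mem_image.1 hHc
    refine ⟨Y, mem_filter.2 ⟨hY, ?_⟩, rfl⟩
    exact ((isD_fill_iff hab hP).1 hHD).2.2
  · rintro ⟨Y, hY, rfl⟩
    obtain ⟨hYJ, hYc⟩ := mem_filter.1 hY
    refine ⟨mem_filter.2 ⟨?_, ?_⟩, ?_⟩
    · exact fill_mem_realizations hab hG (mem_powersetCard.1 hYJ).1 (mem_powersetCard.1 hYJ).2
    · exact (isD_fill_iff hab hP).2 ⟨hc, he, hYc⟩
    · exact (pairRel_fill hab X).symm.trans (pairRel_fill hab Y)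

/-- The function on the Johnson scheme. -/
noncomputable def gg (d : Fin n → ℕ) (f : Finset (Edge n) → ℝ) (G : Finset (Edge n)) (a b : Fin n)
    (X : Finset (Fin n)) : ℝ :=
  resid (realizations d) (PairRel a b) f (fill G a b X)

open Classical in
lemma avg_D (hab : a ≠ b) (hG : G ∈ realizations d) {c e : Fin n} (hP : PP a b c e)
    (hc : c ∈ freeSet G a b) (he : e ∈ freeSet G a b) {X : Finset (Fin n)}
    (hX : X ∈ Dset (freeSet G a b) (state G a b).card {c, e}) :
    avg (OmD d a b c e) (PairRel a b) (resid (realizations d) (PairRel a b) f) (fill G a b X) =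
      (∑ Y ∈ Dset (freeSet G a b) (state G a b).card {c, e}, gg d f G a b Y) /
        ((Dset (freeSet G a b) (state G a b).card {c, e}).card : ℝ) := by
  have hinj : Set.InjOn (fill G a b)
      ((Dset (freeSet G a b) (state G a b).card {c, e} : Finset _) : Set (Finset (Fin n))) := by
    intro Y hY Z hZ h
    exact fill_inj hab (mem_coe.2 (mem_filter.1 (mem_coe.1 hY)).1)
      (mem_coe.2 (mem_filter.1 (mem_coe.1 hZ)).1) h
  unfold avg
  rw [cls_D_eq hab hG hP hc he hX, sum_image hinj, card_image_of_injOn hinj]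
  rfl

open Classical in
/-- One `(c,e)`: sum over the class of the `Mpi` summand. -/
lemma class_term (hab : a ≠ b) (hG : G ∈ realizations d) {c e : Fin n} (hP : PP a b c e) :
    ∑ X ∈ (freeSet G a b).powersetCard (state G a b).card,
      (if IsD (fill G a b X) a b c e then
        avg (OmD d a b c e) (PairRel a b) (resid (realizations d) (PairRel a b) f)
          (fill G a b X) ^ 2 else 0) =
      if c ∈ freeSet G a b ∧ e ∈ freeSet G a b then
        (∑ Y ∈ Dset (freeSet G a b) (state G a b).card {c, e}, gg d f G a b Y) ^ 2 /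
          ((Dset (freeSet G a b) (state G a b).card {c, e}).card : ℝ)
      else 0 := by
  by_cases hce : c ∈ freeSet G a b ∧ e ∈ freeSet G a b
  · obtain ⟨hc, he⟩ := hce
    rw [if_pos ⟨hc, he⟩]
    have e1 : ∀ X ∈ (freeSet G a b).powersetCard (state G a b).card,
        (if IsD (fill G a b X) a b c e then
          avg (OmD d a b c e) (PairRel a b) (resid (realizations d) (PairRel a b) f)
            (fill G a b X) ^ 2 else 0) =
        if (X ∩ {c, e}).card = 1 then
          ((∑ Y ∈ Dset (freeSet G a b) (state G a b).card {c, e}, gg d f G a b Y) /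
            ((Dset (freeSet G a b) (state G a b).card {c, e}).card : ℝ)) ^ 2 else 0 := by
      intro X hX
      by_cases h : (X ∩ {c, e}).card = 1
      · rw [if_pos h, if_pos ((isD_fill_iff hab hP).2 ⟨hc, he, h⟩)]
        rw [avg_D hab hG hP hc he (mem_filter.2 ⟨hX, h⟩)]
      · rw [if_neg h, if_neg (fun h' => h ((isD_fill_iff hab hP).1 h').2.2)]
    rw [Finset.sum_congr rfl e1, ← Finset.sum_filter, Finset.sum_const, nsmul_eq_mul]
    change ((Dset _ _ _).card : ℝ) * _ = _
    set D := Dset (freeSet G a b) (state G a b).card {c, e}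
    set S := ∑ Y ∈ D, gg d f G a b Y
    by_cases h0 : (D.card : ℝ) = 0
    · simp [h0]
    · field_simp
  · rw [if_neg hce]
    refine Finset.sum_eq_zero fun X _ => ?_
    rw [if_neg]
    intro h
    exact hce ⟨((isD_fill_iff hab hP).1 h).1, ((isD_fill_iff hab hP).1 h).2.1⟩

open Classical in
/-- `HH` on a fill is the Johnson energy at `X`. -/
lemma HH_fill (hab : a ≠ b) (hG : G ∈ realizations d) {X : Finset (Fin n)}
    (hX : X ∈ (freeSet G a b).powersetCard (state G a b).card) :
    HH f a b (fill G a b X) =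
      ∑ c ∈ X, ∑ e ∈ freeSet G a b \ X,
        (gg d f G a b X - gg d f G a b (insert e (X.erase c))) ^ 2 := by
  have hXF := (mem_powersetCard.1 hX).1
  have hXk := (mem_powersetCard.1 hX).2
  unfold HH
  have e1 : ∀ c e : Fin n, (if PP a b c e then
      (if DPlus (fill G a b X) a b c e then
        (f (fill G a b X) - f (flip a b c e (fill G a b X))) ^ 2 else 0) else 0) =
      if c ∈ X then (if e ∈ freeSet G a b \ X then
        (gg d f G a b X - gg d f G a b (insert e (X.erase c))) ^ 2 else 0) else 0 := by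
    intro c e
    by_cases hc : c ∈ X
    · rw [if_pos hc]
      by_cases he : e ∈ freeSet G a b \ X
      · rw [if_pos he]
        obtain ⟨heF, heX⟩ := mem_sdiff.1 he
        have hP : PP a b c e := pp_of_free (hXF hc) heF (fun h => heX (h ▸ hc))
        rw [if_pos hP, if_pos ((dPlus_fill_iff hab hP).2 ⟨hXF hc, heF, hc, heX⟩),
          flip_fill hab hXF hc heF heX]
        have hY : insert e (X.erase c) ∈ (freeSet G a b).powersetCard (state G a b).card := by
          rw [mem_powersetCard]
          refine ⟨?_, ?_⟩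
          · intro t ht
            rcases mem_insert.1 ht with rfl | ht
            · exact heF
            · exact hXF (mem_of_mem_erase ht)
          · rw [card_insert_of_notMem (fun h => heX (mem_of_mem_erase h)), card_erase_of_mem hc, hXk]
            have : 0 < X.card := card_pos.2 ⟨c, hc⟩
            omega
        unfold gg
        rw [resid_fill hab hG hX, resid_fill hab hG hY]
        ring
      · rw [if_neg he]
        by_cases hP : PP a b c e
        · rw [if_pos hP, if_neg]
          intro h
          obtain ⟨h1, h2, h3, h4⟩ := (dPlus_fill_iff hab hP).1 h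
          exact he (mem_sdiff.2 ⟨h2, h4⟩)
        · rw [if_neg hP]
    · rw [if_neg hc]
      by_cases hP : PP a b c e
      · rw [if_pos hP, if_neg]
        intro h
        exact hc ((dPlus_fill_iff hab hP).1 h).2.2.1
      · rw [if_neg hP]
  simp only [e1]
  have e2 : ∀ c : Fin n, (∑ e : Fin n, if c ∈ X then (if e ∈ freeSet G a b \ X then
        (gg d f G a b X - gg d f G a b (insert e (X.erase c))) ^ 2 else 0) else 0) =
      if c ∈ X then ∑ e ∈ freeSet G a b \ X,
        (gg d f G a b X - gg d f G a b (insert e (X.erase c))) ^ 2 else 0 := by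
    intro c
    by_cases hc : c ∈ X
    · simp only [if_pos hc]
      rw [Finset.sum_ite_mem, Finset.univ_inter]
    · simp only [if_neg hc, Finset.sum_const_zero]
  simp only [e2]
  rw [Finset.sum_ite_mem, Finset.univ_inter]

open Classical in
/-- The class inequality. -/
theorem class_ineq (hab : a ≠ b) (hG : G ∈ realizations d) :
    ∑ H ∈ cls (realizations d) (PairRel a b) G, FF d f a b H ≤
      1 / 2 * ∑ H ∈ cls (realizations d) (PairRel a b) G, HH f a b H := by
  set F := freeSet G a b with hF
  set k := (state G a b).card with hk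
  set J := F.powersetCard k with hJ
  have hequiv := pairRel_isEquivOn (n := n) a b (realizations d)
  have hC : cls (realizations d) (PairRel a b) G = J.image (fill G a b) := cls_eq_image hab hG
  have hinj : Set.InjOn (fill G a b) (J : Set (Finset (Fin n))) := fill_inj hab
  set g := gg d f G a b with hg
  -- mean zero
  have hmean : ∑ X ∈ J, g X = 0 := by
    have h1 : ∑ X ∈ J, g X = ∑ X ∈ J,
        (f (fill G a b X) - avg (realizations d) (PairRel a b) f G) :=
      Finset.sum_congr rfl fun X hX => resid_fill hab hG hX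
    rw [h1, ← sum_image (f := fun H => f H - avg (realizations d) (PairRel a b) f G) hinj, ← hC,
      sum_sub_distrib, sum_const, nsmul_eq_mul]
    have hcard := hequiv.card_pos hG
    unfold avg
    field_simp
    ring
  have hM := M_le F k g hmean
  -- HH side
  have hH : ∑ H ∈ cls (realizations d) (PairRel a b) G, HH f a b H = E2 F k g := by
    rw [hC, sum_image hinj]
    exact Finset.sum_congr rfl fun X hX => HH_fill hab hG hX
  -- FF side
  have hFF : ∑ H ∈ cls (realizations d) (PairRel a b) G, FF d f a b H =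
      2 * ∑ s ∈ F.powersetCard 2, (∑ x ∈ Dset F k s, g x) ^ 2 / ((Dset F k s).card : ℝ) := by
    rw [hC, sum_image hinj]
    unfold FF
    rw [Finset.sum_comm]
    have e1 : ∀ c : Fin n, (∑ X ∈ J, ∑ e : Fin n, if PP a b c e then
        (if IsD (fill G a b X) a b c e then
          avg (OmD d a b c e) (PairRel a b) (resid (realizations d) (PairRel a b) f)
            (fill G a b X) ^ 2 else 0) else 0) =
        ∑ e : Fin n, if PP a b c e then
          (if c ∈ F ∧ e ∈ F then
            (∑ Y ∈ Dset F k {c, e}, g Y) ^ 2 / ((Dset F k {c, e}).card : ℝ) else 0) else 0 := by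
      intro c
      rw [Finset.sum_comm]
      refine Finset.sum_congr rfl fun e _ => ?_
      by_cases hP : PP a b c e
      · simp only [if_pos hP]
        exact class_term hab hG hP
      · simp only [if_neg hP, Finset.sum_const_zero]
    simp only [e1]
    rw [← sum_ordered_pairs F (fun s => (∑ Y ∈ Dset F k s, g Y) ^ 2 / ((Dset F k s).card : ℝ))]
    have e2 : ∀ c : Fin n, (∑ e : Fin n, if PP a b c e then
          (if c ∈ F ∧ e ∈ F then
            (∑ Y ∈ Dset F k {c, e}, g Y) ^ 2 / ((Dset F k {c, e}).card : ℝ) else 0) else 0) =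
        if c ∈ F then ∑ e ∈ F, if c ≠ e then
            (∑ Y ∈ Dset F k {c, e}, g Y) ^ 2 / ((Dset F k {c, e}).card : ℝ) else 0 else 0 := by
      intro c
      by_cases hc : c ∈ F
      · rw [if_pos hc]
        have e3 : (∑ e ∈ F, if c ≠ e then
            (∑ Y ∈ Dset F k {c, e}, g Y) ^ 2 / ((Dset F k {c, e}).card : ℝ) else 0) =
            ∑ e : Fin n, if e ∈ F then (if c ≠ e then
            (∑ Y ∈ Dset F k {c, e}, g Y) ^ 2 / ((Dset F k {c, e}).card : ℝ) else 0) else 0 := by
          rw [Finset.sum_ite_mem, Finset.univ_inter]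
        rw [e3]
        refine Finset.sum_congr rfl fun e _ => ?_
        by_cases he : e ∈ F
        · rw [if_pos he]
          by_cases hce : c = e
          · rw [if_neg (not_not.2 hce), if_neg (fun h : PP a b c e => h.2.2.2.2 hce)]
          · rw [if_pos hce, if_pos (pp_of_free hc he hce), if_pos ⟨hc, he⟩]
        · rw [if_neg he]
          by_cases hP : PP a b c e
          · rw [if_pos hP, if_neg (fun h => he h.2)]
          · rw [if_neg hP]
      · rw [if_neg hc]
        refine Finset.sum_eq_zero fun e _ => ?_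
        by_cases hP : PP a b c e
        · rw [if_pos hP, if_neg (fun h => hc h.1)]
        · rw [if_neg hP]
    simp only [e2]
    rw [Finset.sum_ite_mem, Finset.univ_inter]
  rw [hFF, hH]
  linarith

end ClassIneq

open Classical in
/-- **Piece B**. -/
theorem johnson_sum_PP {a b : Fin n} (hab : a ≠ b) (d : Fin n → ℕ) (f : Finset (Edge n) → ℝ) :
    (∑ c, ∑ e, if PP a b c e then Mpi d f a b c e else 0) ≤
      1 / 2 * ∑ c, ∑ e, if PP a b c e then DD d f a b c e else 0 := by
  have hequiv := pairRel_isEquivOn (n := n) a b (realizations d)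
  rw [← sum_FF hab, ← sum_HH hab, ← hequiv.sum_eq_sum_avg (FF d f a b),
    ← hequiv.sum_eq_sum_avg (HH f a b), Finset.mul_sum]
  refine Finset.sum_le_sum fun G hG => ?_
  have hpos := hequiv.card_pos hG
  unfold avg
  rw [← mul_div_assoc]
  exact div_le_div_of_nonneg_right (class_ineq hab hG) hpos.le

open Classical in
/-- **Piece B**, inline form. -/
theorem johnson_sum {a b : Fin n} (hab : a ≠ b) (d : Fin n → ℕ) (f : Finset (Edge n) → ℝ) :
    (∑ c, ∑ e, if a ≠ c ∧ a ≠ e ∧ b ≠ c ∧ b ≠ e ∧ c ≠ e then Mpi d f a b c e else 0) ≤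
      1 / 2 * ∑ c, ∑ e, if a ≠ c ∧ a ≠ e ∧ b ≠ c ∧ b ≠ e ∧ c ≠ e then DD d f a b c e else 0 := by
  have h := johnson_sum_PP hab d f
  convert h using 6 <;> rfl

end Crest.Agent.Lib.Switch.XJohnson
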