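import Crest.Agent.Lib.Switch.XSum
import Crest.Agent.Lib.Switch.XJohnson
import Crest.Agent.Lib.Switch.PartZ
import Crest.Agent.Lib.Switch.LgeP

/-!
# S0453: top-level assembly, from Piece A of Part X.
-/

set_option autoImplicit false

namespace Crest.Agent.Lib.Switch.Top

open Finset Crest.SwitchChain
open Crest.Agent.Lib.Switch.XDefs

variable {n : ℕ}

open Classical in
theorem hB_form (d : Fin n → ℕ) (f : Finset (Edge n) → ℝ) (a b : Fin n) (hab : a ≠ b) :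
    (∑ c, ∑ e, if c ≠ e ∧ c ≠ a ∧ c ≠ b ∧ e ≠ a ∧ e ≠ b then Mpi d f a b c e else 0) ≤
      (1 / 2 : ℝ) * ∑ c, ∑ e, if c ≠ e ∧ c ≠ a ∧ c ≠ b ∧ e ≠ a ∧ e ≠ b then
        DD d f a b c e else 0 := by
  have hiff : ∀ c e : Fin n, (c ≠ e ∧ c ≠ a ∧ c ≠ b ∧ e ≠ a ∧ e ≠ b) ↔
      (a ≠ c ∧ a ≠ e ∧ b ≠ c ∧ b ≠ e ∧ c ≠ e) := by
    intro c e
    constructor
    · rintro ⟨h1, h2, h3, h4, h5⟩
      exact ⟨h2.symm, h4.symm, h3.symm, h5.symm, h1⟩
    · rintro ⟨h1, h2, h3, h4, h5⟩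
      exact ⟨h5, h1.symm, h3.symm, h2.symm, h4.symm⟩
  simp only [hiff]
  exact XJohnson.johnson_sum hab d f

/-- The frozen statement from Piece A. -/
theorem result_of_pieceA (n : ℕ) (hn : 4 ≤ n) (d : Fin n → ℕ) (hd : (realizations d).Nonempty)
    (hA : ∀ (f : Finset (Edge n) → ℝ) (a b c e : Fin n), a ≠ b → a ≠ c → a ≠ e → b ≠ c → b ≠ e →
      c ≠ e → DD d f a b c e - Mpi d f a b c e - Mpi d f c e a b ≤ 2 * Final.W d f a b c e) :
    (∃ t : ℕ, t ≤ 2 * n ^ 8 ∧ ∀ G ∈ realizations d,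
        tvDist (fun G' => (kernel n ^ t) G G') (unifOn (realizations d)) ≤ 1 / 4) ∧
      ∀ f : Finset (Edge n) → ℝ,
        ((realizations d).card : ℝ) * (∑ G ∈ realizations d, f G ^ 2) -
            (∑ G ∈ realizations d, f G) ^ 2 ≤
          24 * (n : ℝ) ^ 2 * (n.choose 4 : ℝ) * (realizations d).card *
            ∑ G ∈ realizations d,
              f G * (f G - ∑ G' ∈ realizations d, kernel n G G' * f G') :=
  Final.result_of_parts n hn d hd
    (fun f a b c hab hac hbc => PartZ.hZ d f a b c hab hac hbc)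
    (fun f => XSum.hX_of_pieces d f (hA f) (hB_form d f))
    (fun f => LgeP.LgeP_ordered d f)

end Crest.Agent.Lib.Switch.Top
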