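import Crest.Agent.Lib.Switch.Basic
import Crest.Agent.Lib.Switch.ThreeRowDefs

/-!
# S0453, Part Z: a triple fibre is a three-row table

For an injective `w : Fin 3 → Fin n`, the fibres of the relation `TripleRel w`
(all cells off the triple agree, all column sums agree) inside `realizations d` are identified with
`tables s r` on the columns `Option (Fin n)`: column `some x` records `x ~ w l`
(only for `x` off the triple), the virtual column `none` has entry `1 - bit (w (l+1)) (w (l+2))`
in row `l`. Pair averages become row means.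

Output: `triple_nonneg`: the cross terms of `Q_π`, `π` inside the triple, have nonnegative sum, given the
corresponding statement on tables.
-/

set_option autoImplicit false

namespace Crest.Agent.Lib.Switch.Triple

open Finset Crest.SwitchChain
open Crest.Agent.Lib.Switch
open Crest.Agent.Lib.Switch.ThreeRow

open scoped Classical

variable {n : ℕ}

/-- `x` is off the triple. -/
def off (w : Fin 3 → Fin n) (x : Fin n) : Prop := ∀ l, x ≠ w l

lemma fin3_a (i : Fin 3) : i + 1 + 1 = i + 2 := by revert i; decide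
lemma fin3_b (i : Fin 3) : i + 1 + 2 = i := by revert i; decide
lemma fin3_c (i : Fin 3) : i + 2 + 1 = i := by revert i; decide
lemma fin3_d (i : Fin 3) : i + 2 + 2 = i + 1 := by revert i; decide
lemma fin3_e (i : Fin 3) : i ≠ i + 1 := by revert i; decide
lemma fin3_f (i : Fin 3) : i ≠ i + 2 := by revert i; decide
lemma fin3_g (i : Fin 3) : i + 1 ≠ i + 2 := by revert i; decide
lemma fin3_h (k l : Fin 3) : l + 1 = k + 1 → k = l := by revert k l; decide
lemma fin3_i (k l : Fin 3) : l + 1 = k + 2 → l + 2 = k + 1 → False := by revert k l; decide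
lemma fin3_cases (i k : Fin 3) : k = i ∨ k = i + 1 ∨ k = i + 2 := by revert i k; decide

lemma sum3 (g : Fin 3 → ℕ) (i : Fin 3) : ∑ l, g l = g i + g (i + 1) + g (i + 2) := by
  fin_cases i <;> simp [Fin.sum_univ_three] <;> omega

variable {w : Fin 3 → Fin n}

lemma split_sum (hw : Function.Injective w) (g : Fin n → ℕ) :
    ∑ u, g u = ∑ l, g (w l) + ∑ u, if off w u then g u else 0 := by
  have h1 : ∑ u, g u = ∑ u ∈ univ.image w, g u + ∑ u ∈ univ.filter (fun u => u ∉ univ.image w), g u := by
    rw [← sum_filter_add_sum_filter_not univ (fun u => u ∈ univ.image w) g]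
    congr 1
    apply sum_congr _ (fun _ _ => rfl)
    ext u; simp
  rw [h1, sum_image (fun a _ b _ h => hw h), sum_filter]
  congr 1
  apply sum_congr rfl
  intro u _
  have : u ∉ univ.image w ↔ off w u := by
    simp only [mem_image, mem_univ, true_and, not_exists, off]
    constructor
    · intro h l hl; exact h l hl.symm
    · intro h l hl; exact h l hl.symm
  simp only [this]

lemma bit_congr {G G' : Finset (Edge n)} {x y x' y' : Fin n}
    (h : Adj G x y ↔ Adj G' x' y') : bit G x y = bit G' x' y' := by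
  unfold bit
  simp only [h]

/-- The row `i` of `G`: neighbours of `w i` off the triple, plus the virtual column when
the opposite cell is empty. -/
noncomputable def tbl (w : Fin 3 → Fin n) (G : Finset (Edge n)) (i : Fin 3) : Finset (Option (Fin n)) :=
  univ.filter fun c => match c with
    | some x => off w x ∧ Adj G (w i) x
    | none => ¬ Adj G (w (i + 1)) (w (i + 2))

lemma mem_tbl_some {G : Finset (Edge n)} {i : Fin 3} {x : Fin n} :
    some x ∈ tbl w G i ↔ off w x ∧ Adj G (w i) x := by
  simp [tbl]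

lemma mem_tbl_none {G : Finset (Edge n)} {i : Fin 3} :
    none ∈ tbl w G i ↔ ¬ Adj G (w (i + 1)) (w (i + 2)) := by
  simp [tbl]

/-- `S G l`: number of neighbours of `w l` off the triple. -/
noncomputable def S (w : Fin 3 → Fin n) (G : Finset (Edge n)) (l : Fin 3) : ℕ :=
  ∑ x, if off w x then bit G (w l) x else 0

/-- `B G l`: the cell opposite to `l`. -/
noncomputable def B (w : Fin 3 → Fin n) (G : Finset (Edge n)) (l : Fin 3) : ℕ :=
  bit G (w (l + 1)) (w (l + 2))

/-- `nb G l = 1 - B G l`. -/
noncomputable def nb (w : Fin 3 → Fin n) (G : Finset (Edge n)) (l : Fin 3) : ℕ :=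
  if none ∈ tbl w G l then 1 else 0

lemma nb_eq (G : Finset (Edge n)) (l : Fin 3) :
    nb w G l = if Adj G (w (l + 1)) (w (l + 2)) then 0 else 1 := by
  unfold nb
  simp only [mem_tbl_none]
  by_cases h : Adj G (w (l + 1)) (w (l + 2)) <;> simp [h]

lemma nb_add_B (G : Finset (Edge n)) (l : Fin 3) : nb w G l + B w G l = 1 := by
  rw [nb_eq]
  unfold B bit
  by_cases h : Adj G (w (l + 1)) (w (l + 2)) <;> simp [h]

lemma card_tbl (G : Finset (Edge n)) (l : Fin 3) : (tbl w G l).card = nb w G l + S w G l := by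
  rw [nb_eq]
  unfold tbl S
  rw [card_filter, Fintype.sum_option]
  congr 1
  · by_cases h : Adj G (w (l + 1)) (w (l + 2)) <;> simp [h]
  · apply sum_congr rfl
    intro x _
    by_cases h1 : off w x <;> by_cases h2 : Adj G (w l) x <;> simp [h1, h2, bit]

/-- Degree of a row vertex. -/
lemma deg_row (hw : Function.Injective w) (G : Finset (Edge n)) (l : Fin 3) :
    deg G (w l) = S w G l + B w G (l + 1) + B w G (l + 2) := by
  rw [deg_eq_sum_bit, split_sum hw, sum3 _ l, bit_self]
  unfold B S
  rw [fin3_a, fin3_b, fin3_c, fin3_d, bit_comm G (w (l + 2)) (w l)]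
  omega

/-- Degree of an off vertex. -/
lemma deg_off (hw : Function.Injective w) (G : Finset (Edge n)) (v : Fin n) :
    deg G v = (∑ l, bit G (w l) v) + ∑ u, if off w u then bit G v u else 0 := by
  rw [deg_eq_sum_bit, split_sum hw]
  congr 1
  exact sum_congr rfl fun l _ => bit_comm _ _ _

/-- Sum of the virtual column. -/
noncomputable def nbs (w : Fin 3 → Fin n) (G : Finset (Edge n)) : ℕ := ∑ l, nb w G l

lemma deg_add_nbs (hw : Function.Injective w) (G : Finset (Edge n)) (l : Fin 3) :
    deg G (w l) + nbs w G = (tbl w G l).card + 2 := by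
  rw [deg_row hw, card_tbl]
  unfold nbs
  rw [sum3 _ l]
  have h1 := nb_add_B (w := w) G (l + 1)
  have h2 := nb_add_B (w := w) G (l + 2)
  omega

/-- The total off-triple row mass is a sum over columns. -/
lemma sum_S (G : Finset (Edge n)) :
    ∑ l, S w G l = ∑ x, if off w x then ∑ l, bit G (w l) x else 0 := by
  unfold S
  rw [sum_comm]
  apply sum_congr rfl
  intro x _
  by_cases h : off w x <;> simp [h]

lemma sum_deg (hw : Function.Injective w) (G : Finset (Edge n)) :
    (∑ l, deg G (w l)) + 2 * nbs w G = (∑ l, S w G l) + 6 := by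
  have h0 := deg_add_nbs hw G 0
  have h1 := deg_add_nbs hw G 1
  have h2 := deg_add_nbs hw G 2
  rw [card_tbl] at h0 h1 h2
  simp only [Fin.sum_univ_three]
  unfold nbs at *
  simp only [Fin.sum_univ_three] at *
  omega

/-- The relation defining triple fibres. -/
def TripleRel (w : Fin 3 → Fin n) (G G' : Finset (Edge n)) : Prop :=
  (∀ x y, off w x → off w y → bit G x y = bit G' x y) ∧
    ∀ x, off w x → ∑ l, bit G (w l) x = ∑ l, bit G' (w l) x

lemma tripleRel_isEquivOn (w : Fin 3 → Fin n) (Ω : Finset (Finset (Edge n))) :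
    IsEquivOn Ω (TripleRel w) :=
  ⟨fun _ _ => ⟨fun _ _ _ _ => rfl, fun _ _ => rfl⟩,
    fun _ _ _ _ h => ⟨fun x y hx hy => (h.1 x y hx hy).symm, fun x hx => (h.2 x hx).symm⟩,
    fun _ _ _ _ _ _ h h' => ⟨fun x y hx hy => (h.1 x y hx hy).trans (h'.1 x y hx hy),
      fun x hx => (h.2 x hx).trans (h'.2 x hx)⟩⟩

variable {d : Fin n → ℕ}

lemma deg_of_mem {G : Finset (Edge n)} (hG : G ∈ realizations d) (v : Fin n) : deg G v = d v :=
  (mem_filter.1 hG).2 v

lemma nbs_eq (hw : Function.Injective w) {G G' : Finset (Edge n)} (hG : G ∈ realizations d)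
    (hG' : G' ∈ realizations d) (h : TripleRel w G G') : nbs w G = nbs w G' := by
  have h1 := sum_deg hw G
  have h2 := sum_deg hw G'
  have h3 : ∑ l, S w G l = ∑ l, S w G' l := by
    rw [sum_S, sum_S]
    apply sum_congr rfl
    intro x _
    by_cases hx : off w x
    · simp only [hx, if_true]; exact h.2 x hx
    · simp [hx]
  have h4 : ∑ l, deg G (w l) = ∑ l, deg G' (w l) :=
    sum_congr rfl fun l _ => by rw [deg_of_mem hG, deg_of_mem hG']
  omega

lemma card_tbl_eq (hw : Function.Injective w) {G G' : Finset (Edge n)} (hG : G ∈ realizations d)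
    (hG' : G' ∈ realizations d) (h : TripleRel w G G') (l : Fin 3) :
    (tbl w G l).card = (tbl w G' l).card := by
  have h1 := deg_add_nbs hw G l
  have h2 := deg_add_nbs hw G' l
  rw [deg_of_mem hG] at h1
  rw [deg_of_mem hG'] at h2
  have := nbs_eq hw hG hG' h
  omega

/-- Column sums of a table. -/
noncomputable def colS (T : Fin 3 → Finset (Option (Fin n))) (c : Option (Fin n)) : ℕ :=
  ∑ l, if c ∈ T l then 1 else 0

lemma colS_tbl_none (G : Finset (Edge n)) : colS (tbl w G) none = nbs w G := rfl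

lemma colS_tbl_some (G : Finset (Edge n)) (x : Fin n) :
    colS (tbl w G) (some x) = if off w x then ∑ l, bit G (w l) x else 0 := by
  unfold colS
  by_cases h : off w x
  · simp only [mem_tbl_some, h, true_and, if_true]
    exact sum_congr rfl fun l _ => rfl
  · simp [mem_tbl_some, h]

lemma colS_eq (hw : Function.Injective w) {G G' : Finset (Edge n)} (hG : G ∈ realizations d)
    (hG' : G' ∈ realizations d) (h : TripleRel w G G') (c : Option (Fin n)) :
    colS (tbl w G) c = colS (tbl w G') c := by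
  cases c with
  | none => rw [colS_tbl_none, colS_tbl_none]; exact nbs_eq hw hG hG' h
  | some x =>
    rw [colS_tbl_some, colS_tbl_some]
    by_cases hx : off w x
    · simp only [hx, if_true]; exact h.2 x hx
    · simp [hx]

/-- The tables of the fibre through `G₀`. -/
lemma tbl_isTable (hw : Function.Injective w) {G₀ G : Finset (Edge n)} (hG₀ : G₀ ∈ realizations d)
    (hG : G ∈ realizations d) (h : TripleRel w G₀ G) :
    IsTable (colS (tbl w G₀)) (fun l => (tbl w G₀ l).card) (tbl w G) := by
  refine ⟨fun l => (card_tbl_eq hw hG₀ hG h l).symm, fun c => ?_⟩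
  exact (colS_eq hw hG₀ hG h c).symm

lemma off_ne_row {x : Fin n} (h : off w x) (l : Fin 3) : w l ≠ x := fun hc => h l hc.symm

lemma row_ne (hw : Function.Injective w) {k l : Fin 3} (h : k ≠ l) : w k ≠ w l := fun hc => h (hw hc)

/-- A vertex is off or in a row. -/
lemma off_or (x : Fin n) : off w x ∨ ∃ l, x = w l := by
  by_cases h : off w x
  · exact Or.inl h
  · unfold off at h; push Not at h; exact Or.inr h

/-- Pair relation implies triple relation. -/
lemma tripleRel_of_pairRel (hw : Function.Injective w) {G G' : Finset (Edge n)} {i : Fin 3}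
    (h : PairRel (w (i + 1)) (w (i + 2)) G G') : TripleRel w G G' := by
  refine ⟨fun x y hx hy => h.1 x y (hx _) (hx _) (hy _) (hy _), fun x hx => ?_⟩
  rw [sum3 _ i, sum3 _ i]
  have h1 := h.1 (w i) x (row_ne hw (fin3_e i)) (row_ne hw (fin3_f i)) (hx _) (hx _)
  have h2 := h.2.2 x (hx _) (hx _)
  omega

lemma tbl_eq_of_pairRel (hw : Function.Injective w) {G G' : Finset (Edge n)} {i : Fin 3}
    (h : PairRel (w (i + 1)) (w (i + 2)) G G') : tbl w G i = tbl w G' i := by
  ext c
  cases c with
  | none =>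
    rw [mem_tbl_none, mem_tbl_none, ← bit_eq_zero, ← bit_eq_zero, h.2.1]
  | some x =>
    rw [mem_tbl_some, mem_tbl_some]
    by_cases hx : off w x
    · have h1 := h.1 (w i) x (row_ne hw (fin3_e i)) (row_ne hw (fin3_f i)) (hx _) (hx _)
      simp only [hx, true_and]
      rw [← bit_eq_one, ← bit_eq_one, h1]
    · simp [hx]

lemma bit_of_tbl_some {G G' : Finset (Edge n)} {i : Fin 3} (h : tbl w G i = tbl w G' i) {x : Fin n}
    (hx : off w x) : bit G (w i) x = bit G' (w i) x := by
  have := Finset.ext_iff.1 h (some x)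
  simp only [mem_tbl_some, hx, true_and] at this
  exact bit_congr this

lemma B_of_tbl {G G' : Finset (Edge n)} {i : Fin 3} (h : tbl w G i = tbl w G' i) :
    B w G i = B w G' i := by
  have := Finset.ext_iff.1 h none
  simp only [mem_tbl_none, not_iff_not] at this
  exact bit_congr this

lemma pairRel_of_tbl_eq (hw : Function.Injective w) {G G' : Finset (Edge n)} {i : Fin 3}
    (hG : G ∈ realizations d) (hG' : G' ∈ realizations d) (h : TripleRel w G G')
    (ht : tbl w G i = tbl w G' i) : PairRel (w (i + 1)) (w (i + 2)) G G' := by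
  have hrow : ∀ x, off w x → bit G (w i) x = bit G' (w i) x := fun x hx => bit_of_tbl_some ht hx
  have hB := B_of_tbl ht
  refine ⟨?_, hB, ?_⟩
  · intro x y h1 h2 h3 h4
    have hxx : off w x ∨ x = w i := by
      rcases off_or (w := w) x with hx | ⟨l, rfl⟩
      · exact Or.inl hx
      · rcases fin3_cases i l with rfl | rfl | rfl
        · exact Or.inr rfl
        · exact (h1 rfl).elim
        · exact (h2 rfl).elim
    have hyy : off w y ∨ y = w i := by
      rcases off_or (w := w) y with hx | ⟨l, rfl⟩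
      · exact Or.inl hx
      · rcases fin3_cases i l with rfl | rfl | rfl
        · exact Or.inr rfl
        · exact (h3 rfl).elim
        · exact (h4 rfl).elim
    rcases hxx with hx | rfl <;> rcases hyy with hy | rfl
    · exact h.1 x y hx hy
    · rw [bit_comm G, bit_comm G']; exact hrow x hx
    · exact hrow y hy
    · rw [bit_self, bit_self]
  · intro x h1 h2
    rcases off_or (w := w) x with hx | ⟨l, rfl⟩
    · have h3 := h.2 x hx
      rw [sum3 _ i, sum3 _ i, hrow x hx] at h3
      omega
    · rcases fin3_cases i l with rfl | rfl | rfl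
      · have h3 := nbs_eq hw hG hG' h
        unfold nbs at h3
        rw [sum3 _ l, sum3 _ l] at h3
        have a0 := nb_add_B (w := w) G l
        have a1 := nb_add_B (w := w) G (l + 1)
        have a2 := nb_add_B (w := w) G (l + 2)
        have b0 := nb_add_B (w := w) G' l
        have b1 := nb_add_B (w := w) G' (l + 1)
        have b2 := nb_add_B (w := w) G' (l + 2)
        unfold B at a1 a2 b1 b2
        rw [fin3_a, fin3_b] at a1 b1
        rw [fin3_c, fin3_d] at a2 b2
        have c1 := bit_comm G (w (l + 1)) (w l)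
        have c2 := bit_comm G' (w (l + 1)) (w l)
        have c3 := bit_comm G (w (l + 2)) (w l)
        have c4 := bit_comm G' (w (l + 2)) (w l)
        omega
      · exact (h1 rfl).elim
      · exact (h2 rfl).elim

/-- `tbl` is injective on a triple fibre. -/
lemma eq_of_tbl_eq (hw : Function.Injective w) {G G' : Finset (Edge n)}
    (h : TripleRel w G G') (ht : tbl w G = tbl w G') : G = G' := by
  have hrow : ∀ l x, off w x → bit G (w l) x = bit G' (w l) x := fun l x hx =>
    bit_of_tbl_some (congrFun ht l) hx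
  have hB : ∀ l, B w G l = B w G' l := fun l => B_of_tbl (congrFun ht l)
  apply graph_ext_bit
  intro x y
  rcases off_or (w := w) x with hx | ⟨k, rfl⟩ <;> rcases off_or (w := w) y with hy | ⟨l, rfl⟩
  · exact h.1 x y hx hy
  · rw [bit_comm G, bit_comm G']; exact hrow l x hx
  · exact hrow k y hy
  · rcases fin3_cases k l with rfl | rfl | rfl
    · rw [bit_self, bit_self]
    · have := hB (k + 2)
      unfold B at this
      rwa [fin3_c, fin3_d] at this
    · have := hB (k + 1)
      unfold B at this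
      rw [fin3_a, fin3_b] at this
      rw [bit_comm G, bit_comm G']
      exact this

/-! ### The inverse: from a table to a graph -/

/-- The adjacency relation of the graph of a table. -/
def grRel (w : Fin 3 → Fin n) (G₀ : Finset (Edge n)) (T : Fin 3 → Finset (Option (Fin n)))
    (x y : Fin n) : Prop :=
  (off w x ∧ off w y ∧ Adj G₀ x y) ∨ (∃ l, x = w l ∧ off w y ∧ some y ∈ T l) ∨
    (∃ l, y = w l ∧ off w x ∧ some x ∈ T l) ∨
    ∃ l, ((x = w (l + 1) ∧ y = w (l + 2)) ∨ (x = w (l + 2) ∧ y = w (l + 1))) ∧ none ∉ T l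

lemma grRel_symm {G₀ : Finset (Edge n)} {T : Fin 3 → Finset (Option (Fin n))} (x y : Fin n)
    (h : grRel w G₀ T x y) : grRel w G₀ T y x := by
  rcases h with ⟨h1, h2, h3⟩ | ⟨l, h1, h2, h3⟩ | ⟨l, h1, h2, h3⟩ | ⟨l, h1, h2⟩
  · exact Or.inl ⟨h2, h1, h3.symm⟩
  · exact Or.inr (Or.inr (Or.inl ⟨l, h1, h2, h3⟩))
  · exact Or.inr (Or.inl ⟨l, h1, h2, h3⟩)
  · refine Or.inr (Or.inr (Or.inr ⟨l, ?_, h2⟩))
    rcases h1 with ⟨a, b⟩ | ⟨a, b⟩
    · exact Or.inr ⟨b, a⟩
    · exact Or.inl ⟨b, a⟩

/-- The graph of a table. -/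
noncomputable def gr (w : Fin 3 → Fin n) (G₀ : Finset (Edge n))
    (T : Fin 3 → Finset (Option (Fin n))) : Finset (Edge n) :=
  ofRel (grRel w G₀ T)

lemma gr_adj {G₀ : Finset (Edge n)} {T : Fin 3 → Finset (Option (Fin n))} {x y : Fin n} :
    Adj (gr w G₀ T) x y ↔ x ≠ y ∧ grRel w G₀ T x y :=
  adj_ofRel grRel_symm

lemma gr_adj_off {G₀ : Finset (Edge n)} {T : Fin 3 → Finset (Option (Fin n))} {x y : Fin n}
    (hx : off w x) (hy : off w y) : Adj (gr w G₀ T) x y ↔ Adj G₀ x y := by
  rw [gr_adj]
  constructor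
  · rintro ⟨-, ⟨-, -, h⟩ | ⟨l, h1, -⟩ | ⟨l, h1, -⟩ | ⟨l, h1, -⟩⟩
    · exact h
    · exact (hx l h1).elim
    · exact (hy l h1).elim
    · rcases h1 with ⟨a, -⟩ | ⟨a, -⟩
      · exact (hx _ a).elim
      · exact (hx _ a).elim
  · intro h
    exact ⟨h.ne, Or.inl ⟨hx, hy, h⟩⟩

lemma gr_adj_row (hw : Function.Injective w) {G₀ : Finset (Edge n)}
    {T : Fin 3 → Finset (Option (Fin n))} {l : Fin 3} {x : Fin n} (hx : off w x) :
    Adj (gr w G₀ T) (w l) x ↔ some x ∈ T l := by
  rw [gr_adj]
  constructor
  · rintro ⟨-, ⟨h, -, -⟩ | ⟨k, h1, -, h3⟩ | ⟨k, h1, -⟩ | ⟨k, h1, -⟩⟩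
    · exact (h l rfl).elim
    · rwa [hw h1]
    · exact (hx k h1).elim
    · rcases h1 with ⟨-, a⟩ | ⟨-, a⟩
      · exact (hx _ a).elim
      · exact (hx _ a).elim
  · intro h
    exact ⟨off_ne_row hx l, Or.inr (Or.inl ⟨l, rfl, hx, h⟩)⟩

lemma gr_adj_B (hw : Function.Injective w) {G₀ : Finset (Edge n)}
    {T : Fin 3 → Finset (Option (Fin n))} {l : Fin 3} :
    Adj (gr w G₀ T) (w (l + 1)) (w (l + 2)) ↔ none ∉ T l := by
  rw [gr_adj]
  have hne : w (l + 1) ≠ w (l + 2) := row_ne hw (fin3_g l)
  constructor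
  · rintro ⟨-, ⟨h, -, -⟩ | ⟨k, -, h, -⟩ | ⟨k, -, h, -⟩ | ⟨k, h1, h2⟩⟩
    · exact (h _ rfl).elim
    · exact (h _ rfl).elim
    · exact (h _ rfl).elim
    · rcases h1 with ⟨a, b⟩ | ⟨a, b⟩
      · have : k = l := fin3_h k l (hw a)
        rwa [← this]
      · exact (fin3_i k l (hw a) (hw b)).elim
  · intro h
    exact ⟨hne, Or.inr (Or.inr (Or.inr ⟨l, Or.inl ⟨rfl, rfl⟩, h⟩))⟩

/-- Tables with the column sums of `G₀` use only off columns. -/
lemma off_of_mem {G₀ : Finset (Edge n)} {T : Fin 3 → Finset (Option (Fin n))}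
    (hT : ∀ c, colS T c = colS (tbl w G₀) c) {l : Fin 3} {x : Fin n} (hm : some x ∈ T l) :
    off w x := by
  by_contra hx
  have h1 := hT (some x)
  rw [colS_tbl_some, if_neg hx] at h1
  unfold colS at h1
  have h2 : (if some x ∈ T l then 1 else 0) ≤ ∑ l, if some x ∈ T l then 1 else 0 :=
    single_le_sum (f := fun l => if some x ∈ T l then 1 else 0) (fun _ _ => Nat.zero_le _)
      (mem_univ l)
  rw [if_pos hm] at h2
  omega

lemma tbl_gr (hw : Function.Injective w) {G₀ : Finset (Edge n)}
    {T : Fin 3 → Finset (Option (Fin n))} (hT : ∀ c, colS T c = colS (tbl w G₀) c) :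
    tbl w (gr w G₀ T) = T := by
  funext l
  ext c
  cases c with
  | none =>
    rw [mem_tbl_none, gr_adj_B hw, not_not]
  | some x =>
    rw [mem_tbl_some]
    constructor
    · rintro ⟨hx, h⟩
      exact (gr_adj_row hw hx).1 h
    · intro h
      have hx := off_of_mem hT h
      exact ⟨hx, (gr_adj_row hw hx).2 h⟩

lemma colS_of_isTable {s : Option (Fin n) → ℕ} {r : Fin 3 → ℕ}
    {T : Fin 3 → Finset (Option (Fin n))} (h : IsTable s r T) (c : Option (Fin n)) :
    colS T c = s c := h.2 c

lemma tripleRel_gr (hw : Function.Injective w) {G₀ : Finset (Edge n)}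
    {T : Fin 3 → Finset (Option (Fin n))} (hT : ∀ c, colS T c = colS (tbl w G₀) c) :
    TripleRel w G₀ (gr w G₀ T) := by
  refine ⟨fun x y hx hy => bit_congr (gr_adj_off hx hy).symm, fun x hx => ?_⟩
  have h1 := hT (some x)
  rw [colS_tbl_some, if_pos hx] at h1
  rw [← h1]
  unfold colS
  apply sum_congr rfl
  intro l _
  unfold bit
  simp only [gr_adj_row hw hx]

lemma gr_mem (hw : Function.Injective w) {G₀ : Finset (Edge n)} (hG₀ : G₀ ∈ realizations d)
    {T : Fin 3 → Finset (Option (Fin n))} (hT : ∀ c, colS T c = colS (tbl w G₀) c)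
    (hr : ∀ l, (T l).card = (tbl w G₀ l).card) : gr w G₀ T ∈ realizations d := by
  refine mem_filter.2 ⟨mem_univ _, fun v => ?_⟩
  have htbl := tbl_gr hw hT
  rcases off_or (w := w) v with hv | ⟨l, rfl⟩
  · rw [deg_off hw, ← deg_of_mem hG₀ v, deg_off hw G₀]
    congr 1
    · exact (tripleRel_gr hw hT).2 v hv |>.symm
    · apply sum_congr rfl
      intro u _
      by_cases hu : off w u
      · simp only [hu, if_true]
        exact bit_congr (gr_adj_off hv hu)
      · simp [hu]
  · have h1 := deg_add_nbs hw (gr w G₀ T) l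
    have h2 := deg_add_nbs hw G₀ l
    rw [htbl, hr] at h1
    have h3 : nbs w (gr w G₀ T) = nbs w G₀ := by
      rw [← colS_tbl_none, ← colS_tbl_none, htbl]
      exact hT none
    rw [← deg_of_mem hG₀ (w l)]
    omega

/-! ### Transport of averages -/

/-- The pair class through `G` is the row-class through `tbl G`, transported. -/
lemma image_cls (hw : Function.Injective w) {G₀ G : Finset (Edge n)} (hG₀ : G₀ ∈ realizations d)
    (hG : G ∈ realizations d) (h : TripleRel w G₀ G) (i : Fin 3) :
    (cls (realizations d) (PairRel (w (i + 1)) (w (i + 2))) G).image (tbl w) =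
      (tables (colS (tbl w G₀)) (fun l => (tbl w G₀ l).card)).filter
        (fun t' => t' i = tbl w G i) := by
  ext T
  simp only [mem_image, mem_filter, mem_cls, mem_tables]
  constructor
  · rintro ⟨G', ⟨hG', hp⟩, rfl⟩
    have h' : TripleRel w G G' := tripleRel_of_pairRel hw hp
    have h'' : TripleRel w G₀ G' := (tripleRel_isEquivOn w (realizations d)).trans _ hG₀ _ hG _ hG' h h'
    exact ⟨tbl_isTable hw hG₀ hG' h'', (tbl_eq_of_pairRel hw hp).symm⟩
  · rintro ⟨hT, hi⟩
    have hc : ∀ c, colS T c = colS (tbl w G₀) c := hT.2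
    have hr : ∀ l, (T l).card = (tbl w G₀ l).card := hT.1
    have hm := gr_mem hw hG₀ hc hr
    have htr := tripleRel_gr hw hc
    have htbl := tbl_gr hw hc
    refine ⟨gr w G₀ T, ⟨hm, ?_⟩, htbl⟩
    have hGG : TripleRel w G (gr w G₀ T) :=
      (tripleRel_isEquivOn w (realizations d)).trans _ hG _ hG₀ _ hm
        ((tripleRel_isEquivOn w (realizations d)).symm _ hG₀ _ hG h) htr
    refine pairRel_of_tbl_eq hw hG hm hGG ?_
    rw [htbl, hi]

lemma gr_tbl (hw : Function.Injective w) {G₀ G : Finset (Edge n)} (hG₀ : G₀ ∈ realizations d)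
    (hG : G ∈ realizations d) (h : TripleRel w G₀ G) : gr w G₀ (tbl w G) = G := by
  have hc : ∀ c, colS (tbl w G) c = colS (tbl w G₀) c := fun c => (colS_eq hw hG₀ hG h c).symm
  have htr := tripleRel_gr hw hc
  have hm := gr_mem hw hG₀ hc (fun l => (card_tbl_eq hw hG₀ hG h l).symm)
  refine (eq_of_tbl_eq hw ?_ (tbl_gr hw hc)).symm ▸ rfl
  exact (tripleRel_isEquivOn w (realizations d)).trans _ hm _ hG₀ _ hG
    ((tripleRel_isEquivOn w (realizations d)).symm _ hG₀ _ hm htr) h

lemma tbl_injOn_cls (hw : Function.Injective w) {G : Finset (Edge n)} (i : Fin 3) :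
    Set.InjOn (tbl w) (cls (realizations d) (PairRel (w (i + 1)) (w (i + 2))) G : Set _) := by
  intro G1 h1 G2 h2 ht
  have h1' := (mem_cls.1 (Finset.mem_coe.1 h1))
  have h2' := (mem_cls.1 (Finset.mem_coe.1 h2))
  have h12 : PairRel (w (i + 1)) (w (i + 2)) G1 G2 := h1'.2.symm.trans h2'.2
  exact eq_of_tbl_eq hw (tripleRel_of_pairRel hw h12) ht

/-- Pair averages on the graph side are row means on the table side. -/
lemma avg_eq_rowMean (hw : Function.Injective w) {G₀ G : Finset (Edge n)}
    (hG₀ : G₀ ∈ realizations d) (hG : G ∈ realizations d) (h : TripleRel w G₀ G) (i : Fin 3)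
    (f : Finset (Edge n) → ℝ) :
    avg (realizations d) (PairRel (w (i + 1)) (w (i + 2))) f G =
      rowMean (colS (tbl w G₀)) (fun l => (tbl w G₀ l).card) i (fun T => f (gr w G₀ T))
        (tbl w G) := by
  unfold avg rowMean
  rw [← image_cls hw hG₀ hG h i, sum_image (tbl_injOn_cls hw i),
    card_image_of_injOn (tbl_injOn_cls hw i)]
  congr 1
  apply sum_congr rfl
  intro G' hG'
  obtain ⟨hG'm, hp⟩ := mem_cls.1 hG'
  have h'' : TripleRel w G₀ G' :=
    (tripleRel_isEquivOn w (realizations d)).trans _ hG₀ _ hG _ hG'm h (tripleRel_of_pairRel hw hp)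
  rw [gr_tbl hw hG₀ hG'm h'']

/-- The statement on tables: cross terms have nonnegative sum. -/
def TableCross : Prop :=
  ∀ (s : Option (Fin n) → ℕ) (r : Fin 3 → ℕ) (F : (Fin 3 → Finset (Option (Fin n))) → ℝ),
    0 ≤ ∑ t ∈ tables s r, ∑ i, ∑ j, if i = j then 0 else
      (F t - rowMean s r i F t) * (F t - rowMean s r j F t)

/-- **Part Z for a triple.** -/
theorem triple_nonneg (hT : TableCross (n := n)) (hw : Function.Injective w) (d : Fin n → ℕ)
    (f : Finset (Edge n) → ℝ) :
    0 ≤ ∑ G ∈ realizations d, ∑ i, ∑ j, if i = j then 0 else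
      resid (realizations d) (PairRel (w (i + 1)) (w (i + 2))) f G *
        resid (realizations d) (PairRel (w (j + 1)) (w (j + 2))) f G := by
  set φ : Finset (Edge n) → ℝ := fun G => ∑ i, ∑ j, if i = j then 0 else
      resid (realizations d) (PairRel (w (i + 1)) (w (i + 2))) f G *
        resid (realizations d) (PairRel (w (j + 1)) (w (j + 2))) f G with hφ
  have heq := tripleRel_isEquivOn (w := w) (realizations d)
  rw [← heq.sum_eq_sum_avg φ]
  apply sum_nonneg
  intro G₀ hG₀
  unfold avg
  apply div_nonneg _ (Nat.cast_nonneg _)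
  -- transport to tables
  set s := colS (tbl w G₀) with hs
  set r : Fin 3 → ℕ := fun l => (tbl w G₀ l).card with hr
  set F : (Fin 3 → Finset (Option (Fin n))) → ℝ := fun T => f (gr w G₀ T) with hF
  have key : ∑ G ∈ cls (realizations d) (TripleRel w) G₀, φ G =
      ∑ t ∈ tables s r, ∑ i, ∑ j, if i = j then 0 else
        (F t - rowMean s r i F t) * (F t - rowMean s r j F t) := by
    refine sum_bij (fun G _ => tbl w G) ?_ ?_ ?_ ?_
    · intro G hG
      obtain ⟨hGm, hgr⟩ := mem_cls.1 hG
      exact mem_tables.2 (tbl_isTable hw hG₀ hGm hgr)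
    · intro G1 h1 G2 h2 ht
      obtain ⟨hm1, h1r⟩ := mem_cls.1 h1
      obtain ⟨hm2, h2r⟩ := mem_cls.1 h2
      refine eq_of_tbl_eq hw ?_ ht
      exact heq.trans _ hm1 _ hG₀ _ hm2 (heq.symm _ hG₀ _ hm1 h1r) h2r
    · intro T hT'
      have hT2 := mem_tables.1 hT'
      have hc : ∀ c, colS T c = colS (tbl w G₀) c := hT2.2
      have hr' : ∀ l, (T l).card = (tbl w G₀ l).card := hT2.1
      exact ⟨gr w G₀ T, mem_cls.2 ⟨gr_mem hw hG₀ hc hr', tripleRel_gr hw hc⟩, tbl_gr hw hc⟩
    · intro G hG
      obtain ⟨hGm, hgr⟩ := mem_cls.1 hG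
      have e0 : F (tbl w G) = f G := by
        simp only [hF]; rw [gr_tbl hw hG₀ hGm hgr]
      have e1 : ∀ i, resid (realizations d) (PairRel (w (i + 1)) (w (i + 2))) f G =
          F (tbl w G) - rowMean s r i F (tbl w G) := by
        intro i
        rw [e0]
        unfold resid
        rw [avg_eq_rowMean hw hG₀ hGm hgr i f]
      simp only [hφ, e1]
  rw [key]
  exact hT s r F

/-- `PairRel` is insensitive to the order of the pair, so are averages and residuals. -/
lemma resid_comm (Ω : Finset (Finset (Edge n))) (a b : Fin n) (f : Finset (Edge n) → ℝ)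
    (G : Finset (Edge n)) : resid Ω (PairRel a b) f G = resid Ω (PairRel b a) f G := by
  have h : PairRel a b = PairRel b a := by
    funext G1 G2
    exact propext pairRel_comm
  rw [h]

/-- **Part Z** in the form of the final glue (helper61, #1374). -/
theorem partZ_triple (hT : TableCross (n := n)) (d : Fin n → ℕ) (f : Finset (Edge n) → ℝ)
    {a b c : Fin n} (hab : a ≠ b) (hac : a ≠ c) (hbc : b ≠ c) :
    0 ≤ ∑ G ∈ realizations d,
      (resid (realizations d) (PairRel a b) f G * resid (realizations d) (PairRel a c) f G +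
        resid (realizations d) (PairRel a b) f G * resid (realizations d) (PairRel b c) f G +
        resid (realizations d) (PairRel a c) f G * resid (realizations d) (PairRel b c) f G) := by
  have hw : Function.Injective ![a, b, c] := by
    intro i j hij
    fin_cases i <;> fin_cases j <;> simp_all [Ne.symm]
  have h := triple_nonneg hT hw d f
  have e : ∀ G, (∑ i : Fin 3, ∑ j : Fin 3, if i = j then (0 : ℝ) else
      resid (realizations d) (PairRel (![a, b, c] (i + 1)) (![a, b, c] (i + 2))) f G *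
        resid (realizations d) (PairRel (![a, b, c] (j + 1)) (![a, b, c] (j + 2))) f G) =
      2 * (resid (realizations d) (PairRel a b) f G * resid (realizations d) (PairRel a c) f G +
        resid (realizations d) (PairRel a b) f G * resid (realizations d) (PairRel b c) f G +
        resid (realizations d) (PairRel a c) f G * resid (realizations d) (PairRel b c) f G) := by
    intro G
    simp only [Fin.sum_univ_three]
    have e0 : ![a, b, c] ((0 : Fin 3) + 1) = b := rfl
    have e1 : ![a, b, c] ((0 : Fin 3) + 2) = c := rfl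
    have e2 : ![a, b, c] ((1 : Fin 3) + 1) = c := rfl
    have e3 : ![a, b, c] ((1 : Fin 3) + 2) = a := rfl
    have e4 : ![a, b, c] ((2 : Fin 3) + 1) = a := rfl
    have e5 : ![a, b, c] ((2 : Fin 3) + 2) = b := rfl
    rw [e0, e1, e2, e3, e4, e5, resid_comm (realizations d) c a f G]
    simp
    ring
  simp only [e] at h
  rw [← mul_sum] at h
  linarith

end Crest.Agent.Lib.Switch.Triple
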