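import Crest.Agent.Lib.Switch.Final
import Crest.Agent.Lib.Switch.XDefs

/-!
# S0453, Part X, Piece C: the total sum.

From the per-quadruple inequality (Piece A) and the per-pair Johnson inequality (Piece B),
deduce the hypothesis `hX` of `Final.result_of_parts`.
-/

set_option autoImplicit false

namespace Crest.Agent.Lib.Switch.XSum

open Finset Crest.SwitchChain
open Crest.Agent.Lib.Switch.Final Crest.Agent.Lib.Switch.XDefs

variable {n : ℕ}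

/-- The quadruple-sum with the distinctness restriction. -/
noncomputable def QSum (F : Fin n → Fin n → Fin n → Fin n → ℝ) : ℝ :=
  ∑ a, ∑ b, ∑ c, ∑ e,
    (if a ≠ b ∧ a ≠ c ∧ a ≠ e ∧ b ≠ c ∧ b ≠ e ∧ c ≠ e then F a b c e else 0)

lemma QSum_swap (F : Fin n → Fin n → Fin n → Fin n → ℝ) :
    QSum (fun a b c e => F c e a b) = QSum F := by
  classical
  unfold QSum
  -- rotate the sums: (a,b,c,e) ↦ (c,e,a,b)
  have h1 : ∀ a b : Fin n, ∑ c, ∑ e,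
      (if a ≠ b ∧ a ≠ c ∧ a ≠ e ∧ b ≠ c ∧ b ≠ e ∧ c ≠ e then F c e a b else 0)
      = ∑ c, ∑ e, (if c ≠ e ∧ c ≠ a ∧ c ≠ b ∧ e ≠ a ∧ e ≠ b ∧ a ≠ b then F c e a b else 0) := by
    intro a b
    refine Finset.sum_congr rfl fun c _ => Finset.sum_congr rfl fun e _ => ?_
    have : (a ≠ b ∧ a ≠ c ∧ a ≠ e ∧ b ≠ c ∧ b ≠ e ∧ c ≠ e) ↔
        (c ≠ e ∧ c ≠ a ∧ c ≠ b ∧ e ≠ a ∧ e ≠ b ∧ a ≠ b) := by
      constructor
      · rintro ⟨h1, h2, h3, h4, h5, h6⟩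
        exact ⟨h6, h2.symm, h4.symm, h3.symm, h5.symm, h1⟩
      · rintro ⟨h1, h2, h3, h4, h5, h6⟩
        exact ⟨h6, h2.symm, h4.symm, h3.symm, h5.symm, h1⟩
    simp only [this]
  simp only [h1]
  calc ∑ a : Fin n, ∑ b : Fin n, ∑ c : Fin n, ∑ e : Fin n,
        (if c ≠ e ∧ c ≠ a ∧ c ≠ b ∧ e ≠ a ∧ e ≠ b ∧ a ≠ b then F c e a b else 0)
      = ∑ a : Fin n, ∑ c : Fin n, ∑ b : Fin n, ∑ e : Fin n,
        (if c ≠ e ∧ c ≠ a ∧ c ≠ b ∧ e ≠ a ∧ e ≠ b ∧ a ≠ b then F c e a b else 0) := by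
          refine Finset.sum_congr rfl fun a _ => ?_
          exact Finset.sum_comm
    _ = ∑ c : Fin n, ∑ a : Fin n, ∑ b : Fin n, ∑ e : Fin n,
        (if c ≠ e ∧ c ≠ a ∧ c ≠ b ∧ e ≠ a ∧ e ≠ b ∧ a ≠ b then F c e a b else 0) :=
          Finset.sum_comm
    _ = ∑ c : Fin n, ∑ a : Fin n, ∑ e : Fin n, ∑ b : Fin n,
        (if c ≠ e ∧ c ≠ a ∧ c ≠ b ∧ e ≠ a ∧ e ≠ b ∧ a ≠ b then F c e a b else 0) := by
          refine Finset.sum_congr rfl fun c _ => Finset.sum_congr rfl fun a _ => ?_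
          exact Finset.sum_comm
    _ = ∑ c : Fin n, ∑ e : Fin n, ∑ a : Fin n, ∑ b : Fin n,
        (if c ≠ e ∧ c ≠ a ∧ c ≠ b ∧ e ≠ a ∧ e ≠ b ∧ a ≠ b then F c e a b else 0) := by
          refine Finset.sum_congr rfl fun c _ => ?_
          exact Finset.sum_comm

lemma QSum_le {F G : Fin n → Fin n → Fin n → Fin n → ℝ}
    (h : ∀ a b c e : Fin n, a ≠ b → a ≠ c → a ≠ e → b ≠ c → b ≠ e → c ≠ e → F a b c e ≤ G a b c e) :
    QSum F ≤ QSum G := by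
  unfold QSum
  refine Finset.sum_le_sum fun a _ => Finset.sum_le_sum fun b _ =>
    Finset.sum_le_sum fun c _ => Finset.sum_le_sum fun e _ => ?_
  split_ifs with hh
  · rcases hh with ⟨h1, h2, h3, h4, h5, h6⟩
    exact h a b c e h1 h2 h3 h4 h5 h6
  · exact le_rfl

lemma QSum_sub (F G : Fin n → Fin n → Fin n → Fin n → ℝ) :
    QSum (fun a b c e => F a b c e - G a b c e) = QSum F - QSum G := by
  unfold QSum
  simp only [← Finset.sum_sub_distrib]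
  refine Finset.sum_congr rfl fun a _ => Finset.sum_congr rfl fun b _ =>
    Finset.sum_congr rfl fun c _ => Finset.sum_congr rfl fun e _ => ?_
  split_ifs <;> simp

lemma QSum_const_mul (k : ℝ) (F : Fin n → Fin n → Fin n → Fin n → ℝ) :
    QSum (fun a b c e => k * F a b c e) = k * QSum F := by
  unfold QSum
  simp only [Finset.mul_sum]
  refine Finset.sum_congr rfl fun a _ => Finset.sum_congr rfl fun b _ =>
    Finset.sum_congr rfl fun c _ => Finset.sum_congr rfl fun e _ => ?_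
  split_ifs <;> simp

/-- Piece B form: per-pair Johnson sum implies the total sum inequality. -/
lemma QSum_of_pair {F G : Fin n → Fin n → Fin n → Fin n → ℝ}
    (h : ∀ a b : Fin n, a ≠ b →
      (∑ c, ∑ e, if c ≠ e ∧ c ≠ a ∧ c ≠ b ∧ e ≠ a ∧ e ≠ b then F a b c e else 0)
        ≤ ∑ c, ∑ e, if c ≠ e ∧ c ≠ a ∧ c ≠ b ∧ e ≠ a ∧ e ≠ b then G a b c e else 0) :
    QSum F ≤ QSum G := by
  classical
  unfold QSum
  refine Finset.sum_le_sum fun a _ => Finset.sum_le_sum fun b _ => ?_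
  by_cases hab : a = b
  · subst hab
    simp
  · have e1 : ∀ H : Fin n → Fin n → Fin n → Fin n → ℝ,
        (∑ c, ∑ e, if a ≠ b ∧ a ≠ c ∧ a ≠ e ∧ b ≠ c ∧ b ≠ e ∧ c ≠ e then H a b c e else 0)
          = ∑ c, ∑ e, if c ≠ e ∧ c ≠ a ∧ c ≠ b ∧ e ≠ a ∧ e ≠ b then H a b c e else 0 := by
      intro H
      refine Finset.sum_congr rfl fun c _ => Finset.sum_congr rfl fun e _ => ?_
      have : (a ≠ b ∧ a ≠ c ∧ a ≠ e ∧ b ≠ c ∧ b ≠ e ∧ c ≠ e) ↔
          (c ≠ e ∧ c ≠ a ∧ c ≠ b ∧ e ≠ a ∧ e ≠ b) := by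
        constructor
        · rintro ⟨-, h2, h3, h4, h5, h6⟩
          exact ⟨h6, h2.symm, h4.symm, h3.symm, h5.symm⟩
        · rintro ⟨h1, h2, h3, h4, h5⟩
          exact ⟨hab, h2.symm, h4.symm, h3.symm, h5.symm, h1⟩
      simp only [this]
    rw [e1 F, e1 G]
    exact h a b hab

/-- **Piece C.** Part X from Piece A and Piece B. -/
theorem hX_of_pieces (d : Fin n → ℕ) (f : Finset (Edge n) → ℝ)
    (hA : ∀ a b c e : Fin n, a ≠ b → a ≠ c → a ≠ e → b ≠ c → b ≠ e → c ≠ e →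
      DD d f a b c e - Mpi d f a b c e - Mpi d f c e a b ≤ 2 * W d f a b c e)
    (hB : ∀ a b : Fin n, a ≠ b →
      (∑ c, ∑ e, if c ≠ e ∧ c ≠ a ∧ c ≠ b ∧ e ≠ a ∧ e ≠ b then Mpi d f a b c e else 0)
        ≤ (1 / 2 : ℝ) * ∑ c, ∑ e, if c ≠ e ∧ c ≠ a ∧ c ≠ b ∧ e ≠ a ∧ e ≠ b then DD d f a b c e else 0) :
    0 ≤ ∑ a, ∑ b, ∑ c, ∑ e,
      (if a ≠ b ∧ a ≠ c ∧ a ≠ e ∧ b ≠ c ∧ b ≠ e ∧ c ≠ e then W d f a b c e else 0) := by
  change 0 ≤ QSum (W d f)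
  have h1 : QSum (fun a b c e => DD d f a b c e - Mpi d f a b c e - Mpi d f c e a b)
      ≤ QSum (fun a b c e => 2 * W d f a b c e) := QSum_le hA
  have h2 := QSum_const_mul (n := n) 2 (W d f)
  have h3 := QSum_sub (n := n) (fun a b c e => DD d f a b c e - Mpi d f a b c e)
    (fun a b c e => Mpi d f c e a b)
  have h4 := QSum_sub (n := n) (DD d f) (Mpi d f)
  have h5 := QSum_swap (n := n) (Mpi d f)
  have h6 : QSum (Mpi d f) ≤ QSum (fun a b c e => (1 / 2 : ℝ) * DD d f a b c e) := by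
    refine QSum_of_pair fun a b hab => ?_
    refine (hB a b hab).trans (le_of_eq ?_)
    simp only [Finset.mul_sum]
    refine Finset.sum_congr rfl fun c _ => Finset.sum_congr rfl fun e _ => ?_
    split_ifs <;> simp
  have h7 := QSum_const_mul (n := n) (1 / 2 : ℝ) (DD d f)
  rw [h2, h3, h4, h5] at h1
  rw [h7] at h6
  linarith only [h1, h6]

end Crest.Agent.Lib.Switch.XSum
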